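import Vale.Agent.P333.T.Prog23

/-!
P333, box 2/3: the meaning of the checks of `Prog23.lean`.
-/

namespace Vale.Agent.P333.T

theorem mem_cls {S : List ((ℕ × ℕ) × ℕ)} {t : ℕ} {e : ℕ × ℕ} : e ∈ cls S t ↔ (e, t) ∈ S := by
  unfold cls
  rw [List.mem_map]
  constructor
  · rintro ⟨a, ha, rfl⟩
    obtain ⟨h1, h2⟩ := List.mem_filter.1 ha
    have h3 : a.2 = t := by simpa using h2
    rw [← h3]
    exact h1
  · intro h
    exact ⟨(e, t), List.mem_filter.2 ⟨h, by simp⟩, rfl⟩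

@[simp] theorem cls_nil (t : ℕ) : cls [] t = [] := rfl

@[simp] theorem cls_append (S S' : List ((ℕ × ℕ) × ℕ)) (t : ℕ) :
    cls (S ++ S') t = cls S t ++ cls S' t := by
  simp [cls]

theorem cls_cons (a : (ℕ × ℕ) × ℕ) (S : List ((ℕ × ℕ) × ℕ)) (t : ℕ) :
    cls (a :: S) t = if a.2 = t then a.1 :: cls S t else cls S t := by
  unfold cls
  by_cases h : a.2 = t
  · simp [h]
  · simp [h]

theorem cls_perm {S S' : List ((ℕ × ℕ) × ℕ)} (h : S.Perm S') (t : ℕ) :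
    (cls S t).Perm (cls S' t) := (h.filter _).map _

/-- the condition at the thin nodes -/
def Thin (m : ℕ → ℕ) (S : List ((ℕ × ℕ) × ℕ)) : Prop :=
  ∀ a ∈ S, ∀ b ∈ S, a.2 = b.2 → b.1.1 ≠ m a.1.2

theorem thinB_iff {m : ℕ → ℕ} {S : List ((ℕ × ℕ) × ℕ)} : thinB m S = true ↔ Thin m S := by
  unfold thinB Thin
  rw [List.all_eq_true]
  constructor
  · intro h a ha b hb hab
    have h1 := h a ha
    rw [List.all_eq_true] at h1
    have h2 := h1 b hb
    intro h3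
    simp [hab, h3] at h2
  · intro h a ha
    rw [List.all_eq_true]
    intro b hb
    by_cases h1 : a.2 = b.2
    · have := h a ha b hb h1
      simp [h1, this]
    · simp [h1]

theorem good_iff {m : ℕ → ℕ} {S : List ((ℕ × ℕ) × ℕ)} :
    good m S = true ↔ (lfb (cls S 0) = true ∧ lfb (cls S 1) = true ∧ lfb (cls S 2) = true) ∧
      Thin m S := by
  unfold good
  rw [Bool.and_eq_true, Bool.and_eq_true, Bool.and_eq_true, thinB_iff]
  tauto

theorem Thin.nil (m : ℕ → ℕ) : Thin m [] := by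
  intro a ha
  simp at ha

theorem Thin.perm {m : ℕ → ℕ} {S S' : List ((ℕ × ℕ) × ℕ)} (h : S.Perm S') (hS : Thin m S) :
    Thin m S' := fun a ha b hb => hS a (h.mem_iff.2 ha) b (h.mem_iff.2 hb)

theorem Thin.subset {m : ℕ → ℕ} {S S' : List ((ℕ × ℕ) × ℕ)} (h : S' ⊆ S) (hS : Thin m S) :
    Thin m S' := fun a ha b hb => hS a (h ha) b (h hb)

/-- adding arcs -/
theorem thin_append {m : ℕ → ℕ} {S S' : List ((ℕ × ℕ) × ℕ)} :
    Thin m (S ++ S') ↔ Thin m S ∧ Thin m S' ∧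
      (∀ a ∈ S, ∀ b ∈ S', a.2 = b.2 → b.1.1 ≠ m a.1.2) ∧
      ∀ a ∈ S', ∀ b ∈ S, a.2 = b.2 → b.1.1 ≠ m a.1.2 := by
  constructor
  · intro h
    refine ⟨fun a ha b hb => h a (List.mem_append_left _ ha) b (List.mem_append_left _ hb),
      fun a ha b hb => h a (List.mem_append_right _ ha) b (List.mem_append_right _ hb),
      fun a ha b hb => h a (List.mem_append_left _ ha) b (List.mem_append_right _ hb),
      fun a ha b hb => h a (List.mem_append_right _ ha) b (List.mem_append_left _ hb)⟩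
  · rintro ⟨h1, h2, h3, h4⟩ a ha b hb
    rcases List.mem_append.1 ha with ha | ha
    · rcases List.mem_append.1 hb with hb | hb
      · exact h1 a ha b hb
      · exact h3 a ha b hb
    · rcases List.mem_append.1 hb with hb | hb
      · exact h4 a ha b hb
      · exact h2 a ha b hb

/-- the arcs to be coloured: what membership means -/
theorem mem_arcs {n : ℕ} {p1 p2 : List ℕ} {e : ℕ × ℕ} :
    e ∈ arcs n p1 p2 ↔
      (e.1 < n ∧ isLong p1 e.1 = true ∧ e.2 = M.nx p1 e.1) ∨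
      (e.1 < n ∧ M.nx p2 e.1 < n ∧ near p1 e.1 (M.nx p2 e.1) = false ∧ e.2 = M.nx p2 e.1) ∨
      (e.1 < n ∧ isN n p1 p2 e.1 = true ∧ e.2 = M.nx p1 e.1) := by
  obtain ⟨x, y⟩ := e
  unfold arcs arcs1 arcs2 arcsN
  simp only [List.mem_append, List.mem_map, List.mem_filter, List.mem_range, Prod.mk.injEq,
    Bool.and_eq_true, Bool.not_eq_true', Nat.blt_eq]
  constructor
  · rintro (⟨a, ⟨h1, h2⟩, rfl, rfl⟩ | ⟨a, ⟨h1, h2, h3⟩, rfl, rfl⟩ | ⟨a, ⟨h1, h2⟩, rfl, rfl⟩)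
    · exact Or.inl ⟨h1, h2, rfl⟩
    · exact Or.inr (Or.inl ⟨h1, h2, h3, rfl⟩)
    · exact Or.inr (Or.inr ⟨h1, h2, rfl⟩)
  · rintro (⟨h1, h2, h3⟩ | ⟨h1, h2, h3, h4⟩ | ⟨h1, h2, h3⟩)
    · exact Or.inl ⟨x, ⟨h1, h2⟩, rfl, h3.symm⟩
    · exact Or.inr (Or.inl ⟨x, ⟨h1, h2, h3⟩, rfl, h4.symm⟩)
    · exact Or.inr (Or.inr ⟨x, ⟨h1, h2⟩, rfl, h3.symm⟩)

end Vale.Agent.P333.T
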