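import Vale.Agent.P333.T.HubOf

/-!
P333, box 2/3: every arc has at most one partner in conflict at each end.
-/

namespace Vale.Agent.P333.T

open Vale.Agent.P333.M (nx)

namespace Deg

variable {n : ℕ} {p1 p2 : List ℕ}

theorem inj {N : ℕ} {p : List ℕ} (h : p.Perm (List.range N)) {x y : ℕ} (hx : x < N) (hy : y < N)
    (hxy : nx p x = nx p y) : x = y := by
  have hl : p.length = N := by simpa using h.length_eq
  unfold nx at hxy
  rw [List.getD_eq_getElem _ _ (by rw [hl]; exact hx),
    List.getD_eq_getElem _ _ (by rw [hl]; exact hy)] at hxy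
  exact (List.Nodup.getElem_inj_iff (h.nodup_iff.2 List.nodup_range)).1 hxy

theorem lt {N : ℕ} {p : List ℕ} (h : p.Perm (List.range N)) {x : ℕ} (hx : x < N) :
    nx p x < N := by
  have hl : p.length = N := by simpa using h.length_eq
  unfold nx
  rw [List.getD_eq_getElem _ _ (by rw [hl]; exact hx)]
  exact List.mem_range.1 (h.mem_iff.1 (List.getElem_mem _))

theorem pair_iff {p : List ℕ} {x : ℕ} :
    isPair p x = true ↔ nx p x ≠ x ∧ nx p (nx p x) = x := by
  unfold isPair; simp

theorem long_iff {p : List ℕ} {x : ℕ} :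
    isLong p x = true ↔ nx p x ≠ x ∧ nx p (nx p x) ≠ x := by
  unfold isLong; simp

theorem near_iff {p : List ℕ} {x y : ℕ} :
    near p x y = true ↔ y = x ∨ (isPair p x = true ∧ y = nx p x) := by
  unfold near; simp

theorem N_iff {x : ℕ} :
    isN n p1 p2 x = true ↔ isPair p1 x = true ∧ nx p2 (hub n p1 x) = hub n p1 x := by
  unfold isN; simp

theorem E_iff {x : ℕ} :
    isE n p1 p2 x = true ↔ isPair p1 x = true ∧ nx p2 x = hub n p1 x ∧
      nx p2 (hub n p1 x) = nx p1 x := by
  unfold isE; simp [and_assoc]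

theorem U_iff {x : ℕ} :
    isU n p1 p2 x = true ↔ isPair p1 x = true ∧ nx p2 x = hub n p1 x ∧
      nx p2 (hub n p1 x) = x := by
  unfold isU; simp [and_assoc]

theorem hub_ge (x : ℕ) : n ≤ hub n p1 x := by unfold hub; omega

theorem pair_nx {x : ℕ} (h : isPair p1 x = true) : isPair p1 (nx p1 x) = true := by
  rw [pair_iff] at h ⊢
  rw [h.2]
  exact ⟨h.1.symm, rfl⟩

theorem hub_nx {x : ℕ} (h : isPair p1 x = true) : hub n p1 (nx p1 x) = hub n p1 x := by
  rw [pair_iff] at h
  unfold hub
  rw [h.2, min_comm]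

/-- the five possibilities for `mate` -/
theorem mate_cases (y : ℕ) :
    (nx p1 y = y ∧ mate n p1 p2 y = y) ∨
    (isPair p1 y = true ∧ isE n p1 p2 y = true ∧ mate n p1 p2 y = nx p1 y) ∨
    (isPair p1 y = true ∧ isU n p1 p2 (nx p1 y) = true ∧ mate n p1 p2 y = y) ∨
    (isLong p1 y = true ∧ nx p2 y = y ∧ mate n p1 p2 y = y) ∨
    mate n p1 p2 y = n + n := by
  unfold mate
  by_cases h1 : nx p1 y = y
  · left; exact ⟨h1, by rw [if_pos h1]⟩
  rw [if_neg h1]
  by_cases h2 : isPair p1 y = true
  · rw [if_pos h2]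
    by_cases h3 : isE n p1 p2 y = true
    · rw [if_pos h3]; exact Or.inr (Or.inl ⟨h2, h3, rfl⟩)
    · rw [if_neg h3]
      by_cases h4 : isU n p1 p2 (nx p1 y) = true
      · rw [if_pos h4]; exact Or.inr (Or.inr (Or.inl ⟨h2, h4, rfl⟩))
      · rw [if_neg h4]; exact Or.inr (Or.inr (Or.inr (Or.inr rfl)))
  · rw [if_neg h2]
    have h5 : isLong p1 y = true := by
      rw [long_iff]
      exact ⟨h1, fun h => h2 (pair_iff.2 ⟨h1, h⟩)⟩
    by_cases h3 : nx p2 y = y
    · rw [if_pos h3]; exact Or.inr (Or.inr (Or.inr (Or.inl ⟨h5, h3, rfl⟩)))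
    · rw [if_neg h3]; exact Or.inr (Or.inr (Or.inr (Or.inr rfl)))

theorem not_E_U {x : ℕ} (h1 : isE n p1 p2 x = true) (h2 : isU n p1 p2 x = true) : False := by
  rw [E_iff] at h1
  rw [U_iff] at h2
  rw [h1.2.2] at h2
  exact (pair_iff.1 h1.1).1 h2.2.2

theorem not_E_U_nx {x : ℕ} (hx : isPair p1 x = true) (h1 : isE n p1 p2 (nx p1 x) = true)
    (h2 : isU n p1 p2 x = true) : nx p2 (nx p1 x) = hub n p1 x ∧ nx p2 x = hub n p1 x := by
  rw [E_iff, hub_nx hx] at h1
  rw [U_iff] at h2
  exact ⟨h1.2.1, h2.2.1⟩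

/-- the mate determines the node, and only one of the two families of arcs matters -/
theorem thin_pair (H : Hub n p1 p2) {y : ℕ} (hy : y < n) (ha : mate n p1 p2 y < n) :
    (∀ y' < n, mate n p1 p2 y' = mate n p1 p2 y → y' = y) ∧
    ((∀ x < n, (isLong p1 x = true ∨ isN n p1 p2 x = true) →
        x ≠ mate n p1 p2 y ∧ nx p1 x ≠ y) ∨
      (∀ x < n, nx p2 x < n → near p1 x (nx p2 x) = false →
        x ≠ mate n p1 p2 y ∧ nx p2 x ≠ y)) := by
  have hne : ∀ x < n, (isLong p1 x = true ∨ isN n p1 p2 x = true) → nx p1 x ≠ x := by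
    intro x _ h
    rcases h with h | h
    · exact (long_iff.1 h).1
    · exact (pair_iff.1 (N_iff.1 h).1).1
  have hlt : nx p1 y < n := lt H.h1 hy
  rcases mate_cases (n := n) (p1 := p1) (p2 := p2) y with h | h | h | h | h
  · obtain ⟨h1, h2⟩ := h
    rw [h2]
    refine ⟨?_, Or.inl ?_⟩
    · intro y' hy' h
      rcases mate_cases (n := n) (p1 := p1) (p2 := p2) y' with g | g | g | g | g
      · rw [g.2] at h; exact h
      · rw [g.2.2] at h
        exact inj H.h1 hy' hy (h.trans h1.symm)
      · rw [g.2.2] at h; exact h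
      · rw [g.2.2] at h; exact h
      · omega
    · intro x hx h
      refine ⟨?_, ?_⟩
      · rintro rfl
        exact hne _ hx h h1
      · intro h3
        have h4 : x = y := inj H.h1 hx hy (h3.trans h1.symm)
        subst h4
        exact hne _ hx h h1
  · obtain ⟨h0, h1, h2⟩ := h
    rw [h2]
    have hp := pair_iff.1 h0
    have hE := E_iff.1 h1
    refine ⟨?_, Or.inl ?_⟩
    · intro y' hy' h
      rcases mate_cases (n := n) (p1 := p1) (p2 := p2) y' with g | g | g | g | g
      · rw [g.2] at h
        exfalso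
        have h3 := g.1
        rw [h, hp.2] at h3
        exact hp.1 h3.symm
      · rw [g.2.2] at h
        exact inj H.h1 hy' hy h
      · rw [g.2.2] at h
        exfalso
        have h3 := g.2.1
        rw [h, hp.2] at h3
        exact not_E_U h1 h3
      · rw [g.2.2] at h
        exfalso
        have h3 := (long_iff.1 g.1).2
        rw [h, hp.2] at h3
        exact h3 rfl
      · omega
    · have hno : ∀ x, x = nx p1 y → ¬ (isLong p1 x = true ∨ isN n p1 p2 x = true) := by
        rintro x rfl h
        rcases h with h | h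
        · exact (long_iff.1 h).2 (by rw [hp.2])
        · have h3 := (N_iff.1 h).2
          rw [hub_nx h0, hE.2.2] at h3
          have h4 := hub_ge (n := n) (p1 := p1) y
          omega
      intro x hx h
      refine ⟨fun h3 => hno x h3 h, fun h3 => ?_⟩
      have h4 : x = nx p1 y := inj H.h1 hx hlt (h3.trans hp.2.symm)
      exact hno x h4 h
  · obtain ⟨h0, h1, h2⟩ := h
    rw [h2]
    have hp := pair_iff.1 h0
    have hU := U_iff.1 h1
    rw [hub_nx h0] at hU
    refine ⟨?_, Or.inl ?_⟩
    · intro y' hy' h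
      rcases mate_cases (n := n) (p1 := p1) (p2 := p2) y' with g | g | g | g | g
      · rw [g.2] at h; exact h
      · rw [g.2.2] at h
        exfalso
        have h4 : y' = nx p1 y := inj H.h1 hy' hlt (h.trans hp.2.symm)
        rw [h4] at g
        exact not_E_U g.2.1 h1
      · rw [g.2.2] at h; exact h
      · rw [g.2.2] at h; exact h
      · omega
    · have hno : ∀ x, isPair p1 x = true → hub n p1 x = hub n p1 y →
          ¬ (isLong p1 x = true ∨ isN n p1 p2 x = true) := by
        rintro x hx hh h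
        rcases h with h | h
        · exact (long_iff.1 h).2 (pair_iff.1 hx).2
        · have h3 := (N_iff.1 h).2
          rw [hh, hU.2.2] at h3
          have h4 := hub_ge (n := n) (p1 := p1) y
          omega
      intro x hx h
      refine ⟨fun h3 => hno x (h3 ▸ h0) (by rw [h3]) h, fun h3 => ?_⟩
      have h4 : x = nx p1 y := inj H.h1 hx hlt (h3.trans hp.2.symm)
      exact hno x (h4 ▸ pair_nx h0) (by rw [h4, hub_nx h0]) h
  · obtain ⟨h0, h1, h2⟩ := h
    rw [h2]
    have hL := long_iff.1 h0
    refine ⟨?_, Or.inr ?_⟩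
    · intro y' hy' h
      rcases mate_cases (n := n) (p1 := p1) (p2 := p2) y' with g | g | g | g | g
      · rw [g.2] at h; exact h
      · rw [g.2.2] at h
        exfalso
        have h4 := pair_iff.1 (pair_nx g.1)
        rw [h] at h4
        exact hL.2 h4.2
      · rw [g.2.2] at h; exact h
      · rw [g.2.2] at h; exact h
      · omega
    · intro x hx h3 h
      have h4 : nx p2 x ≠ x := by
        intro h5
        have : near p1 x (nx p2 x) = true := near_iff.2 (Or.inl h5)
        rw [this] at h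
        cases h
      refine ⟨fun h5 => h4 (h5 ▸ h1), fun h5 => ?_⟩
      have h6 : x = y := inj H.h2 (by omega) (by omega) (h5.trans h1.symm)
      exact h4 (h6 ▸ h1)
  · omega

/-- the length of a filtered family of arcs -/
theorem len_fam (n : ℕ) (q : ℕ → Bool) (s : ℕ → ℕ) (P : ℕ × ℕ → Bool) :
    ((((List.range n).filter q).map (fun x => (x, s x))).filter P).length =
      ((Finset.range n).filter (fun x => q x = true ∧ P (x, s x) = true)).card := by
  rw [List.filter_map, List.length_map, List.filter_filter]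
  have h : ∀ (r : ℕ → Bool), ((List.range n).filter r).length =
      ((Finset.range n).filter (fun x => r x = true)).card := by
    intro r
    show _ = Multiset.card (Multiset.filter (fun x => r x = true) (Multiset.range n))
    rw [Multiset.range, Multiset.filter_coe, Multiset.coe_card]
    congr 1
    apply List.filter_congr
    intro x _
    simp
  rw [h]
  congr 1
  apply Finset.filter_congr
  intro x _
  simp [and_comm]

/-- the nodes whose first arc is coloured -/
def Q1 (n : ℕ) (p1 p2 : List ℕ) (x : ℕ) : Prop := isLong p1 x = true ∨ isN n p1 p2 x = true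

/-- the nodes whose second arc is coloured -/
def Q2 (n : ℕ) (p1 p2 : List ℕ) (x : ℕ) : Prop := nx p2 x < n ∧ near p1 x (nx p2 x) = false

instance (x : ℕ) : Decidable (Q1 n p1 p2 x) := inferInstanceAs (Decidable (_ ∨ _))
instance (x : ℕ) : Decidable (Q2 n p1 p2 x) := inferInstanceAs (Decidable (_ ∧ _))

theorem len_arcs (P : ℕ × ℕ → Bool) :
    ((arcs n p1 p2).filter P).length =
      ((Finset.range n).filter (fun x => Q1 n p1 p2 x ∧ P (x, nx p1 x) = true)).card +
      ((Finset.range n).filter (fun x => Q2 n p1 p2 x ∧ P (x, nx p2 x) = true)).card := by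
  unfold arcs arcs1 arcs2 arcsN
  rw [List.filter_append, List.filter_append, List.length_append, List.length_append, len_fam,
    len_fam, len_fam]
  have h1 : ((Finset.range n).filter (fun x => Q1 n p1 p2 x ∧ P (x, nx p1 x) = true)).card =
      ((Finset.range n).filter (fun x => isLong p1 x = true ∧ P (x, nx p1 x) = true)).card +
      ((Finset.range n).filter (fun x => isN n p1 p2 x = true ∧ P (x, nx p1 x) = true)).card := by
    rw [← Finset.card_union_of_disjoint]
    · congr 1
      ext x
      simp only [Finset.mem_union, Finset.mem_filter]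
      unfold Q1
      tauto
    · rw [Finset.disjoint_left]
      intro x hx hx'
      simp only [Finset.mem_filter] at hx hx'
      exact (long_iff.1 hx.2.1).2 (pair_iff.1 (N_iff.1 hx'.2.1).1).2
  have h2 : ((Finset.range n).filter (fun x => Q2 n p1 p2 x ∧ P (x, nx p2 x) = true)).card =
      ((Finset.range n).filter (fun x => (Nat.blt (nx p2 x) n && !(near p1 x (nx p2 x))) = true ∧
        P (x, nx p2 x) = true)).card := by
    congr 1
    apply Finset.filter_congr
    intro x _
    simp [Q2, Nat.blt_eq]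
  rw [h1, h2]
  omega

theorem card_two {s : Finset ℕ} {a : ℕ} {f : ℕ → ℕ} {b : ℕ}
    (hinj : ∀ x ∈ s, ∀ y ∈ s, f x = f y → x = y) (h : ∀ x ∈ s, x = a ∨ f x = b) : s.card ≤ 2 := by
  have h1 : s ⊆ insert a (s.filter (fun x => f x = b)) := by
    intro x hx
    rcases h x hx with h | h
    · rw [h]; exact Finset.mem_insert_self _ _
    · exact Finset.mem_insert_of_mem (Finset.mem_filter.2 ⟨hx, h⟩)
  have h2 : (s.filter (fun x => f x = b)).card ≤ 1 := by
    rw [Finset.card_le_one]
    intro x hx y hy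
    rw [Finset.mem_filter] at hx hy
    exact hinj x hx.1 y hy.1 (hx.2.trans hy.2.symm)
  calc s.card ≤ _ := Finset.card_le_card h1
    _ ≤ (s.filter (fun x => f x = b)).card + 1 := Finset.card_insert_le _ _
    _ ≤ 2 := by omega

theorem card_tail {s : Finset ℕ} {a : ℕ} (h : ∀ x ∈ s, x = a) : s.card ≤ 1 := by
  rw [Finset.card_le_one]
  intro x hx y hy
  rw [h x hx, h y hy]

theorem card_head {s : Finset ℕ} {f : ℕ → ℕ} {b : ℕ}
    (hinj : ∀ x ∈ s, ∀ y ∈ s, f x = f y → x = y) (h : ∀ x ∈ s, f x = b) : s.card ≤ 1 := by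
  rw [Finset.card_le_one]
  intro x hx y hy
  exact hinj x hx y hy ((h x hx).trans (h y hy).symm)

/-- the arcs out of `mate y` and into `y` -/
theorem both_le (H : Hub n p1 p2) {y : ℕ} (hy : y < n) (ha : mate n p1 p2 y < n)
    (P : ℕ × ℕ → Bool) (hP : ∀ x s, s < n → P (x, s) = true → x = mate n p1 p2 y ∨ s = y) :
    ((arcs n p1 p2).filter P).length ≤ 2 := by
  rw [len_arcs]
  rcases (thin_pair H hy ha).2 with h | h
  · have h1 : ((Finset.range n).filter
        (fun x => Q1 n p1 p2 x ∧ P (x, nx p1 x) = true)).card = 0 := by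
      rw [Finset.card_eq_zero, Finset.filter_eq_empty_iff]
      rintro x hx ⟨h1, h2⟩
      have hx' := Finset.mem_range.1 hx
      rcases hP _ _ (lt H.h1 hx') h2 with h3 | h3
      · exact (h x hx' h1).1 h3
      · exact (h x hx' h1).2 h3
    rw [h1, Nat.zero_add]
    refine card_two (a := mate n p1 p2 y) (b := y) (f := nx p2) ?_ ?_
    · intro x hx x' hx' h2
      rw [Finset.mem_filter, Finset.mem_range] at hx hx'
      exact inj H.h2 (by omega) (by omega) h2
    · intro x hx
      rw [Finset.mem_filter, Finset.mem_range] at hx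
      exact hP _ _ hx.2.1.1 hx.2.2
  · have h1 : ((Finset.range n).filter
        (fun x => Q2 n p1 p2 x ∧ P (x, nx p2 x) = true)).card = 0 := by
      rw [Finset.card_eq_zero, Finset.filter_eq_empty_iff]
      rintro x hx ⟨h1, h2⟩
      have hx' := Finset.mem_range.1 hx
      rcases hP _ _ h1.1 h2 with h3 | h3
      · exact (h x hx' h1.1 h1.2).1 h3
      · exact (h x hx' h1.1 h1.2).2 h3
    rw [h1, Nat.add_zero]
    refine card_two (a := mate n p1 p2 y) (b := y) (f := nx p1) ?_ ?_
    · intro x hx x' hx' h2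
      rw [Finset.mem_filter, Finset.mem_range] at hx hx'
      exact inj H.h1 hx.1 hx'.1 h2
    · intro x hx
      rw [Finset.mem_filter, Finset.mem_range] at hx
      exact hP _ _ (lt H.h1 hx.1) hx.2.2

end Deg

open Deg

variable {n : ℕ} {p1 p2 : List ℕ}

/-- at most two arcs leave `a` or go into the node with mate `a` -/
theorem tail_deg (H : Hub n p1 p2) {a : ℕ} (ha : a < n) :
    ((arcs n p1 p2).filter (fun e => decide (e.1 = a ∨ mate n p1 p2 e.2 = a))).length ≤ 2 := by
  by_cases hy : ∃ y < n, mate n p1 p2 y = a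
  · obtain ⟨y, hy, h⟩ := hy
    subst h
    refine both_le H hy ha _ ?_
    intro x s hs h
    rcases of_decide_eq_true h with h | h
    · exact Or.inl h
    · exact Or.inr ((thin_pair H hy ha).1 s hs h)
  · rw [len_arcs]
    have key : ∀ x s, s < n → decide (x = a ∨ mate n p1 p2 s = a) = true → x = a := by
      intro x s hs h
      rcases of_decide_eq_true h with h | h
      · exact h
      · exact absurd ⟨s, hs, h⟩ hy
    have h1 := card_tail (a := a)
      (s := (Finset.range n).filter (fun x => Q1 n p1 p2 x ∧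
        decide (x = a ∨ mate n p1 p2 (nx p1 x) = a) = true)) (by
        intro x hx
        rw [Finset.mem_filter, Finset.mem_range] at hx
        exact key _ _ (lt H.h1 hx.1) hx.2.2)
    have h2 := card_tail (a := a)
      (s := (Finset.range n).filter (fun x => Q2 n p1 p2 x ∧
        decide (x = a ∨ mate n p1 p2 (nx p2 x) = a) = true)) (by
        intro x hx
        rw [Finset.mem_filter, Finset.mem_range] at hx
        exact key _ _ hx.2.1.1 hx.2.2)
    exact Nat.add_le_add h1 h2

/-- at most two arcs go into `b` or leave the mate of `b` -/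
theorem head_deg (H : Hub n p1 p2) {b : ℕ} (hb : b < n) :
    ((arcs n p1 p2).filter (fun e => decide (e.2 = b ∨ e.1 = mate n p1 p2 b))).length ≤ 2 := by
  by_cases hm : mate n p1 p2 b < n
  · refine both_le H hb hm _ ?_
    intro x s hs h
    rcases of_decide_eq_true h with h | h
    · exact Or.inr h
    · exact Or.inl h
  · rw [len_arcs]
    have key : ∀ x s, x < n → decide (s = b ∨ x = mate n p1 p2 b) = true → s = b := by
      intro x s hs h
      rcases of_decide_eq_true h with h | h
      · exact h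
      · omega
    have h1 := card_head (f := nx p1) (b := b)
      (s := (Finset.range n).filter (fun x => Q1 n p1 p2 x ∧
        decide (nx p1 x = b ∨ x = mate n p1 p2 b) = true)) (by
        intro x hx y hy hxy
        rw [Finset.mem_filter, Finset.mem_range] at hx hy
        exact inj H.h1 hx.1 hy.1 hxy) (by
        intro x hx
        rw [Finset.mem_filter, Finset.mem_range] at hx
        exact key _ _ hx.1 hx.2.2)
    have h2 := card_head (f := nx p2) (b := b)
      (s := (Finset.range n).filter (fun x => Q2 n p1 p2 x ∧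
        decide (nx p2 x = b ∨ x = mate n p1 p2 b) = true)) (by
        intro x hx y hy hxy
        rw [Finset.mem_filter, Finset.mem_range] at hx hy
        exact inj H.h2 (by omega) (by omega) hxy) (by
        intro x hx
        rw [Finset.mem_filter, Finset.mem_range] at hx
        exact key _ _ hx.1 hx.2.2)
    exact Nat.add_le_add h1 h2

theorem Deg.mem_arcs {e : ℕ × ℕ} : e ∈ arcs n p1 p2 ↔
    (e.1 < n ∧ Q1 n p1 p2 e.1 ∧ e.2 = nx p1 e.1) ∨ (e.1 < n ∧ Q2 n p1 p2 e.1 ∧ e.2 = nx p2 e.1) := by
  unfold arcs arcs1 arcs2 arcsN Q1 Q2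
  simp only [List.mem_append, List.mem_map, List.mem_filter, List.mem_range, Nat.blt_eq,
    Bool.and_eq_true, Bool.not_eq_true']
  constructor
  · rintro (⟨x, hx, rfl⟩ | ⟨x, hx, rfl⟩ | ⟨x, hx, rfl⟩)
    · exact Or.inl ⟨hx.1, Or.inl hx.2, rfl⟩
    · exact Or.inr ⟨hx.1, hx.2, rfl⟩
    · exact Or.inl ⟨hx.1, Or.inr hx.2, rfl⟩
  · obtain ⟨a, b⟩ := e
    rintro (⟨h1, h2, h3⟩ | ⟨h1, h2, h3⟩)
    · simp only at h1 h2 h3
      subst h3
      rcases h2 with h2 | h2
      · exact Or.inl ⟨a, ⟨h1, h2⟩, rfl⟩
      · exact Or.inr (Or.inr ⟨a, ⟨h1, h2⟩, rfl⟩)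
    · simp only at h1 h2 h3
      subst h3
      exact Or.inr (Or.inl ⟨a, ⟨h1, h2⟩, rfl⟩)

theorem arcs_lt (H : Hub n p1 p2) {e : ℕ × ℕ} (he : e ∈ arcs n p1 p2) :
    e.1 < n ∧ e.2 < n ∧ e.1 ≠ e.2 := by
  rcases mem_arcs.1 he with ⟨h1, h2, h3⟩ | ⟨h1, h2, h3⟩
  · refine ⟨h1, by rw [h3]; exact lt H.h1 h1, ?_⟩
    rw [h3]
    rcases h2 with h2 | h2
    · exact (long_iff.1 h2).1.symm
    · exact (pair_iff.1 (N_iff.1 h2).1).1.symm
  · refine ⟨h1, by rw [h3]; exact h2.1, ?_⟩
    rw [h3]
    intro h4
    have h5 : near p1 e.1 (nx p2 e.1) = true := near_iff.2 (Or.inl h4.symm)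
    rw [h2.2] at h5
    cases h5

theorem mate_ne (H : Hub n p1 p2) {e : ℕ × ℕ} (he : e ∈ arcs n p1 p2) :
    e.1 ≠ mate n p1 p2 e.2 := by
  obtain ⟨h1, h2, h3⟩ := arcs_lt H he
  intro h
  rcases mate_cases (n := n) (p1 := p1) (p2 := p2) e.2 with g | g | g | g | g
  · exact h3 (h.trans g.2)
  · rw [g.2.2] at h
    have hp := pair_iff.1 g.1
    have hE := E_iff.1 g.2.1
    rcases mem_arcs.1 he with ⟨k1, k2, k3⟩ | ⟨k1, k2, k3⟩
    · rcases k2 with k2 | k2
      · have := (long_iff.1 k2).2
        rw [← k3] at this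
        exact this h.symm
      · have h4 := (N_iff.1 k2).2
        rw [h, hub_nx g.1, hE.2.2] at h4
        have h5 := hub_ge (n := n) (p1 := p1) e.2
        omega
    · have h6 : near p1 e.1 (nx p2 e.1) = true := by
        rw [near_iff, ← k3]
        refine Or.inr ⟨?_, ?_⟩
        · rw [h]; exact pair_nx g.1
        · rw [h]; exact hp.2.symm
      rw [k2.2] at h6
      cases h6
  · exact h3 (h.trans g.2.2)
  · exact h3 (h.trans g.2.2)
  · omega

end Vale.Agent.P333.T
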