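import Vale.Agent.P333.T.HubOf

/-!
P333, box 2/3: the arcs that are coloured when a pair with unused hub is processed.
-/

namespace Vale.Agent.P333.T.PS

open List
open Vale.Agent.P333.M (nx)

theorem nx_idxOf {N : ℕ} {p : List ℕ} (hp : p.Perm (List.range N)) {y : ℕ} (hy : y < N) :
    p.idxOf y < N ∧ nx p (p.idxOf y) = y := by
  have hl : p.length = N := by simpa using hp.length_eq
  have hm : y ∈ p := hp.symm.subset (List.mem_range.2 hy)
  have h1 : p.idxOf y < p.length := List.idxOf_lt_length_iff.2 hm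
  refine ⟨by omega, ?_⟩
  unfold nx
  rw [List.getD_eq_getElem _ _ h1]
  exact List.getElem_idxOf h1

theorem idxOf_nx {N : ℕ} {p : List ℕ} (hp : p.Perm (List.range N)) {x : ℕ} (hx : x < N) :
    p.idxOf (nx p x) = x := by
  have h := nx_idxOf hp (nx_lt hp hx)
  exact nx_inj hp h.1 hx h.2

/-- the partner in a pair whose hub is not used -/
theorem isN_pair {n : ℕ} {p1 p2 : List ℕ} (H : Hub n p1 p2) {u : ℕ} (hu : u < n)
    (hN : isN n p1 p2 u = true) :
    nx p1 u < n ∧ nx p1 u ≠ u ∧ nx p1 (nx p1 u) = u ∧ isN n p1 p2 (nx p1 u) = true := by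
  unfold isN at hN ⊢
  rw [Bool.and_eq_true] at hN
  obtain ⟨h1, h2⟩ := hN
  have h3 := isPair_iff.1 h1
  refine ⟨nx_lt H.h1 hu, h3.1, h3.2, ?_⟩
  rw [Bool.and_eq_true]
  refine ⟨isPair_iff.2 ⟨?_, ?_⟩, ?_⟩
  · rw [h3.2]; exact fun h => h3.1 h.symm
  · rw [h3.2]
  · have : hub n p1 (nx p1 u) = hub n p1 u := by
      unfold hub
      rw [h3.2, Nat.min_comm]
    rw [this]
    exact h2

theorem near_iff {p : List ℕ} {x y : ℕ} :
    near p x y = true ↔ y = x ∨ (isPair p x = true ∧ y = nx p x) := by
  simp [near]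

theorem shape_nodup {u v : ℕ} (huv : u ≠ v) (a b c d : Option ℕ)
    (ha : ∀ z ∈ a, z ≠ u ∧ z ≠ v) (hb : ∀ z ∈ b, z ≠ u ∧ z ≠ v)
    (hc : ∀ z ∈ c, z ≠ u ∧ z ≠ v) (hd : ∀ z ∈ d, z ≠ u ∧ z ≠ v) :
    ((u, v) :: (v, u) :: (a.toList.map (fun z => (z, u)) ++ b.toList.map (fun z => (u, z)) ++
      c.toList.map (fun z => (z, v)) ++ d.toList.map (fun z => (v, z)))).Nodup := by
  rcases a with _ | a <;> rcases b with _ | b <;> rcases c with _ | c <;> rcases d with _ | d <;>
    simp only [Option.mem_def, Option.some.injEq, forall_eq', reduceCtorEq, false_implies,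
      implies_true] at ha hb hc hd <;>
    simp only [Option.toList_some, Option.toList_none, List.map_cons, List.map_nil,
      List.nil_append, List.append_nil, List.cons_append, List.nodup_cons, List.mem_cons,
      List.not_mem_nil, or_false, Prod.mk.injEq, List.nodup_nil, and_true, not_false_eq_true] <;>
    omega

theorem pair_shape {n : ℕ} {p1 p2 : List ℕ} (H : Hub n p1 p2) {u : ℕ} (hu : u < n)
    (hN : isN n p1 p2 u = true) (D : List ℕ) (huD : u ∉ D) (hvD : nx p1 u ∉ D) :
    ∃ inU outU inV outV : Option ℕ,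
      newArcs (arcs n p1 p2) D [u, nx p1 u] ~
        (u, nx p1 u) :: (nx p1 u, u) ::
          (inU.toList.map (fun z => (z, u)) ++ outU.toList.map (fun z => (u, z)) ++
            inV.toList.map (fun z => (z, nx p1 u)) ++
            outV.toList.map (fun z => (nx p1 u, z))) ∧
      (∀ z ∈ inU, z ∈ D) ∧ (∀ z ∈ outU, z ∈ D) ∧ (∀ z ∈ inV, z ∈ D) ∧ (∀ z ∈ outV, z ∈ D) ∧
      (∀ z ∈ inU, z ∉ inV) ∧ (∀ z ∈ outU, z ∉ outV) := by
  obtain ⟨hv, hvu, hvv, hNv⟩ := isN_pair H hu hN
  have hpu : isPair p1 u = true := by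
    unfold isN at hN; rw [Bool.and_eq_true] at hN; exact hN.1
  have hpv : isPair p1 (nx p1 u) = true := by
    unfold isN at hNv; rw [Bool.and_eq_true] at hNv; exact hNv.1
  set v := nx p1 u with hvdef
  have hun : u < n + n := by omega
  have hvn : v < n + n := by omega
  have hiu := nx_idxOf H.h2 hun
  have hiv := nx_idxOf H.h2 hvn
  refine ⟨if p2.idxOf u ∈ D ∧ p2.idxOf u < n then some (p2.idxOf u) else none,
    if nx p2 u ∈ D ∧ nx p2 u < n then some (nx p2 u) else none,
    if p2.idxOf v ∈ D ∧ p2.idxOf v < n then some (p2.idxOf v) else none,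
    if nx p2 v ∈ D ∧ nx p2 v < n then some (nx p2 v) else none, ?_, ?_, ?_, ?_, ?_, ?_, ?_⟩
  · rw [List.perm_ext_iff_of_nodup]
    · rintro ⟨a, b⟩
      have key : (a, b) ∈ newArcs (arcs n p1 p2) D [u, v] ↔
          ((a < n ∧ isLong p1 a = true ∧ b = nx p1 a) ∨
            (a < n ∧ (nx p2 a < n ∧ ¬ near p1 a (nx p2 a) = true) ∧ b = nx p2 a) ∨
            (a < n ∧ isN n p1 p2 a = true ∧ b = nx p1 a)) ∧
          (((a = u ∨ a = v) ∨ a ∈ D) ∧ ((b = u ∨ b = v) ∨ b ∈ D)) ∧ ¬ (a ∈ D ∧ b ∈ D) := by
        unfold newArcs arcs arcs1 arcs2 arcsN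
        simp only [List.mem_filter, List.mem_append, List.mem_map, List.mem_range, Prod.mk.injEq,
          Bool.and_eq_true, Bool.or_eq_true, Bool.not_eq_true', List.contains_eq_mem,
          decide_eq_true_eq, List.mem_cons, List.not_mem_nil, or_false, Bool.and_eq_false_iff,
          decide_eq_false_iff_not, Nat.blt_eq]
        constructor
        · rintro ⟨h1 | h1 | h1, h2, h3⟩
          · obtain ⟨x, ⟨hx1, hx2⟩, rfl, rfl⟩ := h1
            exact ⟨Or.inl ⟨hx1, hx2, rfl⟩, h2, by tauto⟩
          · obtain ⟨x, ⟨hx1, hx2, hx3⟩, rfl, rfl⟩ := h1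
            exact ⟨Or.inr (Or.inl ⟨hx1, ⟨hx2, by simpa using hx3⟩, rfl⟩), h2, by tauto⟩
          · obtain ⟨x, ⟨hx1, hx2⟩, rfl, rfl⟩ := h1
            exact ⟨Or.inr (Or.inr ⟨hx1, hx2, rfl⟩), h2, by tauto⟩
        · rintro ⟨h1 | h1 | h1, h2, h3⟩
          · obtain ⟨hx1, hx2, rfl⟩ := h1
            exact ⟨Or.inl ⟨a, ⟨hx1, hx2⟩, rfl, rfl⟩, h2, by tauto⟩
          · obtain ⟨hx1, ⟨hx2, hx3⟩, rfl⟩ := h1
            exact ⟨Or.inr (Or.inl ⟨a, ⟨hx1, hx2, by simpa using hx3⟩, rfl, rfl⟩), h2, by tauto⟩
          · obtain ⟨hx1, hx2, rfl⟩ := h1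
            exact ⟨Or.inr (Or.inr ⟨a, ⟨hx1, hx2⟩, rfl, rfl⟩), h2, by tauto⟩
      rw [key]
      have hopt : ∀ (c : Prop) [Decidable c] (z : ℕ) (f : ℕ → ℕ × ℕ) (e : ℕ × ℕ),
          e ∈ (if c then some z else none : Option ℕ).toList.map f ↔ c ∧ e = f z := by
        intro c _ z f e
        by_cases hc : c <;> simp [hc]
      rw [List.mem_cons, List.mem_cons, List.mem_append, List.mem_append, List.mem_append,
        hopt, hopt, hopt, hopt]
      simp only [Prod.mk.injEq]
      have hne : u ≠ v := fun h => hvu h.symm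
      constructor
      · rintro ⟨h1 | h1 | h1, ⟨h2, h3⟩, h4⟩
        · exfalso
          obtain ⟨ha, hl, hb⟩ := h1
          unfold isLong at hl
          simp only [Bool.and_eq_true, Bool.not_eq_true', beq_eq_false_iff_ne] at hl
          rcases h2 with (h2 | h2) | h2
          · rw [h2] at hl; exact hl.2 hvv
          · rw [h2] at hl; apply hl.2; rw [hvv]
          · rcases h3 with (h3 | h3) | h3
            · have : a = v := nx_inj H.h1 ha hv (by rw [← hb, h3, hvv])
              exact hvD (this ▸ h2)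
            · have : a = u := nx_inj H.h1 ha hu (by rw [← hb, h3])
              exact huD (this ▸ h2)
            · exact h4 ⟨h2, h3⟩
        · obtain ⟨ha, ⟨hb', hnr⟩, hb⟩ := h1
          rw [near_iff] at hnr
          have hnr1 : nx p2 a ≠ a := fun h => hnr (Or.inl h)
          rcases h2 with (h2 | h2) | h2
          · rcases h3 with (h3 | h3) | h3
            · exact absurd (by rw [← hb, h3, h2]) hnr1
            · exact absurd (Or.inr ⟨by rw [h2]; exact hpu, by rw [← hb, h3, h2]⟩) hnr
            · right; right; left; left; right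
              subst h2
              exact ⟨⟨hb ▸ h3, hb'⟩, rfl, hb⟩
          · rcases h3 with (h3 | h3) | h3
            · exact absurd (Or.inr ⟨by rw [h2]; exact hpv, by rw [← hb, h3, h2, hvv]⟩) hnr
            · exact absurd (by rw [← hb, h3, h2]) hnr1
            · right; right; right
              rw [h2] at hb hb' ⊢
              exact ⟨⟨hb ▸ h3, hb'⟩, rfl, hb⟩
          · have han : a < n + n := by omega
            rcases h3 with (h3 | h3) | h3
            · have : p2.idxOf u = a := by rw [← h3, hb]; exact idxOf_nx H.h2 han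
              right; right; left; left; left
              rw [this]
              exact ⟨⟨h2, ha⟩, rfl, h3⟩
            · have : p2.idxOf v = a := by rw [← h3, hb]; exact idxOf_nx H.h2 han
              right; right; left; right
              rw [this]
              exact ⟨⟨h2, ha⟩, rfl, h3⟩
            · exact absurd ⟨h2, h3⟩ h4
        · obtain ⟨ha, hl, hb⟩ := h1
          rcases h2 with (h2 | h2) | h2
          · left; rw [h2] at hb ⊢; exact ⟨rfl, hb⟩
          · right; left; rw [h2] at hb ⊢; exact ⟨rfl, by rw [hb, hvv]⟩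
          · exfalso
            rcases h3 with (h3 | h3) | h3
            · have : a = v := nx_inj H.h1 ha hv (by rw [← hb, h3, hvv])
              exact hvD (this ▸ h2)
            · have : a = u := nx_inj H.h1 ha hu (by rw [← hb, h3])
              exact huD (this ▸ h2)
            · exact h4 ⟨h2, h3⟩
      · have hDu : ∀ z ∈ D, z ≠ u := fun z hz h => huD (h ▸ hz)
        have hDv : ∀ z ∈ D, z ≠ v := fun z hz h => hvD (h ▸ hz)
        rintro (h | h | ((h | h) | h) | h)
        · obtain ⟨rfl, rfl⟩ := h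
          exact ⟨Or.inr (Or.inr ⟨hu, hN, rfl⟩), ⟨Or.inl (Or.inl rfl), Or.inl (Or.inr rfl)⟩,
            fun h => huD h.1⟩
        · obtain ⟨rfl, rfl⟩ := h
          exact ⟨Or.inr (Or.inr ⟨hv, hNv, hvv.symm⟩), ⟨Or.inl (Or.inr rfl), Or.inl (Or.inl rfl)⟩,
            fun h => huD h.2⟩
        · obtain ⟨⟨h1, h2⟩, rfl, rfl⟩ := h
          refine ⟨Or.inr (Or.inl ⟨h2, ⟨by rw [hiu.2]; exact hu, ?_⟩, hiu.2.symm⟩),
            ⟨Or.inr h1, Or.inl (Or.inl rfl)⟩, fun h => huD h.2⟩
          rw [near_iff, hiu.2]
          rintro (h | ⟨h, h'⟩)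
          · exact hDu _ h1 h.symm
          · have h5 := (isPair_iff.1 h).2
            rw [← h'] at h5
            exact hDv _ h1 h5.symm
        · obtain ⟨⟨h1, h2⟩, rfl, rfl⟩ := h
          refine ⟨Or.inr (Or.inl ⟨hu, ⟨h2, ?_⟩, rfl⟩),
            ⟨Or.inl (Or.inl rfl), Or.inr h1⟩, fun h => huD h.1⟩
          rw [near_iff]
          rintro (h | ⟨h, h'⟩)
          · exact hDu _ h1 h
          · exact hDv _ h1 h'
        · obtain ⟨⟨h1, h2⟩, rfl, rfl⟩ := h
          refine ⟨Or.inr (Or.inl ⟨h2, ⟨by rw [hiv.2]; exact hv, ?_⟩, hiv.2.symm⟩),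
            ⟨Or.inr h1, Or.inl (Or.inr rfl)⟩, fun h => hvD h.2⟩
          rw [near_iff, hiv.2]
          rintro (h | ⟨h, h'⟩)
          · exact hDv _ h1 h.symm
          · have h5 : nx p1 (p2.idxOf v) = nx p1 u := h'.symm
            exact hDu _ h1 (nx_inj H.h1 h2 hu h5)
        · obtain ⟨⟨h1, h2⟩, rfl, rfl⟩ := h
          refine ⟨Or.inr (Or.inl ⟨hv, ⟨h2, ?_⟩, rfl⟩),
            ⟨Or.inl (Or.inr rfl), Or.inr h1⟩, fun h => hvD h.1⟩
          rw [near_iff]
          rintro (h | ⟨h, h'⟩)
          · exact hDv _ h1 h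
          · exact hDu _ h1 (by rw [h', hvv])
    · -- newArcs is duplicate free
      have hinj : ∀ f : ℕ → ℕ, Function.Injective (fun x : ℕ => (x, f x)) :=
        fun f x y h => congrArg Prod.fst h
      unfold newArcs arcs
      rw [List.filter_append, List.filter_append]
      have h1 : List.filter (fun e => (([u, v].contains e.1 || D.contains e.1) &&
          ([u, v].contains e.2 || D.contains e.2)) && !(D.contains e.1 && D.contains e.2))
          (arcs1 n p1) = [] := by
        rw [List.filter_eq_nil_iff]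
        rintro ⟨a, b⟩ hab hq
        unfold arcs1 at hab
        simp only [List.mem_map, List.mem_filter, List.mem_range, Prod.mk.injEq] at hab
        obtain ⟨x, ⟨hx, hl⟩, rfl, rfl⟩ := hab
        unfold isLong at hl
        simp only [Bool.and_eq_true, Bool.not_eq_true', beq_eq_false_iff_ne] at hl
        simp only [Bool.and_eq_true, Bool.or_eq_true, Bool.not_eq_true', List.contains_eq_mem,
          decide_eq_true_eq, List.mem_cons, List.not_mem_nil, or_false, Bool.and_eq_false_iff,
          decide_eq_false_iff_not] at hq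
        obtain ⟨⟨h2, h3⟩, h4⟩ := hq
        rcases h2 with (h2 | h2) | h2
        · rw [h2] at hl; exact hl.2 hvv
        · rw [h2] at hl; apply hl.2; rw [hvv]
        · rcases h3 with (h3 | h3) | h3
          · have : x = v := nx_inj H.h1 hx hv (by rw [h3, hvv])
            exact hvD (this ▸ h2)
          · have : x = u := nx_inj H.h1 hx hu h3
            exact huD (this ▸ h2)
          · tauto
      rw [h1, List.nil_append]
      refine List.Nodup.append ?_ ?_ ?_
      · exact ((List.nodup_range.filter _).map (hinj _)).filter _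
      · exact ((List.nodup_range.filter _).map (hinj _)).filter _
      · rintro ⟨a, b⟩ h2 h3
        have h2' := (List.mem_filter.1 h2).1
        have h3' := (List.mem_filter.1 h3).1
        unfold arcs2 at h2'
        unfold arcsN isN at h3'
        simp only [List.mem_map, List.mem_filter, List.mem_range, Prod.mk.injEq,
          Bool.and_eq_true, Bool.not_eq_true'] at h2' h3'
        obtain ⟨x, ⟨hx, -, hx2⟩, rfl, rfl⟩ := h2'
        obtain ⟨y, ⟨hy, hy1, -⟩, rfl, hyx⟩ := h3'
        have : near p1 y (nx p2 y) = true := near_iff.2 (Or.inr ⟨hy1, hyx.symm⟩)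
        rw [this] at hx2
        exact absurd hx2 (by decide)
    · -- the right side is duplicate free
      have hD : ∀ z ∈ D, z ≠ u ∧ z ≠ v := fun z hz => ⟨fun h => huD (h ▸ hz), fun h => hvD (h ▸ hz)⟩
      have hopt : ∀ (c : Prop) [Decidable c] (z : ℕ), (c → z ∈ D) →
          ∀ y ∈ (if c then some z else none : Option ℕ), y ≠ u ∧ y ≠ v := by
        intro c _ z hz y hy
        by_cases hc : c
        · simp only [hc, if_true, Option.mem_def, Option.some.injEq] at hy
          rw [← hy]; exact hD _ (hz hc)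
        · simp [hc] at hy
      exact shape_nodup (fun h => hvu h.symm) _ _ _ _ (hopt _ _ fun h => h.1)
        (hopt _ _ fun h => h.1) (hopt _ _ fun h => h.1) (hopt _ _ fun h => h.1)
  · intro z hz
    split_ifs at hz with h
    · simp only [Option.mem_def, Option.some.injEq] at hz
      rw [← hz]; exact h.1
    · simp at hz
  · intro z hz
    split_ifs at hz with h
    · simp only [Option.mem_def, Option.some.injEq] at hz
      rw [← hz]; exact h.1
    · simp at hz
  · intro z hz
    split_ifs at hz with h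
    · simp only [Option.mem_def, Option.some.injEq] at hz
      rw [← hz]; exact h.1
    · simp at hz
  · intro z hz
    split_ifs at hz with h
    · simp only [Option.mem_def, Option.some.injEq] at hz
      rw [← hz]; exact h.1
    · simp at hz
  · intro z hz hz'
    split_ifs at hz with h
    · split_ifs at hz' with h'
      · simp only [Option.mem_def, Option.some.injEq] at hz hz'
        have h5 : p2.idxOf u = p2.idxOf v := hz.trans hz'.symm
        apply hvu
        rw [← hiv.2, ← hiu.2, h5]
      · simp at hz'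
    · simp at hz
  · intro z hz hz'
    split_ifs at hz with h
    · split_ifs at hz' with h'
      · simp only [Option.mem_def, Option.some.injEq] at hz hz'
        have h5 : nx p2 u = nx p2 v := hz.trans hz'.symm
        exact hvu (nx_inj H.h2 hun hvn h5).symm
      · simp at hz'
    · simp at hz

end Vale.Agent.P333.T.PS
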