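import Vale.Agent.P333.T.PBridge
import Vale.Agent.P333.T.PairShape
import Vale.Agent.P333.T.Deg

/-!
P333, box 2/3: the step of the fold at a pair whose hub is not used.
-/

namespace Vale.Agent.P333.T.Pr

open List
open Vale.Agent.P333.M (nx)

variable {n : ℕ} {p1 p2 : List ℕ} {D : List ℕ} {S : List ((ℕ × ℕ) × ℕ)}

/-- the mate of a node whose hub is not used -/
theorem mate_of_N (H : Hub n p1 p2) {w : ℕ} (hw : w < n) (hN : isN n p1 p2 w = true) :
    mate n p1 p2 w = n + n := by
  have h1 := Deg.N_iff.1 hN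
  have hp := Deg.pair_iff.1 h1.1
  have hlt : nx p1 w < n := Deg.lt H.h1 hw
  have hge := Deg.hub_ge (n := n) (p1 := p1) w
  rcases Deg.mate_cases (n := n) (p1 := p1) (p2 := p2) w with g | g | g | g | g
  · exact absurd g.1 hp.1
  · exfalso
    have hE := Deg.E_iff.1 g.2.1
    have h2 := h1.2
    rw [hE.2.2] at h2
    omega
  · exfalso
    have hU := Deg.U_iff.1 g.2.1
    rw [Deg.hub_nx h1.1] at hU
    have h2 := h1.2
    rw [hU.2.2] at h2
    omega
  · exact absurd hp.2 (Deg.long_iff.1 g.1).2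
  · exact g

/-- nobody has such a node as mate -/
theorem mate_ne_N (H : Hub n p1 p2) {w : ℕ} (hw : w < n) (hN : isN n p1 p2 w = true) (x : ℕ) :
    mate n p1 p2 x ≠ w := by
  intro h
  have h1 := Deg.N_iff.1 hN
  have hp := Deg.pair_iff.1 h1.1
  have hlt : nx p1 w < n := Deg.lt H.h1 hw
  have hge := Deg.hub_ge (n := n) (p1 := p1) w
  rcases Deg.mate_cases (n := n) (p1 := p1) (p2 := p2) x with g | g | g | g | g
  · rw [g.2] at h
    subst h
    exact hp.1 g.1
  · rw [g.2.2] at h
    have hE := Deg.E_iff.1 g.2.1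
    have hh := Deg.hub_nx (n := n) g.1
    rw [h] at hh
    have h2 := h1.2
    rw [hh, hE.2.2, h] at h2
    omega
  · rw [g.2.2] at h
    subst h
    have hU := Deg.U_iff.1 g.2.1
    rw [Deg.hub_nx h1.1] at hU
    have h2 := h1.2
    rw [hU.2.2] at h2
    omega
  · rw [g.2.2] at h
    subst h
    exact (Deg.long_iff.1 g.1).2 hp.2
  · omega

theorem new_le {E : List (ℕ × ℕ)} {m : ℕ → ℕ} {U : List ℕ} (h : Inv E m D S)
    (q : ℕ × ℕ → Bool) :
    ((newArcs E D U ++ S.map Prod.fst).filter q).length ≤ (E.filter q).length := by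
  have h1 : (newArcs E D U ++ S.map Prod.fst).Perm (inside E (U ++ D)) :=
    (h.perm.append_left _).trans (inside_step E D U)
  rw [(h1.filter q).length_eq]
  exact ((List.filter_sublist (l := E)).filter q).length_le

/-- **The step at a pair whose hub is not used.** -/
theorem step_pair (H : Hub n p1 p2) {u : ℕ} (hu : u < n) (hN : isN n p1 p2 u = true)
    (hI : Inv (arcs n p1 p2) (mate n p1 p2) D S) (huD : u ∉ D) (hvD : nx p1 u ∉ D)
    (hDn : ∀ y ∈ D, y < n) :
    Vale.Agent.P333.T.Ext (arcs n p1 p2) (mate n p1 p2) D [u, nx p1 u] S := by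
  obtain ⟨hv, hvu, hvv, hNv⟩ := PS.isN_pair H hu hN
  obtain ⟨iU, oU, iV, oV, hp, hiU, hoU, hiV, hoV, hn1, hn2⟩ := PS.pair_shape H hu hN D huD hvD
  have hp' : newArcs (arcs n p1 p2) D [u, nx p1 u] ~ newA u (nx p1 u) iU oU iV oV := by
    refine hp.trans (Perm.of_eq ?_)
    unfold newA
    simp only [List.append_assoc]
  have hne : ∀ z ∈ D, z ≠ u ∧ z ≠ nx p1 u :=
    fun z hz => ⟨fun h => huD (h ▸ hz), fun h => hvD (h ▸ hz)⟩
  have hmu := mate_of_N H hu hN
  have hmv := mate_of_N H hv hNv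
  have hT' : ∀ a, ((newA u (nx p1 u) iU oU iV oV ++ S.map Prod.fst).filter
      (fun e => (e.1 == a) || (mate n p1 p2 e.2 == a))).length ≤
      ((arcs n p1 p2).filter (fun e => decide (e.1 = a ∨ mate n p1 p2 e.2 = a))).length := by
    intro a
    rw [← (((hp'.append_right (S.map Prod.fst))).filter _).length_eq]
    refine (new_le hI _).trans (le_of_eq ?_)
    congr 1
    apply List.filter_congr
    intro e _
    by_cases h1 : e.1 = a <;> by_cases h2 : mate n p1 p2 e.2 = a <;> simp [h1, h2]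
  have hH' : ∀ b, ((newA u (nx p1 u) iU oU iV oV ++ S.map Prod.fst).filter
      (fun e => (e.2 == b) || (e.1 == mate n p1 p2 b))).length ≤
      ((arcs n p1 p2).filter (fun e => decide (e.2 = b ∨ e.1 = mate n p1 p2 b))).length := by
    intro b
    rw [← (((hp'.append_right (S.map Prod.fst))).filter _).length_eq]
    refine (new_le hI _).trans (le_of_eq ?_)
    congr 1
    apply List.filter_congr
    intro e _
    by_cases h1 : e.2 = b <;> by_cases h2 : e.1 = mate n p1 p2 b <;> simp [h1, h2]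
  refine Ext.fold' hp' (pair_ext (goodP_iff.1 hI.good) hI.lt hvu.symm ?_ ?_ ?_ ?_ ?_ ?_ ?_ ?_ ?_ ?_ ?_
    ?_ ?_)
  · intro e he
    have h := hI.of_mem he
    exact ⟨(hne _ h.2.1).1, (hne _ h.2.1).2, (hne _ h.2.2.1).1, (hne _ h.2.2.1).2⟩
  · exact fun x => ⟨mate_ne_N H hu hN x, mate_ne_N H hv hNv x⟩
  · intro a ha
    have := hDn a (hiU a ha)
    rw [hmu, hmv]
    omega
  · intro a ha
    have := hDn a (hiV a ha)
    rw [hmu, hmv]
    omega
  · intro e he
    have := hDn _ (hI.of_mem he).2.1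
    rw [hmu, hmv]
    omega
  · exact fun a ha => hne a (hiU a ha)
  · exact fun a ha => hne a (hoU a ha)
  · exact fun a ha => hne a (hiV a ha)
  · exact fun a ha => hne a (hoV a ha)
  · intro a ha c hc h
    subst h
    exact hn1 a ha hc
  · intro a ha c hc h
    subst h
    exact hn2 a ha hc
  · intro a ha
    have han : a < n := by
      rcases ha with h | h
      · exact hDn a (hiU a h)
      · exact hDn a (hiV a h)
    exact (hT' a).trans (tail_deg H han)
  · intro b hb
    have hbn : b < n := by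
      rcases hb with h | h
      · exact hDn b (hoU b h)
      · exact hDn b (hoV b h)
    exact (hH' b).trans (head_deg H hbn)

/-- the same in the form of the hypothesis of `colOf_wrap` -/
theorem hpair (H : Hub n p1 p2) : ∀ x < n, isN n p1 p2 x = true → ∀ D S, x ∉ D → nx p1 x ∉ D →
    (∀ y ∈ D, y < n) → Inv (arcs n p1 p2) (mate n p1 p2) D S →
      Vale.Agent.P333.T.Ext (arcs n p1 p2) (mate n p1 p2) D [x, nx p1 x] S :=
  fun _ hx hN _ _ h1 h2 h3 hI => step_pair H hx hN hI h1 h2 h3

end Vale.Agent.P333.T.Pr
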