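import Vale.Agent.P333.T.Prog23

/-!
P333, box T: the value of the second assignment, node by node (twice the weight).
-/

namespace Vale.Agent.P333.T

open Vale.Agent.P333.M (nx)

/-- twice the weight of the part of the second assignment that is charged to `x` -/
def v2 (n : ℕ) (w : ℕ → ℕ → ℕ) (p1 p2 : List ℕ) (x : ℕ) : ℕ :=
  if isE n p1 p2 x = true then 2 * w x (nx p1 x)
  else if isU n p1 p2 x = true then w x (nx p1 x) + w (nx p1 x) x
  else if nx p2 x < n ∧ near p1 x (nx p2 x) = false then 2 * w x (nx p2 x)
  else 0

end Vale.Agent.P333.T
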