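import Vale.Agent.P333.T.HubOf
import Vale.Agent.P333.T.V2
import Vale.Agent.P333.M.Round

/-!
P333, box T, row G2: the hubs of the second assignment. An assignment whose value reaches the bonus
of all hubs uses every hub in one of the four intended ways.
-/

namespace Vale.Agent.P333.T

open List
open Vale.Agent.P333.M (nx pw breakF wt1 heavier)
open Vale.Agent.P333.M.Round (idx_lt nx_idx)

namespace Hub

theorem isPair_nx {p : List ℕ} {x : ℕ} (h : isPair p x = true) : isPair p (nx p x) = true := by
  rw [isPair_iff] at h ⊢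
  rw [h.2]
  exact ⟨fun h' => h.1 h'.symm, rfl⟩

theorem hubOf_iff {p : List ℕ} {h z : ℕ} :
    hubOf p h z = true ↔ isPair p z = true ∧ h = min z (nx p z) := by
  unfold hubOf
  rw [Bool.and_eq_true, Bool.and_eq_true, Bool.or_eq_true, Nat.blt_eq, beq_iff_eq, beq_iff_eq]
  constructor
  · rintro ⟨⟨h1, h2⟩, h3 | h3⟩
    · subst h3
      exact ⟨h1, by omega⟩
    · have h4 := isPair_iff.1 h1
      subst h3
      exact ⟨isPair_nx h1, by rw [h4.2]; omega⟩
  · rintro ⟨h1, h2⟩
    have h4 := isPair_iff.1 h1
    rcases le_total z (nx p z) with h5 | h5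
    · have : h = z := by omega
      subst this
      exact ⟨⟨h1, by have := h4.1; omega⟩, Or.inl rfl⟩
    · have : h = nx p z := by omega
      subst this
      exact ⟨⟨isPair_nx h1, by rw [h4.2]; have := h4.1; omega⟩, Or.inr h4.2.symm⟩

theorem hub_nx {n : ℕ} {p : List ℕ} {x : ℕ} (h : isPair p x = true) :
    hub n p (nx p x) = hub n p x := by
  unfold hub
  rw [(isPair_iff.1 h).2, min_comm]

section

variable {n : ℕ} {p1 p2 : List ℕ} (H : Hub n p1 p2)
include H

theorem inn' {x : ℕ} (hx : x < n) (hn : n ≤ nx p2 x) :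
    isPair p1 x = true ∧ nx p2 x = hub n p1 x := by
  have h := hubOf_iff.1 (H.inn x hx hn)
  refine ⟨h.1, ?_⟩
  unfold hub
  omega

theorem out' {h : ℕ} (hh : h < n) (hne : nx p2 (n + h) ≠ n + h) :
    nx p2 (n + h) < n ∧ isPair p1 (nx p2 (n + h)) = true ∧
      n + h = hub n p1 (nx p2 (n + h)) := by
  rcases H.out h hh with h' | h'
  · exact absurd h' hne
  · have h2 := hubOf_iff.1 h'.2
    refine ⟨h'.1, h2.1, ?_⟩
    unfold hub
    omega

omit H in
/-- nodes with the same hub belong to the same pair -/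
theorem same_hub {x z : ℕ} (hx : isPair p1 x = true) (hz : isPair p1 z = true)
    (h : hub n p1 z = hub n p1 x) : z = x ∨ z = nx p1 x := by
  unfold hub at h
  have h1 := isPair_iff.1 hx
  have h2 := isPair_iff.1 hz
  have h3 : min z (nx p1 z) = min x (nx p1 x) := by omega
  rcases le_total z (nx p1 z) with a | a
  · rcases le_total x (nx p1 x) with b | b
    · left; omega
    · right; omega
  · rcases le_total x (nx p1 x) with b | b
    · right
      have : nx p1 z = x := by omega
      rw [← this, h2.2]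
    · left
      have : nx p1 z = nx p1 x := by omega
      rw [← h2.2, this, h1.2]

theorem hub_lt {x : ℕ} (hx : x < n) : n ≤ hub n p1 x ∧ hub n p1 x < n + n := by
  unfold hub
  have := nx_lt H.h1 hx
  omega

theorem inj {x y : ℕ} (hx : x < n + n) (hy : y < n + n) (h : nx p2 x = nx p2 y) : x = y :=
  nx_inj H.h2 hx hy h

/-- the node that goes to the hub of a pair, if the hub is used -/
theorem exists_in {x : ℕ} (hx : x < n) (hp : isPair p1 x = true)
    (hne : nx p2 (hub n p1 x) ≠ hub n p1 x) :
    nx p2 x = hub n p1 x ∨ nx p2 (nx p1 x) = hub n p1 x := by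
  have hm := H.hub_lt hx
  have e := nx_idx H.h2 hm.2
  have l := idx_lt H.h2 hm.2
  by_cases hi : p2.idxOf (hub n p1 x) < n
  · have h := H.inn' hi (by rw [e]; exact hm.1)
    rw [e] at h
    rcases same_hub hp h.1 h.2.symm with h' | h'
    · left; rw [← h', e]; rw [h']
    · right; rw [← h']; exact e
  · exfalso
    obtain ⟨h0, hh0⟩ : ∃ h0, p2.idxOf (hub n p1 x) = n + h0 :=
      ⟨p2.idxOf (hub n p1 x) - n, by omega⟩
    rw [hh0] at e l
    rcases H.out h0 (by omega) with h' | h'
    · rw [h'] at e
      rw [e] at h'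
      exact hne h'
    · omega

theorem pair_cases {x : ℕ} (hx : x < n) (hp : isPair p1 x = true) :
    isN n p1 p2 x = true ∨ isE n p1 p2 x = true ∨ isE n p1 p2 (nx p1 x) = true ∨
      isU n p1 p2 x = true ∨ isU n p1 p2 (nx p1 x) = true := by
  have hm := H.hub_lt hx
  have hp' := isPair_nx hp
  have hb : hub n p1 (nx p1 x) = hub n p1 x := hub_nx hp
  have hxx := (isPair_iff.1 hp).2
  by_cases hne : nx p2 (hub n p1 x) = hub n p1 x
  · left
    unfold isN
    simp [hp, hne]
  · right
    obtain ⟨h0, hh0⟩ : ∃ h0, hub n p1 x = n + h0 := ⟨_, by unfold hub; rfl⟩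
    have ho := H.out' (h := h0) (by omega) (by rw [← hh0]; exact hne)
    rw [← hh0] at ho
    have hz := same_hub hp ho.2.1 ho.2.2.symm
    unfold isE isU
    rw [hb, hxx]
    rcases H.exists_in hx hp hne with hi | hi
    · rcases hz with hz | hz
      · right; right; left
        simp [hp, hi, hz]
      · left
        simp [hp, hi, hz]
    · rcases hz with hz | hz
      · right; left
        simp [hp', hi, hz]
      · right; right; right
        simp [hp', hi, hz]

omit H in
theorem isN_iff {x : ℕ} : isN n p1 p2 x = true ↔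
    isPair p1 x = true ∧ nx p2 (hub n p1 x) = hub n p1 x := by
  unfold isN
  simp

omit H in
theorem isE_iff {x : ℕ} : isE n p1 p2 x = true ↔
    isPair p1 x = true ∧ nx p2 x = hub n p1 x ∧ nx p2 (hub n p1 x) = nx p1 x := by
  unfold isE
  simp [and_assoc]

omit H in
theorem isU_iff {x : ℕ} : isU n p1 p2 x = true ↔
    isPair p1 x = true ∧ nx p2 x = hub n p1 x ∧ nx p2 (hub n p1 x) = x := by
  unfold isU
  simp [and_assoc]

omit H in
theorem isN_nx {x : ℕ} (h : isN n p1 p2 x = true) : isN n p1 p2 (nx p1 x) = true := by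
  rw [isN_iff] at h ⊢
  rw [hub_nx h.1]
  exact ⟨isPair_nx h.1, h.2⟩

theorem nx1_lt {x : ℕ} (hx : x < n) : nx p1 x < n := nx_lt H.h1 hx

theorem not_N_of_E {x : ℕ} (hx : x < n) (h : isE n p1 p2 x = true) : isN n p1 p2 x = false := by
  rw [isE_iff] at h
  rw [Bool.eq_false_iff]
  intro h'
  rw [isN_iff, h.2.2] at h'
  have := H.hub_lt hx
  have := H.nx1_lt hx
  omega

theorem not_N_of_U {x : ℕ} (hx : x < n) (h : isU n p1 p2 x = true) : isN n p1 p2 x = false := by
  rw [isU_iff] at h
  rw [Bool.eq_false_iff]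
  intro h'
  rw [isN_iff, h.2.2] at h'
  have := H.hub_lt hx
  omega

theorem not_U_of_E {x : ℕ} (_ : x < n) (h : isE n p1 p2 x = true) : isU n p1 p2 x = false := by
  rw [isE_iff] at h
  rw [Bool.eq_false_iff]
  intro h'
  rw [isU_iff, h.2.2] at h'
  exact (isPair_iff.1 h.1).1 h'.2.2

/-- `E` or `U` at `x` excludes `E` and `U` at the partner -/
theorem partner_out {x : ℕ} (hx : x < n) (hp : isPair p1 x = true)
    (h : nx p2 x = hub n p1 x) : nx p2 (nx p1 x) < n := by
  by_contra hge
  push Not at hge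
  have h1 := H.inn' (H.nx1_lt hx) hge
  rw [hub_nx hp, ← h] at h1
  have := H.inj (by have := H.nx1_lt hx; omega) (by omega) h1.2
  exact (isPair_iff.1 hp).1 this

theorem not_E_partner {x : ℕ} (hx : x < n) (hp : isPair p1 x = true)
    (h : nx p2 x = hub n p1 x) : isE n p1 p2 (nx p1 x) = false := by
  rw [Bool.eq_false_iff]
  intro h'
  rw [isE_iff, hub_nx hp] at h'
  have h1 := H.partner_out hx hp h
  have h2 := H.hub_lt hx
  omega

theorem not_U_partner {x : ℕ} (hx : x < n) (hp : isPair p1 x = true)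
    (h : nx p2 x = hub n p1 x) : isU n p1 p2 (nx p1 x) = false := by
  rw [Bool.eq_false_iff]
  intro h'
  rw [isU_iff, hub_nx hp] at h'
  have h1 := H.partner_out hx hp h
  have h2 := H.hub_lt hx
  omega

/-- the arc out of `x` is ordinary unless `x` is of type `E` or `U` -/
theorem out_lt {x : ℕ} (hx : x < n) (hE : isE n p1 p2 x = false) (hU : isU n p1 p2 x = false) :
    nx p2 x < n := by
  by_contra hge
  push Not at hge
  have h := H.inn' hx hge
  have hne : nx p2 (hub n p1 x) ≠ hub n p1 x := by
    intro h'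
    rw [← h.2] at h'
    have h3 := H.inj (x := nx p2 x) (y := x) (nx_lt H.h2 (by omega)) (by omega) h'
    omega
  obtain ⟨h0, hh0⟩ : ∃ h0, hub n p1 x = n + h0 := ⟨_, by unfold hub; rfl⟩
  have hm := H.hub_lt hx
  have ho := H.out' (h := h0) (by omega) (by rw [← hh0]; exact hne)
  rw [← hh0] at ho
  rcases same_hub h.1 ho.2.1 ho.2.2.symm with hz | hz
  · rw [Bool.eq_false_iff] at hU
    exact hU (isU_iff.2 ⟨h.1, h.2, hz⟩)
  · rw [Bool.eq_false_iff] at hE
    exact hE (isE_iff.2 ⟨h.1, h.2, hz⟩)

/-- the node before `x` in the second assignment is ordinary unless `x` is of type `U` or the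
partner of a node of type `E` -/
theorem idx_lt' {x : ℕ} (hx : x < n) (hU : isU n p1 p2 x = false)
    (hE : isE n p1 p2 (nx p1 x) = false) : p2.idxOf x < n := by
  by_contra hge
  push Not at hge
  have l := idx_lt H.h2 (show x < n + n by omega)
  have e := nx_idx H.h2 (show x < n + n by omega)
  obtain ⟨h0, hh0⟩ : ∃ h0, p2.idxOf x = n + h0 := ⟨p2.idxOf x - n, by omega⟩
  rw [hh0] at l e
  have hne : nx p2 (n + h0) ≠ n + h0 := by rw [e]; omega
  have ho := H.out' (h := h0) (by omega) hne
  rw [e] at ho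
  have hne' : nx p2 (hub n p1 x) ≠ hub n p1 x := by
    rw [← ho.2.2, e]; omega
  rcases H.exists_in hx ho.2.1 hne' with hi | hi
  · rw [Bool.eq_false_iff] at hU
    exact hU (isU_iff.2 ⟨ho.2.1, hi, by rw [← ho.2.2, e]⟩)
  · rw [Bool.eq_false_iff] at hE
    apply hE
    rw [isE_iff, hub_nx ho.2.1]
    exact ⟨isPair_nx ho.2.1, hi, by rw [← ho.2.2, e, (isPair_iff.1 ho.2.1).2]⟩

/-- a node of type `U` has no ordinary in-arc -/
theorem U_no_in {x z : ℕ} (hx : x < n) (hz : z < n) (h : isU n p1 p2 x = true) :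
    nx p2 z ≠ x := by
  intro he
  have h' := isU_iff.1 h
  have hm := H.hub_lt hx
  have := H.inj (x := z) (y := hub n p1 x) (by omega) hm.2 (by rw [he, h'.2.2])
  omega

/-- the partner of a node of type `E` has no ordinary in-arc -/
theorem E_no_in {x z : ℕ} (hx : x < n) (hz : z < n) (h : isE n p1 p2 x = true) :
    nx p2 z ≠ nx p1 x := by
  intro he
  have h' := isE_iff.1 h
  have hm := H.hub_lt hx
  have := H.inj (x := z) (y := hub n p1 x) (by omega) hm.2 (by rw [he, h'.2.2])
  omega

theorem E_out {x : ℕ} (hx : x < n) (h : isE n p1 p2 x = true) : n ≤ nx p2 x := by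
  rw [(isE_iff.1 h).2.1]
  exact (H.hub_lt hx).1

theorem U_out {x : ℕ} (hx : x < n) (h : isU n p1 p2 x = true) : n ≤ nx p2 x := by
  rw [(isU_iff.1 h).2.1]
  exact (H.hub_lt hx).1

end

/-! ### The value of the second assignment -/

theorem sum_filter_map (n : ℕ) (q : ℕ → Bool) (f : ℕ → ℕ × ℕ) (g : ℕ × ℕ → ℕ) :
    ((((List.range n).filter q).map f).map g).sum =
      ∑ x ∈ Finset.range n, if q x = true then g (f x) else 0 := by
  induction n with
  | zero => simp
  | succ n ih =>
    rw [List.range_succ, List.filter_append, List.map_append, List.map_append, List.sum_append, ih,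
      Finset.sum_range_succ]
    congr 1
    by_cases hq : q n = true
    · simp [hq]
    · simp [hq]

/-- the value of the ordinary arc out of `x` -/
def ordVal (n : ℕ) (w : ℕ → ℕ → ℕ) (p1 p2 : List ℕ) (x : ℕ) : ℕ :=
  if nx p2 x < n then (if near p1 x (nx p2 x) = true then 0 else 2 * w x (nx p2 x)) else 0

/-- the value of the used hub of `x` -/
def endVal (n : ℕ) (w : ℕ → ℕ → ℕ) (p1 p2 : List ℕ) (x : ℕ) : ℕ :=
  if isE n p1 p2 x then 2 * w x (nx p1 x)
  else if isU n p1 p2 x then w x (nx p1 x) + w (nx p1 x) x else 0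

theorem v2_eq {n : ℕ} {w : ℕ → ℕ → ℕ} {p1 p2 : List ℕ} (H : Hub n p1 p2) {x : ℕ} (hx : x < n) :
    v2 n w p1 p2 x = ordVal n w p1 p2 x + endVal n w p1 p2 x := by
  unfold v2 ordVal endVal
  by_cases hE : isE n p1 p2 x = true
  · have h1 := H.E_out hx hE
    rw [if_pos hE, if_pos hE, if_neg (by omega)]
    omega
  · by_cases hU : isU n p1 p2 x = true
    · have h1 := H.U_out hx hU
      rw [if_neg hE, if_pos hU, if_neg hE, if_pos hU, if_neg (by omega)]
      omega
    · rw [if_neg hE, if_neg hU, if_neg hE, if_neg hU]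
      by_cases hj : nx p2 x < n
      · by_cases hn : near p1 x (nx p2 x) = true
        · simp [hn]
        · simp [hn, hj]
      · simp [hj]

theorem sum_arcs2 (n : ℕ) (w : ℕ → ℕ → ℕ) (p1 p2 : List ℕ) :
    2 * ((arcs2 n p1 p2).map (fun e => w e.1 e.2)).sum =
      ∑ x ∈ Finset.range n, ordVal n w p1 p2 x := by
  unfold arcs2
  rw [sum_filter_map, Finset.mul_sum]
  refine Finset.sum_congr rfl (fun x _ => ?_)
  unfold ordVal
  by_cases hj : nx p2 x < n
  · have hj' : Nat.blt (nx p2 x) n = true := by rw [Nat.blt_eq]; exact hj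
    rw [if_pos hj, hj']
    by_cases hn : near p1 x (nx p2 x) = true
    · simp [hn]
    · simp [hn]
  · have hj' : Nat.blt (nx p2 x) n = false := by
      rw [Bool.eq_false_iff]
      intro h'
      rw [Nat.blt_eq] at h'
      exact hj h'
    rw [if_neg hj, hj']
    simp

theorem g2_value {n B : ℕ} {w : ℕ → ℕ → ℕ} {p1 p2 : List ℕ} (H : Hub n p1 p2) :
    ∑ i ∈ Finset.range (n + n), hw n B w p1 i (nx p2 i) =
      2 * (n * B) + 2 * ((arcs2 n p1 p2).map (fun e => w e.1 e.2)).sum +
        ∑ x ∈ Finset.range n, endVal n w p1 p2 x := by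
  classical
  -- hub rows that are used, reindexed by the node in front of the hub
  have hbij : ∀ g : ℕ → ℕ, ∑ x ∈ (Finset.range n).filter (fun x => n ≤ nx p2 x), g (nx p2 x) =
      ∑ h ∈ (Finset.range n).filter (fun h => nx p2 (n + h) ≠ n + h), g (n + h) := by
    intro g
    refine Finset.sum_nbij' (fun x => nx p2 x - n) (fun h => p2.idxOf (n + h)) ?_ ?_ ?_ ?_ ?_
    · intro x hx
      rw [Finset.mem_filter, Finset.mem_range] at hx ⊢
      have h1 := nx_lt H.h2 (show x < n + n by omega)
      have h2 : n + (nx p2 x - n) = nx p2 x := by omega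
      rw [h2]
      refine ⟨by omega, ?_⟩
      intro h3
      have := H.inj (x := nx p2 x) (y := x) h1 (by omega) h3
      omega
    · intro h hh
      rw [Finset.mem_filter, Finset.mem_range] at hh ⊢
      have e := nx_idx H.h2 (show n + h < n + n by omega)
      have l := idx_lt H.h2 (show n + h < n + n by omega)
      refine ⟨?_, by rw [e]; omega⟩
      by_contra hge
      obtain ⟨h0, hh0⟩ : ∃ h0, p2.idxOf (n + h) = n + h0 := ⟨p2.idxOf (n + h) - n, by omega⟩
      rw [hh0] at e l
      rcases H.out h0 (by omega) with h' | h'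
      · rw [h'] at e
        rw [e] at h'
        exact hh.2 h'
      · omega
    · intro x hx
      rw [Finset.mem_filter, Finset.mem_range] at hx
      have h1 := nx_lt H.h2 (show x < n + n by omega)
      have h2 : n + (nx p2 x - n) = nx p2 x := by omega
      simp only [h2]
      exact H.inj (idx_lt H.h2 h1) (by omega) (nx_idx H.h2 h1)
    · intro h hh
      rw [Finset.mem_filter, Finset.mem_range] at hh
      change nx p2 (p2.idxOf (n + h)) - n = h
      rw [nx_idx H.h2 (show n + h < n + n by omega)]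
      omega
    · intro x hx
      rw [Finset.mem_filter] at hx
      have h2 : n + (nx p2 x - n) = nx p2 x := by omega
      change g (nx p2 x) = g (n + (nx p2 x - n))
      rw [h2]
  rw [Finset.sum_range_add]
  -- the rows of the nodes
  have e1 : ∑ x ∈ Finset.range n, hw n B w p1 x (nx p2 x) =
      2 * ((arcs2 n p1 p2).map (fun e => w e.1 e.2)).sum +
        ∑ x ∈ (Finset.range n).filter (fun x => n ≤ nx p2 x), (B + w x (nx p1 x)) := by
    unfold arcs2
    rw [sum_filter_map, Finset.mul_sum, Finset.sum_filter, ← Finset.sum_add_distrib]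
    refine Finset.sum_congr rfl (fun x hx => ?_)
    have hx' := Finset.mem_range.1 hx
    unfold hw
    rw [if_pos hx']
    by_cases hj : nx p2 x < n
    · have hj' : Nat.blt (nx p2 x) n = true := by rw [Nat.blt_eq]; exact hj
      rw [if_pos hj, if_neg (show ¬ n ≤ nx p2 x by omega), hj']
      by_cases hn : near p1 x (nx p2 x) = true
      · simp [hn]
      · simp [hn]
    · have hj' : Nat.blt (nx p2 x) n = false := by
        rw [Bool.eq_false_iff]
        intro h'
        rw [Nat.blt_eq] at h'
        exact hj h'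
      rw [if_neg hj, if_pos (show n ≤ nx p2 x by omega), hj',
        if_pos (H.inn x hx' (by omega))]
      simp
  -- the rows of the hubs
  have e2 : ∑ h ∈ Finset.range n, hw n B w p1 (n + h) (nx p2 (n + h)) =
      ∑ h ∈ (Finset.range n).filter (fun h => ¬ nx p2 (n + h) ≠ n + h), 2 * B +
      ∑ h ∈ (Finset.range n).filter (fun h => nx p2 (n + h) ≠ n + h),
        (B + w (nx p1 (nx p2 (n + h))) (nx p2 (n + h))) := by
    rw [Finset.sum_filter, Finset.sum_filter, ← Finset.sum_add_distrib]
    refine Finset.sum_congr rfl (fun h hh => ?_)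
    have hh' := Finset.mem_range.1 hh
    unfold hw
    rw [if_neg (show ¬ n + h < n by omega)]
    by_cases hl : nx p2 (n + h) = n + h
    · rw [if_neg (show ¬ nx p2 (n + h) < n by omega), if_pos hl.symm, if_pos (by simpa using hl),
        if_neg (by simpa using hl)]
      omega
    · have ho : nx p2 (n + h) < n ∧ hubOf p1 h (nx p2 (n + h)) = true := by
        rcases H.out h hh' with h' | h'
        · exact absurd h' hl
        · exact h'
      rw [if_pos ho.1, Nat.add_sub_cancel_left, if_pos ho.2, if_neg (by simpa using hl),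
        if_pos hl]
      omega
  rw [e1, e2, ← hbij (fun m => B + w (nx p1 (nx p2 m)) (nx p2 m))]
  -- the number of hubs
  have hcard : ((Finset.range n).filter (fun h => ¬ nx p2 (n + h) ≠ n + h)).card +
      ((Finset.range n).filter (fun x => n ≤ nx p2 x)).card = n := by
    have hb := hbij (fun _ => 1)
    simp only [Finset.sum_const, smul_eq_mul, mul_one] at hb
    rw [hb, add_comm, Finset.card_filter_add_card_filter_not, Finset.card_range]
  -- the values of the hubs
  have e3 : ∑ x ∈ Finset.range n, endVal n w p1 p2 x =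
      ∑ x ∈ (Finset.range n).filter (fun x => n ≤ nx p2 x),
        (w x (nx p1 x) + w (nx p1 (nx p2 (nx p2 x))) (nx p2 (nx p2 x))) := by
    rw [Finset.sum_filter]
    refine Finset.sum_congr rfl (fun x hx => ?_)
    have hx' := Finset.mem_range.1 hx
    unfold endVal
    by_cases hE : isE n p1 p2 x = true
    · have h := Hub.isE_iff.1 hE
      rw [if_pos hE, if_pos (H.E_out hx' hE), h.2.1, h.2.2, (isPair_iff.1 h.1).2]
      ring
    · by_cases hU : isU n p1 p2 x = true
      · have h := Hub.isU_iff.1 hU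
        rw [if_neg hE, if_pos hU, if_pos (H.U_out hx' hU), h.2.1, h.2.2]
      · have h1 := H.out_lt hx' (Bool.eq_false_iff.2 hE) (Bool.eq_false_iff.2 hU)
        rw [if_neg hE, if_neg hU, if_neg (by omega)]
  rw [e3]
  simp only [Finset.sum_add_distrib, Finset.sum_const, smul_eq_mul]
  set a := ((Finset.range n).filter (fun h => ¬ nx p2 (n + h) ≠ n + h)).card
  set b := ((Finset.range n).filter (fun x => n ≤ nx p2 x)).card
  have e4 : 2 * (n * B) = a * (2 * B) + (b * B + b * B) := by
    rw [← hcard]
    ring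
  rw [e4]
  omega

/-- the value of the second assignment, node by node -/
theorem g2_value_v2 {n B : ℕ} {w : ℕ → ℕ → ℕ} {p1 p2 : List ℕ} (H : Hub n p1 p2) :
    ∑ i ∈ Finset.range (n + n), hw n B w p1 i (nx p2 i) =
      2 * (n * B) + ∑ x ∈ Finset.range n, v2 n w p1 p2 x := by
  rw [g2_value H, sum_arcs2, add_assoc, ← Finset.sum_add_distrib]
  congr 1
  refine Finset.sum_congr rfl (fun x hx => ?_)
  rw [v2_eq H (Finset.mem_range.1 hx)]

end Hub

/-- every order weighs at most the node-by-node value of the second assignment -/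
theorem g2_final {n C : ℕ} {w : ℕ → ℕ → ℕ} (hC : ∀ i j, w i j ≤ C) {p1 : List ℕ}
    (h1 : p1.Perm (List.range n)) (l : List ℕ) (hl : l.Nodup) (hln : ∀ x ∈ l, x < n) :
    2 * pw w l ≤ ∑ x ∈ Finset.range n, v2 n w p1 (asg2 n C w p1) x := by
  have h := g1 hC p1 l hl hln
  rw [Hub.g2_value_v2 (hub_of hC h1)] at h
  have e : 2 * (n * bonus n C) = 2 * bonus n C * n := by ring
  omega

end Vale.Agent.P333.T
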