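import Vale.Agent.P333.T.VExt
import Vale.Agent.P333.T.Deg
import Vale.Agent.P333.T.G2
import Vale.Agent.P333.M.Round

/-!
P333, box 2/3: the extension at a single node of the program.
-/

namespace Vale.Agent.P333.T

open Vale.Agent.P333.M (nx)

namespace StepX

open Deg

variable {n : ℕ} {p1 p2 : List ℕ} {D : List ℕ} {x : ℕ}

/-- the condition for new arcs -/
def PX (D : List ℕ) (x : ℕ) (e : ℕ × ℕ) : Bool :=
  (([x].contains e.1 || D.contains e.1) && ([x].contains e.2 || D.contains e.2)) &&
    !(D.contains e.1 && D.contains e.2)

theorem PX_iff {e : ℕ × ℕ} : PX D x e = true ↔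
    (e.1 = x ∨ e.1 ∈ D) ∧ (e.2 = x ∨ e.2 ∈ D) ∧ ¬ (e.1 ∈ D ∧ e.2 ∈ D) := by
  unfold PX
  simp only [Bool.and_eq_true, Bool.or_eq_true, List.contains_iff_mem, List.mem_singleton,
    Bool.not_eq_true', ← Bool.not_eq_true]
  tauto

/-- number of new arcs of the first assignment -/
def c1 (n : ℕ) (p1 p2 D : List ℕ) (x : ℕ) : ℕ :=
  ((Finset.range n).filter (fun y => Q1 n p1 p2 y ∧ PX D x (y, nx p1 y) = true)).card

/-- number of new arcs of the second assignment -/
def c2 (n : ℕ) (p1 p2 D : List ℕ) (x : ℕ) : ℕ :=
  ((Finset.range n).filter (fun y => Q2 n p1 p2 y ∧ PX D x (y, nx p2 y) = true)).card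

theorem new_len : (newArcs (arcs n p1 p2) D [x]).length = c1 n p1 p2 D x + c2 n p1 p2 D x := by
  unfold c1 c2
  rw [← len_arcs (n := n) (p1 := p1) (p2 := p2) (PX D x)]
  rfl

theorem PX_at {y s : ℕ} (h : PX D x (y, s) = true) : y = x ∨ s = x := by
  rw [PX_iff] at h
  tauto

theorem c1_two (H : Hub n p1 p2) : c1 n p1 p2 D x ≤ 2 := by
  refine card_two (a := x) (b := x) (f := nx p1) ?_ ?_
  · intro y hy z hz h
    rw [Finset.mem_filter, Finset.mem_range] at hy hz
    exact inj H.h1 hy.1 hz.1 h
  · intro y hy
    rw [Finset.mem_filter, Finset.mem_range] at hy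
    exact PX_at hy.2.2

theorem c2_two (H : Hub n p1 p2) : c2 n p1 p2 D x ≤ 2 := by
  refine card_two (a := x) (b := x) (f := nx p2) ?_ ?_
  · intro y hy z hz h
    rw [Finset.mem_filter, Finset.mem_range] at hy hz
    exact inj H.h2 (by omega) (by omega) h
  · intro y hy
    rw [Finset.mem_filter, Finset.mem_range] at hy
    exact PX_at hy.2.2

/-- the out-arc is missing -/
theorem c1_in (H : Hub n p1 p2) (h : Q1 n p1 p2 x → PX D x (x, nx p1 x) = true → False) :
    c1 n p1 p2 D x ≤ 1 := by
  refine card_head (b := x) (f := nx p1) ?_ ?_
  · intro y hy z hz h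
    rw [Finset.mem_filter, Finset.mem_range] at hy hz
    exact inj H.h1 hy.1 hz.1 h
  · intro y hy
    rw [Finset.mem_filter, Finset.mem_range] at hy
    rcases PX_at hy.2.2 with h2 | h2
    · subst h2
      exact (h hy.2.1 hy.2.2).elim
    · exact h2

/-- the in-arc is missing -/
theorem c1_out (h : ∀ y < n, Q1 n p1 p2 y → nx p1 y = x → PX D x (y, nx p1 y) = true → False) :
    c1 n p1 p2 D x ≤ 1 := by
  refine card_tail (a := x) ?_
  intro y hy
  rw [Finset.mem_filter, Finset.mem_range] at hy
  rcases PX_at hy.2.2 with h2 | h2
  · exact h2
  · exact (h y hy.1 hy.2.1 h2 hy.2.2).elim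

theorem c2_in (H : Hub n p1 p2) (h : Q2 n p1 p2 x → PX D x (x, nx p2 x) = true → False) :
    c2 n p1 p2 D x ≤ 1 := by
  refine card_head (b := x) (f := nx p2) ?_ ?_
  · intro y hy z hz h
    rw [Finset.mem_filter, Finset.mem_range] at hy hz
    exact inj H.h2 (by omega) (by omega) h
  · intro y hy
    rw [Finset.mem_filter, Finset.mem_range] at hy
    rcases PX_at hy.2.2 with h2 | h2
    · subst h2
      exact (h hy.2.1 hy.2.2).elim
    · exact h2

theorem c2_out (h : ∀ y < n, Q2 n p1 p2 y → nx p2 y = x → PX D x (y, nx p2 y) = true → False) :
    c2 n p1 p2 D x ≤ 1 := by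
  refine card_tail (a := x) ?_
  intro y hy
  rw [Finset.mem_filter, Finset.mem_range] at hy
  rcases PX_at hy.2.2 with h2 | h2
  · exact h2
  · exact (h y hy.1 hy.2.1 h2 hy.2.2).elim

theorem c1_zero (h : ∀ y < n, Q1 n p1 p2 y → y ≠ x ∧ nx p1 y ≠ x) : c1 n p1 p2 D x = 0 := by
  unfold c1
  rw [Finset.card_eq_zero, Finset.filter_eq_empty_iff]
  rintro y hy ⟨h1, h2⟩
  have h3 := h y (Finset.mem_range.1 hy) h1
  rcases PX_at h2 with h4 | h4
  · exact h3.1 h4
  · exact h3.2 h4

theorem c2_zero (h : ∀ y < n, Q2 n p1 p2 y → y ≠ x ∧ nx p2 y ≠ x) : c2 n p1 p2 D x = 0 := by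
  unfold c2
  rw [Finset.card_eq_zero, Finset.filter_eq_empty_iff]
  rintro y hy ⟨h1, h2⟩
  have h3 := h y (Finset.mem_range.1 hy) h1
  rcases PX_at h2 with h4 | h4
  · exact h3.1 h4
  · exact h3.2 h4

theorem idxNx {N : ℕ} {p : List ℕ} (hp : p.Perm (List.range N)) {y : ℕ} (hy : y < N) :
    p.idxOf (nx p y) = y :=
  M.Round.nx_inj hp (M.Round.idx_lt hp (M.Round.nx_lt hp hy)) hy
    (M.Round.nx_idx hp (M.Round.nx_lt hp hy))

/-- which nodes have mate `x` -/
theorem mate_eq {y : ℕ} (hx : x < n) (hyx : y ≠ x) (h : mate n p1 p2 y = x) :
    isPair p1 y = true ∧ isE n p1 p2 y = true ∧ nx p1 y = x := by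
  rcases mate_cases (n := n) (p1 := p1) (p2 := p2) y with g | g | g | g | g
  · exact absurd (g.2.symm.trans h) hyx
  · exact ⟨g.1, g.2.1, g.2.2.symm.trans h⟩
  · exact absurd (g.2.2.symm.trans h) hyx
  · exact absurd (g.2.2.symm.trans h) hyx
  · omega

end StepX

open StepX Deg

variable {n : ℕ} {p1 p2 : List ℕ} {D : List ℕ} {x : ℕ} {S : List ((ℕ × ℕ) × ℕ)}

/-- **The extension at a single node of the program.** -/
theorem step_node (H : Hub n p1 p2) (hx : x < n) (hN : isN n p1 p2 x = false)
    (hI : Inv (arcs n p1 p2) (mate n p1 p2) D S) (hxD : x ∉ D)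
    (hr : root p1 p2 x = false → ∃ y < n, (y = nx p1 x ∨ y = p1.idxOf x ∨ y = nx p2 x ∨
      y = p2.idxOf x) ∧ y ≠ x ∧ y ∉ D) :
    Ext (arcs n p1 p2) (mate n p1 p2) D [x] S := by
  have main : (newArcs (arcs n p1 p2) D [x]).length ≤ 3 ∧
      (2 ≤ (newArcs (arcs n p1 p2) D [x]).length →
        (∀ e ∈ arcs n p1 p2, e.1 ∈ D → e.1 ≠ mate n p1 p2 x) ∧
        (∀ y, isPair p1 y = true → isE n p1 p2 y = true → nx p1 y = x → False)) := by
    rw [new_len]
    by_cases h1 : nx p1 x = x
    · -- fixed by the first assignment
      have hz : c1 n p1 p2 D x = 0 := by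
        refine c1_zero ?_
        intro y hy hq
        have hne : nx p1 y ≠ y := by
          rcases hq with hq | hq
          · exact (long_iff.1 hq).1
          · exact (pair_iff.1 (N_iff.1 hq).1).1
        refine ⟨?_, ?_⟩
        · rintro rfl
          exact hne h1
        · intro h2
          have h3 : y = x := inj H.h1 hy hx (h2.trans h1.symm)
          subst h3
          exact hne h1
      have h2 := c2_two (D := D) (x := x) H
      refine ⟨by omega, fun _ => ⟨?_, ?_⟩⟩
      · intro e _ he1 h3
        have hm : mate n p1 p2 x = x := by unfold mate; rw [if_pos h1]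
        rw [hm] at h3
        exact hxD (h3 ▸ he1)
      · intro y hp _ hy
        have h3 := (pair_iff.1 hp)
        rw [hy, h1] at h3
        exact h3.1 h3.2
    · by_cases h2 : isPair p1 x = true
      · -- pairs
        have hp := pair_iff.1 h2
        have hz : c1 n p1 p2 D x = 0 := by
          refine c1_zero ?_
          have hno : ¬ Q1 n p1 p2 x := by
            rintro (h | h)
            · exact (long_iff.1 h).2 hp.2
            · rw [h] at hN; cases hN
          intro y hy hq
          refine ⟨?_, ?_⟩
          · rintro rfl
            exact hno hq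
          · intro h3
            have h4 : y = nx p1 x := inj H.h1 hy (lt H.h1 hx) (h3.trans hp.2.symm)
            subst h4
            rcases hq with hq | hq
            · exact (long_iff.1 hq).2 (by rw [hp.2])
            · rw [N_iff, hub_nx h2] at hq
              have : isN n p1 p2 x = true := N_iff.2 ⟨h2, hq.2⟩
              rw [this] at hN; cases hN
        rcases H.pair_cases hx h2 with h | h | h | h | h
        · rw [h] at hN; cases hN
        · -- isE x
          have hE := E_iff.1 h
          have h3 := c2_in (D := D) (x := x) H (by
            rintro ⟨h4, -⟩ -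
            have := hub_ge (n := n) (p1 := p1) x
            omega)
          exact ⟨by omega, fun h => by omega⟩
        · -- isE (nx p1 x)
          have hE := E_iff.1 h
          rw [hub_nx h2, hp.2] at hE
          have h3 := c2_out (n := n) (p1 := p1) (p2 := p2) (D := D) (x := x) (by
            intro y hy _ h5 _
            have h6 := hub_ge (n := n) (p1 := p1) x
            have h7 : hub n p1 x < n + n := by
              unfold hub
              have := min_le_left x (nx p1 x)
              omega
            have h8 : y = hub n p1 x := inj H.h2 (by omega) h7 (h5.trans hE.2.2.symm)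
            omega)
          exact ⟨by omega, fun h => by omega⟩
        · -- isU x
          have hU := U_iff.1 h
          have h3 := c2_zero (n := n) (p1 := p1) (p2 := p2) (D := D) (x := x) (by
            intro y hy hq
            have h6 := hub_ge (n := n) (p1 := p1) x
            have h7 : hub n p1 x < n + n := by
              unfold hub
              have := min_le_left x (nx p1 x)
              omega
            refine ⟨?_, ?_⟩
            · rintro rfl
              have := hq.1
              omega
            · intro h5
              have h8 : y = hub n p1 x := inj H.h2 (by omega) h7 (h5.trans hU.2.2.symm)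
              omega)
          exact ⟨by omega, fun h => by omega⟩
        · -- isU (nx p1 x)
          have hU := U_iff.1 h
          rw [hub_nx h2] at hU
          have h3 := c2_two (D := D) (x := x) H
          refine ⟨by omega, fun _ => ⟨?_, ?_⟩⟩
          · intro e _ he1 h5
            have hnE : isE n p1 p2 x ≠ true := by
              intro hE
              have hE' := E_iff.1 hE
              have h6 : x = nx p1 x :=
                inj H.h2 (by omega) (by have := lt H.h1 hx; omega) (hE'.2.1.trans hU.2.1.symm)
              exact h1 h6.symm
            have hm : mate n p1 p2 x = x := by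
              unfold mate
              rw [if_neg h1, if_pos h2, if_neg hnE, if_pos h]
            rw [hm] at h5
            exact hxD (h5 ▸ he1)
          · intro y hpy hEy hyx
            have h6 := (pair_iff.1 hpy).2
            rw [hyx] at h6
            rw [← h6] at hEy
            exact not_E_U hEy h
      · -- long cycles
        have hL : isLong p1 x = true := by
          rw [long_iff]
          exact ⟨h1, fun h => h2 (pair_iff.2 ⟨h1, h⟩)⟩
        have hnoE : ∀ y, isPair p1 y = true → isE n p1 p2 y = true → nx p1 y = x → False := by
          intro y hpy _ hyx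
          exact h2 (hyx ▸ pair_nx hpy)
        by_cases h3 : nx p2 x = x
        · have hz : c2 n p1 p2 D x = 0 := by
            refine c2_zero ?_
            intro y hy hq
            have hne : nx p2 y ≠ y := by
              intro h4
              have : near p1 y (nx p2 y) = true := near_iff.2 (Or.inl h4)
              rw [hq.2] at this
              cases this
            refine ⟨?_, ?_⟩
            · rintro rfl
              exact hne h3
            · intro h4
              have h5 : y = x := inj H.h2 (by omega) (by omega) (h4.trans h3.symm)
              subst h5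
              exact hne h3
          have h4 := c1_two (D := D) (x := x) H
          refine ⟨by omega, fun _ => ⟨?_, hnoE⟩⟩
          intro e _ he1 h5
          have hm : mate n p1 p2 x = x := by
            unfold mate
            rw [if_neg h1, if_neg h2, if_pos h3]
          rw [hm] at h5
          exact hxD (h5 ▸ he1)
        · have hroot : root p1 p2 x = false := by
            unfold root
            rw [hL]
            simpa using h3
          have k1 := c1_two (D := D) (x := x) H
          have k2 := c2_two (D := D) (x := x) H
          refine ⟨?_, fun _ => ⟨?_, hnoE⟩⟩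
          · obtain ⟨y, hy, hyn, hyx, hyD⟩ := hr hroot
            rcases hyn with rfl | rfl | rfl | rfl
            · have h5 := c1_in (D := D) (x := x) H (by
                intro _ h6
                rw [PX_iff] at h6
                rcases h6.2.1 with h7 | h7
                · exact hyx h7
                · exact hyD h7)
              omega
            · have h5 := c1_out (n := n) (p1 := p1) (p2 := p2) (D := D) (x := x) (by
                intro z hz _ h6 h7
                have h8 : p1.idxOf x = z := by rw [← h6]; exact idxNx H.h1 hz
                rw [h8] at hyx hyD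
                rw [PX_iff] at h7
                rcases h7.1 with h9 | h9
                · exact hyx h9
                · exact hyD h9)
              omega
            · have h5 := c2_in (D := D) (x := x) H (by
                intro _ h6
                rw [PX_iff] at h6
                rcases h6.2.1 with h7 | h7
                · exact hyx h7
                · exact hyD h7)
              omega
            · have h5 := c2_out (n := n) (p1 := p1) (p2 := p2) (D := D) (x := x) (by
                intro z hz _ h6 h7
                have h8 : p2.idxOf x = z := by rw [← h6]; exact idxNx H.h2 (by omega)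
                rw [h8] at hyx hyD
                rw [PX_iff] at h7
                rcases h7.1 with h9 | h9
                · exact hyx h9
                · exact hyD h9)
              omega
          · intro e he _ h5
            have hm : mate n p1 p2 x = n + n := by
              unfold mate
              rw [if_neg h1, if_neg h2, if_neg h3]
            have := (arcs_lt H he).1
            omega
  refine ext_node hI hxD (fun e he => ⟨(arcs_lt H he).2.2, mate_ne H he⟩) ?_ ?_ main.1 ?_
  · intro e he
    exact tail_deg H (arcs_lt H he).1
  · intro e he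
    exact head_deg H (arcs_lt H he).2.1
  · intro h2 e he h3 h4
    refine ⟨(main.2 h2).1 e he h3, fun h5 => ?_⟩
    obtain ⟨g1, g2, g3⟩ := mate_eq hx (fun h6 => hxD (h6 ▸ h4)) h5
    exact (main.2 h2).2 e.2 g1 g2 g3

end Vale.Agent.P333.T
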