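import Vale.Agent.P333.T.STwrap
import Vale.Agent.P333.T.StepX
import Vale.Agent.P333.T.StepN

/-!
P333, box 2/3: the colouring of the program is an admissible colouring with three colours of all
arcs between nodes of finite level.
-/

namespace Vale.Agent.P333.T

open Vale.Agent.P333.M (nx)

theorem colOf_spec {n : ℕ} {p1 p2 : List ℕ} (H : Hub n p1 p2) :
    Good (mate n p1 p2) (colOf n p1 p2) ∧
    ((colOf n p1 p2).map Prod.fst).Perm ((arcs n p1 p2).filter
      (fun e => !(level n p1 p2 e.1 == n + 1) && !(level n p1 p2 e.2 == n + 1))) ∧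
    ∀ a ∈ colOf n p1 p2, a.2 < 3 := by
  have hI := colOf_wrap H.h1
    (fun x hx hN D S hxD _ hr hI => step_node H hx hN hI hxD hr)
    (Pr.hpair H)
  exact ⟨good_iff_Good.1 hI.good,
    colOf_perm H.h1 (fun e he => ⟨(arcs_lt H he).1, (arcs_lt H he).2.1⟩) hI, hI.lt⟩

end Vale.Agent.P333.T
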