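import Vale.Agent.P333.T.Paint

/-!
P333, box T: the fold `colour`. If in every state of the fold the new arcs have an admissible
colouring, then the final state is an admissible colouring of all arcs inside the processed nodes.
-/

namespace Vale.Agent.P333.T

/-- the arcs with both ends in `D` -/
def inside (E : List (ℕ × ℕ)) (D : List ℕ) : List (ℕ × ℕ) :=
  E.filter (fun e => D.contains e.1 && D.contains e.2)

theorem mem_inside {E : List (ℕ × ℕ)} {D : List ℕ} {e : ℕ × ℕ} :
    e ∈ inside E D ↔ e ∈ E ∧ e.1 ∈ D ∧ e.2 ∈ D := by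
  simp [inside]

theorem mem_newArcs {E : List (ℕ × ℕ)} {D U : List ℕ} {e : ℕ × ℕ} :
    e ∈ newArcs E D U ↔ e ∈ E ∧ (e.1 ∈ U ∨ e.1 ∈ D) ∧ (e.2 ∈ U ∨ e.2 ∈ D) ∧
      ¬ (e.1 ∈ D ∧ e.2 ∈ D) := by
  simp only [newArcs, List.mem_filter, Bool.and_eq_true, Bool.or_eq_true, List.contains_iff_mem,
    Bool.not_eq_true', Bool.and_eq_false_iff]
  constructor
  · rintro ⟨h1, ⟨h2, h3⟩, h4⟩
    refine ⟨h1, h2, h3, ?_⟩
    rintro ⟨h5, h6⟩
    rcases h4 with h4 | h4
    · rw [← List.contains_iff_mem] at h5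
      rw [h5] at h4
      exact absurd h4 (by simp)
    · rw [← List.contains_iff_mem] at h6
      rw [h6] at h4
      exact absurd h4 (by simp)
  · rintro ⟨h1, h2, h3, h4⟩
    refine ⟨h1, ⟨h2, h3⟩, ?_⟩
    by_contra hc
    push Not at hc
    apply h4
    constructor
    · rw [← List.contains_iff_mem]
      simpa using hc.1
    · rw [← List.contains_iff_mem]
      simpa using hc.2

/-- the arcs of the enlarged set of nodes -/
theorem inside_step (E : List (ℕ × ℕ)) (D U : List ℕ) :
    (newArcs E D U ++ inside E D).Perm (inside E (U ++ D)) := by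
  have h := List.filter_append_perm (fun e : ℕ × ℕ => !(D.contains e.1 && D.contains e.2))
    (inside E (U ++ D))
  have e1 : (inside E (U ++ D)).filter (fun e => !(D.contains e.1 && D.contains e.2)) =
      newArcs E D U := by
    rw [inside, newArcs, List.filter_filter]
    apply List.filter_congr
    intro e _
    simp only [List.contains_eq_mem, List.mem_append, Bool.decide_or]
    rw [Bool.and_comm]
  have e2 : (inside E (U ++ D)).filter (fun e => !!(D.contains e.1 && D.contains e.2)) =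
      inside E D := by
    rw [inside, inside, List.filter_filter]
    apply List.filter_congr
    intro e _
    simp only [List.contains_eq_mem, List.mem_append, Bool.decide_or, Bool.not_not]
    cases decide (e.1 ∈ D) <;> cases decide (e.2 ∈ D) <;> simp
  rw [e1, e2] at h
  exact h

/-- the invariant of the fold -/
structure Inv (E : List (ℕ × ℕ)) (m : ℕ → ℕ) (D : List ℕ) (S : List ((ℕ × ℕ) × ℕ)) : Prop where
  perm : (S.map (fun a => a.1)).Perm (inside E D)
  good : good m S = true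
  lt : ∀ a ∈ S, a.2 < 3

theorem good_nil (m : ℕ → ℕ) : good m [] = true := by
  simp [good, cls, lfb, nodupB, acyc, thinB]

theorem Inv.nil (E : List (ℕ × ℕ)) (m : ℕ → ℕ) : Inv E m [] [] := by
  refine ⟨?_, good_nil m, by simp⟩
  simp [inside]

/-- every arc inside `D` has a colour -/
theorem Inv.mem_iff {E : List (ℕ × ℕ)} {m : ℕ → ℕ} {D : List ℕ} {S : List ((ℕ × ℕ) × ℕ)}
    (h : Inv E m D S) (e : ℕ × ℕ) : (∃ t, (e, t) ∈ S) ↔ e ∈ E ∧ e.1 ∈ D ∧ e.2 ∈ D := by
  rw [← mem_inside, ← h.perm.mem_iff, List.mem_map]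
  constructor
  · rintro ⟨t, ht⟩
    exact ⟨(e, t), ht, rfl⟩
  · rintro ⟨⟨a, t⟩, ha, rfl⟩
    exact ⟨t, ha⟩

theorem Inv.of_mem {E : List (ℕ × ℕ)} {m : ℕ → ℕ} {D : List ℕ} {S : List ((ℕ × ℕ) × ℕ)}
    (h : Inv E m D S) {a : (ℕ × ℕ) × ℕ} (ha : a ∈ S) :
    a.1 ∈ E ∧ a.1.1 ∈ D ∧ a.1.2 ∈ D ∧ a.2 < 3 := by
  have := (h.mem_iff a.1).1 ⟨a.2, ha⟩
  exact ⟨this.1, this.2.1, this.2.2, h.lt a ha⟩

/-- admissible colourings of the new arcs exist -/
def Ext (E : List (ℕ × ℕ)) (m : ℕ → ℕ) (D U : List ℕ) (S : List ((ℕ × ℕ) × ℕ)) : Prop :=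
  (newArcs E D U).length ≤ 6 ∧ ∃ cs : List ℕ, cs.length = (newArcs E D U).length ∧
    (∀ c ∈ cs, c < 3) ∧ good m ((newArcs E D U).zip cs ++ S) = true

/-- a colouring given by a function is enough -/
theorem Ext.of_map {E : List (ℕ × ℕ)} {m : ℕ → ℕ} {D U : List ℕ} {S : List ((ℕ × ℕ) × ℕ)}
    (hl : (newArcs E D U).length ≤ 6) (f : ℕ × ℕ → ℕ) (hf : ∀ e ∈ newArcs E D U, f e < 3)
    (hg : good m ((newArcs E D U).map (fun e => (e, f e)) ++ S) = true) : Ext E m D U S := by
  refine ⟨hl, (newArcs E D U).map f, by simp, ?_, ?_⟩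
  · intro c hc
    obtain ⟨e, he, rfl⟩ := List.mem_map.1 hc
    exact hf e he
  · rw [List.zip_map_right, List.zip_eq_zipWith, List.zipWith_self, List.map_map]
    exact hg

/-- one step -/
theorem Inv.step {E : List (ℕ × ℕ)} {m : ℕ → ℕ} {s : List ℕ × List ((ℕ × ℕ) × ℕ)}
    (h : Inv E m s.1 s.2) {U : List ℕ} (hx : Ext E m s.1 U s.2) :
    Inv E m (stepU E m s U).1 (stepU E m s U).2 := by
  obtain ⟨hlen, cs, hcl, hcs, hg⟩ := hx
  refine ⟨?_, find_good_of_zip _ hlen m _ cs hcl hcs hg, ?_⟩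
  · simp only [stepU, List.map_append, paint_arcs]
    exact (h.perm.append_left _).trans (inside_step E s.1 U)
  · intro a ha
    simp only [stepU, List.mem_append] at ha
    rcases ha with ha | ha
    · exact paint_lt _ _ a ha
    · exact h.lt a ha

/-- the nodes processed after the units `A` -/
def done (A : List (List ℕ)) : List ℕ := A.reverse.flatten

theorem mem_done {A : List (List ℕ)} {x : ℕ} : x ∈ done A ↔ ∃ U ∈ A, x ∈ U := by
  simp [done]

theorem done_snoc (A : List (List ℕ)) (U : List ℕ) : done (A ++ [U]) = U ++ done A := by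
  simp [done]

theorem fold_inv (E : List (ℕ × ℕ)) (m : ℕ → ℕ) (L : List (List ℕ))
    (hx : ∀ A U B, L = A ++ U :: B → ∀ S, Inv E m (done A) S → Ext E m (done A) U S) :
    ∀ (B A : List (List ℕ)) (s : List ℕ × List ((ℕ × ℕ) × ℕ)), L = A ++ B → s.1 = done A →
      Inv E m s.1 s.2 → (B.foldl (stepU E m) s).1 = done L ∧
        Inv E m (done L) (B.foldl (stepU E m) s).2 := by
  intro B
  induction B with
  | nil =>
    intro A s hL hs h
    rw [List.append_nil] at hL
    subst hL
    rw [← hs]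
    exact ⟨rfl, h⟩
  | cons U B ih =>
    intro A s hL hs h
    rw [List.foldl_cons]
    have hE : Ext E m s.1 U s.2 := by
      rw [hs] at h ⊢
      exact hx A U B hL s.2 h
    refine ih (A ++ [U]) (stepU E m s U) (by rw [hL]; simp) ?_ (h.step hE)
    rw [done_snoc, ← hs]
    rfl

/-- THE FOLD: if every state can be extended, the result is an admissible colouring of all arcs
between processed nodes -/
theorem colour_inv (E : List (ℕ × ℕ)) (m : ℕ → ℕ) (L : List (List ℕ))
    (hx : ∀ A U B, L = A ++ U :: B → ∀ S, Inv E m (done A) S → Ext E m (done A) U S) :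
    Inv E m (done L) (colour E m L) :=
  (fold_inv E m L hx L [] ([], []) rfl rfl (Inv.nil E m)).2

end Vale.Agent.P333.T
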