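import Vale.Agent.P333.T.HubOf
import Vale.Agent.P333.T.Chk
import Vale.Agent.P333.T.Fold

/-!
P333, box 2/3: how many arcs there are at a node.
-/

namespace Vale.Agent.P333.T.Dg2

open Vale.Agent.P333 Vale.Agent.P333.M Vale.Agent.P333.T

variable {n : ℕ} {p1 p2 : List ℕ}

/-! ### counting in lists -/

theorem length_le_one_of {l : List ℕ} (h1 : l.Nodup) (h2 : ∀ x ∈ l, ∀ y ∈ l, x = y) :
    l.length ≤ 1 := by
  match l with
  | [] => simp
  | [_] => simp
  | a :: b :: l =>
    exfalso
    have h3 : a = b := h2 a (by simp) b (by simp)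
    rw [h3] at h1
    simp at h1

/-- at most one entry -/
theorem len_one (r : ℕ → Bool) (g : ℕ → ℕ) (q : ℕ × ℕ → Bool)
    (h : ∀ x < n, ∀ y < n, r x = true → r y = true → q (x, g x) = true → q (y, g y) = true →
      x = y) :
    (((((List.range n).filter r).map (fun x => (x, g x))).filter q)).length ≤ 1 := by
  rw [List.filter_map, List.length_map]
  refine length_le_one_of ((List.nodup_range.filter _).filter _) fun x hx y hy => ?_
  rw [List.mem_filter, List.mem_filter, List.mem_range] at hx hy
  exact h x hx.1.1 y hy.1.1 hx.1.2 hy.1.2 hx.2 hy.2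

/-- no entry -/
theorem len_zero (r : ℕ → Bool) (g : ℕ → ℕ) (q : ℕ × ℕ → Bool)
    (h : ∀ x < n, r x = true → q (x, g x) = true → False) :
    (((((List.range n).filter r).map (fun x => (x, g x))).filter q)).length = 0 := by
  rw [List.length_eq_zero_iff, List.filter_eq_nil_iff]
  intro e he
  rw [List.mem_map] at he
  obtain ⟨x, hx, rfl⟩ := he
  rw [List.mem_filter, List.mem_range] at hx
  exact fun hq => h x hx.1 hx.2 hq

/-- a condition that is a disjunction -/
theorem len_or {α : Type*} (l : List α) (q q1 q2 : α → Bool)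
    (h : ∀ e ∈ l, q e = true → q1 e = true ∨ q2 e = true) :
    (l.filter q).length ≤ (l.filter q1).length + (l.filter q2).length := by
  rw [← List.countP_eq_length_filter, ← List.countP_eq_length_filter,
    ← List.countP_eq_length_filter]
  induction l with
  | nil => simp
  | cons a l ih =>
    have ih' := ih fun e he => h e (List.mem_cons_of_mem _ he)
    have ha := h a List.mem_cons_self
    rw [List.countP_cons, List.countP_cons, List.countP_cons]
    cases h0 : q a
    · simp only [Bool.false_eq_true, if_false]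
      omega
    · rcases ha h0 with h1 | h1
      · rw [h1]
        simp only [if_true]
        omega
      · rw [h1]
        simp only [if_true]
        omega

/-! ### the two assignments -/

/-- there is an ordinary arc of the second assignment out of `a` -/
def O2 (n : ℕ) (p1 p2 : List ℕ) (a : ℕ) : Prop := nx p2 a < n ∧ near p1 a (nx p2 a) = false

/-- there is an ordinary arc of the second assignment into `b` -/
def I2 (n : ℕ) (p1 p2 : List ℕ) (b : ℕ) : Prop := ∃ x < n, nx p2 x = b ∧ near p1 x b = false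

theorem long_iff {x : ℕ} : isLong p1 x = true ↔ nx p1 x ≠ x ∧ nx p1 (nx p1 x) ≠ x := by
  simp [isLong]

theorem pair_iff {x : ℕ} : isPair p1 x = true ↔ nx p1 x ≠ x ∧ nx p1 (nx p1 x) = x := by
  simp [isPair]

theorem near_iff {x y : ℕ} : near p1 x y = true ↔ y = x ∨ (isPair p1 x = true ∧ y = nx p1 x) := by
  simp [near]

theorem not_pair_of_long {x : ℕ} (h : isLong p1 x = true) : isPair p1 x = false := by
  rw [long_iff] at h
  rw [← Bool.not_eq_true, pair_iff]
  exact fun h2 => h.2 h2.2

theorem not_long_of_pair {x : ℕ} (h : isPair p1 x = true) : isLong p1 x = false := by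
  rw [pair_iff] at h
  rw [← Bool.not_eq_true, long_iff]
  exact fun h2 => h2.2 h.2

theorem pair_nx {x : ℕ} (h : isPair p1 x = true) : isPair p1 (nx p1 x) = true := by
  rw [pair_iff] at h ⊢
  refine ⟨?_, by rw [h.2]⟩
  rw [h.2]
  exact fun h2 => h.1 h2.symm

theorem hub_nx {x : ℕ} (h : isPair p1 x = true) : hub n p1 (nx p1 x) = hub n p1 x := by
  rw [pair_iff] at h
  unfold hub
  rw [h.2, min_comm]

theorem hub_ge (x : ℕ) : n ≤ hub n p1 x := by unfold hub; omega

theorem hub_lt {x : ℕ} (hx : x < n) : hub n p1 x < n + n := by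
  unfold hub
  have : min x (nx p1 x) ≤ x := min_le_left _ _
  omega

theorem E_iff {x : ℕ} : isE n p1 p2 x = true ↔ isPair p1 x = true ∧ nx p2 x = hub n p1 x ∧
    nx p2 (hub n p1 x) = nx p1 x := by
  simp [isE, and_assoc]

theorem U_iff {x : ℕ} : isU n p1 p2 x = true ↔ isPair p1 x = true ∧ nx p2 x = hub n p1 x ∧
    nx p2 (hub n p1 x) = x := by
  simp [isU, and_assoc]

theorem N_iff {x : ℕ} : isN n p1 p2 x = true ↔ isPair p1 x = true ∧
    nx p2 (hub n p1 x) = hub n p1 x := by
  simp [isN]

section

variable (H : Hub n p1 p2)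
include H

theorem inj1 {x y : ℕ} (hx : x < n) (hy : y < n) (h : nx p1 x = nx p1 y) : x = y :=
  T.nx_inj H.h1 hx hy h

theorem inj2 {x y : ℕ} (hx : x < n + n) (hy : y < n + n) (h : nx p2 x = nx p2 y) : x = y :=
  T.nx_inj H.h2 hx hy h

theorem lt1 {x : ℕ} (hx : x < n) : nx p1 x < n := T.nx_lt H.h1 hx

omit H in
theorem fix_no_O {a : ℕ} (h : nx p2 a = a) : ¬ O2 n p1 p2 a := by
  rintro ⟨-, h2⟩
  rw [← Bool.not_eq_true, near_iff] at h2
  exact h2 (Or.inl h)

theorem fix_no_I {a : ℕ} (ha : a < n) (h : nx p2 a = a) : ¬ I2 n p1 p2 a := by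
  rintro ⟨x, hx, h1, h2⟩
  have : x = a := inj2 H (by omega) (by omega) (h1.trans h.symm)
  rw [this, ← Bool.not_eq_true, near_iff] at h2
  exact h2 (Or.inl rfl)

omit H in
theorem E_no_O {a : ℕ} (h : isE n p1 p2 a = true) : ¬ O2 n p1 p2 a := by
  rintro ⟨h1, -⟩
  rw [E_iff] at h
  have := hub_ge (n := n) (p1 := p1) a
  omega

omit H in
theorem U_no_O {a : ℕ} (h : isU n p1 p2 a = true) : ¬ O2 n p1 p2 a := by
  rintro ⟨h1, -⟩
  rw [U_iff] at h
  have := hub_ge (n := n) (p1 := p1) a
  omega

theorem E_no_I {a : ℕ} (ha : a < n) (h : isE n p1 p2 a = true) : ¬ I2 n p1 p2 (nx p1 a) := by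
  rintro ⟨x, hx, h1, -⟩
  rw [E_iff] at h
  have h3 := hub_ge (n := n) (p1 := p1) a
  have h4 := hub_lt (p1 := p1) ha
  have : x = hub n p1 a := inj2 H (by omega) (by omega) (h1.trans h.2.2.symm)
  omega

theorem U_no_I {a : ℕ} (ha : a < n) (h : isU n p1 p2 a = true) : ¬ I2 n p1 p2 a := by
  rintro ⟨x, hx, h1, -⟩
  rw [U_iff] at h
  have h3 := hub_ge (n := n) (p1 := p1) a
  have h4 := hub_lt (p1 := p1) ha
  have : x = hub n p1 a := inj2 H (by omega) (by omega) (h1.trans h.2.2.symm)
  omega

/-- both nodes of a pair go to the hub: impossible -/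
theorem not_both {a : ℕ} (ha : a < n) (hp : isPair p1 a = true) (h1 : nx p2 a = hub n p1 a)
    (h2 : nx p2 (nx p1 a) = hub n p1 a) : False := by
  have h3 : a = nx p1 a := inj2 H (by omega) (by have := lt1 H ha; omega) (h1.trans h2.symm)
  rw [pair_iff] at hp
  exact hp.1 h3.symm

theorem E_excl {a : ℕ} (ha : a < n) (h : isE n p1 p2 a = true) :
    isE n p1 p2 (nx p1 a) = false ∧ isU n p1 p2 a = false ∧ isU n p1 p2 (nx p1 a) = false ∧
      isN n p1 p2 a = false ∧ isN n p1 p2 (nx p1 a) = false := by
  rw [E_iff] at h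
  obtain ⟨hp, h1, h2⟩ := h
  have hh := hub_nx (n := n) hp
  have h3 := hub_ge (n := n) (p1 := p1) a
  have h4 := lt1 H ha
  have hp' := (pair_iff.1 hp)
  refine ⟨?_, ?_, ?_, ?_, ?_⟩
  · rw [← Bool.not_eq_true, E_iff, hh]
    exact fun h => not_both H ha hp h1 h.2.1
  · rw [← Bool.not_eq_true, U_iff]
    exact fun h => hp'.1 (h2.symm.trans h.2.2)
  · rw [← Bool.not_eq_true, U_iff, hh]
    exact fun h => not_both H ha hp h1 h.2.1
  · rw [← Bool.not_eq_true, N_iff]
    intro h
    have := h2.symm.trans h.2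
    omega
  · rw [← Bool.not_eq_true, N_iff, hh]
    intro h
    have := h2.symm.trans h.2
    omega

theorem U_excl {a : ℕ} (ha : a < n) (h : isU n p1 p2 a = true) :
    isE n p1 p2 a = false ∧ isE n p1 p2 (nx p1 a) = false ∧ isU n p1 p2 (nx p1 a) = false ∧
      isN n p1 p2 a = false ∧ isN n p1 p2 (nx p1 a) = false := by
  rw [U_iff] at h
  obtain ⟨hp, h1, h2⟩ := h
  have hh := hub_nx (n := n) hp
  have h3 := hub_ge (n := n) (p1 := p1) a
  have hp' := (pair_iff.1 hp)
  refine ⟨?_, ?_, ?_, ?_, ?_⟩
  · rw [← Bool.not_eq_true, E_iff]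
    exact fun h => hp'.1 (h.2.2.symm.trans h2)
  · rw [← Bool.not_eq_true, E_iff, hh]
    exact fun h => not_both H ha hp h1 h.2.1
  · rw [← Bool.not_eq_true, U_iff, hh]
    exact fun h => not_both H ha hp h1 h.2.1
  · rw [← Bool.not_eq_true, N_iff]
    intro h
    have := h2.symm.trans h.2
    omega
  · rw [← Bool.not_eq_true, N_iff, hh]
    intro h
    have := h2.symm.trans h.2
    omega

/-! ### arcs out of `a` and into `b` -/

omit H in
open Classical in
theorem out_count (a : ℕ) (q : ℕ × ℕ → Bool) (hq : ∀ f, q f = true → f.1 = a) :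
    ((arcs n p1 p2).filter q).length ≤ (if isLong p1 a = true then 1 else 0) +
      ((if O2 n p1 p2 a then 1 else 0) + (if isN n p1 p2 a = true then 1 else 0)) := by
  unfold arcs arcs1 arcs2 arcsN
  rw [List.filter_append, List.filter_append, List.length_append, List.length_append]
  refine Nat.add_le_add ?_ (Nat.add_le_add ?_ ?_)
  · split_ifs with h
    · exact len_one _ _ _ fun x _ y _ _ _ h1 h2 => (hq _ h1).trans (hq _ h2).symm
    · refine le_of_eq (len_zero _ _ _ fun x _ h1 h2 => h ?_)
      have : x = a := hq _ h2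
      rwa [← this]
  · split_ifs with h
    · exact len_one _ _ _ fun x _ y _ _ _ h1 h2 => (hq _ h1).trans (hq _ h2).symm
    · refine le_of_eq (len_zero _ _ _ fun x _ h1 h2 => h ?_)
      have h3 : x = a := hq _ h2
      rw [← h3]
      simp only [Bool.and_eq_true, Bool.not_eq_true', Nat.blt_eq] at h1
      exact ⟨h1.1, h1.2⟩
  · split_ifs with h
    · exact len_one _ _ _ fun x _ y _ _ _ h1 h2 => (hq _ h1).trans (hq _ h2).symm
    · refine le_of_eq (len_zero _ _ _ fun x _ h1 h2 => h ?_)
      have : x = a := hq _ h2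
      rwa [← this]

omit H in
theorem N_nx {x : ℕ} (h : isN n p1 p2 x = true) : isN n p1 p2 (nx p1 x) = true := by
  rw [N_iff] at h ⊢
  rw [hub_nx h.1]
  exact ⟨pair_nx h.1, h.2⟩

theorem long_nx {x : ℕ} (hx : x < n) (h : isLong p1 x = true) :
    isLong p1 (nx p1 x) = true := by
  rw [long_iff] at h ⊢
  have h1 := lt1 H hx
  have h2 := lt1 H h1
  constructor
  · intro h3
    exact h.1 (inj1 H h1 hx h3)
  · intro h3
    exact h.2 (inj1 H h2 hx h3)

open Classical in
theorem in_count (b : ℕ) (q : ℕ × ℕ → Bool) (hq : ∀ f, q f = true → f.2 = b) :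
    ((arcs n p1 p2).filter q).length ≤ (if isLong p1 b = true then 1 else 0) +
      ((if I2 n p1 p2 b then 1 else 0) + (if isN n p1 p2 b = true then 1 else 0)) := by
  unfold arcs arcs1 arcs2 arcsN
  rw [List.filter_append, List.filter_append, List.length_append, List.length_append]
  refine Nat.add_le_add ?_ (Nat.add_le_add ?_ ?_)
  · split_ifs with h
    · exact len_one _ _ _ fun x hx y hy _ _ h1 h2 => inj1 H hx hy ((hq _ h1).trans (hq _ h2).symm)
    · refine le_of_eq (len_zero _ _ _ fun x hx h1 h2 => h ?_)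
      have h3 : nx p1 x = b := hq _ h2
      rw [← h3]
      exact long_nx H hx h1
  · split_ifs with h
    · exact len_one _ _ _ fun x hx y hy _ _ h1 h2 =>
        inj2 H (by omega) (by omega) ((hq _ h1).trans (hq _ h2).symm)
    · refine le_of_eq (len_zero _ _ _ fun x hx h1 h2 => h ?_)
      have h3 : nx p2 x = b := hq _ h2
      simp only [Bool.and_eq_true, Bool.not_eq_true', Nat.blt_eq] at h1
      exact ⟨x, hx, h3, by rw [← h3]; exact h1.2⟩
  · split_ifs with h
    · exact len_one _ _ _ fun x hx y hy _ _ h1 h2 => inj1 H hx hy ((hq _ h1).trans (hq _ h2).symm)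
    · refine le_of_eq (len_zero _ _ _ fun x hx h1 h2 => h ?_)
      have h3 : nx p1 x = b := hq _ h2
      rw [← h3]
      exact N_nx h1

/-! ### the thin condition -/

omit H in
/-- the nodes whose mate is `a` -/
theorem mate_eq {z a : ℕ} (ha : a < n) (h : mate n p1 p2 z = a) :
    (z = a ∧ (nx p1 a = a ∨ (isPair p1 a = true ∧ isE n p1 p2 a = false ∧
      isU n p1 p2 (nx p1 a) = true) ∨ (isLong p1 a = true ∧ nx p2 a = a))) ∨
      (isE n p1 p2 z = true ∧ nx p1 z = a) := by
  unfold mate at h
  split_ifs at h with h1 h2 h3 h4 h5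
  · subst h
    exact Or.inl ⟨rfl, Or.inl h1⟩
  · exact Or.inr ⟨h3, h⟩
  · subst h
    exact Or.inl ⟨rfl, Or.inr (Or.inl ⟨h2, by simpa using h3, h4⟩)⟩
  · omega
  · subst h
    refine Or.inl ⟨rfl, Or.inr (Or.inr ⟨?_, h5⟩)⟩
    rw [long_iff]
    refine ⟨h1, fun h6 => ?_⟩
    rw [pair_iff] at h2
    exact h2 ⟨h1, h6⟩
  · omega

omit H in
/-- the mate of `x` -/
theorem mate_self (x : ℕ) : mate n p1 p2 x = x ∨ mate n p1 p2 x = n + n ∨
    (isE n p1 p2 x = true ∧ mate n p1 p2 x = nx p1 x) := by
  unfold mate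
  split_ifs with h1 h2 h3 h4 h5
  · exact Or.inl rfl
  · exact Or.inr (Or.inr ⟨h3, rfl⟩)
  · exact Or.inl rfl
  · exact Or.inr (Or.inl rfl)
  · exact Or.inl rfl
  · exact Or.inr (Or.inl rfl)

/-- the mate of a node with an arc of an unused pair -/
theorem mate_N {x : ℕ} (hx : x < n) (h : isN n p1 p2 x = true) : mate n p1 p2 x = n + n := by
  have h0 := N_iff.1 h
  have hp := pair_iff.1 h0.1
  have hE : isE n p1 p2 x = false := by
    rw [← Bool.not_eq_true]
    intro hE
    have := (E_excl H hx hE).2.2.2.1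
    rw [h] at this
    exact absurd this (by simp)
  have hU : isU n p1 p2 (nx p1 x) = false := by
    rw [← Bool.not_eq_true]
    intro hU
    have := (U_excl H (lt1 H hx) hU).2.2.2.2
    rw [hp.2, h] at this
    exact absurd this (by simp)
  unfold mate
  rw [if_neg hp.1, if_pos h0.1, hE, hU]
  simp

theorem arc_lt {e : ℕ × ℕ} (he : e ∈ arcs n p1 p2) : e.1 < n ∧ e.2 < n ∧ e.1 ≠ e.2 := by
  rcases mem_arcs.1 he with ⟨h1, h2, h3⟩ | ⟨h1, h2, h3, h4⟩ | ⟨h1, h2, h3⟩
  · rw [h3]
    exact ⟨h1, lt1 H h1, fun h => (long_iff.1 h2).1 h.symm⟩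
  · rw [h4]
    refine ⟨h1, h2, fun h => ?_⟩
    rw [← Bool.not_eq_true, near_iff] at h3
    exact h3 (Or.inl h.symm)
  · rw [h3]
    exact ⟨h1, lt1 H h1, fun h => (pair_iff.1 (N_iff.1 h2).1).1 h.symm⟩

theorem arc_mate {e : ℕ × ℕ} (he : e ∈ arcs n p1 p2) : e.1 ≠ mate n p1 p2 e.2 := by
  intro h
  obtain ⟨h1, h2, h3⟩ := arc_lt H he
  rcases mate_eq h1 h.symm with ⟨h4, -⟩ | ⟨h4, h5⟩
  · exact h3 h4.symm
  · have hz := (E_iff.1 h4).1
    have ha : isPair p1 e.1 = true := by rw [← h5]; exact pair_nx hz
    have hza : nx p1 e.1 = e.2 := by rw [← h5]; exact (pair_iff.1 hz).2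
    rcases mem_arcs.1 he with ⟨-, h6, -⟩ | ⟨-, -, h6, h7⟩ | ⟨-, h6, -⟩
    · rw [not_long_of_pair ha] at h6
      exact absurd h6 (by simp)
    · rw [← Bool.not_eq_true, near_iff, ← h7] at h6
      exact h6 (Or.inr ⟨ha, hza.symm⟩)
    · have := (E_excl H h2 h4).2.2.2.2
      rw [h5, h6] at this
      exact absurd this (by simp)

open Classical in
/-- the number of arcs out of `a` and into `z` -/
theorem two_count (a z : ℕ) (q : ℕ × ℕ → Bool)
    (hq : ∀ f ∈ arcs n p1 p2, q f = true → f.1 = a ∨ f.2 = z) :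
    ((arcs n p1 p2).filter q).length ≤
      ((if isLong p1 a = true then 1 else 0) +
      ((if O2 n p1 p2 a then 1 else 0) + (if isN n p1 p2 a = true then 1 else 0))) +
      ((if isLong p1 z = true then 1 else 0) +
      ((if I2 n p1 p2 z then 1 else 0) + (if isN n p1 p2 z = true then 1 else 0))) := by
  refine (len_or _ q (fun f => decide (f.1 = a)) (fun f => decide (f.2 = z))
    fun f hf h => ?_).trans (Nat.add_le_add (out_count a _ fun f hf => by simpa using hf)
      (in_count H z _ fun f hf => by simpa using hf))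
  simpa using hq f hf h

omit H in
open Classical in
theorem out_count' (a : ℕ) (q : ℕ × ℕ → Bool)
    (hq : ∀ f ∈ arcs n p1 p2, q f = true → f.1 = a) :
    ((arcs n p1 p2).filter q).length ≤ (if isLong p1 a = true then 1 else 0) +
      ((if O2 n p1 p2 a then 1 else 0) + (if isN n p1 p2 a = true then 1 else 0)) := by
  have h1 : (arcs n p1 p2).filter q = (arcs n p1 p2).filter fun f => q f && decide (f.1 = a) := by
    apply List.filter_congr
    intro f hf
    cases hqf : q f
    · simp
    · simp [hq f hf hqf]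
  rw [h1]
  refine out_count a _ fun f hf => ?_
  simp only [Bool.and_eq_true, decide_eq_true_eq] at hf
  exact hf.2

open Classical in
theorem in_count' (a : ℕ) (q : ℕ × ℕ → Bool)
    (hq : ∀ f ∈ arcs n p1 p2, q f = true → f.2 = a) :
    ((arcs n p1 p2).filter q).length ≤ (if isLong p1 a = true then 1 else 0) +
      ((if I2 n p1 p2 a then 1 else 0) + (if isN n p1 p2 a = true then 1 else 0)) := by
  have h1 : (arcs n p1 p2).filter q = (arcs n p1 p2).filter fun f => q f && decide (f.2 = a) := by
    apply List.filter_congr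
    intro f hf
    cases hqf : q f
    · simp
    · simp [hq f hf hqf]
  rw [h1]
  refine in_count H a _ fun f hf => ?_
  simp only [Bool.and_eq_true, decide_eq_true_eq] at hf
  exact hf.2

omit H in
theorem not_N_of_long {x : ℕ} (h : isLong p1 x = true) : isN n p1 p2 x = false := by
  rw [← Bool.not_eq_true, N_iff, not_pair_of_long h]
  simp

/-- a thin node has at most two arcs -/
theorem thin_two {a : ℕ} (ha : a < n)
    (h : nx p1 a = a ∨ (isPair p1 a = true ∧ isE n p1 p2 a = false ∧
      isU n p1 p2 (nx p1 a) = true) ∨ (isLong p1 a = true ∧ nx p2 a = a)) (q : ℕ × ℕ → Bool)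
    (hq : ∀ f ∈ arcs n p1 p2, q f = true → f.1 = a ∨ f.2 = a) :
    ((arcs n p1 p2).filter q).length ≤ 2 := by
  classical
  refine (two_count H a a q hq).trans ?_
  rcases h with h | ⟨h1, h2, h3⟩ | ⟨h1, h2⟩
  · have hl : ¬ isLong p1 a = true := fun hl => (long_iff.1 hl).1 h
    have hN : ¬ isN n p1 p2 a = true := fun hl => (pair_iff.1 (N_iff.1 hl).1).1 h
    rw [if_neg hl, if_neg hN]
    split_ifs <;> omega
  · have hl : ¬ isLong p1 a = true := by rw [not_long_of_pair h1]; simp
    have hN : ¬ isN n p1 p2 a = true := by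
      have := (U_excl H (lt1 H ha) h3).2.2.2.2
      rw [(pair_iff.1 h1).2] at this
      rw [this]
      simp
    rw [if_neg hl, if_neg hN]
    split_ifs <;> omega
  · have hN : ¬ isN n p1 p2 a = true := by rw [not_N_of_long h1]; simp
    rw [if_neg hN, if_neg (fix_no_O h2), if_neg (fix_no_I H ha h2)]
    split_ifs <;> omega

/-- the arcs whose tail is `a` or whose head has the mate `a` -/
theorem tail_deg {a : ℕ} (ha : a < n) (q : ℕ × ℕ → Bool)
    (hq : ∀ f ∈ arcs n p1 p2, q f = true → f.1 = a ∨ mate n p1 p2 f.2 = a) :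
    ((arcs n p1 p2).filter q).length ≤ 2 := by
  classical
  by_cases hz : ∃ z < n, isE n p1 p2 z = true ∧ nx p1 z = a
  · obtain ⟨z, hzn, hz, hza⟩ := hz
    have hzp := pair_iff.1 (E_iff.1 hz).1
    have hex := E_excl H hzn hz
    have hap : isPair p1 a = true := by rw [← hza]; exact pair_nx (E_iff.1 hz).1
    refine (two_count H a z q fun f hf h => ?_).trans ?_
    · rcases hq f hf h with h1 | h1
      · exact Or.inl h1
      · right
        rcases mate_eq ha h1 with ⟨-, h3 | ⟨-, -, h3⟩ | ⟨h3, -⟩⟩ | ⟨-, h3⟩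
        · exact absurd h3 (pair_iff.1 hap).1
        · rw [← hza, hzp.2, hex.2.1] at h3
          exact absurd h3 (by simp)
        · rw [not_long_of_pair hap] at h3
          exact absurd h3 (by simp)
        · exact inj1 H (arc_lt H hf).2.1 hzn (h3.trans hza.symm)
    · have h1 : ¬ isLong p1 a = true := by rw [not_long_of_pair hap]; simp
      have h2 : ¬ isN n p1 p2 a = true := by rw [← hza, hex.2.2.2.2]; simp
      have h3 : ¬ isLong p1 z = true := by rw [not_long_of_pair (E_iff.1 hz).1]; simp
      have h4 : ¬ isN n p1 p2 z = true := by rw [hex.2.2.2.1]; simp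
      rw [if_neg h1, if_neg h2, if_neg h3, if_neg h4]
      split_ifs <;> omega
  · have hcl : ∀ f ∈ arcs n p1 p2, mate n p1 p2 f.2 = a → f.2 = a ∧ (nx p1 a = a ∨
        (isPair p1 a = true ∧ isE n p1 p2 a = false ∧ isU n p1 p2 (nx p1 a) = true) ∨
        (isLong p1 a = true ∧ nx p2 a = a)) := by
      intro f hf h1
      rcases mate_eq ha h1 with h3 | ⟨h3, h4⟩
      · exact h3
      · exact absurd ⟨f.2, (arc_lt H hf).2.1, h3, h4⟩ hz
    by_cases hthin : nx p1 a = a ∨
        (isPair p1 a = true ∧ isE n p1 p2 a = false ∧ isU n p1 p2 (nx p1 a) = true) ∨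
        (isLong p1 a = true ∧ nx p2 a = a)
    · refine thin_two H ha hthin q fun f hf h => ?_
      rcases hq f hf h with h1 | h1
      · exact Or.inl h1
      · exact Or.inr (hcl f hf h1).1
    · refine (out_count' a q fun f hf h => ?_).trans ?_
      · rcases hq f hf h with h1 | h1
        · exact h1
        · exact absurd (hcl f hf h1).2 hthin
      · by_cases hl : isLong p1 a = true
        · rw [if_pos hl, not_N_of_long hl]
          split_ifs <;> simp_all
        · rw [if_neg hl]
          split_ifs <;> omega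

/-- the arcs whose head is `b` or whose tail is the mate of `b` -/
theorem head_deg {b : ℕ} (hb : b < n) (q : ℕ × ℕ → Bool)
    (hq : ∀ f ∈ arcs n p1 p2, q f = true → f.2 = b ∨ f.1 = mate n p1 p2 b) :
    ((arcs n p1 p2).filter q).length ≤ 2 := by
  classical
  rcases mate_self (n := n) (p1 := p1) (p2 := p2) b with h | h | ⟨h, h'⟩
  · have hthin : nx p1 b = b ∨
        (isPair p1 b = true ∧ isE n p1 p2 b = false ∧ isU n p1 p2 (nx p1 b) = true) ∨
        (isLong p1 b = true ∧ nx p2 b = b) := by
      rcases mate_eq hb h with ⟨-, h2⟩ | ⟨h2, h3⟩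
      · exact h2
      · exact absurd h3 (pair_iff.1 (E_iff.1 h2).1).1
    refine thin_two H hb hthin q fun f hf hqf => ?_
    rcases hq f hf hqf with h1 | h1
    · exact Or.inr h1
    · exact Or.inl (h1.trans h)
  · refine (in_count' H b q fun f hf hqf => ?_).trans ?_
    · rcases hq f hf hqf with h1 | h1
      · exact h1
      · have := (arc_lt H hf).1
        omega
    · by_cases hl : isLong p1 b = true
      · rw [if_pos hl, not_N_of_long hl]
        split_ifs <;> simp_all
      · rw [if_neg hl]
        split_ifs <;> omega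
  · have hex := E_excl H hb h
    have hbp := (E_iff.1 h).1
    refine (two_count H (nx p1 b) b q fun f hf hqf => ?_).trans ?_
    · rcases hq f hf hqf with h1 | h1
      · exact Or.inr h1
      · exact Or.inl (h1.trans h')
    · have h1 : ¬ isLong p1 (nx p1 b) = true := by rw [not_long_of_pair (pair_nx hbp)]; simp
      have h2 : ¬ isN n p1 p2 (nx p1 b) = true := by rw [hex.2.2.2.2]; simp
      have h3 : ¬ isLong p1 b = true := by rw [not_long_of_pair hbp]; simp
      have h4 : ¬ isN n p1 p2 b = true := by rw [hex.2.2.2.1]; simp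
      rw [if_neg h1, if_neg h2, if_neg h3, if_neg h4]
      split_ifs <;> omega

/-- degree of a root that does not lie on an unused pair -/
theorem deg_root {x : ℕ} (hx : x < n) (hr : root p1 p2 x = true) (hN : isN n p1 p2 x = false)
    (q : ℕ × ℕ → Bool) (hq : ∀ f ∈ arcs n p1 p2, q f = true → f.1 = x ∨ f.2 = x) :
    ((arcs n p1 p2).filter q).length ≤ 2 := by
  classical
  refine (two_count H x x q hq).trans ?_
  rw [hN]
  by_cases hl : isLong p1 x = true
  · have h2 : nx p2 x = x := by
      unfold root at hr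
      rw [hl] at hr
      simpa using hr
    rw [if_neg (fix_no_O h2), if_neg (fix_no_I H hx h2), if_pos hl]
    simp
  · rw [if_neg hl]
    split_ifs <;> simp_all

/-- degree of the nodes of a used pair -/
theorem deg_E {x : ℕ} (hx : x < n) (h : isE n p1 p2 x = true)
    (q : ℕ × ℕ → Bool) (hq : ∀ f ∈ arcs n p1 p2, q f = true → f.1 = x ∨ f.2 = x) :
    ((arcs n p1 p2).filter q).length ≤ 1 := by
  classical
  refine (two_count H x x q hq).trans ?_
  have hex := E_excl H hx h
  rw [hex.2.2.2.1, not_long_of_pair (E_iff.1 h).1, if_neg (E_no_O h)]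
  split_ifs <;> simp_all

theorem deg_E' {x : ℕ} (hx : x < n) (hp : isPair p1 x = true)
    (h : isE n p1 p2 (nx p1 x) = true)
    (q : ℕ × ℕ → Bool) (hq : ∀ f ∈ arcs n p1 p2, q f = true → f.1 = x ∨ f.2 = x) :
    ((arcs n p1 p2).filter q).length ≤ 1 := by
  classical
  refine (two_count H x x q hq).trans ?_
  have h1 := lt1 H hx
  have hex := E_excl H h1 h
  have h2 := E_no_I H h1 h
  have hpx := (pair_iff.1 hp).2
  rw [hpx] at hex h2
  rw [hex.2.2.2.2, not_long_of_pair hp, if_neg h2]
  split_ifs <;> simp_all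

theorem deg_four {x : ℕ}
    (q : ℕ × ℕ → Bool) (hq : ∀ f ∈ arcs n p1 p2, q f = true → f.1 = x ∨ f.2 = x) :
    ((arcs n p1 p2).filter q).length ≤ 4 := by
  classical
  refine (two_count H x x q hq).trans ?_
  by_cases hl : isLong p1 x = true
  · rw [not_N_of_long hl]
    split_ifs <;> simp_all
  · rw [if_neg hl]
    split_ifs <;> omega

/-! ### the arcs that are added with a single node -/

omit H in
theorem new_touch {D : List ℕ} {x : ℕ} {e : ℕ × ℕ}
    (he : e ∈ newArcs (arcs n p1 p2) D [x]) : e ∈ arcs n p1 p2 ∧ (e.1 = x ∨ e.2 = x) := by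
  rw [mem_newArcs] at he
  obtain ⟨h1, h2, h3, h4⟩ := he
  simp only [List.mem_singleton] at h2 h3
  refine ⟨h1, ?_⟩
  tauto

omit H in
theorem newArcs_eq (D : List ℕ) (x : ℕ) (q : ℕ × ℕ → Bool)
    (hq : ∀ e ∈ arcs n p1 p2, q e = true ↔ e ∈ newArcs (arcs n p1 p2) D [x]) :
    newArcs (arcs n p1 p2) D [x] = (arcs n p1 p2).filter q := by
  unfold newArcs
  apply List.filter_congr
  intro e he
  have h1 := hq e he
  unfold newArcs at h1
  rw [List.mem_filter] at h1
  rw [Bool.eq_iff_iff]
  constructor
  · intro h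
    exact h1.2 ⟨he, h⟩
  · intro h
    exact (h1.1 h).2

theorem new_le_two {x : ℕ} (hx : x < n) (hr : root p1 p2 x = true)
    (hN : isN n p1 p2 x = false) (D : List ℕ) :
    (newArcs (arcs n p1 p2) D [x]).length ≤ 2 := by
  unfold newArcs
  refine deg_root H hx hr hN _ fun f hf h => ?_
  exact (new_touch (D := D) (x := x) (List.mem_filter.2 ⟨hf, h⟩)).2

theorem new_mate {x : ℕ} (hx : x < n) {D : List ℕ} (hxD : x ∉ D)
    (h2 : 2 ≤ (newArcs (arcs n p1 p2) D [x]).length) :
    ∀ e ∈ arcs n p1 p2, e.1 ∈ D → e.2 ∈ D →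
      e.1 ≠ mate n p1 p2 x ∧ mate n p1 p2 e.2 ≠ x := by
  intro e he h3 h4
  have hlt := arc_lt H he
  constructor
  · intro h5
    rcases mate_self (n := n) (p1 := p1) (p2 := p2) x with h | h | ⟨h, -⟩
    · rw [h] at h5
      rw [h5] at h3
      exact hxD h3
    · omega
    · have h6 : (newArcs (arcs n p1 p2) D [x]).length ≤ 1 := by
        unfold newArcs
        refine deg_E H hx h _ fun f hf h => ?_
        exact (new_touch (D := D) (x := x) (List.mem_filter.2 ⟨hf, h⟩)).2
      omega
  · intro h5
    rcases mate_eq hx h5 with ⟨h6, -⟩ | ⟨h6, h7⟩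
    · rw [h6] at h4
      exact hxD h4
    · have hp : isPair p1 x = true := by rw [← h7]; exact pair_nx (E_iff.1 h6).1
      have h8 : nx p1 x = e.2 := by rw [← h7]; exact (pair_iff.1 (E_iff.1 h6).1).2
      have h9 : (newArcs (arcs n p1 p2) D [x]).length ≤ 1 := by
        unfold newArcs
        refine deg_E' H hx hp (by rw [h8]; exact h6) _ fun f hf h => ?_
        exact (new_touch (D := D) (x := x) (List.mem_filter.2 ⟨hf, h⟩)).2
      omega

/-- the four families of arcs at `x` -/
theorem four_count {x : ℕ} (hx : x < n) (hl : isLong p1 x = true) (q : ℕ × ℕ → Bool)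
    (hq : ∀ f ∈ arcs n p1 p2, q f = true → f.1 = x ∨ f.2 = x) :
    ((arcs n p1 p2).filter q).length ≤
      ((if q (x, nx p1 x) = true then 1 else 0) + (if q (p1.idxOf x, x) = true then 1 else 0)) +
      ((if q (x, nx p2 x) = true then 1 else 0) + (if q (p2.idxOf x, x) = true then 1 else 0)) := by
  classical
  have hlen1 : p1.length = n := by simpa using H.h1.length_eq
  have hlen2 : p2.length = n + n := by simpa using H.h2.length_eq
  have hnd1 : p1.Nodup := H.h1.nodup_iff.mpr List.nodup_range
  have hnd2 : p2.Nodup := H.h2.nodup_iff.mpr List.nodup_range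
  have hidx1 : ∀ z < n, nx p1 z = x → p1.idxOf x = z := by
    intro z hz h
    rw [← h]
    unfold nx
    rw [List.getD_eq_getElem _ _ (by omega)]
    exact hnd1.idxOf_getElem _ (by omega)
  have hidx2 : ∀ z < n, nx p2 z = x → p2.idxOf x = z := by
    intro z hz h
    rw [← h]
    unfold nx
    rw [List.getD_eq_getElem _ _ (by omega)]
    exact hnd2.idxOf_getElem _ (by omega)
  unfold arcs arcs1 arcs2 arcsN
  rw [List.filter_append, List.filter_append, List.length_append, List.length_append]
  have hmem := fun e => (mem_arcs (n := n) (p1 := p1) (p2 := p2) (e := e))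
  have hN0 : ((((List.range n).filter (fun x => isN n p1 p2 x)).map
      (fun x => (x, nx p1 x))).filter q).length = 0 := by
    refine len_zero _ _ _ fun z hz h1 h2 => ?_
    have h3 := hq (z, nx p1 z) ((hmem _).2 (Or.inr (Or.inr ⟨hz, h1, rfl⟩))) h2
    have hzp := (N_iff.1 h1).1
    rcases h3 with h3 | h3
    · have h3' : z = x := h3
      rw [h3', not_pair_of_long hl] at hzp
      exact absurd hzp (by simp)
    · have h3' : nx p1 z = x := h3
      have := pair_nx hzp
      rw [h3', not_pair_of_long hl] at this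
      exact absurd this (by simp)
  rw [hN0, Nat.add_zero]
  refine Nat.add_le_add ?_ ?_
  · refine (len_or _ q (fun f => q f && decide (f.1 = x)) (fun f => q f && decide (f.2 = x))
      fun f hf h => ?_).trans (Nat.add_le_add ?_ ?_)
    · rw [List.mem_map] at hf
      obtain ⟨z, hz, rfl⟩ := hf
      rw [List.mem_filter, List.mem_range] at hz
      have h3 := hq (z, nx p1 z) ((hmem _).2 (Or.inl ⟨hz.1, hz.2, rfl⟩)) h
      rcases h3 with h3 | h3
      · left; simp only [h, Bool.true_and, decide_eq_true_eq]; exact h3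
      · right; simp only [h, Bool.true_and, decide_eq_true_eq]; exact h3
    · split_ifs with h
      · refine len_one _ _ _ fun a _ b _ _ _ h1 h2 => ?_
        simp only [Bool.and_eq_true, decide_eq_true_eq] at h1 h2
        exact h1.2.trans h2.2.symm
      · refine le_of_eq (len_zero _ _ _ fun a _ _ h1 => h ?_)
        simp only [Bool.and_eq_true, decide_eq_true_eq] at h1
        obtain ⟨h1, h2⟩ := h1
        rw [h2] at h1
        exact h1
    · split_ifs with h
      · refine len_one _ _ _ fun a ha b hb _ _ h1 h2 => ?_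
        simp only [Bool.and_eq_true, decide_eq_true_eq] at h1 h2
        exact inj1 H ha hb (h1.2.trans h2.2.symm)
      · refine le_of_eq (len_zero _ _ _ fun a ha _ h1 => h ?_)
        simp only [Bool.and_eq_true, decide_eq_true_eq] at h1
        obtain ⟨h1, h2⟩ := h1
        rw [hidx1 a ha h2]
        rw [h2] at h1
        exact h1
  · refine (len_or _ q (fun f => q f && decide (f.1 = x)) (fun f => q f && decide (f.2 = x))
      fun f hf h => ?_).trans (Nat.add_le_add ?_ ?_)
    · rw [List.mem_map] at hf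
      obtain ⟨z, hz, rfl⟩ := hf
      rw [List.mem_filter, List.mem_range] at hz
      have hz2 := hz.2
      simp only [Bool.and_eq_true, Bool.not_eq_true', Nat.blt_eq] at hz2
      have h3 := hq (z, nx p2 z) ((hmem _).2 (Or.inr (Or.inl ⟨hz.1, hz2.1, hz2.2, rfl⟩))) h
      rcases h3 with h3 | h3
      · left; simp only [h, Bool.true_and, decide_eq_true_eq]; exact h3
      · right; simp only [h, Bool.true_and, decide_eq_true_eq]; exact h3
    · split_ifs with h
      · refine len_one _ _ _ fun a _ b _ _ _ h1 h2 => ?_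
        simp only [Bool.and_eq_true, decide_eq_true_eq] at h1 h2
        exact h1.2.trans h2.2.symm
      · refine le_of_eq (len_zero _ _ _ fun a _ _ h1 => h ?_)
        simp only [Bool.and_eq_true, decide_eq_true_eq] at h1
        obtain ⟨h1, h2⟩ := h1
        rw [h2] at h1
        exact h1
    · split_ifs with h
      · refine len_one _ _ _ fun a ha b hb _ _ h1 h2 => ?_
        simp only [Bool.and_eq_true, decide_eq_true_eq] at h1 h2
        exact inj2 H (by omega) (by omega) (h1.2.trans h2.2.symm)
      · refine le_of_eq (len_zero _ _ _ fun a ha _ h1 => h ?_)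
        simp only [Bool.and_eq_true, decide_eq_true_eq] at h1
        obtain ⟨h1, h2⟩ := h1
        rw [hidx2 a ha h2]
        rw [h2] at h1
        exact h1

theorem new_le_three {x y : ℕ} (hx : x < n) (hr : root p1 p2 x = false) {D : List ℕ}
    (hyx : y ≠ x) (hyD : y ∉ D)
    (h4 : y = nx p1 x ∨ y = p1.idxOf x ∨ y = nx p2 x ∨ y = p2.idxOf x) :
    (newArcs (arcs n p1 p2) D [x]).length ≤ 3 := by
  have hl : isLong p1 x = true := by
    unfold root at hr
    simp only [Bool.not_eq_false', Bool.and_eq_true] at hr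
    exact hr.1
  unfold newArcs
  refine (four_count H hx hl _ fun f hf h => ?_).trans ?_
  · exact (new_touch (D := D) (x := x) (List.mem_filter.2 ⟨hf, h⟩)).2
  · have h5 : ([x] : List ℕ).contains y = false := by
      rw [← Bool.not_eq_true, List.contains_iff_mem, List.mem_singleton]
      exact hyx
    have h6 : D.contains y = false := by
      rw [← Bool.not_eq_true, List.contains_iff_mem]
      exact hyD
    rcases h4 with h | h | h | h
    · rw [← h]
      simp only [h5, h6, Bool.or_self, Bool.and_false, Bool.false_and, Bool.false_eq_true,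
        if_false]
      split_ifs <;> omega
    · rw [← h]
      simp only [h5, h6, Bool.or_self, Bool.and_false, Bool.false_and, Bool.false_eq_true,
        if_false]
      split_ifs <;> omega
    · rw [← h]
      simp only [h5, h6, Bool.or_self, Bool.and_false, Bool.false_and, Bool.false_eq_true,
        if_false]
      split_ifs <;> omega
    · rw [← h]
      simp only [h5, h6, Bool.or_self, Bool.and_false, Bool.false_and, Bool.false_eq_true,
        if_false]
      split_ifs <;> omega

end

end Vale.Agent.P333.T.Dg2
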