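import Vale.Agent.P333.M.Prog

/-!
P333, box T: the program with ratio `2 / 3`. Input: a number `n` of nodes `0, ..., n - 1`, a weight
function `w`, a bound `C` for the weights. Output: an order of all nodes whose total weight is at
least `2 / 3` of the maximum.
-/

namespace Vale.Agent.P333.T

open Vale.Agent.P333.M (nx pw breakF wt1 heavier)

/-! ### The second assignment: one hub `n + h` for every pair with smaller node `h` -/

/-- `x` lies on a cycle of length two of `p` -/
def isPair (p : List ℕ) (x : ℕ) : Bool := !(nx p x == x) && (nx p (nx p x) == x)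

/-- `x` lies on a cycle of length at least three of `p` -/
def isLong (p : List ℕ) (x : ℕ) : Bool := !(nx p x == x) && !(nx p (nx p x) == x)

/-- `y` is `x` or the partner of `x` -/
def near (p : List ℕ) (x y : ℕ) : Bool := (y == x) || (isPair p x && (y == nx p x))

/-- `x` belongs to the pair with smaller node `h` -/
def hubOf (p : List ℕ) (h x : ℕ) : Bool :=
  isPair p h && Nat.blt h (nx p h) && ((x == h) || (x == nx p h))

/-- weights of the second assignment problem; `B` is a large bonus for every end at a hub -/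
def hw (n B : ℕ) (w : ℕ → ℕ → ℕ) (p : List ℕ) (x y : ℕ) : ℕ :=
  if x < n then
    if y < n then (if near p x y then 0 else 2 * w x y)
    else if hubOf p (y - n) x then B + w x (nx p x) else 0
  else
    if y < n then (if hubOf p (x - n) y then B + w (nx p y) y else 0)
    else if x = y then 2 * B else 0

/-- the bonus -/
def bonus (n C : ℕ) : ℕ := 4 * C * n + 1

/-- the second assignment -/
def asg2 (n C : ℕ) (w : ℕ → ℕ → ℕ) (p1 : List ℕ) : List ℕ :=
  Auction.assign (n + n) (2 * bonus n C + 2 * C) (hw n (bonus n C) w p1)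

/-! ### The arcs that are coloured -/

/-- the hub of `x` -/
def hub (n : ℕ) (p : List ℕ) (x : ℕ) : ℕ := n + min x (nx p x)

/-- the hub of the pair of `x` is not used -/
def isN (n : ℕ) (p1 p2 : List ℕ) (x : ℕ) : Bool := isPair p1 x && (nx p2 (hub n p1 x) == hub n p1 x)

/-- the second assignment goes `x → hub → partner of x` -/
def isE (n : ℕ) (p1 p2 : List ℕ) (x : ℕ) : Bool :=
  isPair p1 x && (nx p2 x == hub n p1 x) && (nx p2 (hub n p1 x) == nx p1 x)

/-- the second assignment goes `x → hub → x` -/
def isU (n : ℕ) (p1 p2 : List ℕ) (x : ℕ) : Bool :=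
  isPair p1 x && (nx p2 x == hub n p1 x) && (nx p2 (hub n p1 x) == x)

/-- arcs of the first assignment on its long cycles -/
def arcs1 (n : ℕ) (p1 : List ℕ) : List (ℕ × ℕ) :=
  ((List.range n).filter (fun x => isLong p1 x)).map (fun x => (x, nx p1 x))

/-- arcs of the second assignment -/
def arcs2 (n : ℕ) (p1 p2 : List ℕ) : List (ℕ × ℕ) :=
  ((List.range n).filter (fun x => Nat.blt (nx p2 x) n && !(near p1 x (nx p2 x)))).map
    (fun x => (x, nx p2 x))

/-- both arcs of the pairs whose hub is not used -/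
def arcsN (n : ℕ) (p1 p2 : List ℕ) : List (ℕ × ℕ) :=
  ((List.range n).filter (fun x => isN n p1 p2 x)).map (fun x => (x, nx p1 x))

/-- all arcs to be coloured -/
def arcs (n : ℕ) (p1 p2 : List ℕ) : List (ℕ × ℕ) := arcs1 n p1 ++ (arcs2 n p1 p2 ++ arcsN n p1 p2)

/-- the arcs into `x` and the arcs out of `mate x` must have different colours (`n + n`: no
condition) -/
def mate (n : ℕ) (p1 p2 : List ℕ) (x : ℕ) : ℕ :=
  if nx p1 x = x then x
  else if isPair p1 x then
    (if isE n p1 p2 x then nx p1 x else if isU n p1 p2 (nx p1 x) then x else n + n)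
  else if nx p2 x = x then x else n + n

/-! ### Levels -/

/-- all nodes except those of long cycles that have an arc of the second assignment -/
def root (p1 p2 : List ℕ) (x : ℕ) : Bool := !(isLong p1 x && !(nx p2 x == x))

/-- one step of the breadth first search -/
def grow (n : ℕ) (p1 p2 R : List ℕ) : List ℕ :=
  (List.range n).filter (fun x => R.contains x || R.contains (nx p1 x) || R.contains (p1.idxOf x) ||
    R.contains (nx p2 x) || R.contains (p2.idxOf x))

/-- nodes at distance at most `k` from a root -/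
def reach (n : ℕ) (p1 p2 : List ℕ) (k : ℕ) : List ℕ :=
  (List.range k).foldl (fun R _ => grow n p1 p2 R) ((List.range n).filter (fun x => root p1 p2 x))

/-- distance to the roots; `n + 1` if there is none -/
def level (n : ℕ) (p1 p2 : List ℕ) (x : ℕ) : ℕ :=
  ((List.range (n + 1)).filter (fun k => !((reach n p1 p2 k).contains x))).length

/-- the unit of a node: a pair whose hub is not used is treated as one unit -/
def unitOf (n : ℕ) (p1 p2 : List ℕ) (x : ℕ) : List ℕ :=
  if isN n p1 p2 x then (if x < nx p1 x then [x, nx p1 x] else []) else [x]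

/-- the units by decreasing level -/
def units (n : ℕ) (p1 p2 : List ℕ) : List (List ℕ) :=
  ((List.range (n + 1)).map (fun k =>
    ((List.range n).filter (fun x => level n p1 p2 x == n - k)).map
      (fun x => unitOf n p1 p2 x))).flatten

/-! ### Colouring: a coloured arc is `((tail, head), colour)` -/

/-- arcs of colour `t` -/
def cls (S : List ((ℕ × ℕ) × ℕ)) (t : ℕ) : List (ℕ × ℕ) :=
  (S.filter (fun a => a.2 == t)).map (fun a => a.1)

/-- no repetitions -/
def nodupB (l : List ℕ) : Bool := (List.range l.length).all (fun i => l.idxOf (l.getD i 0) == i)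

/-- head of the arc out of `x`, or `x` -/
def nxt (F : List (ℕ × ℕ)) (x : ℕ) : ℕ :=
  ((F.find? (fun e => e.1 == x)).getD (x, x)).2

/-- the end of the walk of length `|F|` from `x` -/
def walk (F : List (ℕ × ℕ)) (x : ℕ) : ℕ := (List.range F.length).foldl (fun y _ => nxt F y) x

/-- no cycle -/
def acyc (F : List (ℕ × ℕ)) : Bool := F.all (fun e => !(F.any (fun f => f.1 == walk F e.1)))

/-- `F` is a system of paths -/
def lfb (F : List (ℕ × ℕ)) : Bool :=
  nodupB (F.map (fun e => e.1)) && nodupB (F.map (fun e => e.2)) && acyc F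

/-- in-arcs of `x` and out-arcs of `mate x` have different colours -/
def thinB (m : ℕ → ℕ) (S : List ((ℕ × ℕ) × ℕ)) : Bool :=
  S.all (fun a => S.all (fun b => !((a.2 == b.2) && (b.1.1 == m a.1.2))))

/-- admissible states -/
def good (m : ℕ → ℕ) (S : List ((ℕ × ℕ) × ℕ)) : Bool :=
  lfb (cls S 0) && lfb (cls S 1) && lfb (cls S 2) && thinB m S

/-- colour number `c`: the ternary digits of `c` are the colours of the arcs of `A` -/
def paint (A : List (ℕ × ℕ)) (c : ℕ) : List ((ℕ × ℕ) × ℕ) :=
  (List.range A.length).map (fun i => (A.getD i (0, 0), c / ([1, 3, 9, 27, 81, 243].getD i 1) % 3))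

/-- the arcs that have to be coloured when the nodes `U` are added to the nodes `D` -/
def newArcs (E : List (ℕ × ℕ)) (D U : List ℕ) : List (ℕ × ℕ) :=
  E.filter (fun e => ((U.contains e.1 || D.contains e.1) && (U.contains e.2 || D.contains e.2)) &&
    !(D.contains e.1 && D.contains e.2))

/-- the new arcs get the first admissible colouring -/
def stepU (E : List (ℕ × ℕ)) (m : ℕ → ℕ) (s : List ℕ × List ((ℕ × ℕ) × ℕ)) (U : List ℕ) :
    List ℕ × List ((ℕ × ℕ) × ℕ) :=
  (U ++ s.1,
    paint (newArcs E s.1 U) (((List.range 729).find?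
      (fun c => good m (paint (newArcs E s.1 U) c ++ s.2))).getD 0) ++ s.2)

/-- the colouring -/
def colour (E : List (ℕ × ℕ)) (m : ℕ → ℕ) (L : List (List ℕ)) : List ((ℕ × ℕ) × ℕ) :=
  (L.foldl (stepU E m) ([], [])).2

/-! ### The three candidates -/

/-- a pair of different colours, compatible with the arcs into `u` and out of `v` -/
def pick (S : List ((ℕ × ℕ) × ℕ)) (u v : ℕ) : ℕ × ℕ :=
  (([(0, 1), (0, 2), (1, 0), (1, 2), (2, 0), (2, 1)] : List (ℕ × ℕ)).find?
    (fun ab => S.all (fun a => (!(a.1.2 == u) || (a.2 == ab.1)) &&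
      (!(a.1.1 == v) || (a.2 == ab.2))))).getD (0, 1)

/-- the arcs inside the pair `{x, y}` if the hub is used as `x → hub → y` -/
def endE (S : List ((ℕ × ℕ) × ℕ)) (t x y : ℕ) : List (ℕ × ℕ) :=
  if (t == (pick S x y).1) || (t == (pick S x y).2) then [(x, y)] else [(y, x)]

/-- the arcs inside the pair `{x, y}` if the hub is used as `x → hub → x` -/
def endU (w : ℕ → ℕ → ℕ) (S : List ((ℕ × ℕ) × ℕ)) (t x y : ℕ) : List (ℕ × ℕ) :=
  if t == (pick S y y).1 then [(y, x)]
  else if t == (pick S y y).2 then [(x, y)]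
  else if w y x ≤ w x y then [(x, y)] else [(y, x)]

/-- the arcs inside the pairs whose hub is used -/
def endArcs (n : ℕ) (w : ℕ → ℕ → ℕ) (p1 p2 : List ℕ) (S : List ((ℕ × ℕ) × ℕ)) (t : ℕ) :
    List (ℕ × ℕ) :=
  ((List.range n).map (fun x =>
    if isE n p1 p2 x then endE S t x (nx p1 x)
    else if isU n p1 p2 x then endU w S t x (nx p1 x)
    else [])).flatten

/-- the arcs of the first assignment in the components without roots -/
def spArcs (n : ℕ) (p1 p2 : List ℕ) : List (ℕ × ℕ) :=
  ((List.range n).filter (fun x => level n p1 p2 x == n + 1)).map (fun x => (x, nx p1 x))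

/-- candidate number `t` -/
def cand (n : ℕ) (w : ℕ → ℕ → ℕ) (p1 p2 : List ℕ) (S : List ((ℕ × ℕ) × ℕ)) (t : ℕ) :
    List (ℕ × ℕ) :=
  cls S t ++ (endArcs n w p1 p2 S t ++ spArcs n p1 p2)

/-- the colouring for given assignments -/
def colOf (n : ℕ) (p1 p2 : List ℕ) : List ((ℕ × ℕ) × ℕ) :=
  colour (arcs n p1 p2) (mate n p1 p2) (units n p1 p2)

/-- the best candidate -/
def bestOf (n : ℕ) (w : ℕ → ℕ → ℕ) (p1 p2 : List ℕ) (S : List ((ℕ × ℕ) × ℕ)) : List ℕ :=
  heavier w (breakF w (List.range n) (cand n w p1 p2 S 0))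
    (heavier w (breakF w (List.range n) (cand n w p1 p2 S 1))
      (breakF w (List.range n) (cand n w p1 p2 S 2)))

/-- the algorithm for given assignments -/
def atspOf (n : ℕ) (w : ℕ → ℕ → ℕ) (p1 p2 : List ℕ) : List ℕ :=
  bestOf n w p1 p2 (colOf n p1 p2)

/-- the algorithm for the given first assignment -/
def atspOf1 (n C : ℕ) (w : ℕ → ℕ → ℕ) (p1 : List ℕ) : List ℕ := atspOf n w p1 (asg2 n C w p1)

/-- THE ALGORITHM -/
def atsp (n C : ℕ) (w : ℕ → ℕ → ℕ) : List ℕ := atspOf1 n C w (Auction.assign n C (wt1 w))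

end Vale.Agent.P333.T
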