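import Vale.Agent.P333.T.LF
import Vale.Agent.P333.T.Prog23
import Vale.Agent.P333.T.Chk

/-!
P333, box 2/3: the colouring is extended to the arcs at a new node.
-/

namespace Vale.Agent.P333.T

open List

/-- conflict at the tail of `e` -/
def tailConf (m : ℕ → ℕ) (e f : ℕ × ℕ) : Prop := f.1 = e.1 ∨ m f.2 = e.1

/-- conflict at the head of `e` -/
def headConf (m : ℕ → ℕ) (e f : ℕ × ℕ) : Prop := f.2 = e.2 ∨ f.1 = m e.2

instance (m : ℕ → ℕ) (e f : ℕ × ℕ) : Decidable (tailConf m e f) :=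
  inferInstanceAs (Decidable (_ ∨ _))

instance (m : ℕ → ℕ) (e f : ℕ × ℕ) : Decidable (headConf m e f) :=
  inferInstanceAs (Decidable (_ ∨ _))

/-- an admissible partial colouring -/
def Good (m : ℕ → ℕ) (S : List ((ℕ × ℕ) × ℕ)) : Prop :=
  (∀ t < 3, LF (cls S t)) ∧ ∀ a ∈ S, ∀ b ∈ S, a.2 = b.2 → b.1.1 ≠ m a.1.2

variable {m : ℕ → ℕ} {S : List ((ℕ × ℕ) × ℕ)} {x : ℕ}

theorem cls_cons_self (e : ℕ × ℕ) (c : ℕ) : cls ((e, c) :: S) c = e :: cls S c := by
  simp [cls]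

theorem cls_cons_ne (e : ℕ × ℕ) {c t : ℕ} (h : c ≠ t) : cls ((e, c) :: S) t = cls S t := by
  simp [cls, h]

theorem Good.perm {S' : List ((ℕ × ℕ) × ℕ)} (h : S ~ S') (hS : Good m S) : Good m S' := by
  refine ⟨fun t ht => LF.perm ((h.filter _).map _) (hS.1 t ht), fun a ha b hb => ?_⟩
  exact hS.2 a (h.mem_iff.2 ha) b (h.mem_iff.2 hb)

/-- extension by one arc -/
theorem Good.add (hS : Good m S) {e : ℕ × ℕ} {c : ℕ}
    (hc : ∀ a ∈ S, a.2 = c → ¬ tailConf m e a.1 ∧ ¬ headConf m e a.1)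
    (h0 : e.1 ≠ m e.2) (hr : ¬ Reach (cls S c) e.2 e.1) : Good m ((e, c) :: S) := by
  obtain ⟨z, y⟩ := e
  refine ⟨fun t ht => ?_, ?_⟩
  · by_cases h : c = t
    · subst h
      rw [cls_cons_self]
      refine LF.add (hS.1 _ ht) ?_ ?_ hr
      · intro b hb
        exact (hc _ (mem_cls.1 hb) rfl).1 (Or.inl rfl)
      · intro a ha
        exact (hc _ (mem_cls.1 ha) rfl).2 (Or.inl rfl)
    · rw [cls_cons_ne _ h]
      exact hS.1 t ht
  · intro a ha b hb hab
    rcases List.mem_cons.1 ha with rfl | ha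
    · rcases List.mem_cons.1 hb with rfl | hb
      · exact h0
      · exact fun h => (hc b hb hab.symm).2 (Or.inr h)
    · rcases List.mem_cons.1 hb with rfl | hb
      · exact fun h => (hc a ha hab).1 (Or.inr h.symm)
      · exact hS.2 a ha b hb hab

/-- the arc `e` joins the node `x` to another node -/
def At (x : ℕ) (e : ℕ × ℕ) : Prop := (e.1 = x ∧ e.2 ≠ x) ∨ (e.1 ≠ x ∧ e.2 = x)

/-- the new arcs have pairwise different colours -/
theorem Good.add_distinct (hS : Good m S) (hx : ∀ a ∈ S, a.1.1 ≠ x ∧ a.1.2 ≠ x)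
    (P : List ((ℕ × ℕ) × ℕ)) (hP : ∀ p ∈ P, At x p.1) (h0 : ∀ p ∈ P, p.1.1 ≠ m p.1.2)
    (hnd : (P.map Prod.snd).Nodup)
    (hc : ∀ p ∈ P, ∀ a ∈ S, a.2 = p.2 → ¬ tailConf m p.1 a.1 ∧ ¬ headConf m p.1 a.1) :
    Good m (P ++ S) := by
  induction P with
  | nil => exact hS
  | cons p P ih =>
    rw [List.map_cons, List.nodup_cons] at hnd
    have h1 := ih (fun q hq => hP q (List.mem_cons_of_mem _ hq))
      (fun q hq => h0 q (List.mem_cons_of_mem _ hq)) hnd.2
      (fun q hq => hc q (List.mem_cons_of_mem _ hq))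
    have hin : ∀ a ∈ P ++ S, a.2 = p.2 → a ∈ S := by
      intro a ha hac
      rcases List.mem_append.1 ha with ha | ha
      · exact absurd (List.mem_map.2 ⟨a, ha, hac⟩) hnd.1
      · exact ha
    have hf1 : ∀ b, (x, b) ∉ cls (P ++ S) p.2 := fun b hb =>
      (hx _ (hin _ (mem_cls.1 hb) rfl)).1 rfl
    have hf2 : ∀ a, (a, x) ∉ cls (P ++ S) p.2 := fun b hb =>
      (hx _ (hin _ (mem_cls.1 hb) rfl)).2 rfl
    refine Good.add (e := p.1) (c := p.2) h1 ?_ (h0 p List.mem_cons_self) ?_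
    · intro a ha hac
      exact hc p List.mem_cons_self a (hin a ha hac) hac
    · rcases hP p List.mem_cons_self with ⟨h2, h3⟩ | ⟨h2, h3⟩
      · rw [h2]
        exact not_reach_of_no_in hf2 h3
      · rw [h3]
        exact not_reach_of_no_out hf1 h2

/-! ### paths -/

/-- the start of the path ending in `z` is unique -/
theorem starts_unique {V : Type*} {F : List (V × V)} (hF : (F.map Prod.snd).Nodup) {z y1 y2 : V}
    (h1 : Reach F y1 z) (h2 : Reach F y2 z) (hy1 : ∀ a, (a, y1) ∉ F) (hy2 : ∀ a, (a, y2) ∉ F) :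
    y1 = y2 := by
  revert h2
  induction h1 with
  | refl =>
    intro h2
    rcases Relation.ReflTransGen.cases_tail h2 with h | ⟨c, -, hc⟩
    · exact h
    · exact absurd hc (hy1 c)
  | @tail b c _ hbc ih =>
    intro h2
    rcases Relation.ReflTransGen.cases_tail h2 with h | ⟨c', h3, hc'⟩
    · subst h
      exact absurd hbc (hy2 b)
    · have : b = c' := congrArg Prod.fst (List.inj_on_of_nodup_map hF hbc hc' rfl)
      subst this
      exact ih h3

/-! ### all three new arcs have the same forbidden colour -/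

theorem two_colours : ∀ c : Fin 3, ∃ a b : Fin 3, a ≠ b ∧ a ≠ c ∧ b ≠ c := by decide

theorem in_step {a b c z1 z2 y : ℕ} (hS : Good m S) (hx : ∀ a ∈ S, a.1.1 ≠ x ∧ a.1.2 ≠ x)
    (ha : a < 3) (hb : b < 3) (hab : a ≠ b) (hac : a ≠ c) (hbc : b ≠ c)
    (hz1 : ∀ a ∈ S, tailConf m (z1, x) a.1 → a.2 < 3 → a.2 = c)
    (hz2 : ∀ a ∈ S, tailConf m (z2, x) a.1 → a.2 < 3 → a.2 = c)
    (hy : ∀ a ∈ S, headConf m (x, y) a.1 → a.2 < 3 → a.2 = c)
    (hn : ∀ a ∈ S, a.1.1 ≠ m x ∧ m a.1.2 ≠ x) (hmx : m x ≠ x)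
    (h1 : z1 ≠ x) (h2 : z2 ≠ x) (h3 : y ≠ x) (h4 : m y ≠ z1) (h6 : z1 ≠ m x)
    (h7 : z2 ≠ m x) (h8 : x ≠ m y) (hr : ¬ Reach (cls S a) y z1) :
    Good m (((z2, x), b) :: ((z1, x), a) :: ((x, y), a) :: S) := by
  have hf1 : ∀ t d, (x, d) ∉ cls S t := fun t d hd => (hx _ (mem_cls.1 hd)).1 rfl
  have hf2 : ∀ t d, (d, x) ∉ cls S t := fun t d hd => (hx _ (mem_cls.1 hd)).2 rfl
  have hA : Good m (((x, y), a) :: S) := by
    refine hS.add ?_ h8 (not_reach_of_no_in (hf2 a) h3)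
    intro d hd hda
    refine ⟨?_, ?_⟩
    · rintro (h | h)
      · exact (hx d hd).1 h
      · exact (hn d hd).2 h
    · intro h
      have := hy d hd h (by omega)
      omega
  have hB : Good m (((z1, x), a) :: ((x, y), a) :: S) := by
    refine hA.add ?_ h6 ?_
    · intro d hd hda
      rcases List.mem_cons.1 hd with rfl | hd
      · refine ⟨?_, ?_⟩
        · rintro (h | h)
          · exact h1 h.symm
          · exact h4 h
        · rintro (h | h)
          · exact h3 h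
          · exact hmx h.symm
      · refine ⟨?_, ?_⟩
        · intro h
          have := hz1 d hd h (by omega)
          omega
        · rintro (h | h)
          · exact (hx d hd).2 h
          · exact (hn d hd).1 h
    · rw [cls_cons_self]
      intro h
      rcases reach_cons h with h | ⟨-, h⟩
      · exact not_reach_of_no_out (hf1 a) h1 h
      · exact hr h
  refine hB.add ?_ h7 ?_
  · intro d hd hda
    rcases List.mem_cons.1 hd with rfl | hd
    · exact absurd hda hab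
    rcases List.mem_cons.1 hd with rfl | hd
    · exact absurd hda hab
    refine ⟨?_, ?_⟩
    · intro h
      have := hz2 d hd h (by omega)
      omega
    · rintro (h | h)
      · exact (hx d hd).2 h
      · exact (hn d hd).1 h
  · rw [cls_cons_ne _ hab, cls_cons_ne _ hab]
    exact not_reach_of_no_out (hf1 b) h2

theorem out_step {a b c z y1 y2 : ℕ} (hS : Good m S) (hx : ∀ a ∈ S, a.1.1 ≠ x ∧ a.1.2 ≠ x)
    (ha : a < 3) (hb : b < 3) (hab : a ≠ b) (hac : a ≠ c) (hbc : b ≠ c)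
    (hy1 : ∀ a ∈ S, headConf m (x, y1) a.1 → a.2 < 3 → a.2 = c)
    (hy2 : ∀ a ∈ S, headConf m (x, y2) a.1 → a.2 < 3 → a.2 = c)
    (hz : ∀ a ∈ S, tailConf m (z, x) a.1 → a.2 < 3 → a.2 = c)
    (hn : ∀ a ∈ S, a.1.1 ≠ m x ∧ m a.1.2 ≠ x) (hmx : m x ≠ x)
    (h1 : z ≠ x) (h2 : y1 ≠ x) (h3 : y2 ≠ x) (h4 : m y1 ≠ z) (h6 : z ≠ m x)
    (h7 : x ≠ m y1) (h8 : x ≠ m y2) (hr : ¬ Reach (cls S a) y1 z) :
    Good m (((x, y2), b) :: ((x, y1), a) :: ((z, x), a) :: S) := by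
  have hf1 : ∀ t d, (x, d) ∉ cls S t := fun t d hd => (hx _ (mem_cls.1 hd)).1 rfl
  have hf2 : ∀ t d, (d, x) ∉ cls S t := fun t d hd => (hx _ (mem_cls.1 hd)).2 rfl
  have hA : Good m (((z, x), a) :: S) := by
    refine hS.add ?_ h6 (not_reach_of_no_out (hf1 a) h1)
    intro d hd hda
    refine ⟨?_, ?_⟩
    · intro h
      have := hz d hd h (by omega)
      omega
    · rintro (h | h)
      · exact (hx d hd).2 h
      · exact (hn d hd).1 h
  have hB : Good m (((x, y1), a) :: ((z, x), a) :: S) := by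
    refine hA.add ?_ h7 ?_
    · intro d hd hda
      rcases List.mem_cons.1 hd with rfl | hd
      · refine ⟨?_, ?_⟩
        · rintro (h | h)
          · exact h1 h
          · exact hmx h
        · rintro (h | h)
          · exact h2 h.symm
          · exact h4 h.symm
      · refine ⟨?_, ?_⟩
        · rintro (h | h)
          · exact (hx d hd).1 h
          · exact (hn d hd).2 h
        · intro h
          have := hy1 d hd h (by omega)
          omega
    · rw [cls_cons_self]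
      intro h
      rcases reach_cons h with h | ⟨h, -⟩
      · exact not_reach_of_no_in (hf2 a) h2 h
      · exact hr h
  refine hB.add ?_ h8 ?_
  · intro d hd hda
    rcases List.mem_cons.1 hd with rfl | hd
    · exact absurd hda hab
    rcases List.mem_cons.1 hd with rfl | hd
    · exact absurd hda hab
    refine ⟨?_, ?_⟩
    · rintro (h | h)
      · exact (hx d hd).1 h
      · exact (hn d hd).2 h
    · intro h
      have := hy2 d hd h (by omega)
      omega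
  · rw [cls_cons_ne _ hab, cls_cons_ne _ hab]
    exact not_reach_of_no_in (hf2 b) h3

theorem in_case {c z1 z2 y : ℕ} (hS : Good m S) (hx : ∀ a ∈ S, a.1.1 ≠ x ∧ a.1.2 ≠ x)
    (hc : c < 3)
    (hz1 : ∀ a ∈ S, tailConf m (z1, x) a.1 → a.2 < 3 → a.2 = c)
    (hz2 : ∀ a ∈ S, tailConf m (z2, x) a.1 → a.2 < 3 → a.2 = c)
    (hy : ∀ a ∈ S, headConf m (x, y) a.1 → a.2 < 3 → a.2 = c)
    (hn : ∀ a ∈ S, a.1.1 ≠ m x ∧ m a.1.2 ≠ x) (hmx : m x ≠ x) (h12 : z1 ≠ z2)
    (h1 : z1 ≠ x) (h2 : z2 ≠ x) (h3 : y ≠ x) (h4 : m y ≠ z1) (h5 : m y ≠ z2) (h6 : z1 ≠ m x)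
    (h7 : z2 ≠ m x) (h8 : x ≠ m y) :
    ∃ c1 c2 c3 : ℕ, c1 < 3 ∧ c2 < 3 ∧ c3 < 3 ∧
      Good m (((z1, x), c1) :: ((z2, x), c2) :: ((x, y), c3) :: S) := by
  obtain ⟨a, b, hab, hac, hbc⟩ := two_colours ⟨c, hc⟩
  have hab' : (a : ℕ) ≠ b := fun h => hab (Fin.ext h)
  have hac' : (a : ℕ) ≠ c := fun h => hac (Fin.ext h)
  have hbc' : (b : ℕ) ≠ c := fun h => hbc (Fin.ext h)
  by_cases hr : Reach (cls S a) y z1
  · have hr2 : ¬ Reach (cls S a) y z2 := by
      intro hr2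
      refine h12 (ends_unique (hS.1 a a.2).1 hr hr2 ?_ ?_)
      · intro d hd
        exact hac' (hz1 _ (mem_cls.1 hd) (Or.inl rfl) a.2)
      · intro d hd
        exact hac' (hz2 _ (mem_cls.1 hd) (Or.inl rfl) a.2)
    have := in_step hS hx a.2 b.2 hab' hac' hbc' hz2 hz1 hy hn hmx h2 h1 h3 h5 h7 h6 h8 hr2
    exact ⟨b, a, a, b.2, a.2, a.2, this⟩
  · have := in_step hS hx a.2 b.2 hab' hac' hbc' hz1 hz2 hy hn hmx h1 h2 h3 h4 h6 h7 h8 hr
    exact ⟨a, b, a, a.2, b.2, a.2, this.perm (List.Perm.swap _ _ _)⟩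

theorem out_case {c z y1 y2 : ℕ} (hS : Good m S) (hx : ∀ a ∈ S, a.1.1 ≠ x ∧ a.1.2 ≠ x)
    (hc : c < 3)
    (hy1 : ∀ a ∈ S, headConf m (x, y1) a.1 → a.2 < 3 → a.2 = c)
    (hy2 : ∀ a ∈ S, headConf m (x, y2) a.1 → a.2 < 3 → a.2 = c)
    (hz : ∀ a ∈ S, tailConf m (z, x) a.1 → a.2 < 3 → a.2 = c)
    (hn : ∀ a ∈ S, a.1.1 ≠ m x ∧ m a.1.2 ≠ x) (hmx : m x ≠ x) (h12 : y1 ≠ y2)
    (h1 : z ≠ x) (h2 : y1 ≠ x) (h3 : y2 ≠ x) (h4 : m y1 ≠ z) (h5 : m y2 ≠ z) (h6 : z ≠ m x)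
    (h7 : x ≠ m y1) (h8 : x ≠ m y2) :
    ∃ c1 c2 c3 : ℕ, c1 < 3 ∧ c2 < 3 ∧ c3 < 3 ∧
      Good m (((x, y1), c1) :: ((x, y2), c2) :: ((z, x), c3) :: S) := by
  obtain ⟨a, b, hab, hac, hbc⟩ := two_colours ⟨c, hc⟩
  have hab' : (a : ℕ) ≠ b := fun h => hab (Fin.ext h)
  have hac' : (a : ℕ) ≠ c := fun h => hac (Fin.ext h)
  have hbc' : (b : ℕ) ≠ c := fun h => hbc (Fin.ext h)
  by_cases hr : Reach (cls S a) y1 z
  · have hr2 : ¬ Reach (cls S a) y2 z := by
      intro hr2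
      refine h12 (starts_unique (hS.1 a a.2).2.1 hr hr2 ?_ ?_)
      · intro d hd
        exact hac' (hy1 _ (mem_cls.1 hd) (Or.inl rfl) a.2)
      · intro d hd
        exact hac' (hy2 _ (mem_cls.1 hd) (Or.inl rfl) a.2)
    have := out_step hS hx a.2 b.2 hab' hac' hbc' hy2 hy1 hz hn hmx h1 h3 h2 h5 h6 h8 h7 hr2
    exact ⟨b, a, a, b.2, a.2, a.2, this⟩
  · have := out_step hS hx a.2 b.2 hab' hac' hbc' hy1 hy2 hz hn hmx h1 h2 h3 h4 h6 h7 h8 hr
    exact ⟨a, b, a, a.2, b.2, a.2, this.perm (List.Perm.swap _ _ _)⟩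

/-! ### choice of the colours -/

theorem sdr3 : ∀ f1 f2 f3 : Fin 4, ¬ (f1 = f2 ∧ f2 = f3 ∧ (f1 : ℕ) < 3) →
    ∃ c1 c2 c3 : Fin 3, (c1 : ℕ) ≠ c2 ∧ (c1 : ℕ) ≠ c3 ∧ (c2 : ℕ) ≠ c3 ∧ (c1 : ℕ) ≠ f1 ∧
      (c2 : ℕ) ≠ f2 ∧ (c3 : ℕ) ≠ f3 := by decide

theorem sdr1 : ∀ f1 f2 : Fin 4, ∃ c : Fin 3, (c : ℕ) ≠ f1 ∧ (c : ℕ) ≠ f2 := by decide

/-- a list of arcs has at most one colour in a set of conflicting arcs if it has at most two
arcs of the set and one of them is new -/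
theorem forb (A : List (ℕ × ℕ)) (S : List ((ℕ × ℕ) × ℕ)) (p : ℕ × ℕ → Prop) [DecidablePred p]
    {e : ℕ × ℕ} (he : e ∈ A) (hpe : p e)
    (hK : ((A ++ S.map Prod.fst).filter (fun f => decide (p f))).length ≤ 2) :
    ∃ f : Fin 4, (∀ a ∈ S, p a.1 → a.2 < 3 → a.2 = f) ∧
      ((f : ℕ) < 3 → (A.filter (fun f => decide (p f))).length ≤ 1) := by
  rw [List.filter_append, List.length_append, List.filter_map, List.length_map] at hK
  have h1 : 1 ≤ (A.filter (fun f => decide (p f))).length := by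
    apply List.length_pos_of_mem (a := e)
    exact List.mem_filter.2 ⟨he, by simpa using hpe⟩
  by_cases h : ∃ a ∈ S, p a.1 ∧ a.2 < 3
  · obtain ⟨a, ha, hpa, ha3⟩ := h
    have hm : ∀ b ∈ S, p b.1 → b ∈ S.filter ((fun f => decide (p f)) ∘ Prod.fst) := by
      intro b hb hpb
      exact List.mem_filter.2 ⟨hb, by simpa using hpb⟩
    have h2 : 1 ≤ (S.filter ((fun f => decide (p f)) ∘ Prod.fst)).length :=
      List.length_pos_of_mem (hm a ha hpa)
    refine ⟨⟨a.2, by omega⟩, fun b hb hpb hb3 => ?_, fun _ => by omega⟩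
    have h3 : (S.filter ((fun f => decide (p f)) ∘ Prod.fst)).length = 1 := by omega
    obtain ⟨d, hd⟩ := List.length_eq_one_iff.1 h3
    have e1 := hm a ha hpa
    have e2 := hm b hb hpb
    rw [hd, List.mem_singleton] at e1 e2
    show b.2 = a.2
    rw [e1, e2]
  · refine ⟨⟨3, by omega⟩, fun b hb hpb hb3 => ?_, fun h => ?_⟩
    · exact absurd ⟨b, hb, hpb, hb3⟩ h
    · simp at h

/-- conflict at the end of `e` different from `x` -/
def far (m : ℕ → ℕ) (x : ℕ) (e f : ℕ × ℕ) : Prop :=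
  if e.1 = x then headConf m e f else tailConf m e f

/-- conflict at the end `x` of `e` -/
def nearC (m : ℕ → ℕ) (x : ℕ) (e f : ℕ × ℕ) : Prop :=
  if e.1 = x then tailConf m e f else headConf m e f

instance (m : ℕ → ℕ) (x : ℕ) (e f : ℕ × ℕ) : Decidable (far m x e f) :=
  inferInstanceAs (Decidable (if e.1 = x then headConf m e f else tailConf m e f))

instance (m : ℕ → ℕ) (x : ℕ) (e f : ℕ × ℕ) : Decidable (nearC m x e f) :=
  inferInstanceAs (Decidable (if e.1 = x then tailConf m e f else headConf m e f))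

theorem far_or_near (m : ℕ → ℕ) (x : ℕ) (e f : ℕ × ℕ) (h1 : ¬ far m x e f)
    (h2 : ¬ nearC m x e f) : ¬ tailConf m e f ∧ ¬ headConf m e f := by
  unfold far at h1
  unfold nearC at h2
  split_ifs at h1 h2 with h
  · exact ⟨h2, h1⟩
  · exact ⟨h1, h2⟩

theorem far_in {e f : ℕ × ℕ} (h : e.1 ≠ x) : far m x e f ↔ tailConf m e f := by
  unfold far
  rw [if_neg h]

theorem far_out {e f : ℕ × ℕ} (h : e.1 = x) : far m x e f ↔ headConf m e f := by
  unfold far
  rw [if_pos h]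

theorem in3 {c : ℕ} {e1 e2 e3 : ℕ × ℕ} (hS : Good m S) (hx : ∀ a ∈ S, a.1.1 ≠ x ∧ a.1.2 ≠ x)
    (hc : c < 3) (i1 : e1.1 ≠ x ∧ e1.2 = x) (i2 : e2.1 ≠ x ∧ e2.2 = x) (i3 : e3.1 = x ∧ e3.2 ≠ x)
    (hf1 : ∀ a ∈ S, far m x e1 a.1 → a.2 < 3 → a.2 = c)
    (hf2 : ∀ a ∈ S, far m x e2 a.1 → a.2 < 3 → a.2 = c)
    (hf3 : ∀ a ∈ S, far m x e3 a.1 → a.2 < 3 → a.2 = c)
    (hn : ∀ a ∈ S, a.1.1 ≠ m x ∧ m a.1.2 ≠ x)
    (hK : ¬ (headConf m e1 e2 ∧ headConf m e1 e3))
    (n12 : ¬ far m x e1 e2) (n13 : ¬ far m x e1 e3) (n23 : ¬ far m x e2 e3)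
    (h01 : e1.1 ≠ m e1.2) (h02 : e2.1 ≠ m e2.2) (h03 : e3.1 ≠ m e3.2) :
    ∃ c1 c2 c3 : ℕ, c1 < 3 ∧ c2 < 3 ∧ c3 < 3 ∧
      Good m ((e1, c1) :: (e2, c2) :: (e3, c3) :: S) := by
  obtain ⟨z1, x1⟩ := e1
  obtain ⟨z2, x2⟩ := e2
  obtain ⟨x3, y⟩ := e3
  obtain ⟨i1, rfl⟩ := i1
  obtain ⟨i2, rfl⟩ := i2
  obtain ⟨rfl, i3⟩ := i3
  simp only at *
  have j1 : ((z1, x3) : ℕ × ℕ).1 ≠ x3 := i1
  have j2 : ((z2, x3) : ℕ × ℕ).1 ≠ x3 := i2
  rw [far_in j1] at n12 n13
  rw [far_in j2] at n23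
  simp only [far_in (m := m) j1] at hf1
  simp only [far_in (m := m) j2] at hf2
  simp only [far_out (m := m) (show ((x3, y) : ℕ × ℕ).1 = x3 from rfl)] at hf3
  refine in_case hS hx hc hf1 hf2 hf3 hn ?_ ?_ i1 i2 i3 ?_ ?_ h01 h02 h03
  · intro h
    exact hK ⟨Or.inl rfl, Or.inr h.symm⟩
  · intro h
    exact n12 (Or.inl h.symm)
  · intro h
    exact n13 (Or.inr h)
  · intro h
    exact n23 (Or.inr h)

theorem out3 {c : ℕ} {e1 e2 e3 : ℕ × ℕ} (hS : Good m S) (hx : ∀ a ∈ S, a.1.1 ≠ x ∧ a.1.2 ≠ x)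
    (hc : c < 3) (i1 : e1.1 = x ∧ e1.2 ≠ x) (i2 : e2.1 = x ∧ e2.2 ≠ x) (i3 : e3.1 ≠ x ∧ e3.2 = x)
    (hf1 : ∀ a ∈ S, far m x e1 a.1 → a.2 < 3 → a.2 = c)
    (hf2 : ∀ a ∈ S, far m x e2 a.1 → a.2 < 3 → a.2 = c)
    (hf3 : ∀ a ∈ S, far m x e3 a.1 → a.2 < 3 → a.2 = c)
    (hn : ∀ a ∈ S, a.1.1 ≠ m x ∧ m a.1.2 ≠ x)
    (hK : ¬ (tailConf m e1 e2 ∧ tailConf m e1 e3))
    (n12 : ¬ far m x e1 e2) (n13 : ¬ far m x e1 e3) (n23 : ¬ far m x e2 e3)
    (h01 : e1.1 ≠ m e1.2) (h02 : e2.1 ≠ m e2.2) (h03 : e3.1 ≠ m e3.2) :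
    ∃ c1 c2 c3 : ℕ, c1 < 3 ∧ c2 < 3 ∧ c3 < 3 ∧
      Good m ((e1, c1) :: (e2, c2) :: (e3, c3) :: S) := by
  obtain ⟨x1, y1⟩ := e1
  obtain ⟨x2, y2⟩ := e2
  obtain ⟨z, x3⟩ := e3
  obtain ⟨rfl, i1⟩ := i1
  obtain ⟨rfl, i2⟩ := i2
  obtain ⟨i3, rfl⟩ := i3
  simp only at *
  rw [far_out (m := m) (show ((x3, y1) : ℕ × ℕ).1 = x3 from rfl)] at n12 n13
  rw [far_out (m := m) (show ((x3, y2) : ℕ × ℕ).1 = x3 from rfl)] at n23
  simp only [far_out (m := m) (show ((x3, y1) : ℕ × ℕ).1 = x3 from rfl)] at hf1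
  simp only [far_out (m := m) (show ((x3, y2) : ℕ × ℕ).1 = x3 from rfl)] at hf2
  have j3 : ((z, x3) : ℕ × ℕ).1 ≠ x3 := i3
  simp only [far_in (m := m) j3] at hf3
  refine out_case hS hx hc hf1 hf2 hf3 hn ?_ ?_ i3 i1 i2 ?_ ?_ h03 h01 h02
  · intro h
    exact hK ⟨Or.inl rfl, Or.inr h⟩
  · intro h
    exact n12 (Or.inl h.symm)
  · intro h
    exact n13 (Or.inr h.symm)
  · intro h
    exact n23 (Or.inr h.symm)

theorem filter3 {p : ℕ × ℕ → Prop} [DecidablePred p] {e1 e2 e3 : ℕ × ℕ} :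
    (([e1, e2, e3].filter (fun f => decide (p f))).length ≤ 1 → ¬ (p e1 ∧ p e2) ∧ ¬ (p e1 ∧ p e3) ∧
      ¬ (p e2 ∧ p e3)) ∧
    (([e1, e2, e3].filter (fun f => decide (p f))).length ≤ 2 → ¬ (p e1 ∧ p e2 ∧ p e3)) := by
  by_cases h1 : p e1 <;> by_cases h2 : p e2 <;> by_cases h3 : p e3 <;> simp [h1, h2, h3]

/-- **Extension of the colouring to the arcs at a new node.** -/
theorem extend_node (hS : Good m S) (hx : ∀ a ∈ S, a.1.1 ≠ x ∧ a.1.2 ≠ x) (A : List (ℕ × ℕ))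
    (hA : ∀ e ∈ A, (e.1 = x ∧ e.2 ≠ x) ∨ (e.1 ≠ x ∧ e.2 = x)) (hlen : A.length ≤ 3)
    (h0 : ∀ e ∈ A, e.1 ≠ m e.2)
    (hK1 : ∀ e ∈ A, ((A ++ S.map Prod.fst).filter (fun f => decide (tailConf m e f))).length ≤ 2)
    (hK2 : ∀ e ∈ A, ((A ++ S.map Prod.fst).filter (fun f => decide (headConf m e f))).length ≤ 2)
    (hK3 : 2 ≤ A.length → ∀ a ∈ S, a.1.1 ≠ m x ∧ m a.1.2 ≠ x) :
    ∃ cs : List ℕ, cs.length = A.length ∧ (∀ c ∈ cs, c < 3) ∧ Good m (A.zip cs ++ S) := by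
  have hF : ∀ e ∈ A, ∃ f : Fin 4, (∀ a ∈ S, far m x e a.1 → a.2 < 3 → a.2 = f) ∧
      ((f : ℕ) < 3 → (A.filter (fun f => decide (far m x e f))).length ≤ 1) := by
    intro e he
    refine forb A S (far m x e) he ?_ ?_
    · unfold far
      split_ifs
      · exact Or.inl rfl
      · exact Or.inl rfl
    · unfold far
      split_ifs
      · exact hK2 e he
      · exact hK1 e he
  have hnear : 2 ≤ A.length → ∀ e ∈ A, ∀ a ∈ S, ¬ nearC m x e a.1 := by
    intro h2 e he a ha hc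
    have h3 := hK3 h2 a ha
    have h4 := hx a ha
    unfold nearC at hc
    split_ifs at hc with h
    · rcases hc with h5 | h5
      · exact h4.1 (h5.trans h)
      · exact h3.2 (h5.trans h)
    · have h6 : e.2 = x := by
        rcases hA e he with h7 | h7
        · exact absurd h7.1 h
        · exact h7.2
      rcases hc with h5 | h5
      · exact h4.2 (h5.trans h6)
      · exact h3.1 (by rw [← h6]; exact h5)
  match A, hlen with
  | [], _ => exact ⟨[], rfl, by simp, by simpa using hS⟩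
  | [e], _ =>
    obtain ⟨f, hf, -⟩ := hF e (by simp)
    obtain ⟨g, hg, -⟩ := forb [e] S (nearC m x e) (e := e) (by simp) (by
      unfold nearC
      split_ifs
      · exact Or.inl rfl
      · exact Or.inl rfl) (by
      unfold nearC
      split_ifs
      · exact hK1 e (by simp)
      · exact hK2 e (by simp))
    obtain ⟨c, hc1, hc2⟩ := sdr1 f g
    refine ⟨[(c : ℕ)], rfl, by simp, ?_⟩
    have := Good.add_distinct (m := m) hS hx [(e, (c : ℕ))] (by simpa [At] using hA e (by simp))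
      (by simpa using h0 e (by simp)) (by simp) (by
        intro p hp a ha hac
        rw [List.mem_singleton] at hp
        subst hp
        simp only at hac
        have hc3 : a.2 < 3 := by rw [hac]; exact c.2
        refine far_or_near m x e a.1 ?_ ?_
        · intro h
          exact hc1 (by rw [← hac]; exact hf a ha h hc3)
        · intro h
          exact hc2 (by rw [← hac]; exact hg a ha h hc3))
    exact this
  | [e1, e2], _ =>
    obtain ⟨f1, hf1, -⟩ := hF e1 (by simp)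
    obtain ⟨f2, hf2, -⟩ := hF e2 (by simp)
    obtain ⟨c1, c2, c3, h12, -, -, hc1, hc2, -⟩ := sdr3 f1 f2 (if f1 = 3 then 0 else 3) (by
      intro h
      obtain ⟨h1, h2, h3⟩ := h
      rw [h1, h2] at h3
      split_ifs at h2 h3 with h4
      · rw [h4] at h1
        rw [← h1] at h2
        exact absurd h2 (by decide)
      · simp at h3)
    refine ⟨[(c1 : ℕ), (c2 : ℕ)], rfl, by simp, ?_⟩
    have := Good.add_distinct (m := m) hS hx [(e1, (c1 : ℕ)), (e2, (c2 : ℕ))]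
      (by
        intro p hp
        simp only [List.mem_cons, List.not_mem_nil, or_false] at hp
        rcases hp with rfl | rfl
        · exact hA e1 (by simp)
        · exact hA e2 (by simp))
      (by
        intro p hp
        simp only [List.mem_cons, List.not_mem_nil, or_false] at hp
        rcases hp with rfl | rfl
        · exact h0 e1 (by simp)
        · exact h0 e2 (by simp))
      (by simpa using h12) (by
        intro p hp a ha hac
        simp only [List.mem_cons, List.not_mem_nil, or_false] at hp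
        rcases hp with rfl | rfl
        · have hc3 : a.2 < 3 := by rw [hac]; exact c1.2
          refine far_or_near m x e1 a.1 ?_ (hnear (by simp) e1 (by simp) a ha)
          intro h
          exact hc1 (by rw [← hf1 a ha h hc3]; exact hac.symm)
        · have hc3 : a.2 < 3 := by rw [hac]; exact c2.2
          refine far_or_near m x e2 a.1 ?_ (hnear (by simp) e2 (by simp) a ha)
          intro h
          exact hc2 (by rw [← hf2 a ha h hc3]; exact hac.symm))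
    exact this
  | [e1, e2, e3], _ =>
    obtain ⟨f1, hf1, hg1⟩ := hF e1 (by simp)
    obtain ⟨f2, hf2, hg2⟩ := hF e2 (by simp)
    obtain ⟨f3, hf3, hg3⟩ := hF e3 (by simp)
    have hn := hnear (by simp)
    have hn3 := hK3 (by simp)
    by_cases hall : f1 = f2 ∧ f2 = f3 ∧ (f1 : ℕ) < 3
    · obtain ⟨rfl, rfl, hc⟩ := hall
      have hs : ∀ e : ℕ × ℕ, far m x e e := by
        intro e
        unfold far
        split_ifs
        · exact Or.inl rfl
        · exact Or.inl rfl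
      have k1 := filter3.1 (hg1 hc)
      have k2 := filter3.1 (hg2 hc)
      have k3 := filter3.1 (hg3 hc)
      have n12 : ¬ far m x e1 e2 := fun h => k1.1 ⟨hs e1, h⟩
      have n13 : ¬ far m x e1 e3 := fun h => k1.2.1 ⟨hs e1, h⟩
      have n21 : ¬ far m x e2 e1 := fun h => k2.1 ⟨h, hs e2⟩
      have n23 : ¬ far m x e2 e3 := fun h => k2.2.2 ⟨hs e2, h⟩
      have n31 : ¬ far m x e3 e1 := fun h => k3.2.1 ⟨h, hs e3⟩
      have n32 : ¬ far m x e3 e2 := fun h => k3.2.2 ⟨h, hs e3⟩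
      have hT : ∀ e ∈ [e1, e2, e3], ¬ (tailConf m e e1 ∧ tailConf m e e2 ∧ tailConf m e e3) := by
        intro e he
        refine filter3.2 (le_trans ?_ (hK1 e he))
        rw [List.filter_append, List.length_append]
        exact Nat.le_add_right _ _
      have hH : ∀ e ∈ [e1, e2, e3], ¬ (headConf m e e1 ∧ headConf m e e2 ∧ headConf m e e3) := by
        intro e he
        refine filter3.2 (le_trans ?_ (hK2 e he))
        rw [List.filter_append, List.length_append]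
        exact Nat.le_add_right _ _
      have m1 : e1 ∈ [e1, e2, e3] := by simp
      have m2 : e2 ∈ [e1, e2, e3] := by simp
      have m3 : e3 ∈ [e1, e2, e3] := by simp
      have hts : ∀ e : ℕ × ℕ, tailConf m e e := fun e => Or.inl rfl
      have hhs : ∀ e : ℕ × ℕ, headConf m e e := fun e => Or.inl rfl
      rcases hA e1 m1 with o1 | i1
      · rcases hA e2 m2 with o2 | i2
        · rcases hA e3 m3 with o3 | i3
          · exact absurd ⟨hts e1, Or.inl (o2.1.trans o1.1.symm), Or.inl (o3.1.trans o1.1.symm)⟩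
              (hT e1 m1)
          · obtain ⟨c1, c2, c3, h1, h2, h3, hG⟩ := out3 hS hx hc o1 o2 i3 hf1 hf2 hf3 hn3
              (fun h => hT e1 m1 ⟨hts e1, h⟩) n12 n13 n23 (h0 e1 m1) (h0 e2 m2) (h0 e3 m3)
            exact ⟨[c1, c2, c3], rfl, by simp [h1, h2, h3], hG⟩
        · rcases hA e3 m3 with o3 | i3
          · obtain ⟨c1, c3, c2, h1, h3, h2, hG⟩ := out3 hS hx hc o1 o3 i2 hf1 hf3 hf2 hn3
              (fun h => hT e1 m1 ⟨hts e1, h.2, h.1⟩) n13 n12 n32 (h0 e1 m1) (h0 e3 m3) (h0 e2 m2)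
            exact ⟨[c1, c2, c3], rfl, by simp [h1, h2, h3],
              hG.perm ((List.Perm.swap _ _ _).cons _)⟩
          · obtain ⟨c2, c3, c1, h2, h3, h1, hG⟩ := in3 hS hx hc i2 i3 o1 hf2 hf3 hf1 hn3
              (fun h => hH e2 m2 ⟨h.2, hhs e2, h.1⟩) n23 n21 n31 (h0 e2 m2) (h0 e3 m3) (h0 e1 m1)
            refine ⟨[c1, c2, c3], rfl, by simp [h1, h2, h3], hG.perm ?_⟩
            exact ((List.Perm.swap _ _ _).cons _).trans (List.Perm.swap _ _ _)
      · rcases hA e2 m2 with o2 | i2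
        · rcases hA e3 m3 with o3 | i3
          · obtain ⟨c2, c3, c1, h2, h3, h1, hG⟩ := out3 hS hx hc o2 o3 i1 hf2 hf3 hf1 hn3
              (fun h => hT e2 m2 ⟨h.2, hts e2, h.1⟩) n23 n21 n31 (h0 e2 m2) (h0 e3 m3) (h0 e1 m1)
            refine ⟨[c1, c2, c3], rfl, by simp [h1, h2, h3], hG.perm ?_⟩
            exact ((List.Perm.swap _ _ _).cons _).trans (List.Perm.swap _ _ _)
          · obtain ⟨c1, c3, c2, h1, h3, h2, hG⟩ := in3 hS hx hc i1 i3 o2 hf1 hf3 hf2 hn3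
              (fun h => hH e1 m1 ⟨hhs e1, h.2, h.1⟩) n13 n12 n32 (h0 e1 m1) (h0 e3 m3) (h0 e2 m2)
            exact ⟨[c1, c2, c3], rfl, by simp [h1, h2, h3],
              hG.perm ((List.Perm.swap _ _ _).cons _)⟩
        · rcases hA e3 m3 with o3 | i3
          · obtain ⟨c1, c2, c3, h1, h2, h3, hG⟩ := in3 hS hx hc i1 i2 o3 hf1 hf2 hf3 hn3
              (fun h => hH e1 m1 ⟨hhs e1, h⟩) n12 n13 n23 (h0 e1 m1) (h0 e2 m2) (h0 e3 m3)
            exact ⟨[c1, c2, c3], rfl, by simp [h1, h2, h3], hG⟩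
          · exact absurd ⟨hhs e1, Or.inl (i2.2.trans i1.2.symm), Or.inl (i3.2.trans i1.2.symm)⟩
              (hH e1 m1)
    · obtain ⟨c1, c2, c3, h12, h13, h23, hc1, hc2, hc3⟩ := sdr3 f1 f2 f3 hall
      refine ⟨[(c1 : ℕ), (c2 : ℕ), (c3 : ℕ)], rfl, by simp, ?_⟩
      have := Good.add_distinct (m := m) hS hx
        [(e1, (c1 : ℕ)), (e2, (c2 : ℕ)), (e3, (c3 : ℕ))]
        (by
          intro p hp
          simp only [List.mem_cons, List.not_mem_nil, or_false] at hp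
          rcases hp with rfl | rfl | rfl
          · exact hA e1 (by simp)
          · exact hA e2 (by simp)
          · exact hA e3 (by simp))
        (by
          intro p hp
          simp only [List.mem_cons, List.not_mem_nil, or_false] at hp
          rcases hp with rfl | rfl | rfl
          · exact h0 e1 (by simp)
          · exact h0 e2 (by simp)
          · exact h0 e3 (by simp))
        (by simp [h12, h13, h23]) (by
          intro p hp a ha hac
          simp only [List.mem_cons, List.not_mem_nil, or_false] at hp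
          rcases hp with rfl | rfl | rfl
          · have hc3 : a.2 < 3 := by rw [hac]; exact c1.2
            refine far_or_near m x e1 a.1 ?_ (hn e1 (by simp) a ha)
            intro h
            exact hc1 (by rw [← hf1 a ha h hc3]; exact hac.symm)
          · have hc3 : a.2 < 3 := by rw [hac]; exact c2.2
            refine far_or_near m x e2 a.1 ?_ (hn e2 (by simp) a ha)
            intro h
            exact hc2 (by rw [← hf2 a ha h hc3]; exact hac.symm)
          · have hc4 : a.2 < 3 := by rw [hac]; exact c3.2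
            refine far_or_near m x e3 a.1 ?_ (hn e3 (by simp) a ha)
            intro h
            exact hc3 (by rw [← hf3 a ha h hc4]; exact hac.symm))
      exact this
  | _ :: _ :: _ :: _ :: _, h =>
    simp only [List.length_cons] at h
    omega

end Vale.Agent.P333.T
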