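import Vale.Agent.P333.T.FinEnd
import Vale.Agent.P333.T.V

/-!
P333, box T: the path systems of the candidates from an admissible colouring.
-/

namespace Vale.Agent.P333.T

open List
open Vale.Agent.P333.M (nx)

/-- the conditions of `End.Col` from `Good` -/
theorem col_of_good {n : ℕ} {p1 p2 : List ℕ} {S : List ((ℕ × ℕ) × ℕ)}
    (hG : Good (mate n p1 p2) S) (hS : (S.map Prod.fst).Subperm (arcs n p1 p2))
    (hcol : ∀ a ∈ S, a.2 < 3) : End.Col n p1 p2 S :=
  ⟨hS, hcol, hG.2⟩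

/-- **The coloured arcs with the arcs inside the pairs are path systems.** -/
theorem end_hLF {n : ℕ} {w : ℕ → ℕ → ℕ} {p1 p2 : List ℕ} {S : List ((ℕ × ℕ) × ℕ)}
    (h1 : p1 ~ List.range n) (h2 : p2 ~ List.range (n + n)) (hG : Good (mate n p1 p2) S)
    {q : ℕ × ℕ → Bool} (hS : S.map Prod.fst ~ (arcs n p1 p2).filter q)
    (hcol : ∀ a ∈ S, a.2 < 3) :
    ∀ t < 3, LF (cls S t ++ endArcs n w p1 p2 S t) := by
  intro t ht
  have hsub : (S.map Prod.fst).Subperm (arcs n p1 p2) :=
    hS.subperm.trans List.filter_sublist.subperm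
  exact End.end_LF' (col_of_good hG hsub hcol) h1 h2 (hG.1 t ht)

end Vale.Agent.P333.T
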