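import Vale.Agent.P333.M.Charge

/-!
P333, box 2/3: the final count. `F` is a linear forest, `R` is a set of long cycles on other nodes.
-/

namespace Vale.Agent.P333.T

open List Vale.Agent.P333.M

variable {V : Type*}

/-- a cyclic sequence whose arcs join only nodes of the same class stays in one class -/
theorem cyc_class (K : V → Prop) (P : List V) (h : ∀ e ∈ cyc P, (K e.1 ↔ K e.2)) :
    (∀ x ∈ P, K x) ∨ ∀ x ∈ P, ¬ K x := by
  classical
  by_contra hcon
  push Not at hcon
  obtain ⟨⟨a, ha, hKa⟩, b, hb, hKb⟩ := hcon
  have hlen : 0 < P.length := List.length_pos_of_mem ha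
  have hstep : ∀ i (hi : i < P.length), (K (P[i]) ↔ K (P[(i + 1) % P.length]'(Nat.mod_lt _ hlen))) := by
    intro i hi
    have hi' : i < (cyc P).length := by
      unfold cyc
      rw [List.length_zip, List.length_rotate, Nat.min_self]
      exact hi
    have hm := h _ (List.getElem_mem hi')
    have he : (cyc P)[i] = (P[i], (P.rotate 1)[i]'(by rw [List.length_rotate]; exact hi)) :=
      List.getElem_zip
    rw [he] at hm
    simpa [List.getElem_rotate] using hm
  have hall : ∀ i (hi : i < P.length), (K (P[0]'hlen) ↔ K (P[i])) := by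
    intro i
    induction i with
    | zero => intro _; exact Iff.rfl
    | succ i ih =>
      intro hi
      have h1 := ih (by omega)
      have h2 := hstep i (by omega)
      have h3 : (i + 1) % P.length = i + 1 := Nat.mod_eq_of_lt hi
      rw [h1, h2]
      simp only [h3]
  obtain ⟨i, hi, rfl⟩ := List.getElem_of_mem ha
  obtain ⟨j, hj, rfl⟩ := List.getElem_of_mem hb
  exact hKa ((hall i hi).1 ((hall j hj).2 hKb))

theorem sum_map_cyc_const {w : V × V → ℕ} {P : List V} {m : ℕ} (h : ∀ e ∈ cyc P, m ≤ w e)
    (hlen : 3 ≤ P.length) : (3 * m : ℚ) ≤ ((cyc P).map (fun e => (w e : ℚ))).sum := by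
  have hc : (cyc P).length = P.length := by
    unfold cyc
    rw [List.length_zip, List.length_rotate, Nat.min_self]
  have h1 : ∀ l : List (V × V), (∀ e ∈ l, m ≤ w e) →
      ((l.length : ℚ) * m) ≤ (l.map (fun e => (w e : ℚ))).sum := by
    intro l
    induction l with
    | nil => intro _; simp
    | cons a l ih =>
      intro hl
      have h2 := ih (fun e he => hl e (List.mem_cons_of_mem _ he))
      have h3 : (m : ℚ) ≤ w a := by exact_mod_cast hl a (by simp)
      simp only [List.length_cons, List.map_cons, List.sum_cons, Nat.cast_add, Nat.cast_one]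
      linarith
  have h2 := h1 (cyc P) h
  have h3 : (3 : ℚ) ≤ (cyc P).length := by rw [hc]; exact_mod_cast hlen
  have h4 : (0 : ℚ) ≤ m := Nat.cast_nonneg m
  nlinarith

/-- one colour class: a linear forest `F` and long cycles `R` on other nodes -/
theorem break_long [DecidableEq V] (w : V → V → ℕ) (nodes : List V) (hn : nodes.Nodup)
    (K : V → Prop)
    (F R : List (V × V)) (hF1 : (F.map Prod.fst).Nodup) (hF2 : (F.map Prod.snd).Nodup)
    (hF3 : ∀ P : List V, P ≠ [] → P.Nodup → ¬ ∀ e ∈ cyc P, e ∈ F)
    (hR1 : (R.map Prod.fst).Nodup) (hR2 : (R.map Prod.snd).Nodup)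
    (hFK : ∀ e ∈ F, ¬ K e.1 ∧ ¬ K e.2) (hRK : ∀ e ∈ R, K e.1 ∧ K e.2)
    (hFn : ∀ e ∈ F, e.1 ∈ nodes ∧ e.2 ∈ nodes) (hRn : ∀ e ∈ R, e.1 ∈ nodes ∧ e.2 ∈ nodes)
    (hlong : ∀ P : List V, P ≠ [] → P.Nodup → (∀ e ∈ cyc P, e ∈ R) → 3 ≤ P.length) :
    breakF w nodes (F ++ R) ~ nodes ∧
      3 * (F.map (fun e => w e.1 e.2)).sum + 2 * (R.map (fun e => w e.1 e.2)).sum ≤
        3 * pw w (breakF w nodes (F ++ R)) := by
  classical
  set g : V × V → ℚ := fun e => if K e.1 then (w e.1 e.2 : ℚ) / 3 else 0 with hg
  have hdisj : ∀ (f : V × V → V), (∀ e ∈ F, ¬ K (f e)) → (∀ e ∈ R, K (f e)) →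
      (F.map f).Nodup → (R.map f).Nodup → ((F ++ R).map f).Nodup := by
    intro f h1 h2 h3 h4
    rw [List.map_append, List.nodup_append]
    refine ⟨h3, h4, ?_⟩
    intro a ha b hb hab
    rw [List.mem_map] at ha hb
    obtain ⟨e, he, rfl⟩ := ha
    obtain ⟨e', he', rfl⟩ := hb
    exact h1 e he (hab ▸ h2 e' he')
  have hb := breakF_spec w nodes hn (F ++ R)
    (hdisj _ (fun e he => (hFK e he).1) (fun e he => (hRK e he).1) hF1 hR1)
    (hdisj _ (fun e he => (hFK e he).2) (fun e he => (hRK e he).2) hF2 hR2)
    (fun e he => by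
      rcases List.mem_append.1 he with h | h
      · exact hFn e h
      · exact hRn e h)
    g (fun e _ => by
      rw [hg]
      dsimp only
      split_ifs
      · positivity
      · exact le_refl _)
    (by
      intro P hP hnd hall e0 he0 hmin
      have hcls : ∀ e ∈ cyc P, (K e.1 ↔ K e.2) := by
        intro e he
        rcases List.mem_append.1 (hall e he) with h | h
        · exact ⟨fun hk => absurd hk (hFK e h).1, fun hk => absurd hk (hFK e h).2⟩
        · exact ⟨fun _ => (hRK e h).2, fun _ => (hRK e h).1⟩
      have hmem1 : ∀ e ∈ cyc P, e.1 ∈ P := by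
        intro e he
        have : e.1 ∈ (cyc P).map Prod.fst := List.mem_map_of_mem he
        rwa [map_fst_cyc] at this
      rcases cyc_class K P hcls with hK | hK
      · have hR : ∀ e ∈ cyc P, e ∈ R := by
          intro e he
          rcases List.mem_append.1 (hall e he) with h | h
          · exact absurd (hK _ (hmem1 e he)) (hFK e h).1
          · exact h
        have h3 := sum_map_cyc_const (w := fun e : V × V => w e.1 e.2) hmin (hlong P hP hnd hR)
        have h4 : ((cyc P).map g).sum = ((cyc P).map (fun e => (w e.1 e.2 : ℚ))).sum / 3 := by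
          have : ∀ l : List (V × V), (∀ e ∈ l, K e.1) →
              (l.map g).sum = (l.map (fun e => (w e.1 e.2 : ℚ))).sum / 3 := by
            intro l
            induction l with
            | nil => intro _; simp
            | cons a l ih =>
              intro hl
              have h5 := ih (fun e he => hl e (List.mem_cons_of_mem _ he))
              have h6 : g a = (w a.1 a.2 : ℚ) / 3 := by
                rw [hg]
                exact if_pos (hl a (by simp))
              simp only [List.map_cons, List.sum_cons, h5, h6]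
              ring
          exact this _ (fun e he => hK _ (hmem1 e he))
        rw [h4]
        linarith
      · exfalso
        apply hF3 P hP hnd
        intro e he
        rcases List.mem_append.1 (hall e he) with h | h
        · exact h
        · exact absurd (hRK e h).1 (hK _ (hmem1 e he)))
  refine ⟨hb.1, ?_⟩
  have h2 := hb.2
  rw [List.map_append, List.sum_append, List.map_append, List.sum_append] at h2
  have h5 : (F.map g).sum = 0 := by
    apply List.sum_eq_zero
    intro x hx
    rw [List.mem_map] at hx
    obtain ⟨e, he, rfl⟩ := hx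
    rw [hg]
    exact if_neg (hFK e he).1
  have h6 : ∀ l : List (V × V), (∀ e ∈ l, K e.1) →
      (l.map g).sum = ((l.map (fun e => w e.1 e.2)).sum : ℚ) / 3 := by
    intro l
    induction l with
    | nil => intro _; simp
    | cons a l ih =>
      intro hl
      have h5 := ih (fun e he => hl e (List.mem_cons_of_mem _ he))
      have h6 : g a = (w a.1 a.2 : ℚ) / 3 := by
        rw [hg]
        exact if_pos (hl a (by simp))
      simp only [List.map_cons, List.sum_cons, h5, h6, Nat.cast_add]
      ring
  rw [h5, h6 R (fun e he => (hRK e he).1)] at h2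
  rw [Nat.cast_add] at h2
  have h7 : (3 * ((F.map (fun e => w e.1 e.2)).sum : ℚ) +
      2 * ((R.map (fun e => w e.1 e.2)).sum : ℚ)) ≤
      3 * (pw w (breakF w nodes (F ++ R)) : ℚ) := by
    linarith
  exact_mod_cast h7

end Vale.Agent.P333.T
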