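import Vale.Agent.P333.M.Prog
import Vale.Agent.P333.T.FinCount

/-!
P333, box 2/3: an optimal assignment is optimal on every closed set of nodes; the best of three.
-/

namespace Vale.Agent.P333.T

open List Vale.Agent.P333.M

theorem nx_lt {n : ℕ} {p : List ℕ} (h : p ~ List.range n) {x : ℕ} (hx : x < n) : nx p x < n := by
  have hl : p.length = n := by simpa using h.length_eq
  unfold nx
  rw [List.getD_eq_getElem _ _ (by rw [hl]; exact hx)]
  exact List.mem_range.1 (h.mem_iff.1 (List.getElem_mem _))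

theorem nx_inj {n : ℕ} {p : List ℕ} (h : p ~ List.range n) {x y : ℕ} (hx : x < n) (hy : y < n)
    (hxy : nx p x = nx p y) : x = y := by
  have hl : p.length = n := by simpa using h.length_eq
  unfold nx at hxy
  rw [List.getD_eq_getElem _ _ (by rw [hl]; exact hx),
    List.getD_eq_getElem _ _ (by rw [hl]; exact hy)] at hxy
  exact (List.Nodup.getElem_inj_iff (h.nodup_iff.2 List.nodup_range)).1 hxy

/-- an optimal assignment is optimal on every set of nodes closed under it and under another
assignment -/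
theorem opt_on_closed {n : ℕ} {w1 : ℕ → ℕ → ℕ} {p1 : List ℕ} (h1 : p1 ~ List.range n)
    (hmax : ∀ l : List ℕ, l ~ List.range n →
      ∑ i ∈ Finset.range n, w1 i (l.getD i 0) ≤ ∑ i ∈ Finset.range n, w1 i (p1.getD i 0))
    (K : ℕ → Prop) [DecidablePred K] (s2 : ℕ → ℕ)
    (hK1 : ∀ x < n, K x → K (nx p1 x)) (hK2 : ∀ x < n, K x → K (s2 x) ∧ s2 x < n)
    (hinj : ∀ x < n, ∀ y < n, K x → K y → s2 x = s2 y → x = y) :
    ∑ x ∈ (Finset.range n).filter K, w1 x (s2 x) ≤
      ∑ x ∈ (Finset.range n).filter K, w1 x (nx p1 x) := by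
  classical
  set S := (Finset.range n).filter K with hS
  have himg : S.image (nx p1) = S := by
    refine Finset.eq_of_subset_of_card_le ?_ ?_
    · intro y hy
      rw [Finset.mem_image] at hy
      obtain ⟨x, hx, rfl⟩ := hy
      rw [hS, Finset.mem_filter, Finset.mem_range] at hx ⊢
      exact ⟨nx_lt h1 hx.1, hK1 x hx.1 hx.2⟩
    · rw [Finset.card_image_of_injOn]
      intro x hx y hy hxy
      rw [Finset.mem_coe, hS, Finset.mem_filter, Finset.mem_range] at hx hy
      exact nx_inj h1 hx.1 hy.1 hxy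
  have hnot : ∀ x < n, ¬ K x → ¬ K (nx p1 x) := by
    intro x hx hKx hK
    have hm : nx p1 x ∈ S := by
      rw [hS, Finset.mem_filter, Finset.mem_range]
      exact ⟨nx_lt h1 hx, hK⟩
    rw [← himg, Finset.mem_image] at hm
    obtain ⟨y, hy, hyx⟩ := hm
    rw [hS, Finset.mem_filter, Finset.mem_range] at hy
    have := nx_inj h1 hy.1 hx hyx
    exact hKx (this ▸ hy.2)
  set f : ℕ → ℕ := fun x => if K x then s2 x else nx p1 x with hf
  set l : List ℕ := (List.range n).map f with hl
  have hflt : ∀ x < n, f x < n := by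
    intro x hx
    rw [hf]
    dsimp only
    split_ifs with hk
    · exact (hK2 x hx hk).2
    · exact nx_lt h1 hx
  have hfinj : ∀ x < n, ∀ y < n, f x = f y → x = y := by
    intro x hx y hy hxy
    rw [hf] at hxy
    dsimp only at hxy
    split_ifs at hxy with hk1 hk2 hk2
    · exact hinj x hx y hy hk1 hk2 hxy
    · exact absurd (hxy ▸ (hK2 x hx hk1).1) (hnot y hy hk2)
    · exact absurd (hxy ▸ (hK2 y hy hk2).1) (hnot x hx hk1)
    · exact nx_inj h1 hx hy hxy
  have hperm : l ~ List.range n := by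
    apply List.Subperm.perm_of_length_le
    · refine List.subperm_of_subset ?_ ?_
      · rw [hl]
        refine List.Nodup.map_on ?_ List.nodup_range
        intro x hx y hy hxy
        exact hfinj x (List.mem_range.1 hx) y (List.mem_range.1 hy) hxy
      · intro x hx
        rw [hl, List.mem_map] at hx
        obtain ⟨y, hy, rfl⟩ := hx
        exact List.mem_range.2 (hflt y (List.mem_range.1 hy))
    · rw [hl]
      simp
  have hm := hmax l hperm
  have hl1 : ∀ i ∈ Finset.range n, w1 i (l.getD i 0) = w1 i (f i) := by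
    intro i hi
    rw [Finset.mem_range] at hi
    congr 1
    rw [hl, List.getD_eq_getElem _ _ (by simpa using hi)]
    simp
  rw [Finset.sum_congr rfl hl1] at hm
  have e1 := Finset.sum_filter_add_sum_filter_not (Finset.range n) K (fun i => w1 i (f i))
  have e2 := Finset.sum_filter_add_sum_filter_not (Finset.range n) K
    (fun i => w1 i (p1.getD i 0))
  have e3 : ∑ x ∈ (Finset.range n).filter (fun x => ¬ K x), w1 x (f x) =
      ∑ x ∈ (Finset.range n).filter (fun x => ¬ K x), w1 x (p1.getD x 0) := by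
    apply Finset.sum_congr rfl
    intro x hx
    rw [Finset.mem_filter] at hx
    rw [hf]
    dsimp only
    rw [if_neg hx.2]
    rfl
  have e4 : ∑ x ∈ (Finset.range n).filter K, w1 x (f x) =
      ∑ x ∈ (Finset.range n).filter K, w1 x (s2 x) := by
    apply Finset.sum_congr rfl
    intro x hx
    rw [Finset.mem_filter] at hx
    rw [hf]
    dsimp only
    rw [if_pos hx.2]
  rw [← e1, ← e2, e3, e4] at hm
  have hm' := Nat.le_of_add_le_add_right hm
  exact hm'

/-- the best of three orders -/
theorem best_of_three {w : ℕ → ℕ → ℕ} {l0 l1 l2 best : List ℕ} {O : ℕ}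
    (h0 : pw w l0 ≤ pw w best) (h1 : pw w l1 ≤ pw w best) (h2 : pw w l2 ≤ pw w best)
    {f0 f1 f2 r : ℕ} (e0 : 3 * f0 + 2 * r ≤ 3 * pw w l0) (e1 : 3 * f1 + 2 * r ≤ 3 * pw w l1)
    (e2 : 3 * f2 + 2 * r ≤ 3 * pw w l2) (hsum : 2 * O ≤ f0 + f1 + f2 + 2 * r) :
    2 * O ≤ 3 * pw w best := by
  omega

end Vale.Agent.P333.T
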