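import Vale.Agent.P333.M.Break

/-!
P333, box 2/3: linear forests, given as lists of arcs, and their extension by one arc.
-/

namespace Vale.Agent.P333.T

open List Vale.Agent.P333.M

variable {V : Type*}

/-- a linear forest: distinct tails, distinct heads, no cycle -/
def LF (F : List (V × V)) : Prop :=
  (F.map Prod.fst).Nodup ∧ (F.map Prod.snd).Nodup ∧
    ∀ P : List V, P ≠ [] → P.Nodup → ¬ ∀ e ∈ cyc P, e ∈ F

/-- there is a walk from `a` to `b` -/
def Reach (F : List (V × V)) (a b : V) : Prop :=
  Relation.ReflTransGen (fun a b => (a, b) ∈ F) a b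

theorem Reach.refl (F : List (V × V)) (a : V) : Reach F a a := Relation.ReflTransGen.refl

theorem LF.nil : LF ([] : List (V × V)) := by
  refine ⟨by simp, by simp, ?_⟩
  intro P hP _ h
  obtain ⟨a, l, rfl⟩ := List.exists_cons_of_ne_nil hP
  have h1 : (cyc (a :: l)).length ≠ 0 := by simp [cyc]
  obtain ⟨e, he⟩ := List.exists_mem_of_length_pos (Nat.pos_of_ne_zero h1)
  exact absurd (h e he) (by simp)

theorem LF.perm {F F' : List (V × V)} (h : F ~ F') (hF : LF F) : LF F' :=
  ⟨(h.map _).nodup_iff.1 hF.1, (h.map _).nodup_iff.1 hF.2.1,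
    fun P h1 h2 h3 => hF.2.2 P h1 h2 fun e he => h.mem_iff.2 (h3 e he)⟩

theorem LF.sublist {F F' : List (V × V)} (h : F' <+ F) (hF : LF F) : LF F' :=
  ⟨hF.1.sublist (h.map _), hF.2.1.sublist (h.map _),
    fun P h1 h2 h3 => hF.2.2 P h1 h2 fun e he => h.subset (h3 e he)⟩

theorem Reach.mono {F F' : List (V × V)} (h : F ⊆ F') {a b : V} (hr : Reach F a b) :
    Reach F' a b := by
  induction hr with
  | refl => exact Reach.refl F' a
  | tail _ hbc ih => exact Relation.ReflTransGen.tail ih (h hbc)

theorem tail_unique {F : List (V × V)} (hF : (F.map Prod.fst).Nodup) {a b c : V}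
    (h1 : (a, b) ∈ F) (h2 : (a, c) ∈ F) : b = c :=
  congrArg Prod.snd (List.inj_on_of_nodup_map hF h1 h2 rfl)

/-- the end of the path starting in `y` is unique -/
theorem ends_unique {F : List (V × V)} (hF : (F.map Prod.fst).Nodup) {y z1 z2 : V}
    (h1 : Reach F y z1) (h2 : Reach F y z2) (hz1 : ∀ b, (z1, b) ∉ F) (hz2 : ∀ b, (z2, b) ∉ F) :
    z1 = z2 := by
  revert h2
  refine Relation.ReflTransGen.head_induction_on h1 ?_ ?_
  · intro h2
    rcases Relation.ReflTransGen.cases_head h2 with h | ⟨c, hc, -⟩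
    · exact h
    · exact absurd hc (hz1 c)
  · intro a c hac _ ih h2
    rcases Relation.ReflTransGen.cases_head h2 with h | ⟨c', hc', h3⟩
    · subst h
      exact absurd hac (hz2 c)
    · have : c = c' := tail_unique hF hac hc'
      subst this
      exact ih h3

/-- a walk in `(z, y) :: F` -/
theorem reach_cons {F : List (V × V)} {z y a b : V} (h : Reach ((z, y) :: F) a b) :
    Reach F a b ∨ (Reach F a z ∧ Reach F y b) := by
  induction h with
  | refl => exact Or.inl (Reach.refl F a)
  | tail _ hbc ih =>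
    rcases List.mem_cons.1 hbc with h | h
    · obtain ⟨rfl, rfl⟩ := Prod.mk.inj h
      rcases ih with ih | ih
      · exact Or.inr ⟨ih, Reach.refl F _⟩
      · exact Or.inr ⟨ih.1, Reach.refl F _⟩
    · rcases ih with ih | ih
      · exact Or.inl (Relation.ReflTransGen.tail ih h)
      · exact Or.inr ⟨ih.1, Relation.ReflTransGen.tail ih.2 h⟩

theorem reach_of_prs {F : List (V × V)} (Q : List V) (a z : V)
    (hQ : ∀ e ∈ prs (a :: Q), e ∈ F) (hz : (a :: Q).getLast? = some z) : Reach F a z := by
  induction Q generalizing a with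
  | nil =>
    have : a = z := by simpa using hz
    subst this
    exact Reach.refl F a
  | cons b Q ih =>
    have h1 : (a, b) ∈ F := hQ _ (by rw [prs_cons_cons]; exact List.mem_cons_self)
    refine Relation.ReflTransGen.head h1 (ih b ?_ ?_)
    · intro e he
      exact hQ e (by rw [prs_cons_cons]; exact List.mem_cons_of_mem _ he)
    · rw [← hz]; simp

theorem snd_mem_of_prs {Q : List V} {a : V} {e : V × V} (he : e ∈ prs (a :: Q)) : e.2 ∈ Q := by
  have h : e ∈ (a :: Q).zip Q := he
  exact (List.of_mem_zip (by simpa using h)).2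

theorem cyc_rotate (P : List V) (m : ℕ) : cyc (P.rotate m) = (cyc P).rotate m := by
  unfold cyc
  rw [List.rotate_rotate, Nat.add_comm m 1, ← List.rotate_rotate]
  exact (List.zipWith_rotate_distrib Prod.mk P (P.rotate 1) m (by simp)).symm

theorem mem_cyc_rotate {P : List V} {m : ℕ} {e : V × V} : e ∈ cyc (P.rotate m) ↔ e ∈ cyc P := by
  rw [cyc_rotate, List.mem_rotate]

/-- extension by one arc -/
theorem LF.add {F : List (V × V)} (hF : LF F) {z y : V} (hz : ∀ b, (z, b) ∉ F)
    (hy : ∀ a, (a, y) ∉ F) (hr : ¬ Reach F y z) : LF ((z, y) :: F) := by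
  refine ⟨?_, ?_, ?_⟩
  · rw [List.map_cons, List.nodup_cons]
    refine ⟨?_, hF.1⟩
    intro h
    obtain ⟨e, he, h1⟩ := List.mem_map.1 h
    refine hz e.2 ?_
    have h1' : e.1 = z := h1
    have : (z, e.2) = e := by rw [← h1']
    rw [this]; exact he
  · rw [List.map_cons, List.nodup_cons]
    refine ⟨?_, hF.2.1⟩
    intro h
    obtain ⟨e, he, h1⟩ := List.mem_map.1 h
    refine hy e.1 ?_
    have h1' : e.2 = y := h1
    have : (e.1, y) = e := by rw [← h1']
    rw [this]; exact he
  · intro P hP hnd hall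
    by_cases hzy : (z, y) ∈ cyc P
    · have hyP : y ∈ P := by
        have h := (List.of_mem_zip (show (z, y) ∈ P.zip (P.rotate 1) from hzy)).2
        exact List.mem_rotate.1 h
      obtain ⟨A, B, rfl⟩ := List.append_of_mem hyP
      have hrot : (A ++ y :: B).rotate A.length = y :: (B ++ A) := by
        rw [List.rotate_append_length_eq]; rfl
      have hall' : ∀ e ∈ cyc (y :: (B ++ A)), e ∈ (z, y) :: F := by
        intro e he
        rw [← hrot, mem_cyc_rotate] at he
        exact hall e he
      have hnd' : (y :: (B ++ A)).Nodup := by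
        rw [← hrot]; exact (List.nodup_rotate).2 hnd
      obtain ⟨x, hx⟩ : ∃ x, (y :: (B ++ A)).getLast? = some x :=
        ⟨_, List.getLast?_eq_getLast_of_ne_nil (by simp)⟩
      have hc : cyc (y :: (B ++ A)) = prs (y :: (B ++ A)) ++ [(x, y)] := cyc_eq hx rfl
      have hprs : ∀ e ∈ prs (y :: (B ++ A)), e ∈ F := by
        intro e he
        have h1 := hall' e (by rw [hc]; exact List.mem_append_left _ he)
        rcases List.mem_cons.1 h1 with h | h
        · exfalso
          have h2 := snd_mem_of_prs he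
          rw [h] at h2
          exact (List.nodup_cons.1 hnd').1 h2
        · exact h
      have hreach := reach_of_prs (B ++ A) y x hprs hx
      have hlast := hall' (x, y) (by rw [hc]; exact List.mem_append_right _ (by simp))
      rcases List.mem_cons.1 hlast with h | h
      · have : x = z := congrArg Prod.fst h
        subst this
        exact hr hreach
      · exact hy x h
    · refine hF.2.2 P hP hnd fun e he => ?_
      rcases List.mem_cons.1 (hall e he) with h | h
      · exact absurd (h ▸ he) hzy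
      · exact h

/-- `x` does not occur in `F` -/
def Fresh (F : List (V × V)) (x : V) : Prop := (∀ b, (x, b) ∉ F) ∧ ∀ a, (a, x) ∉ F

theorem not_reach_of_no_out {F : List (V × V)} {x z : V} (hx : ∀ b, (x, b) ∉ F) (hzx : z ≠ x) :
    ¬ Reach F x z := by
  intro h
  rcases Relation.ReflTransGen.cases_head h with h | ⟨c, hc, -⟩
  · exact hzx h.symm
  · exact hx c hc

theorem not_reach_of_no_in {F : List (V × V)} {x y : V} (hx : ∀ a, (a, x) ∉ F) (hyx : y ≠ x) :
    ¬ Reach F y x := by
  intro h
  rcases Relation.ReflTransGen.cases_tail h with h | ⟨c, -, hc⟩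
  · exact hyx h.symm
  · exact hx c hc

/-- an arc into a node without out-arc -/
theorem LF.add_in {F : List (V × V)} (hF : LF F) {z x : V} (hz : ∀ b, (z, b) ∉ F)
    (hx : Fresh F x) (hzx : z ≠ x) : LF ((z, x) :: F) :=
  hF.add hz hx.2 (not_reach_of_no_out hx.1 hzx)

/-- an arc out of a node without in-arc -/
theorem LF.add_out {F : List (V × V)} (hF : LF F) {x y : V} (hy : ∀ a, (a, y) ∉ F)
    (hx : Fresh F x) (hyx : y ≠ x) : LF ((x, y) :: F) :=
  hF.add hx.1 hy (not_reach_of_no_in hx.2 hyx)

/-- passing a fresh node -/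
theorem LF.add_both {F : List (V × V)} (hF : LF F) {z x y : V} (hz : ∀ b, (z, b) ∉ F)
    (hy : ∀ a, (a, y) ∉ F) (hx : Fresh F x) (hzx : z ≠ x) (hyx : y ≠ x) (hr : ¬ Reach F y z) :
    LF ((z, x) :: (x, y) :: F) := by
  refine (hF.add_out hy hx hyx).add ?_ ?_ ?_
  · intro b hb
    rcases List.mem_cons.1 hb with h | h
    · exact hzx (congrArg Prod.fst h)
    · exact hz b h
  · intro a ha
    rcases List.mem_cons.1 ha with h | h
    · exact hyx (congrArg Prod.snd h).symm
    · exact hx.2 a h
  · intro h
    rcases reach_cons h with h | ⟨-, h⟩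
    · exact not_reach_of_no_out hx.1 hzx h
    · exact hr h

end Vale.Agent.P333.T
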