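import Vale.Agent.P333.T.V2
import Vale.Agent.P333.T.FinCount
import Vale.Agent.P333.T.FinOpt
import Vale.Agent.P333.T.LF
import Vale.Agent.P333.M.CandA

/-!
P333, box T, row FIN: the weights of the three candidates.
-/

namespace Vale.Agent.P333.T.F3

open List
open Vale.Agent.P333.M (nx pw breakF wt1 heavier cyc cyc_closed)
open Vale.Agent.P333.T

/-- weight of a list of arcs -/
def lw (w : ℕ → ℕ → ℕ) (F : List (ℕ × ℕ)) : ℕ := (F.map (fun e => w e.1 e.2)).sum

theorem lw_append (w : ℕ → ℕ → ℕ) (F G : List (ℕ × ℕ)) : lw w (F ++ G) = lw w F + lw w G := by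
  simp [lw]

theorem lw_perm {w : ℕ → ℕ → ℕ} {F G : List (ℕ × ℕ)} (h : F ~ G) : lw w F = lw w G :=
  (h.map _).sum_eq

theorem cls_cons (a : (ℕ × ℕ) × ℕ) (S : List ((ℕ × ℕ) × ℕ)) (t : ℕ) :
    cls (a :: S) t = if a.2 = t then a.1 :: cls S t else cls S t := by
  unfold cls
  by_cases h : a.2 = t
  · simp [h]
  · simp [h]

theorem lw_cls (w : ℕ → ℕ → ℕ) (S : List ((ℕ × ℕ) × ℕ)) (hcol : ∀ a ∈ S, a.2 < 3) :
    lw w (cls S 0) + lw w (cls S 1) + lw w (cls S 2) = lw w (S.map Prod.fst) := by
  induction S with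
  | nil => simp [cls, lw]
  | cons a S ih =>
    have ih' := ih (fun b hb => hcol b (List.mem_cons_of_mem _ hb))
    have ha := hcol a List.mem_cons_self
    rw [cls_cons, cls_cons, cls_cons, List.map_cons]
    have h3 : a.2 = 0 ∨ a.2 = 1 ∨ a.2 = 2 := by omega
    have hc : ∀ F, lw w (a.1 :: F) = w a.1.1 a.1.2 + lw w F := by
      intro F; simp [lw]
    rcases h3 with h | h | h
    · rw [if_pos h, if_neg (by omega), if_neg (by omega), hc, hc]; omega
    · rw [if_neg (by omega), if_pos h, if_neg (by omega), hc, hc]; omega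
    · rw [if_neg (by omega), if_neg (by omega), if_pos h, hc, hc]; omega

theorem sum_filter_range (n : ℕ) (q : ℕ → Bool) (f : ℕ → ℕ) :
    (((List.range n).filter q).map f).sum =
      ∑ x ∈ Finset.range n, if q x = true then f x else 0 := by
  induction n with
  | zero => simp
  | succ n ih =>
    rw [List.range_succ, List.filter_append, List.map_append, List.sum_append, ih,
      Finset.sum_range_succ]
    congr 1
    by_cases hq : q n = true <;> simp [hq]

/-- weight of the arcs `x → f x`, `x` in a set, restricted by a test -/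
theorem lw_arcs (w : ℕ → ℕ → ℕ) (n : ℕ) (q : ℕ → Bool) (f : ℕ → ℕ) (k : ℕ × ℕ → Bool) :
    lw w ((((List.range n).filter q).map (fun x => (x, f x))).filter k) =
      ∑ x ∈ Finset.range n, if (q x && k (x, f x)) = true then w x (f x) else 0 := by
  unfold lw
  rw [List.filter_map, List.filter_filter, List.map_map]
  have := sum_filter_range n (fun x => (k ∘ fun x => (x, f x)) x && q x) (fun x => w x (f x))
  have e : ((fun e : ℕ × ℕ => w e.1 e.2) ∘ fun x => (x, f x)) = fun x => w x (f x) := rfl
  rw [e, this]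
  apply Finset.sum_congr rfl
  intro x _
  simp only [Function.comp, Bool.and_comm]

theorem lw_flatten (w : ℕ → ℕ → ℕ) (n : ℕ) (g : ℕ → List (ℕ × ℕ)) :
    lw w ((List.range n).map g).flatten = ∑ x ∈ Finset.range n, lw w (g x) := by
  induction n with
  | zero => simp [lw]
  | succ n ih =>
    rw [List.range_succ, List.map_append, List.flatten_append, lw_append, ih,
      Finset.sum_range_succ]
    simp

theorem find_getD_ne (q : ℕ × ℕ → Bool) :
    let r := (([(0, 1), (0, 2), (1, 0), (1, 2), (2, 0), (2, 1)] : List (ℕ × ℕ)).find? q).getD (0, 1)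
    r.1 < 3 ∧ r.2 < 3 ∧ r.1 ≠ r.2 := by
  intro r
  rcases h : (([(0, 1), (0, 2), (1, 0), (1, 2), (2, 0), (2, 1)] : List (ℕ × ℕ)).find? q) with _ | ab
  · have hr : r = (0, 1) := by simp only [r]; rw [h]; rfl
    rw [hr]; simp
  · have hr : r = ab := by simp only [r]; rw [h]; rfl
    rw [hr]
    have := List.mem_of_find?_eq_some h
    simp only [List.mem_cons, List.not_mem_nil, or_false] at this
    rcases this with h | h | h | h | h | h <;> subst h <;> simp

theorem pick_ne (S : List ((ℕ × ℕ) × ℕ)) (u v : ℕ) :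
    (pick S u v).1 < 3 ∧ (pick S u v).2 < 3 ∧ (pick S u v).1 ≠ (pick S u v).2 :=
  find_getD_ne _

theorem lw_endE (w : ℕ → ℕ → ℕ) (S : List ((ℕ × ℕ) × ℕ)) (x y : ℕ) :
    lw w (endE S 0 x y) + lw w (endE S 1 x y) + lw w (endE S 2 x y) = 2 * w x y + w y x := by
  obtain ⟨h1, h2, h3⟩ := pick_ne S x y
  unfold endE
  generalize (pick S x y).1 = a at *
  generalize (pick S x y).2 = b at *
  have ha : a = 0 ∨ a = 1 ∨ a = 2 := by omega
  have hb : b = 0 ∨ b = 1 ∨ b = 2 := by omega
  rcases ha with rfl | rfl | rfl <;> rcases hb with rfl | rfl | rfl <;> simp [lw] at * <;> omega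

theorem lw_endU (w : ℕ → ℕ → ℕ) (S : List ((ℕ × ℕ) × ℕ)) (x y : ℕ) :
    lw w (endU w S 0 x y) + lw w (endU w S 1 x y) + lw w (endU w S 2 x y) =
      w x y + w y x + max (w x y) (w y x) := by
  obtain ⟨h1, h2, h3⟩ := pick_ne S y y
  unfold endU
  generalize (pick S y y).1 = a at *
  generalize (pick S y y).2 = b at *
  have ha : a = 0 ∨ a = 1 ∨ a = 2 := by omega
  have hb : b = 0 ∨ b = 1 ∨ b = 2 := by omega
  have hm : lw w (if w y x ≤ w x y then [(x, y)] else [(y, x)]) = max (w x y) (w y x) := by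
    by_cases h : w y x ≤ w x y
    · rw [if_pos h, max_eq_left h]; simp [lw]
    · rw [if_neg h, max_eq_right (by omega)]; simp [lw]
  have e1 : lw w [(x, y)] = w x y := by simp [lw]
  have e2 : lw w [(y, x)] = w y x := by simp [lw]
  rcases ha with rfl | rfl | rfl <;> rcases hb with rfl | rfl | rfl <;>
    simp [hm, e1, e2] at * <;> omega

/-- value of the final arcs charged to `x` -/
def endv (n : ℕ) (w : ℕ → ℕ → ℕ) (p1 p2 : List ℕ) (x : ℕ) : ℕ :=
  if isE n p1 p2 x = true then 2 * w x (nx p1 x) + w (nx p1 x) x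
  else if isU n p1 p2 x = true then w x (nx p1 x) + w (nx p1 x) x + max (w x (nx p1 x)) (w (nx p1 x) x)
  else 0

theorem lw_endArcs (n : ℕ) (w : ℕ → ℕ → ℕ) (p1 p2 : List ℕ) (S : List ((ℕ × ℕ) × ℕ)) :
    lw w (endArcs n w p1 p2 S 0) + lw w (endArcs n w p1 p2 S 1) + lw w (endArcs n w p1 p2 S 2) =
      ∑ x ∈ Finset.range n, endv n w p1 p2 x := by
  unfold endArcs
  rw [lw_flatten, lw_flatten, lw_flatten, ← Finset.sum_add_distrib, ← Finset.sum_add_distrib]
  apply Finset.sum_congr rfl
  intro x _
  unfold endv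
  by_cases hE : isE n p1 p2 x = true
  · simp only [hE, if_true]
    exact lw_endE w S x (nx p1 x)
  · by_cases hU : isU n p1 p2 x = true
    · simp only [hE, hU, if_true, if_false, Bool.false_eq_true]
      exact lw_endU w S x (nx p1 x)
    · simp [hE, hU, lw]


section

variable {n : ℕ} {w : ℕ → ℕ → ℕ} {p1 p2 : List ℕ}

theorem isPair_iff' {p : List ℕ} {x : ℕ} :
    isPair p x = true ↔ nx p x ≠ x ∧ nx p (nx p x) = x := by
  unfold isPair
  simp

theorem isLong_iff' {p : List ℕ} {x : ℕ} :
    isLong p x = true ↔ nx p x ≠ x ∧ nx p (nx p x) ≠ x := by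
  unfold isLong
  simp

theorem isE_pair {x : ℕ} (h : isE n p1 p2 x = true) : isPair p1 x = true := by
  unfold isE at h
  simp only [Bool.and_eq_true] at h
  exact h.1.1

theorem isU_pair {x : ℕ} (h : isU n p1 p2 x = true) : isPair p1 x = true := by
  unfold isU at h
  simp only [Bool.and_eq_true] at h
  exact h.1.1

theorem isN_pair {x : ℕ} (h : isN n p1 p2 x = true) : isPair p1 x = true := by
  unfold isN at h
  simp only [Bool.and_eq_true] at h
  exact h.1

theorem near_false {x y : ℕ} (h : near p1 x y = false) : y ≠ x := by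
  unfold near at h
  simp only [Bool.or_eq_false_iff] at h
  simpa using h.1

/-- the value of the pairs, seen from the node that carries the type -/
def AA (n : ℕ) (w : ℕ → ℕ → ℕ) (p1 p2 : List ℕ) (x : ℕ) : ℕ :=
  if isE n p1 p2 x = true ∨ isU n p1 p2 x = true then w x (nx p1 x) + w (nx p1 x) x else 0

/-- the value of the pairs, node by node -/
def BB (n : ℕ) (w : ℕ → ℕ → ℕ) (p1 p2 : List ℕ) (x : ℕ) : ℕ :=
  if isPair p1 x = true ∧ ((isE n p1 p2 x = true ∨ isU n p1 p2 x = true) ∨
    (isE n p1 p2 (nx p1 x) = true ∨ isU n p1 p2 (nx p1 x) = true)) then w x (nx p1 x) else 0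

theorem sum_BB_le (h1 : p1 ~ List.range n) :
    ∑ x ∈ Finset.range n, BB n w p1 p2 x ≤ ∑ x ∈ Finset.range n, AA n w p1 p2 x := by
  classical
  set P : ℕ → Prop := fun x => isE n p1 p2 x = true ∨ isU n p1 p2 x = true with hP
  have hPp : ∀ x, P x → isPair p1 x = true := by
    rintro x (h | h)
    · exact isE_pair h
    · exact isU_pair h
  have e1 : ∑ x ∈ Finset.range n, BB n w p1 p2 x ≤
      (∑ x ∈ Finset.range n, if P x then w x (nx p1 x) else 0) +
      ∑ x ∈ Finset.range n, if isPair p1 x = true ∧ P (nx p1 x) then w x (nx p1 x) else 0 := by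
    rw [← Finset.sum_add_distrib]
    apply Finset.sum_le_sum
    intro x _
    unfold BB
    by_cases ha : P x <;> by_cases hb : isPair p1 x = true ∧ P (nx p1 x)
    · rw [if_pos ha, if_pos hb]; split_ifs <;> omega
    · rw [if_pos ha, if_neg hb]; split_ifs <;> omega
    · rw [if_neg ha, if_pos hb]; split_ifs <;> omega
    · rw [if_neg ha, if_neg hb, if_neg]
      rintro ⟨h3, h4 | h4⟩
      · exact ha h4
      · exact hb ⟨h3, h4⟩
  have e2 : ∑ x ∈ Finset.range n, (if isPair p1 x = true ∧ P (nx p1 x) then w x (nx p1 x) else 0) ≤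
      ∑ x ∈ Finset.range n, if P x then w (nx p1 x) x else 0 := by
    rw [← Finset.sum_filter, ← Finset.sum_filter]
    have e3 : ∑ x ∈ (Finset.range n).filter (fun x => isPair p1 x = true ∧ P (nx p1 x)),
        w x (nx p1 x) =
        ∑ y ∈ ((Finset.range n).filter (fun x => isPair p1 x = true ∧ P (nx p1 x))).image (nx p1),
          w (nx p1 y) y := by
      rw [Finset.sum_image]
      · apply Finset.sum_congr rfl
        intro x hx
        rw [Finset.mem_filter] at hx
        rw [(isPair_iff'.1 hx.2.1).2]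
      · intro x hx y hy hxy
        rw [Finset.mem_coe, Finset.mem_filter, Finset.mem_range] at hx hy
        exact nx_inj h1 hx.1 hy.1 hxy
    rw [e3]
    apply Finset.sum_le_sum_of_subset
    intro y hy
    rw [Finset.mem_image] at hy
    obtain ⟨x, hx, rfl⟩ := hy
    rw [Finset.mem_filter, Finset.mem_range] at hx
    rw [Finset.mem_filter, Finset.mem_range]
    exact ⟨nx_lt h1 hx.1, hx.2.2⟩
  have e4 : ∑ x ∈ Finset.range n, AA n w p1 p2 x =
      (∑ x ∈ Finset.range n, if P x then w x (nx p1 x) else 0) +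
      ∑ x ∈ Finset.range n, if P x then w (nx p1 x) x else 0 := by
    rw [← Finset.sum_add_distrib]
    apply Finset.sum_congr rfl
    intro x _
    unfold AA
    by_cases ha : P x
    · rw [if_pos ha, if_pos ha, if_pos ha]
    · rw [if_neg ha, if_neg ha, if_neg ha]
  omega


/-- kept arcs out of `x` -/
def A1 (w : ℕ → ℕ → ℕ) (p1 : List ℕ) (k : ℕ × ℕ → Bool) (x : ℕ) : ℕ :=
  if (isLong p1 x && k (x, nx p1 x)) = true then w x (nx p1 x) else 0

/-- kept arcs out of `x` -/
def A2 (n : ℕ) (w : ℕ → ℕ → ℕ) (p1 p2 : List ℕ) (k : ℕ × ℕ → Bool) (x : ℕ) : ℕ :=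
  if ((Nat.blt (nx p2 x) n && !(near p1 x (nx p2 x))) && k (x, nx p2 x)) = true then
    w x (nx p2 x) else 0

/-- kept arcs out of `x` -/
def A3 (n : ℕ) (w : ℕ → ℕ → ℕ) (p1 p2 : List ℕ) (k : ℕ × ℕ → Bool) (x : ℕ) : ℕ :=
  if (isN n p1 p2 x && k (x, nx p1 x)) = true then w x (nx p1 x) else 0

theorem lw_kept (k : ℕ × ℕ → Bool) :
    lw w ((arcs n p1 p2).filter k) =
      ∑ x ∈ Finset.range n, (A1 w p1 k x + A2 n w p1 p2 k x + A3 n w p1 p2 k x) := by
  unfold arcs
  rw [List.filter_append, List.filter_append, lw_append, lw_append]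
  unfold arcs1 arcs2 arcsN
  rw [lw_arcs, lw_arcs, lw_arcs, Finset.sum_add_distrib, Finset.sum_add_distrib, add_assoc]
  rfl

theorem point_notK {k : ℕ × ℕ → Bool}
    (hk : ∀ e ∈ arcs n p1 p2, (k e = true ↔ level n p1 p2 e.1 ≠ n + 1)) {x : ℕ} (hx : x < n)
    (hcls : isPair p1 x = true → isN n p1 p2 x = true ∨ isE n p1 p2 x = true ∨
      isE n p1 p2 (nx p1 x) = true ∨ isU n p1 p2 x = true ∨ isU n p1 p2 (nx p1 x) = true)
    (hK : level n p1 p2 x ≠ n + 1) :
    2 * wt1 w x (nx p1 x) + v2 n w p1 p2 x + 2 * AA n w p1 p2 x ≤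
      2 * (A1 w p1 k x + A2 n w p1 p2 k x + A3 n w p1 p2 k x + endv n w p1 p2 x) +
        2 * BB n w p1 p2 x := by
  have ha2 : (if nx p2 x < n ∧ near p1 x (nx p2 x) = false then 2 * w x (nx p2 x) else 0) ≤
      2 * A2 n w p1 p2 k x := by
    by_cases h : nx p2 x < n ∧ near p1 x (nx p2 x) = false
    · rw [if_pos h]
      have hm : (x, nx p2 x) ∈ arcs n p1 p2 := by
        unfold arcs
        refine List.mem_append_right _ (List.mem_append_left _ ?_)
        unfold arcs2
        rw [List.mem_map]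
        refine ⟨x, ?_, rfl⟩
        rw [List.mem_filter, List.mem_range]
        refine ⟨hx, ?_⟩
        simp [h.2, Nat.blt_eq, h.1]
      have hk' := (hk _ hm).2 hK
      unfold A2
      rw [if_pos]
      simp [h.2, Nat.blt_eq, h.1, hk']
    · rw [if_neg h]; omega
  have hwt : wt1 w x (nx p1 x) ≤ w x (nx p1 x) := by
    unfold wt1
    split_ifs <;> omega
  by_cases hE : isE n p1 p2 x = true
  · have hp := isE_pair hE
    have e1 : v2 n w p1 p2 x = 2 * w x (nx p1 x) := by unfold v2; rw [if_pos hE]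
    have e2 : AA n w p1 p2 x = w x (nx p1 x) + w (nx p1 x) x := by
      unfold AA; rw [if_pos (Or.inl hE)]
    have e3 : endv n w p1 p2 x = 2 * w x (nx p1 x) + w (nx p1 x) x := by
      unfold endv; rw [if_pos hE]
    have e4 : BB n w p1 p2 x = w x (nx p1 x) := by
      unfold BB; rw [if_pos ⟨hp, Or.inl (Or.inl hE)⟩]
    rw [e1, e2, e3, e4]
    omega
  · by_cases hU : isU n p1 p2 x = true
    · have hp := isU_pair hU
      have e1 : v2 n w p1 p2 x = w x (nx p1 x) + w (nx p1 x) x := by
        unfold v2; rw [if_neg hE, if_pos hU]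
      have e2 : AA n w p1 p2 x = w x (nx p1 x) + w (nx p1 x) x := by
        unfold AA; rw [if_pos (Or.inr hU)]
      have e3 : endv n w p1 p2 x = w x (nx p1 x) + w (nx p1 x) x +
          max (w x (nx p1 x)) (w (nx p1 x) x) := by
        unfold endv; rw [if_neg hE, if_pos hU]
      have e4 : BB n w p1 p2 x = w x (nx p1 x) := by
        unfold BB; rw [if_pos ⟨hp, Or.inl (Or.inr hU)⟩]
      have e5 := le_max_left (w x (nx p1 x)) (w (nx p1 x) x)
      have e6 := le_max_right (w x (nx p1 x)) (w (nx p1 x) x)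
      rw [e1, e2, e3, e4]
      omega
    · have e1 : v2 n w p1 p2 x =
          if nx p2 x < n ∧ near p1 x (nx p2 x) = false then 2 * w x (nx p2 x) else 0 := by
        unfold v2; rw [if_neg hE, if_neg hU]
      have e2 : AA n w p1 p2 x = 0 := by
        unfold AA; rw [if_neg]; rintro (h | h); exacts [hE h, hU h]
      rw [e1, e2]
      -- it remains to bound the first assignment
      have key : wt1 w x (nx p1 x) ≤ A1 w p1 k x + A3 n w p1 p2 k x + BB n w p1 p2 x := by
        by_cases hp : isPair p1 x = true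
        · rcases hcls hp with h | h | h | h | h
          · have hm : (x, nx p1 x) ∈ arcs n p1 p2 := by
              unfold arcs
              refine List.mem_append_right _ (List.mem_append_right _ ?_)
              unfold arcsN
              rw [List.mem_map]
              refine ⟨x, ?_, rfl⟩
              rw [List.mem_filter, List.mem_range]
              exact ⟨hx, h⟩
            have hk' := (hk _ hm).2 hK
            have : A3 n w p1 p2 k x = w x (nx p1 x) := by
              unfold A3; rw [if_pos]; simp [h, hk']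
            omega
          · exact absurd h hE
          · have : BB n w p1 p2 x = w x (nx p1 x) := by
              unfold BB; rw [if_pos ⟨hp, Or.inr (Or.inl h)⟩]
            omega
          · exact absurd h hU
          · have : BB n w p1 p2 x = w x (nx p1 x) := by
              unfold BB; rw [if_pos ⟨hp, Or.inr (Or.inr h)⟩]
            omega
        · by_cases hf : nx p1 x = x
          · have : wt1 w x (nx p1 x) = 0 := by unfold wt1; rw [if_pos hf.symm]
            omega
          · have hl : isLong p1 x = true := by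
              rw [isLong_iff']
              refine ⟨hf, fun h => hp ?_⟩
              rw [isPair_iff']
              exact ⟨hf, h⟩
            have hm : (x, nx p1 x) ∈ arcs n p1 p2 := by
              unfold arcs
              refine List.mem_append_left _ ?_
              unfold arcs1
              rw [List.mem_map]
              refine ⟨x, ?_, rfl⟩
              rw [List.mem_filter, List.mem_range]
              exact ⟨hx, hl⟩
            have hk' := (hk _ hm).2 hK
            have : A1 w p1 k x = w x (nx p1 x) := by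
              unfold A1; rw [if_pos]; simp [hl, hk']
            omega
      omega

theorem point_K {x : ℕ} (hl : isLong p1 x = true) :
    2 * wt1 w x (nx p1 x) + v2 n w p1 p2 x + 2 * AA n w p1 p2 x ≤
      2 * w x (nx p1 x) + 2 * wt1 w x (nx p2 x) := by
  have hp : ¬ isPair p1 x = true := by
    rw [isPair_iff']
    rw [isLong_iff'] at hl
    exact fun h => hl.2 h.2
  have hE : ¬ isE n p1 p2 x = true := fun h => hp (isE_pair h)
  have hU : ¬ isU n p1 p2 x = true := fun h => hp (isU_pair h)
  have hwt : wt1 w x (nx p1 x) ≤ w x (nx p1 x) := by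
    unfold wt1
    split_ifs <;> omega
  have e1 : v2 n w p1 p2 x =
      if nx p2 x < n ∧ near p1 x (nx p2 x) = false then 2 * w x (nx p2 x) else 0 := by
    unfold v2; rw [if_neg hE, if_neg hU]
  have e2 : AA n w p1 p2 x = 0 := by
    unfold AA; rw [if_neg]; rintro (h | h); exacts [hE h, hU h]
  rw [e1, e2]
  by_cases h : nx p2 x < n ∧ near p1 x (nx p2 x) = false
  · rw [if_pos h]
    have : wt1 w x (nx p2 x) = w x (nx p2 x) := by
      unfold wt1
      rw [if_neg (fun h' => near_false h.2 h'.symm)]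
    omega
  · rw [if_neg h]; omega

theorem fin_sum (h1 : p1 ~ List.range n) (h2 : p2 ~ List.range (n + n))
    (hmax : ∀ l : List ℕ, l ~ List.range n →
      ∑ i ∈ Finset.range n, wt1 w i (l.getD i 0) ≤ ∑ i ∈ Finset.range n, wt1 w i (p1.getD i 0))
    (hcls : ∀ x < n, isPair p1 x = true → isN n p1 p2 x = true ∨ isE n p1 p2 x = true ∨
      isE n p1 p2 (nx p1 x) = true ∨ isU n p1 p2 x = true ∨ isU n p1 p2 (nx p1 x) = true)
    (hlong2 : ∀ x < n, isPair p1 x = false → nx p2 x < n)
    (hK1 : ∀ x < n, (level n p1 p2 x = n + 1 ↔ level n p1 p2 (nx p1 x) = n + 1))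
    (hK2 : ∀ x < n, nx p2 x < n → (level n p1 p2 x = n + 1 ↔ level n p1 p2 (nx p2 x) = n + 1))
    (hK3 : ∀ x < n, level n p1 p2 x = n + 1 → isLong p1 x = true ∧ nx p2 x ≠ x)
    {k : ℕ × ℕ → Bool}
    (hk : ∀ e ∈ arcs n p1 p2, (k e = true ↔ level n p1 p2 e.1 ≠ n + 1)) :
    2 * ∑ x ∈ Finset.range n, wt1 w x (nx p1 x) + ∑ x ∈ Finset.range n, v2 n w p1 p2 x ≤
      2 * (lw w ((arcs n p1 p2).filter k) + ∑ x ∈ Finset.range n, endv n w p1 p2 x +
        2 * lw w (spArcs n p1 p2)) := by
  classical
  set K : ℕ → Prop := fun x => level n p1 p2 x = n + 1 with hKdef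
  have hsp : lw w (spArcs n p1 p2) = ∑ x ∈ (Finset.range n).filter K, w x (nx p1 x) := by
    have h := lw_arcs w n (fun x => level n p1 p2 x == n + 1) (nx p1) (fun _ => true)
    rw [List.filter_true] at h
    unfold spArcs
    rw [h, Finset.sum_filter]
    apply Finset.sum_congr rfl
    intro x _
    by_cases hx : K x
    · rw [if_pos hx, if_pos]
      simpa using hx
    · rw [if_neg hx, if_neg]
      simpa using hx
  have hopt : ∑ x ∈ (Finset.range n).filter K, wt1 w x (nx p2 x) ≤
      ∑ x ∈ (Finset.range n).filter K, wt1 w x (nx p1 x) := by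
    refine opt_on_closed h1 hmax K (nx p2) (fun x hx hKx => (hK1 x hx).1 hKx) ?_ ?_
    · intro x hx hKx
      have hp : isPair p1 x = false := by
        have := (hK3 x hx hKx).1
        rw [isLong_iff'] at this
        by_contra hcon
        rw [Bool.not_eq_false] at hcon
        rw [isPair_iff'] at hcon
        exact this.2 hcon.2
      have hlt := hlong2 x hx hp
      exact ⟨(hK2 x hx hlt).1 hKx, hlt⟩
    · intro x hx y hy _ _ hxy
      exact nx_inj h2 (by omega) (by omega) hxy
  have hopt2 : ∑ x ∈ (Finset.range n).filter K, wt1 w x (nx p1 x) ≤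
      ∑ x ∈ (Finset.range n).filter K, w x (nx p1 x) := by
    apply Finset.sum_le_sum
    intro x _
    unfold wt1
    split_ifs <;> omega
  have hpt : ∀ x ∈ Finset.range n,
      2 * wt1 w x (nx p1 x) + v2 n w p1 p2 x + 2 * AA n w p1 p2 x ≤
      2 * (A1 w p1 k x + A2 n w p1 p2 k x + A3 n w p1 p2 k x + endv n w p1 p2 x) +
        2 * BB n w p1 p2 x + (if K x then 2 * w x (nx p1 x) + 2 * wt1 w x (nx p2 x) else 0) := by
    intro x hx
    rw [Finset.mem_range] at hx
    by_cases hKx : K x
    · rw [if_pos hKx]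
      have := point_K (n := n) (w := w) (p2 := p2) (hK3 x hx hKx).1
      omega
    · rw [if_neg hKx]
      have := point_notK (w := w) hk hx (hcls x hx) hKx
      omega
  have hite : ∑ x ∈ Finset.range n,
      (if K x then 2 * w x (nx p1 x) + 2 * wt1 w x (nx p2 x) else 0) =
      2 * ∑ x ∈ (Finset.range n).filter K, w x (nx p1 x) +
        2 * ∑ x ∈ (Finset.range n).filter K, wt1 w x (nx p2 x) := by
    rw [Finset.sum_filter, Finset.sum_filter, Finset.mul_sum, Finset.mul_sum,
      ← Finset.sum_add_distrib]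
    apply Finset.sum_congr rfl
    intro x _
    by_cases hx : K x
    · rw [if_pos hx, if_pos hx, if_pos hx]
    · rw [if_neg hx, if_neg hx, if_neg hx, Nat.mul_zero]
  have hsum := Finset.sum_le_sum hpt
  rw [Finset.sum_add_distrib, Finset.sum_add_distrib, Finset.sum_add_distrib,
    Finset.sum_add_distrib, hite, ← Finset.mul_sum,
    ← Finset.mul_sum, ← Finset.mul_sum, ← Finset.mul_sum,
    Finset.sum_add_distrib] at hsum
  have hAB := sum_BB_le (w := w) (p2 := p2) h1
  rw [lw_kept, hsp]
  omega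


theorem mem_arcs_cases (h1 : p1 ~ List.range n) {e : ℕ × ℕ} (he : e ∈ arcs n p1 p2) :
    e.1 < n ∧ e.2 < n ∧ (e.2 = nx p1 e.1 ∨ e.2 = nx p2 e.1) := by
  unfold arcs at he
  rcases List.mem_append.1 he with he | he
  · unfold arcs1 at he
    rw [List.mem_map] at he
    obtain ⟨x, hx, rfl⟩ := he
    have hx' := List.mem_range.1 (List.mem_filter.1 hx).1
    exact ⟨hx', nx_lt h1 hx', Or.inl rfl⟩
  · rcases List.mem_append.1 he with he | he
    · unfold arcs2 at he
      rw [List.mem_map] at he
      obtain ⟨x, hx, rfl⟩ := he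
      have hx' := List.mem_range.1 (List.mem_filter.1 hx).1
      have hx2 := (List.mem_filter.1 hx).2
      rw [Bool.and_eq_true, Nat.blt_eq] at hx2
      exact ⟨hx', hx2.1, Or.inr rfl⟩
    · unfold arcsN at he
      rw [List.mem_map] at he
      obtain ⟨x, hx, rfl⟩ := he
      have hx' := List.mem_range.1 (List.mem_filter.1 hx).1
      exact ⟨hx', nx_lt h1 hx', Or.inl rfl⟩

theorem mem_endArcs_cases {S : List ((ℕ × ℕ) × ℕ)} {t : ℕ} {e : ℕ × ℕ}
    (he : e ∈ endArcs n w p1 p2 S t) :
    ∃ x < n, isPair p1 x = true ∧ (e = (x, nx p1 x) ∨ e = (nx p1 x, x)) := by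
  unfold endArcs at he
  rw [List.mem_flatten] at he
  obtain ⟨l, hl, he⟩ := he
  rw [List.mem_map] at hl
  obtain ⟨x, hx, rfl⟩ := hl
  have hx' := List.mem_range.1 hx
  by_cases hE : isE n p1 p2 x = true
  · rw [if_pos hE] at he
    refine ⟨x, hx', isE_pair hE, ?_⟩
    unfold endE at he
    split_ifs at he
    · exact Or.inl (List.mem_singleton.1 he)
    · exact Or.inr (List.mem_singleton.1 he)
  · rw [if_neg hE] at he
    by_cases hU : isU n p1 p2 x = true
    · rw [if_pos hU] at he
      refine ⟨x, hx', isU_pair hU, ?_⟩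
      unfold endU at he
      split_ifs at he
      · exact Or.inr (List.mem_singleton.1 he)
      · exact Or.inl (List.mem_singleton.1 he)
      · exact Or.inl (List.mem_singleton.1 he)
      · exact Or.inr (List.mem_singleton.1 he)
    · rw [if_neg hU] at he
      exact absurd he List.not_mem_nil

theorem mem_spArcs {e : ℕ × ℕ} :
    e ∈ spArcs n p1 p2 ↔ e.1 < n ∧ level n p1 p2 e.1 = n + 1 ∧ e.2 = nx p1 e.1 := by
  unfold spArcs
  rw [List.mem_map]
  constructor
  · rintro ⟨x, hx, rfl⟩
    have hx' := List.mem_range.1 (List.mem_filter.1 hx).1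
    have hx2 := (List.mem_filter.1 hx).2
    exact ⟨hx', by simpa using hx2, rfl⟩
  · rintro ⟨h1, h2, h3⟩
    refine ⟨e.1, ?_, by rw [← h3]⟩
    rw [List.mem_filter, List.mem_range]
    exact ⟨h1, by simpa using h2⟩

theorem mem_cls_iff {S : List ((ℕ × ℕ) × ℕ)} {t : ℕ} {e : ℕ × ℕ} :
    e ∈ cls S t ↔ (e, t) ∈ S := by
  unfold cls
  rw [List.mem_map]
  constructor
  · rintro ⟨a, ha, rfl⟩
    rw [List.mem_filter] at ha
    have : a.2 = t := by simpa using ha.2
    rw [← this]
    exact ha.1
  · intro h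
    refine ⟨(e, t), ?_, rfl⟩
    rw [List.mem_filter]
    exact ⟨h, by simp⟩

theorem le_heavier_left (A B : List ℕ) : pw w A ≤ pw w (heavier w A B) := by
  unfold heavier
  split_ifs <;> omega

theorem le_heavier_right (A B : List ℕ) : pw w B ≤ pw w (heavier w A B) := by
  unfold heavier
  split_ifs <;> omega

theorem heavier_perm {l A B : List ℕ} (hA : A ~ l) (hB : B ~ l) : heavier w A B ~ l := by
  unfold heavier
  split_ifs
  · exact hA
  · exact hB

/-- row FIN: the value of the best candidate -/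
theorem fin (h1 : p1 ~ List.range n) (h2 : p2 ~ List.range (n + n))
    (hmax : ∀ l : List ℕ, l ~ List.range n →
      ∑ i ∈ Finset.range n, wt1 w i (l.getD i 0) ≤ ∑ i ∈ Finset.range n, wt1 w i (p1.getD i 0))
    (hcls : ∀ x < n, isPair p1 x = true → isN n p1 p2 x = true ∨ isE n p1 p2 x = true ∨
      isE n p1 p2 (nx p1 x) = true ∨ isU n p1 p2 x = true ∨ isU n p1 p2 (nx p1 x) = true)
    (hlong2 : ∀ x < n, isPair p1 x = false → nx p2 x < n)
    (hK1 : ∀ x < n, (level n p1 p2 x = n + 1 ↔ level n p1 p2 (nx p1 x) = n + 1))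
    (hK2 : ∀ x < n, nx p2 x < n → (level n p1 p2 x = n + 1 ↔ level n p1 p2 (nx p2 x) = n + 1))
    (hK3 : ∀ x < n, level n p1 p2 x = n + 1 → isLong p1 x = true ∧ nx p2 x ≠ x)
    {k : ℕ × ℕ → Bool}
    (hk : ∀ e ∈ arcs n p1 p2, (k e = true ↔ level n p1 p2 e.1 ≠ n + 1))
    {S : List ((ℕ × ℕ) × ℕ)} (hS : S.map Prod.fst ~ (arcs n p1 p2).filter k)
    (hcol : ∀ a ∈ S, a.2 < 3)
    (hLF : ∀ t < 3, LF (cls S t ++ endArcs n w p1 p2 S t))
    {O : ℕ} (hO1 : O ≤ ∑ x ∈ Finset.range n, wt1 w x (nx p1 x))
    (hO2 : 2 * O ≤ ∑ x ∈ Finset.range n, v2 n w p1 p2 x) :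
    bestOf n w p1 p2 S ~ List.range n ∧ 2 * O ≤ 3 * pw w (bestOf n w p1 p2 S) := by
  have hb : ∀ t < 3, breakF w (List.range n) (cand n w p1 p2 S t) ~ List.range n ∧
      3 * (lw w (cls S t) + lw w (endArcs n w p1 p2 S t)) + 2 * lw w (spArcs n p1 p2) ≤
        3 * pw w (breakF w (List.range n) (cand n w p1 p2 S t)) := by
    intro t ht
    have hF := hLF t ht
    have hmemF : ∀ e ∈ cls S t ++ endArcs n w p1 p2 S t,
        (e.1 < n ∧ e.2 < n) ∧ level n p1 p2 e.1 ≠ n + 1 ∧ level n p1 p2 e.2 ≠ n + 1 := by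
      intro e he
      rcases List.mem_append.1 he with he | he
      · have h3 : e ∈ S.map Prod.fst := by
          rw [List.mem_map]
          exact ⟨(e, t), mem_cls_iff.1 he, rfl⟩
        have h4 := List.mem_filter.1 (hS.mem_iff.1 h3)
        have h5 := (hk e h4.1).1 h4.2
        obtain ⟨h6, h7, h8⟩ := mem_arcs_cases h1 h4.1
        refine ⟨⟨h6, h7⟩, h5, ?_⟩
        rcases h8 with h8 | h8
        · rw [h8]; exact fun h => h5 ((hK1 _ h6).2 h)
        · rw [h8]
          rw [h8] at h7
          exact fun h => h5 ((hK2 _ h6 h7).2 h)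
      · obtain ⟨x, hx, hp, h3⟩ := mem_endArcs_cases he
        have h4 : level n p1 p2 x ≠ n + 1 := by
          intro h
          have := (hK3 x hx h).1
          rw [isLong_iff'] at this
          exact this.2 (isPair_iff'.1 hp).2
        have h5 : level n p1 p2 (nx p1 x) ≠ n + 1 := fun h => h4 ((hK1 x hx).2 h)
        have h6 := nx_lt h1 hx
        rcases h3 with rfl | rfl
        · exact ⟨⟨hx, h6⟩, h4, h5⟩
        · exact ⟨⟨h6, hx⟩, h5, h4⟩
    have hbl := break_long w (List.range n) List.nodup_range (fun x => level n p1 p2 x = n + 1)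
      (cls S t ++ endArcs n w p1 p2 S t) (spArcs n p1 p2) hF.1 hF.2.1 hF.2.2
      (by
        unfold spArcs
        rw [List.map_map]
        exact (List.nodup_range.filter _).map_on (fun x _ y _ h => h))
      (by
        unfold spArcs
        rw [List.map_map]
        refine (List.nodup_range.filter _).map_on ?_
        intro x hx y hy h
        exact nx_inj h1 (List.mem_range.1 (List.mem_filter.1 hx).1)
          (List.mem_range.1 (List.mem_filter.1 hy).1) h)
      (fun e he => (hmemF e he).2)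
      (fun e he => by
        obtain ⟨h3, h4, h5⟩ := mem_spArcs.1 he
        refine ⟨h4, ?_⟩
        rw [h5]
        exact (hK1 _ h3).1 h4)
      (fun e he => ⟨List.mem_range.2 (hmemF e he).1.1, List.mem_range.2 (hmemF e he).1.2⟩)
      (fun e he => by
        obtain ⟨h3, h4, h5⟩ := mem_spArcs.1 he
        rw [h5]
        exact ⟨List.mem_range.2 h3, List.mem_range.2 (nx_lt h1 h3)⟩)
      (by
        intro P hP hnd hall
        obtain ⟨x, hx⟩ := List.exists_mem_of_ne_nil P hP
        have hcl := cyc_closed (nx p1) P (fun e he => (mem_spArcs.1 (hall e he)).2.2)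
        have g1 := hcl x hx
        have g2 := hcl _ g1.2
        have g3 := hcl _ g2.2
        have s1 := mem_spArcs.1 (hall _ g1.1)
        have s2 := mem_spArcs.1 (hall _ g2.1)
        have l1 := isLong_iff'.1 (hK3 _ s1.1 s1.2.1).1
        have l2 := isLong_iff'.1 (hK3 _ s2.1 s2.2.1).1
        simp only at l1 l2
        have hsub : ({x, nx p1 x, nx p1 (nx p1 x)} : Finset ℕ) ⊆ P.toFinset := by
          intro y hy
          rw [Finset.mem_insert, Finset.mem_insert, Finset.mem_singleton] at hy
          rcases hy with rfl | rfl | rfl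
          · exact List.mem_toFinset.2 hx
          · exact List.mem_toFinset.2 g1.2
          · exact List.mem_toFinset.2 g2.2
        have hcard : ({x, nx p1 x, nx p1 (nx p1 x)} : Finset ℕ).card = 3 := by
          rw [Finset.card_insert_of_notMem, Finset.card_insert_of_notMem, Finset.card_singleton]
          · rw [Finset.mem_singleton]
            exact fun h => l2.1 h.symm
          · rw [Finset.mem_insert, Finset.mem_singleton]
            rintro (h | h)
            · exact l1.1 h.symm
            · exact l1.2 h.symm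
        have h3 := Finset.card_le_card hsub
        rw [hcard, List.toFinset_card_of_nodup hnd] at h3
        exact h3)
    have e0 : cand n w p1 p2 S t =
        (cls S t ++ endArcs n w p1 p2 S t) ++ spArcs n p1 p2 := by
      unfold cand
      rw [List.append_assoc]
    rw [e0]
    refine ⟨hbl.1, ?_⟩
    have h3 := hbl.2
    have h4 : ((cls S t ++ endArcs n w p1 p2 S t).map (fun e => w e.1 e.2)).sum =
        lw w (cls S t) + lw w (endArcs n w p1 p2 S t) := lw_append w _ _
    rw [h4] at h3
    exact h3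
  obtain ⟨b0p, b0⟩ := hb 0 (by omega)
  obtain ⟨b1p, b1⟩ := hb 1 (by omega)
  obtain ⟨b2p, b2⟩ := hb 2 (by omega)
  refine ⟨heavier_perm b0p (heavier_perm b1p b2p), ?_⟩
  have c0 : pw w (breakF w (List.range n) (cand n w p1 p2 S 0)) ≤ pw w (bestOf n w p1 p2 S) :=
    le_heavier_left _ _
  have c1 : pw w (breakF w (List.range n) (cand n w p1 p2 S 1)) ≤ pw w (bestOf n w p1 p2 S) :=
    (le_heavier_left _ _).trans (le_heavier_right _ _)
  have c2 : pw w (breakF w (List.range n) (cand n w p1 p2 S 2)) ≤ pw w (bestOf n w p1 p2 S) :=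
    (le_heavier_right _ _).trans (le_heavier_right _ _)
  have hsum := fin_sum h1 h2 hmax hcls hlong2 hK1 hK2 hK3 hk
  rw [← lw_perm hS, ← lw_cls w S hcol, ← lw_endArcs n w p1 p2 S] at hsum
  omega

end

end Vale.Agent.P333.T.F3
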