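import Vale.Agent.P333.M.Charge
import Vale.Agent.P333.M.CoverIneq

/-!
P333, box 2/3, row FIN (abstract part): adding the arcs of the finished pairs to the linear
forests, and the components without roots (the arcs of the first assignment in all three
classes).
-/

namespace Vale.Agent.P333.T.Fin2

open List Vale.Agent.P333.M

section Generic

variable {V : Type*}

/-- linear forest (unfolded form of the common definition) -/
abbrev Lin (F : List (V × V)) : Prop :=
  (F.map Prod.fst).Nodup ∧ (F.map Prod.snd).Nodup ∧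
    ∀ P : List V, P ≠ [] → P.Nodup → ¬ ∀ e ∈ cyc P, e ∈ F

theorem exists_out {P : List V} {z : V} (hz : z ∈ P) : ∃ e ∈ cyc P, e.1 = z := by
  rw [← map_fst_cyc P, List.mem_map] at hz
  exact hz

theorem exists_in {P : List V} {z : V} (hz : z ∈ P) : ∃ e ∈ cyc P, e.2 = z := by
  have h : z ∈ (cyc P).map Prod.snd := by
    rw [map_snd_cyc]
    exact (List.rotate_perm P 1).mem_iff.2 hz
  rw [List.mem_map] at h
  exact h

theorem fst_mem {P : List V} {e : V × V} (he : e ∈ cyc P) : e.1 ∈ P := by
  rw [← map_fst_cyc P]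
  exact List.mem_map_of_mem he

theorem snd_mem {P : List V} {e : V × V} (he : e ∈ cyc P) : e.2 ∈ P := by
  have h3 : e.2 ∈ (cyc P).map Prod.snd := List.mem_map_of_mem he
  rw [map_snd_cyc] at h3
  exact (List.rotate_perm P 1).mem_iff.1 h3

theorem nodup_cyc' {P : List V} (h : P.Nodup) : (cyc P).Nodup := by
  have : ((cyc P).map Prod.fst).Nodup := by rw [map_fst_cyc]; exact h
  exact this.of_map _

/-- a new arc `z → x` with a fresh head -/
theorem add_in {F : List (V × V)} (h : Lin F) {z x : V} (hzx : z ≠ x)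
    (hz : ∀ e ∈ F, e.1 ≠ z) (hx : ∀ e ∈ F, e.1 ≠ x ∧ e.2 ≠ x) : Lin ((z, x) :: F) := by
  refine ⟨?_, ?_, ?_⟩
  · rw [List.map_cons, List.nodup_cons]
    refine ⟨?_, h.1⟩
    intro hm
    obtain ⟨e, he, h1⟩ := List.mem_map.1 hm
    exact hz e he h1
  · rw [List.map_cons, List.nodup_cons]
    refine ⟨?_, h.2.1⟩
    intro hm
    obtain ⟨e, he, h1⟩ := List.mem_map.1 hm
    exact (hx e he).2 h1
  · intro P hP hnd hall
    apply h.2.2 P hP hnd
    intro e he
    rcases List.mem_cons.1 (hall e he) with h1 | h1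
    · exfalso
      have hxP : x ∈ P := by
        have := snd_mem he
        rw [h1] at this
        exact this
      obtain ⟨e', he', h2⟩ := exists_out hxP
      rcases List.mem_cons.1 (hall e' he') with h3 | h3
      · rw [h3] at h2
        exact hzx h2
      · exact (hx e' h3).1 h2
    · exact h1

/-- a new arc `x → y` with a fresh tail -/
theorem add_out {F : List (V × V)} (h : Lin F) {x y : V} (hxy : x ≠ y)
    (hx : ∀ e ∈ F, e.1 ≠ x ∧ e.2 ≠ x) (hy : ∀ e ∈ F, e.2 ≠ y) : Lin ((x, y) :: F) := by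
  refine ⟨?_, ?_, ?_⟩
  · rw [List.map_cons, List.nodup_cons]
    refine ⟨?_, h.1⟩
    intro hm
    obtain ⟨e, he, h1⟩ := List.mem_map.1 hm
    exact (hx e he).1 h1
  · rw [List.map_cons, List.nodup_cons]
    refine ⟨?_, h.2.1⟩
    intro hm
    obtain ⟨e, he, h1⟩ := List.mem_map.1 hm
    exact hy e he h1
  · intro P hP hnd hall
    apply h.2.2 P hP hnd
    intro e he
    rcases List.mem_cons.1 (hall e he) with h1 | h1
    · exfalso
      have hxP : x ∈ P := by
        have := fst_mem he
        rw [h1] at this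
        exact this
      obtain ⟨e', he', h2⟩ := exists_in hxP
      rcases List.mem_cons.1 (hall e' he') with h3 | h3
      · rw [h3] at h2
        exact hxy h2.symm
      · exact (hx e' h3).2 h2
    · exact h1

/-- adding node-disjoint arcs, each with a fresh end and a free other end -/
theorem add_list {F A : List (V × V)} (h : Lin F)
    (hA : (A.map Prod.fst ++ A.map Prod.snd).Nodup)
    (hc : ∀ a ∈ A, ((∀ e ∈ F, e.1 ≠ a.1) ∧ ∀ e ∈ F, e.1 ≠ a.2 ∧ e.2 ≠ a.2) ∨
      ((∀ e ∈ F, e.1 ≠ a.1 ∧ e.2 ≠ a.1) ∧ ∀ e ∈ F, e.2 ≠ a.2)) : Lin (A ++ F) := by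
  induction A with
  | nil => exact h
  | cons a A ih =>
    rw [List.map_cons, List.map_cons, List.cons_append, List.nodup_cons] at hA
    obtain ⟨h1, h2⟩ := hA
    have h3 : (A.map Prod.fst ++ A.map Prod.snd).Nodup ∧ a.2 ∉ A.map Prod.fst ∧
        a.2 ∉ A.map Prod.snd := by
      have := (List.nodup_middle.1 h2)
      rw [List.nodup_cons] at this
      refine ⟨this.2, ?_, ?_⟩
      · intro h; exact this.1 (List.mem_append_left _ h)
      · intro h; exact this.1 (List.mem_append_right _ h)
    have h4 : a.1 ≠ a.2 ∧ a.1 ∉ A.map Prod.fst ∧ a.1 ∉ A.map Prod.snd := by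
      refine ⟨?_, ?_, ?_⟩
      · intro h; apply h1; rw [h]; simp
      · intro h; exact h1 (List.mem_append_left _ h)
      · intro h; exact h1 (List.mem_append_right _ (List.mem_cons_of_mem _ h))
    have hlin := ih h3.1 (fun b hb => hc b (List.mem_cons_of_mem _ hb))
    have f1 : ∀ e ∈ A, e.1 ≠ a.1 ∧ e.2 ≠ a.1 := by
      intro e he
      exact ⟨fun h => h4.2.1 (h ▸ List.mem_map_of_mem he),
        fun h => h4.2.2 (h ▸ List.mem_map_of_mem he)⟩
    have f2 : ∀ e ∈ A, e.1 ≠ a.2 ∧ e.2 ≠ a.2 := by
      intro e he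
      exact ⟨fun h => h3.2.1 (h ▸ List.mem_map_of_mem he),
        fun h => h3.2.2 (h ▸ List.mem_map_of_mem he)⟩
    rw [List.cons_append]
    rcases hc a List.mem_cons_self with ⟨g1, g2⟩ | ⟨g1, g2⟩
    · refine add_in hlin h4.1 ?_ ?_
      · intro e he
        rcases List.mem_append.1 he with h | h
        · exact (f1 e h).1
        · exact g1 e h
      · intro e he
        rcases List.mem_append.1 he with h | h
        · exact f2 e h
        · exact g2 e h
    · refine add_out hlin h4.1 ?_ ?_
      · intro e he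
        rcases List.mem_append.1 he with h | h
        · exact f1 e h
        · exact g1 e h
      · intro e he
        rcases List.mem_append.1 he with h | h
        · exact (f2 e h).2
        · exact g2 e h

/-- **Components without roots.** On the nodes `K` the arcs are those of `s`, whose cycles on `K`
have at least three nodes; there is no cycle outside `K`: the charge is one third of the weight
of the arcs in `K`. -/
theorem charge_K (K : V → Prop) [DecidablePred K] (s : V → V) (w : V → V → ℕ)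
    (F : List (V × V)) (hK : ∀ e ∈ F, K e.1 → e.2 = s e.1 ∧ K e.2)
    (h3 : ∀ x, K x → s x ≠ x ∧ s (s x) ≠ x)
    (hac : ∀ P : List V, P ≠ [] → P.Nodup → (∀ e ∈ cyc P, e ∈ F) → ∃ x ∈ P, K x) :
    ∀ P : List V, P ≠ [] → P.Nodup → (∀ e ∈ cyc P, e ∈ F) →
      ∀ e0 ∈ cyc P, (∀ e ∈ cyc P, w e0.1 e0.2 ≤ w e.1 e.2) →
      (w e0.1 e0.2 : ℚ) ≤ ((cyc P).map
        (fun e => if K e.1 then (w e.1 e.2 : ℚ) / 3 else 0)).sum := by
  classical
  intro P hP hnd hF e0 he0 hmin
  set g : V × V → ℚ := fun e => if K e.1 then (w e.1 e.2 : ℚ) / 3 else 0 with hg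
  have hg0 : ∀ e, 0 ≤ g e := by
    intro e
    simp only [hg]
    split_ifs <;> positivity
  have hcl : ∀ z ∈ P, K z → (z, s z) ∈ cyc P ∧ s z ∈ P ∧ K (s z) := by
    intro z hz hKz
    obtain ⟨e, he, rfl⟩ := exists_out hz
    obtain ⟨h1, h2⟩ := hK e (hF e he) hKz
    have h4 : (e.1, s e.1) = e := by rw [← h1]
    refine ⟨by rw [h4]; exact he, ?_, ?_⟩
    · rw [← h1]; exact snd_mem he
    · rw [← h1]; exact h2
  have hsum : ((cyc P).map g).sum = ∑ e ∈ (cyc P).toFinset, g e := by
    rw [List.sum_toFinset _ (nodup_cyc' hnd)]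
  rw [hsum]
  obtain ⟨x, hx, hKx⟩ := hac P hP hnd hF
  have h1 := hcl x hx hKx
  have h2 := hcl _ h1.2.1 h1.2.2
  have h4 := hcl _ h2.2.1 h2.2.2
  have l1 : (w e0.1 e0.2 : ℚ) ≤ w x (s x) := by exact_mod_cast hmin _ h1.1
  have l2 : (w e0.1 e0.2 : ℚ) ≤ w (s x) (s (s x)) := by exact_mod_cast hmin _ h2.1
  have l3 : (w e0.1 e0.2 : ℚ) ≤ w (s (s x)) (s (s (s x))) := by exact_mod_cast hmin _ h4.1
  have hsub : ({(x, s x), (s x, s (s x)), (s (s x), s (s (s x)))} : Finset (V × V)) ⊆
      (cyc P).toFinset := by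
    intro e he
    rw [Finset.mem_insert, Finset.mem_insert, Finset.mem_singleton] at he
    rcases he with rfl | rfl | rfl
    · exact List.mem_toFinset.2 h1.1
    · exact List.mem_toFinset.2 h2.1
    · exact List.mem_toFinset.2 h4.1
  refine le_trans ?_ (Finset.sum_le_sum_of_subset_of_nonneg hsub (fun e _ _ => hg0 e))
  have d1 : x ≠ s x := fun h => (h3 x hKx).1 h.symm
  have d2 : x ≠ s (s x) := fun h => (h3 x hKx).2 h.symm
  have d3 : s x ≠ s (s x) := fun h => (h3 _ h1.2.2).1 h.symm
  have e1 : g (x, s x) = (w x (s x) : ℚ) / 3 := if_pos hKx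
  have e2 : g (s x, s (s x)) = (w (s x) (s (s x)) : ℚ) / 3 := if_pos h1.2.2
  have e3 : g (s (s x), s (s (s x))) = (w (s (s x)) (s (s (s x))) : ℚ) / 3 := if_pos h2.2.2
  rw [Finset.sum_insert, Finset.sum_insert, Finset.sum_singleton, e1, e2, e3]
  · linarith
  · rw [Finset.mem_singleton]
    intro h
    exact d3 (congrArg Prod.fst h)
  · rw [Finset.mem_insert, Finset.mem_singleton]
    rintro (h | h)
    · exact d1 (congrArg Prod.fst h)
    · exact d2 (congrArg Prod.fst h)

end Generic

section Opt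

variable {V : Type*} [Fintype V] [DecidableEq V]

omit [DecidableEq V] in
/-- the first assignment is optimal on every set of nodes which is closed under it and under the
second assignment -/
theorem opt_on (w : V → V → ℕ) (s1 : Equiv.Perm V)
    (h1 : ∀ τ : Equiv.Perm V, ∑ x, w x (τ x) ≤ ∑ x, w x (s1 x))
    (K : V → Prop) [DecidablePred K] (hK1 : ∀ x, K x → K (s1 x))
    (f : V → V) (hf : ∀ x y, K x → K y → f x = f y → x = y) (hfK : ∀ x, K x → K (f x)) :
    ∑ x ∈ Finset.univ.filter (fun x => K x), w x (f x) ≤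
      ∑ x ∈ Finset.univ.filter (fun x => K x), w x (s1 x) := by
  classical
  have hback : ∀ x, K (s1 x) → K x := by
    -- `s1` maps the finite set `K` injectively into itself, hence onto itself
    intro x hx
    have hmaps : Set.MapsTo s1 {x | K x} {x | K x} := fun y hy => hK1 y hy
    have hfin : ({x | K x} : Set V).Finite := Set.toFinite _
    have hsurj : Set.SurjOn s1 {x | K x} {x | K x} :=
      ((hfin.injOn_iff_bijOn_of_mapsTo hmaps).1 s1.injective.injOn).surjOn
    obtain ⟨y, hy, hyx⟩ := hsurj hx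
    have : y = x := s1.injective hyx
    exact this ▸ hy
  set t : V → V := fun x => if K x then f x else s1 x with ht
  have hinj : Function.Injective t := by
    intro x y hxy
    simp only [ht] at hxy
    by_cases hx : K x
    · by_cases hy : K y
      · rw [if_pos hx, if_pos hy] at hxy
        exact hf x y hx hy hxy
      · rw [if_pos hx, if_neg hy] at hxy
        exact absurd (hback y (hxy ▸ hfK x hx)) hy
    · by_cases hy : K y
      · rw [if_neg hx, if_pos hy] at hxy
        exact absurd (hback x (hxy ▸ hfK y hy)) hx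
      · rw [if_neg hx, if_neg hy] at hxy
        exact s1.injective hxy
  set τ : Equiv.Perm V := Equiv.ofBijective t (Finite.injective_iff_bijective.1 hinj)
  have h := h1 τ
  have e : ∀ g : V → ℕ, ∑ x, g x = ∑ x ∈ Finset.univ.filter (fun x => K x), g x +
      ∑ x ∈ Finset.univ.filter (fun x => ¬ K x), g x := by
    intro g
    rw [Finset.sum_filter_add_sum_filter_not]
  rw [e, e (fun x => w x (s1 x))] at h
  have e1 : ∑ x ∈ Finset.univ.filter (fun x => K x), w x (τ x) =
      ∑ x ∈ Finset.univ.filter (fun x => K x), w x (f x) := by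
    refine Finset.sum_congr rfl fun x hx => ?_
    have hx' : K x := (Finset.mem_filter.1 hx).2
    show w x (t x) = _
    rw [ht]
    simp only
    rw [if_pos hx']
  have e2 : ∑ x ∈ Finset.univ.filter (fun x => ¬ K x), w x (τ x) =
      ∑ x ∈ Finset.univ.filter (fun x => ¬ K x), w x (s1 x) := by
    refine Finset.sum_congr rfl fun x hx => ?_
    have hx' : ¬ K x := (Finset.mem_filter.1 hx).2
    show w x (t x) = _
    rw [ht]
    simp only
    rw [if_neg hx']
  rw [e1, e2] at h
  omega

end Opt

end Vale.Agent.P333.T.Fin2
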