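import Vale.Agent.P333.T.Prog23
import Vale.Agent.P333.T.FinPair
import Vale.Agent.P333.T.LF
import Vale.Agent.P333.M.Round

/-!
P333, box T, row FIN (second part): the arcs `endArcs` inside the pairs whose hub is used.
`end_LF`: together with the coloured arcs they form path systems; `end_sum`: their weights.
-/

namespace Vale.Agent.P333.T

open List
open Vale.Agent.P333.M (nx pw breakF cyc)

namespace End

/-! ### `pick` -/

/-- the six candidates of `pick` -/
abbrev six : List (ℕ × ℕ) := [(0, 1), (0, 2), (1, 0), (1, 2), (2, 0), (2, 1)]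

theorem six_spec {ab : ℕ × ℕ} (h : ab ∈ six) : ab.1 < 3 ∧ ab.2 < 3 ∧ ab.1 ≠ ab.2 := by
  simp only [six, List.mem_cons, List.not_mem_nil, or_false] at h
  rcases h with rfl | rfl | rfl | rfl | rfl | rfl <;> simp

theorem mem_six {a b : ℕ} (ha : a < 3) (hb : b < 3) (hab : a ≠ b) : (a, b) ∈ six := by
  interval_cases a <;> interval_cases b <;> simp_all

theorem pick_mem (S : List ((ℕ × ℕ) × ℕ)) (u v : ℕ) : pick S u v ∈ six := by
  unfold pick
  cases h : ([(0, 1), (0, 2), (1, 0), (1, 2), (2, 0), (2, 1)] : List (ℕ × ℕ)).find?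
    (fun ab => S.all (fun a => (!(a.1.2 == u) || (a.2 == ab.1)) &&
      (!(a.1.1 == v) || (a.2 == ab.2)))) with
  | none => simp
  | some ab => exact List.mem_of_find?_eq_some h

theorem pick_basic (S : List ((ℕ × ℕ) × ℕ)) (u v : ℕ) :
    (pick S u v).1 < 3 ∧ (pick S u v).2 < 3 ∧ (pick S u v).1 ≠ (pick S u v).2 :=
  six_spec (pick_mem S u v)

theorem pick_spec {S : List ((ℕ × ℕ) × ℕ)} {u v : ℕ} (hc : ∀ a ∈ S, a.2 < 3)
    (hu : ∀ a ∈ S, ∀ b ∈ S, a.1.2 = u → b.1.2 = u → a.2 = b.2)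
    (hv : ∀ a ∈ S, ∀ b ∈ S, a.1.1 = v → b.1.1 = v → a.2 = b.2)
    (huv : ∀ a ∈ S, ∀ b ∈ S, a.1.2 = u → b.1.1 = v → a.2 ≠ b.2) :
    (∀ a ∈ S, a.1.2 = u → a.2 = (pick S u v).1) ∧
      ∀ a ∈ S, a.1.1 = v → a.2 = (pick S u v).2 := by
  -- the colours of the arcs into `u` and out of `v`
  have key : ∃ ca cb : ℕ, ca < 3 ∧ cb < 3 ∧ ca ≠ cb ∧ (∀ a ∈ S, a.1.2 = u → a.2 = ca) ∧
      ∀ a ∈ S, a.1.1 = v → a.2 = cb := by
    by_cases h1 : ∃ a ∈ S, a.1.2 = u
    · obtain ⟨a, ha, hau⟩ := h1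
      by_cases h2 : ∃ b ∈ S, b.1.1 = v
      · obtain ⟨b, hb, hbv⟩ := h2
        exact ⟨a.2, b.2, hc a ha, hc b hb, huv a ha b hb hau hbv,
          fun c hc' h => hu c hc' a ha h hau, fun c hc' h => hv c hc' b hb h hbv⟩
      · push Not at h2
        have h3 := hc a ha
        refine ⟨a.2, (a.2 + 1) % 3, h3, Nat.mod_lt _ (by norm_num), by omega,
          fun c hc' h => hu c hc' a ha h hau, fun c hc' h => absurd h (h2 c hc')⟩
    · push Not at h1
      by_cases h2 : ∃ b ∈ S, b.1.1 = v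
      · obtain ⟨b, hb, hbv⟩ := h2
        have h3 := hc b hb
        refine ⟨(b.2 + 1) % 3, b.2, Nat.mod_lt _ (by norm_num), h3, by omega,
          fun c hc' h => absurd h (h1 c hc'), fun c hc' h => hv c hc' b hb h hbv⟩
      · push Not at h2
        exact ⟨0, 1, by norm_num, by norm_num, by norm_num,
          fun c hc' h => absurd h (h1 c hc'), fun c hc' h => absurd h (h2 c hc')⟩
  obtain ⟨ca, cb, hca, hcb, hne, ha, hb⟩ := key
  have hall : ∃ ab ∈ six, (S.all (fun a => (!(a.1.2 == u) || (a.2 == ab.1)) &&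
      (!(a.1.1 == v) || (a.2 == ab.2)))) = true := by
    refine ⟨(ca, cb), mem_six hca hcb hne, ?_⟩
    rw [List.all_eq_true]
    intro a haS
    rw [Bool.and_eq_true, Bool.or_eq_true, Bool.or_eq_true]
    constructor
    · by_cases h : a.1.2 = u
      · right; simpa using ha a haS h
      · left; simpa using h
    · by_cases h : a.1.1 = v
      · right; simpa using hb a haS h
      · left; simpa using h
  have hfind : (S.all (fun a => (!(a.1.2 == u) || (a.2 == (pick S u v).1)) &&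
      (!(a.1.1 == v) || (a.2 == (pick S u v).2)))) = true := by
    cases h : ([(0, 1), (0, 2), (1, 0), (1, 2), (2, 0), (2, 1)] : List (ℕ × ℕ)).find?
      (fun ab => S.all (fun a => (!(a.1.2 == u) || (a.2 == ab.1)) &&
        (!(a.1.1 == v) || (a.2 == ab.2)))) with
    | none =>
      exfalso
      obtain ⟨ab, hab, hp⟩ := hall
      exact List.find?_eq_none.1 h ab hab hp
    | some ab =>
      have h1 : pick S u v = ab := by
        unfold pick
        rw [h]
        rfl
      rw [h1]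
      exact List.find?_some (p := fun ab : ℕ × ℕ => S.all (fun a => (!(a.1.2 == u) ||
        (a.2 == ab.1)) && (!(a.1.1 == v) || (a.2 == ab.2)))) h
  rw [List.all_eq_true] at hfind
  constructor
  · intro a haS h
    have := hfind a haS
    rw [Bool.and_eq_true, Bool.or_eq_true, Bool.or_eq_true] at this
    rcases this.1 with h1 | h1
    · simp [h] at h1
    · simpa using h1
  · intro a haS h
    have := hfind a haS
    rw [Bool.and_eq_true, Bool.or_eq_true, Bool.or_eq_true] at this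
    rcases this.2 with h1 | h1
    · simp [h] at h1
    · simpa using h1

/-! ### Types of nodes -/

theorem isPair_iff {p : List ℕ} {x : ℕ} : isPair p x = true ↔ nx p x ≠ x ∧ nx p (nx p x) = x := by
  unfold isPair
  simp

theorem isLong_iff {p : List ℕ} {x : ℕ} : isLong p x = true ↔ nx p x ≠ x ∧ nx p (nx p x) ≠ x := by
  unfold isLong
  simp

theorem isN_iff {n : ℕ} {p1 p2 : List ℕ} {x : ℕ} : isN n p1 p2 x = true ↔
    isPair p1 x = true ∧ nx p2 (hub n p1 x) = hub n p1 x := by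
  unfold isN
  simp

theorem isE_iff {n : ℕ} {p1 p2 : List ℕ} {x : ℕ} : isE n p1 p2 x = true ↔
    isPair p1 x = true ∧ nx p2 x = hub n p1 x ∧ nx p2 (hub n p1 x) = nx p1 x := by
  unfold isE
  simp [and_assoc]

theorem isU_iff {n : ℕ} {p1 p2 : List ℕ} {x : ℕ} : isU n p1 p2 x = true ↔
    isPair p1 x = true ∧ nx p2 x = hub n p1 x ∧ nx p2 (hub n p1 x) = x := by
  unfold isU
  simp [and_assoc]

theorem mem_arcs {n : ℕ} {p1 p2 : List ℕ} {e : ℕ × ℕ} (he : e ∈ arcs n p1 p2) :
    e.1 < n ∧ ((isLong p1 e.1 = true ∧ e.2 = nx p1 e.1) ∨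
      (nx p2 e.1 < n ∧ near p1 e.1 (nx p2 e.1) = false ∧ e.2 = nx p2 e.1) ∨
      (isN n p1 p2 e.1 = true ∧ e.2 = nx p1 e.1)) := by
  unfold arcs arcs1 arcs2 arcsN at he
  simp only [List.mem_append, List.mem_map, List.mem_filter, List.mem_range, Bool.and_eq_true,
    Nat.blt_eq, Bool.not_eq_true'] at he
  rcases he with ⟨x, ⟨h1, h2⟩, rfl⟩ | ⟨x, ⟨h1, h2, h3⟩, rfl⟩ | ⟨x, ⟨h1, h2⟩, rfl⟩
  · exact ⟨h1, Or.inl ⟨h2, rfl⟩⟩
  · exact ⟨h1, Or.inr (Or.inl ⟨h2, h3, rfl⟩)⟩
  · exact ⟨h1, Or.inr (Or.inr ⟨h2, rfl⟩)⟩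

section Types

variable {n : ℕ} {p1 p2 : List ℕ}

theorem hub_partner {x : ℕ} (hx : isPair p1 x = true) : hub n p1 (nx p1 x) = hub n p1 x := by
  obtain ⟨_, h⟩ := isPair_iff.1 hx
  unfold hub
  rw [h, min_comm]

theorem pair_partner {x : ℕ} (hx : isPair p1 x = true) : isPair p1 (nx p1 x) = true := by
  obtain ⟨h1, h2⟩ := isPair_iff.1 hx
  rw [isPair_iff, h2]
  exact ⟨fun h => h1 h.symm, rfl⟩

theorem not_long {x : ℕ} (hx : isPair p1 x = true) : isLong p1 x = false := by
  obtain ⟨_, h2⟩ := isPair_iff.1 hx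
  by_contra h
  rw [Bool.not_eq_false] at h
  exact (isLong_iff.1 h).2 h2

theorem hub_ge (x : ℕ) : n ≤ hub n p1 x := by unfold hub; omega

theorem hub_lt (h1 : p1 ~ List.range n) {x : ℕ} (hx : x < n) : hub n p1 x < n + n := by
  have := M.Round.nx_lt h1 hx
  unfold hub
  omega

/-- the node `x` is the one for which `endArcs` contains an arc -/
def act (n : ℕ) (p1 p2 : List ℕ) (x : ℕ) : Prop :=
  isPair p1 x = true ∧ nx p2 x = hub n p1 x ∧
    (nx p2 (hub n p1 x) = nx p1 x ∨ nx p2 (hub n p1 x) = x)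

theorem act_not_N (h1 : p1 ~ List.range n) {x : ℕ} (hx : x < n) (ha : act n p1 p2 x) :
    isN n p1 p2 x = false ∧ isN n p1 p2 (nx p1 x) = false := by
  obtain ⟨hp, _, h3⟩ := ha
  have h4 : nx p2 (hub n p1 x) ≠ hub n p1 x := by
    have := hub_ge (n := n) (p1 := p1) x
    have := M.Round.nx_lt h1 hx
    rcases h3 with h | h <;> omega
  constructor
  · by_contra h
    rw [Bool.not_eq_false] at h
    exact h4 (isN_iff.1 h).2
  · by_contra h
    rw [Bool.not_eq_false] at h
    have := (isN_iff.1 h).2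
    rw [hub_partner hp] at this
    exact h4 this

/-- two active nodes of the same pair are equal -/
theorem act_unique (h2 : p2 ~ List.range (n + n)) {x y : ℕ} (hx : x < n) (hy : y < n)
    (hax : act n p1 p2 x) (hay : act n p1 p2 y) (h : hub n p1 x = hub n p1 y) : x = y := by
  have e1 := hax.2.1
  have e2 := hay.2.1
  exact M.Round.nx_inj h2 (by omega) (by omega) (by rw [e1, e2, h])

/-- no arc leaves an active node -/
theorem act_no_out (h1 : p1 ~ List.range n) {x : ℕ} (hx : x < n) (ha : act n p1 p2 x) :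
    ∀ e ∈ arcs n p1 p2, e.1 ≠ x := by
  intro e he h
  have hn := act_not_N h1 hx ha
  obtain ⟨_, h3 | h3 | h3⟩ := mem_arcs he
  · rw [h, not_long ha.1] at h3
    exact Bool.false_ne_true h3.1
  · rw [h, ha.2.1] at h3
    have := hub_ge (n := n) (p1 := p1) x
    omega
  · rw [h, hn.1] at h3
    exact Bool.false_ne_true h3.1

/-- no arc enters the node behind the hub -/
theorem act_no_in (h1 : p1 ~ List.range n) (h2 : p2 ~ List.range (n + n)) {x z : ℕ} (hx : x < n)
    (ha : act n p1 p2 x) (hz : nx p2 (hub n p1 x) = z) : ∀ e ∈ arcs n p1 p2, e.2 ≠ z := by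
  intro e he h
  have hn := act_not_N h1 hx ha
  have hzp : isPair p1 z = true ∧ isN n p1 p2 (nx p1 z) = false ∧ z < n := by
    rcases ha.2.2 with h4 | h4
    · rw [h4] at hz
      subst hz
      refine ⟨pair_partner ha.1, ?_, M.Round.nx_lt h1 hx⟩
      rw [(isPair_iff.1 ha.1).2]
      exact hn.1
    · rw [h4] at hz
      subst hz
      exact ⟨ha.1, hn.2, hx⟩
  obtain ⟨hzp1, hzN, hzn⟩ := hzp
  obtain ⟨he1, h3 | h3 | h3⟩ := mem_arcs he
  · -- `e.1` is the partner of `z`
    have h5 : e.1 = nx p1 z := by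
      apply M.Round.nx_inj h1 he1 (M.Round.nx_lt h1 hzn)
      rw [(isPair_iff.1 hzp1).2, ← h3.2, h]
    rw [h5, not_long (pair_partner hzp1)] at h3
    exact Bool.false_ne_true h3.1
  · have h5 : e.1 = hub n p1 x := by
      apply M.Round.nx_inj h2 (by omega) (hub_lt h1 hx)
      rw [hz, ← h3.2.2, h]
    have := hub_ge (n := n) (p1 := p1) x
    omega
  · have h5 : e.1 = nx p1 z := by
      apply M.Round.nx_inj h1 he1 (M.Round.nx_lt h1 hzn)
      rw [(isPair_iff.1 hzp1).2, ← h3.2, h]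
    rw [h5, hzN] at h3
    exact Bool.false_ne_true h3.1

/-- there is at most one arc into a node of a pair that is not of type `N` -/
theorem in_unique (h1 : p1 ~ List.range n) (h2 : p2 ~ List.range (n + n)) {z : ℕ} (hz : z < n)
    (hzp : isPair p1 z = true) (hzN : isN n p1 p2 (nx p1 z) = false) :
    ∀ e ∈ arcs n p1 p2, ∀ f ∈ arcs n p1 p2, e.2 = z → f.2 = z → e = f := by
  have key : ∀ e ∈ arcs n p1 p2, e.2 = z → nx p2 e.1 = z ∧ e.1 < n := by
    intro e he h
    obtain ⟨he1, h3 | h3 | h3⟩ := mem_arcs he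
    · exfalso
      have h5 : e.1 = nx p1 z := by
        apply M.Round.nx_inj h1 he1 (M.Round.nx_lt h1 hz)
        rw [(isPair_iff.1 hzp).2, ← h3.2, h]
      rw [h5, not_long (pair_partner hzp)] at h3
      exact Bool.false_ne_true h3.1
    · exact ⟨by rw [← h3.2.2, h], he1⟩
    · exfalso
      have h5 : e.1 = nx p1 z := by
        apply M.Round.nx_inj h1 he1 (M.Round.nx_lt h1 hz)
        rw [(isPair_iff.1 hzp).2, ← h3.2, h]
      rw [h5, hzN] at h3
      exact Bool.false_ne_true h3.1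
  intro e he f hf h3 h4
  have e1 := key e he h3
  have e2 := key f hf h4
  have : e.1 = f.1 := M.Round.nx_inj h2 (by omega) (by omega) (by rw [e1.1, e2.1])
  exact Prod.ext this (by rw [h3, h4])

/-- there is at most one arc out of a node of a pair that is not of type `N` -/
theorem out_unique {z : ℕ} (hzp : isPair p1 z = true) (hzN : isN n p1 p2 z = false) :
    ∀ e ∈ arcs n p1 p2, ∀ f ∈ arcs n p1 p2, e.1 = z → f.1 = z → e = f := by
  have key : ∀ e ∈ arcs n p1 p2, e.1 = z → e.2 = nx p2 z := by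
    intro e he h
    obtain ⟨he1, h3 | h3 | h3⟩ := mem_arcs he
    · rw [h, not_long hzp] at h3
      exact absurd h3.1 Bool.false_ne_true
    · rw [h3.2.2, h]
    · rw [h, hzN] at h3
      exact absurd h3.1 Bool.false_ne_true
  intro e he f hf h3 h4
  exact Prod.ext (by rw [h3, h4]) (by rw [key e he h3, key f hf h4])


/-! ### Multiplicities -/

theorem arcs2_nodup : (arcs2 n p1 p2).Nodup := by
  unfold arcs2
  refine List.Nodup.map ?_ (List.Nodup.filter _ List.nodup_range)
  intro a b h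
  exact (Prod.mk.inj h).1

theorem count_le_one {e : ℕ × ℕ} (h1 : e ∉ arcs1 n p1) (h2 : e ∉ arcsN n p1 p2) :
    (arcs n p1 p2).count e ≤ 1 := by
  unfold arcs
  rw [List.count_append, List.count_append, List.count_eq_zero.2 h1, List.count_eq_zero.2 h2]
  have := List.nodup_iff_count_le_one.1 (arcs2_nodup (n := n) (p1 := p1) (p2 := p2)) e
  omega

theorem count_out {z : ℕ} (hzp : isPair p1 z = true) (hzN : isN n p1 p2 z = false) {e : ℕ × ℕ}
    (he : e.1 = z) : (arcs n p1 p2).count e ≤ 1 := by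
  apply count_le_one
  · intro h
    unfold arcs1 at h
    simp only [List.mem_map, List.mem_filter, List.mem_range] at h
    obtain ⟨x, ⟨_, h3⟩, rfl⟩ := h
    simp only at he
    rw [he, not_long hzp] at h3
    exact Bool.false_ne_true h3
  · intro h
    unfold arcsN at h
    simp only [List.mem_map, List.mem_filter, List.mem_range] at h
    obtain ⟨x, ⟨_, h3⟩, rfl⟩ := h
    simp only at he
    rw [he, hzN] at h3
    exact Bool.false_ne_true h3

theorem count_in (h1 : p1 ~ List.range n) {z : ℕ} (hz : z < n)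
    (hzp : isPair p1 z = true) (hzN : isN n p1 p2 (nx p1 z) = false) {e : ℕ × ℕ}
    (he : e.2 = z) : (arcs n p1 p2).count e ≤ 1 := by
  apply count_le_one
  · intro h
    unfold arcs1 at h
    simp only [List.mem_map, List.mem_filter, List.mem_range] at h
    obtain ⟨x, ⟨h2, h3⟩, rfl⟩ := h
    simp only at he
    have h5 : x = nx p1 z := by
      apply M.Round.nx_inj h1 h2 (M.Round.nx_lt h1 hz)
      rw [(isPair_iff.1 hzp).2, he]
    rw [h5, not_long (pair_partner hzp)] at h3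
    exact Bool.false_ne_true h3
  · intro h
    unfold arcsN at h
    simp only [List.mem_map, List.mem_filter, List.mem_range] at h
    obtain ⟨x, ⟨h2, h3⟩, rfl⟩ := h
    simp only at he
    have h5 : x = nx p1 z := by
      apply M.Round.nx_inj h1 h2 (M.Round.nx_lt h1 hz)
      rw [(isPair_iff.1 hzp).2, he]
    rw [h5, hzN] at h3
    exact Bool.false_ne_true h3

end Types

theorem eq_of_count {S : List ((ℕ × ℕ) × ℕ)} {e : ℕ × ℕ} (h : (S.map Prod.fst).count e ≤ 1)
    {a b : (ℕ × ℕ) × ℕ} (ha : a ∈ S) (hb : b ∈ S) (hae : a.1 = e) (hbe : b.1 = e) : a = b := by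
  have h1 : (S.filter (fun s => s.1 == e)).length ≤ 1 := by
    rw [← List.countP_eq_length_filter]
    rw [List.count, List.countP_map] at h
    exact h
  have ha' : a ∈ S.filter (fun s => s.1 == e) := by
    rw [List.mem_filter]
    exact ⟨ha, by simpa using hae⟩
  have hb' : b ∈ S.filter (fun s => s.1 == e) := by
    rw [List.mem_filter]
    exact ⟨hb, by simpa using hbe⟩
  match hL : S.filter (fun s => s.1 == e) with
  | [] => rw [hL] at ha'; simp at ha'
  | [c] =>
    rw [hL, List.mem_singleton] at ha' hb'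
    rw [ha', hb']
  | c :: d :: l =>
    rw [hL] at h1
    simp at h1

theorem mem_cls {S : List ((ℕ × ℕ) × ℕ)} {t : ℕ} {e : ℕ × ℕ} : e ∈ cls S t ↔ (e, t) ∈ S := by
  unfold cls
  simp only [List.mem_map, List.mem_filter, beq_iff_eq]
  constructor
  · rintro ⟨a, ⟨h1, h2⟩, h3⟩
    rw [← h3, ← h2]
    exact h1
  · intro h
    exact ⟨(e, t), ⟨h, rfl⟩, rfl⟩

/-! ### The conditions on the colouring -/

/-- what is needed of the coloured arcs -/
structure Col (n : ℕ) (p1 p2 : List ℕ) (S : List ((ℕ × ℕ) × ℕ)) : Prop where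
  sub : (S.map Prod.fst).Subperm (arcs n p1 p2)
  col : ∀ a ∈ S, a.2 < 3
  thin : ∀ a ∈ S, ∀ b ∈ S, a.2 = b.2 → b.1.1 ≠ mate n p1 p2 a.1.2

section Main

variable {n : ℕ} {p1 p2 : List ℕ} {S : List ((ℕ × ℕ) × ℕ)}

theorem Col.mem (hS : Col n p1 p2 S) {a : (ℕ × ℕ) × ℕ} (ha : a ∈ S) : a.1 ∈ arcs n p1 p2 :=
  hS.sub.subset (List.mem_map_of_mem ha)

theorem Col.in_eq (hS : Col n p1 p2 S) (h1 : p1 ~ List.range n) (h2 : p2 ~ List.range (n + n))
    {z : ℕ} (hz : z < n) (hzp : isPair p1 z = true) (hzN : isN n p1 p2 (nx p1 z) = false) :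
    ∀ a ∈ S, ∀ b ∈ S, a.1.2 = z → b.1.2 = z → a.2 = b.2 := by
  intro a ha b hb h3 h4
  have h5 := in_unique h1 h2 hz hzp hzN a.1 (hS.mem ha) b.1 (hS.mem hb) h3 h4
  have h6 := (hS.sub.count_le a.1).trans (count_in h1 hz hzp hzN h3)
  rw [eq_of_count h6 ha hb rfl h5.symm]

theorem Col.out_eq (hS : Col n p1 p2 S) {z : ℕ} (hzp : isPair p1 z = true)
    (hzN : isN n p1 p2 z = false) :
    ∀ a ∈ S, ∀ b ∈ S, a.1.1 = z → b.1.1 = z → a.2 = b.2 := by
  intro a ha b hb h3 h4
  have h5 := out_unique hzp hzN a.1 (hS.mem ha) b.1 (hS.mem hb) h3 h4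
  have h6 := (hS.sub.count_le a.1).trans (count_out hzp hzN h3)
  rw [eq_of_count h6 ha hb rfl h5.symm]

theorem act_of_E {x : ℕ} (h : isE n p1 p2 x = true) : act n p1 p2 x := by
  obtain ⟨h1, h2, h3⟩ := isE_iff.1 h
  exact ⟨h1, h2, Or.inl h3⟩

theorem act_of_U {x : ℕ} (h : isU n p1 p2 x = true) : act n p1 p2 x := by
  obtain ⟨h1, h2, h3⟩ := isU_iff.1 h
  exact ⟨h1, h2, Or.inr h3⟩

theorem mate_E {x : ℕ} (h : isE n p1 p2 x = true) : mate n p1 p2 x = nx p1 x := by
  have h1 := (isE_iff.1 h).1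
  unfold mate
  rw [if_neg (isPair_iff.1 h1).1, if_pos h1, if_pos h]

/-- the partner of an active node is not active -/
theorem partner_not_act (h1 : p1 ~ List.range n) (h2 : p2 ~ List.range (n + n)) {x : ℕ}
    (hx : x < n) (ha : act n p1 p2 x) : ¬ act n p1 p2 (nx p1 x) := by
  intro h
  have := act_unique h2 hx (M.Round.nx_lt h1 hx) ha h (hub_partner ha.1).symm
  exact (isPair_iff.1 ha.1).1 this.symm

theorem mate_U (h1 : p1 ~ List.range n) (h2 : p2 ~ List.range (n + n)) {x : ℕ} (hx : x < n)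
    (h : isU n p1 p2 x = true) : mate n p1 p2 (nx p1 x) = nx p1 x := by
  have h3 := (isU_iff.1 h).1
  have h4 := pair_partner h3
  have h5 : isE n p1 p2 (nx p1 x) ≠ true := fun h' =>
    partner_not_act h1 h2 hx (act_of_U h) (act_of_E h')
  unfold mate
  rw [if_neg (isPair_iff.1 h4).1, if_pos h4, if_neg h5, (isPair_iff.1 h3).2, if_pos h]

/-- `pick` at a pair of type `E` -/
theorem pick_E (hS : Col n p1 p2 S) (h1 : p1 ~ List.range n) (h2 : p2 ~ List.range (n + n))
    {x : ℕ} (hx : x < n) (h : isE n p1 p2 x = true) :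
    (∀ a ∈ S, a.1.2 = x → a.2 = (pick S x (nx p1 x)).1) ∧
      ∀ a ∈ S, a.1.1 = nx p1 x → a.2 = (pick S x (nx p1 x)).2 := by
  have ha := act_of_E h
  have hN := act_not_N h1 hx ha
  refine pick_spec hS.col (hS.in_eq h1 h2 hx ha.1 hN.2) (hS.out_eq (pair_partner ha.1) hN.2) ?_
  intro a haS b hbS h3 h4 h5
  refine hS.thin a haS b hbS h5 ?_
  rw [h3, mate_E h, h4]

/-- `pick` at a pair of type `U` -/
theorem pick_U (hS : Col n p1 p2 S) (h1 : p1 ~ List.range n) (h2 : p2 ~ List.range (n + n))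
    {x : ℕ} (hx : x < n) (h : isU n p1 p2 x = true) :
    (∀ a ∈ S, a.1.2 = nx p1 x → a.2 = (pick S (nx p1 x) (nx p1 x)).1) ∧
      ∀ a ∈ S, a.1.1 = nx p1 x → a.2 = (pick S (nx p1 x) (nx p1 x)).2 := by
  have ha := act_of_U h
  have hN := act_not_N h1 hx ha
  have hN' : isN n p1 p2 (nx p1 (nx p1 x)) = false := by
    rw [(isPair_iff.1 ha.1).2]
    exact hN.1
  refine pick_spec hS.col (hS.in_eq h1 h2 (M.Round.nx_lt h1 hx) (pair_partner ha.1) hN')
    (hS.out_eq (pair_partner ha.1) hN.2) ?_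
  intro a haS b hbS h3 h4 h5
  refine hS.thin a haS b hbS h5 ?_
  rw [h3, mate_U h1 h2 hx h, h4]

end Main

/-! ### `endArcs` as a list of arcs -/

/-- the arc of `endArcs` of an active node -/
def arcOf (n : ℕ) (w : ℕ → ℕ → ℕ) (p1 p2 : List ℕ) (S : List ((ℕ × ℕ) × ℕ)) (t x : ℕ) : ℕ × ℕ :=
  if isE n p1 p2 x then
    (if (t == (pick S x (nx p1 x)).1) || (t == (pick S x (nx p1 x)).2) then (x, nx p1 x)
    else (nx p1 x, x))
  else
    (if t == (pick S (nx p1 x) (nx p1 x)).1 then (nx p1 x, x)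
    else if t == (pick S (nx p1 x) (nx p1 x)).2 then (x, nx p1 x)
    else if w (nx p1 x) x ≤ w x (nx p1 x) then (x, nx p1 x) else (nx p1 x, x))

/-- the active nodes -/
def acts (n : ℕ) (p1 p2 : List ℕ) : List ℕ :=
  (List.range n).filter (fun x => isE n p1 p2 x || isU n p1 p2 x)

theorem flatten_ite {α β : Type*} (l : List α) (p : α → Bool) (f : α → β) :
    (l.map (fun x => if p x then [f x] else [])).flatten = (l.filter p).map f := by
  induction l with
  | nil => rfl
  | cons a l ih =>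
    rw [List.map_cons, List.flatten_cons, ih, List.filter_cons]
    by_cases h : p a
    · rw [if_pos h, if_pos h]
      rfl
    · rw [if_neg h, if_neg h]
      rfl

theorem endArcs_eq (n : ℕ) (w : ℕ → ℕ → ℕ) (p1 p2 : List ℕ) (S : List ((ℕ × ℕ) × ℕ)) (t : ℕ) :
    endArcs n w p1 p2 S t = (acts n p1 p2).map (arcOf n w p1 p2 S t) := by
  unfold acts
  rw [← flatten_ite]
  unfold endArcs
  congr 1
  apply List.map_congr_left
  intro x _
  unfold arcOf endE endU
  by_cases hE : isE n p1 p2 x = true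
  · rw [if_pos hE, if_pos hE, hE, Bool.true_or, if_pos rfl]
    split_ifs <;> rfl
  · rw [if_neg hE, if_neg hE]
    rw [Bool.not_eq_true] at hE
    rw [hE, Bool.false_or]
    by_cases hU : isU n p1 p2 x = true
    · rw [if_pos hU, if_pos hU]
      split_ifs <;> rfl
    · rw [if_neg hU, if_neg hU]

theorem mem_acts {n : ℕ} {p1 p2 : List ℕ} {x : ℕ} (h : x ∈ acts n p1 p2) :
    x < n ∧ act n p1 p2 x ∧ (isE n p1 p2 x = true ∨ (isE n p1 p2 x ≠ true ∧
      isU n p1 p2 x = true)) := by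
  unfold acts at h
  rw [List.mem_filter, List.mem_range, Bool.or_eq_true] at h
  refine ⟨h.1, ?_, ?_⟩
  · rcases h.2 with h | h
    · exact act_of_E h
    · exact act_of_U h
  · by_cases hE : isE n p1 p2 x = true
    · exact Or.inl hE
    · rcases h.2 with h | h
      · exact absurd h hE
      · exact Or.inr ⟨hE, h⟩

theorem arcOf_cases (n : ℕ) (w : ℕ → ℕ → ℕ) (p1 p2 : List ℕ) (S : List ((ℕ × ℕ) × ℕ)) (t x : ℕ) :
    arcOf n w p1 p2 S t x = (x, nx p1 x) ∨ arcOf n w p1 p2 S t x = (nx p1 x, x) := by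
  unfold arcOf
  split_ifs <;> simp

section Main2

variable {n : ℕ} {w : ℕ → ℕ → ℕ} {p1 p2 : List ℕ} {S : List ((ℕ × ℕ) × ℕ)} {t : ℕ}

theorem arcOf_hub {x : ℕ} (h : isPair p1 x = true) :
    hub n p1 (arcOf n w p1 p2 S t x).1 = hub n p1 x ∧
      hub n p1 (arcOf n w p1 p2 S t x).2 = hub n p1 x := by
  rcases arcOf_cases n w p1 p2 S t x with h1 | h1
  · rw [h1]; exact ⟨rfl, hub_partner h⟩
  · rw [h1]; exact ⟨hub_partner h, rfl⟩

theorem arcOf_ne {x : ℕ} (h : isPair p1 x = true) :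
    (arcOf n w p1 p2 S t x).1 ≠ (arcOf n w p1 p2 S t x).2 := by
  have h2 := (isPair_iff.1 h).1
  rcases arcOf_cases n w p1 p2 S t x with h1 | h1
  · rw [h1]; exact fun h => h2 h.symm
  · rw [h1]; exact h2

theorem endArcs_disj (h2 : p2 ~ List.range (n + n)) :
    ((endArcs n w p1 p2 S t).map Prod.fst ++ (endArcs n w p1 p2 S t).map Prod.snd).Nodup := by
  rw [endArcs_eq, List.map_map, List.map_map]
  have hnd : (acts n p1 p2).Nodup := List.Nodup.filter _ List.nodup_range
  have key : ∀ x ∈ acts n p1 p2, ∀ y ∈ acts n p1 p2, hub n p1 x = hub n p1 y → x = y := by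
    intro x hx y hy h
    have h3 := mem_acts hx
    have h4 := mem_acts hy
    exact act_unique h2 h3.1 h4.1 h3.2.1 h4.2.1 h
  rw [List.nodup_append]
  refine ⟨List.Nodup.map_on ?_ hnd, List.Nodup.map_on ?_ hnd, ?_⟩
  · intro x hx y hy h
    apply key x hx y hy
    rw [← (arcOf_hub (w := w) (S := S) (t := t) (n := n) (p2 := p2) (mem_acts hx).2.1.1).1,
      ← (arcOf_hub (w := w) (S := S) (t := t) (n := n) (p2 := p2) (mem_acts hy).2.1.1).1]
    exact congrArg _ h
  · intro x hx y hy h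
    apply key x hx y hy
    rw [← (arcOf_hub (w := w) (S := S) (t := t) (n := n) (p2 := p2) (mem_acts hx).2.1.1).2,
      ← (arcOf_hub (w := w) (S := S) (t := t) (n := n) (p2 := p2) (mem_acts hy).2.1.1).2]
    exact congrArg _ h
  · intro a ha b hb hab
    rw [List.mem_map] at ha hb
    obtain ⟨x, hx, hxa⟩ := ha
    obtain ⟨y, hy, hyb⟩ := hb
    have hxy : x = y := by
      apply key x hx y hy
      rw [← (arcOf_hub (w := w) (S := S) (t := t) (n := n) (p2 := p2) (mem_acts hx).2.1.1).1,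
        ← (arcOf_hub (w := w) (S := S) (t := t) (n := n) (p2 := p2) (mem_acts hy).2.1.1).2]
      rw [Function.comp_apply] at hxa hyb
      rw [hxa, hyb, hab]
    subst hxy
    rw [Function.comp_apply] at hxa hyb
    exact arcOf_ne (w := w) (S := S) (t := t) (n := n) (p2 := p2) (mem_acts hx).2.1.1
      (by rw [hxa, hyb, hab])

/-- the condition of `Fin2.add_list` for the arc of an active node -/
theorem arcOf_free (hS : Col n p1 p2 S) (h1 : p1 ~ List.range n)
    (h2 : p2 ~ List.range (n + n)) {x : ℕ} (hx : x ∈ acts n p1 p2) :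
    ((∀ e ∈ cls S t, e.1 ≠ (arcOf n w p1 p2 S t x).1) ∧
        ∀ e ∈ cls S t, e.1 ≠ (arcOf n w p1 p2 S t x).2 ∧ e.2 ≠ (arcOf n w p1 p2 S t x).2) ∨
      ((∀ e ∈ cls S t, e.1 ≠ (arcOf n w p1 p2 S t x).1 ∧ e.2 ≠ (arcOf n w p1 p2 S t x).1) ∧
        ∀ e ∈ cls S t, e.2 ≠ (arcOf n w p1 p2 S t x).2) := by
  obtain ⟨hxn, ha, hEU⟩ := mem_acts hx
  have hcl : ∀ e ∈ cls S t, e ∈ arcs n p1 p2 := fun e he => hS.mem (mem_cls.1 he)
  -- no arc leaves `x`
  have hxo : ∀ e ∈ cls S t, e.1 ≠ x := fun e he => act_no_out h1 hxn ha e (hcl e he)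
  rcases hEU with hE | ⟨hE, hU⟩
  · -- type `E`: no arc enters the partner
    have hyi : ∀ e ∈ cls S t, e.2 ≠ nx p1 x := fun e he =>
      act_no_in h1 h2 hxn ha (isE_iff.1 hE).2.2 e (hcl e he)
    obtain ⟨g1, g2⟩ := pick_E hS h1 h2 hxn hE
    have hxi : t ≠ (pick S x (nx p1 x)).1 → ∀ e ∈ cls S t, e.2 ≠ x := by
      intro ht e he h
      exact ht (g1 (e, t) (mem_cls.1 he) h)
    have hyo : t ≠ (pick S x (nx p1 x)).2 → ∀ e ∈ cls S t, e.1 ≠ nx p1 x := by
      intro ht e he h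
      exact ht (g2 (e, t) (mem_cls.1 he) h)
    have hne := (pick_basic S x (nx p1 x)).2.2
    unfold arcOf
    rw [if_pos hE]
    by_cases c1 : t = (pick S x (nx p1 x)).1
    · have c2 : t ≠ (pick S x (nx p1 x)).2 := fun h => hne (c1.symm.trans h)
      have hc : ((t == (pick S x (nx p1 x)).1) || (t == (pick S x (nx p1 x)).2)) = true := by
        simp [c1]
      rw [if_pos hc]
      exact Or.inl ⟨hxo, fun e he => ⟨hyo c2 e he, hyi e he⟩⟩
    · by_cases c2 : t = (pick S x (nx p1 x)).2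
      · have hc : ((t == (pick S x (nx p1 x)).1) || (t == (pick S x (nx p1 x)).2)) = true := by
          simp [c2]
        rw [if_pos hc]
        exact Or.inr ⟨fun e he => ⟨hxo e he, hxi c1 e he⟩, hyi⟩
      · have hc : ¬ ((t == (pick S x (nx p1 x)).1) || (t == (pick S x (nx p1 x)).2)) = true := by
          simp [c1, c2]
        rw [if_neg hc]
        exact Or.inl ⟨hyo c2, fun e he => ⟨hxo e he, hxi c1 e he⟩⟩
  · -- type `U`: no arc enters `x`
    have hxi : ∀ e ∈ cls S t, e.2 ≠ x := fun e he =>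
      act_no_in h1 h2 hxn ha (isU_iff.1 hU).2.2 e (hcl e he)
    obtain ⟨g1, g2⟩ := pick_U hS h1 h2 hxn hU
    have hyi : t ≠ (pick S (nx p1 x) (nx p1 x)).1 → ∀ e ∈ cls S t, e.2 ≠ nx p1 x := by
      intro ht e he h
      exact ht (g1 (e, t) (mem_cls.1 he) h)
    have hyo : t ≠ (pick S (nx p1 x) (nx p1 x)).2 → ∀ e ∈ cls S t, e.1 ≠ nx p1 x := by
      intro ht e he h
      exact ht (g2 (e, t) (mem_cls.1 he) h)
    have hne := (pick_basic S (nx p1 x) (nx p1 x)).2.2
    unfold arcOf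
    rw [if_neg hE]
    by_cases c1 : t = (pick S (nx p1 x) (nx p1 x)).1
    · have c2 : t ≠ (pick S (nx p1 x) (nx p1 x)).2 := fun h => hne (c1.symm.trans h)
      have hc : (t == (pick S (nx p1 x) (nx p1 x)).1) = true := by simp [c1]
      rw [if_pos hc]
      exact Or.inl ⟨hyo c2, fun e he => ⟨hxo e he, hxi e he⟩⟩
    · have hc1 : ¬ (t == (pick S (nx p1 x) (nx p1 x)).1) = true := by simpa using c1
      rw [if_neg hc1]
      by_cases c2 : t = (pick S (nx p1 x) (nx p1 x)).2
      · have hc : (t == (pick S (nx p1 x) (nx p1 x)).2) = true := by simpa using c2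
        rw [if_pos hc]
        exact Or.inr ⟨fun e he => ⟨hxo e he, hxi e he⟩, hyi c1⟩
      · have hc : ¬ (t == (pick S (nx p1 x) (nx p1 x)).2) = true := by simpa using c2
        rw [if_neg hc]
        split_ifs
        · exact Or.inr ⟨fun e he => ⟨hxo e he, hxi e he⟩, hyi c1⟩
        · exact Or.inl ⟨hyo c2, fun e he => ⟨hxo e he, hxi e he⟩⟩

/-- **The coloured arcs with the arcs inside the pairs are a path system.** -/
theorem end_LF (hS : Col n p1 p2 S) (h1 : p1 ~ List.range n) (h2 : p2 ~ List.range (n + n))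
    (hLF : LF (cls S t)) : LF (endArcs n w p1 p2 S t ++ cls S t) := by
  refine Fin2.add_list (h := hLF) (endArcs_disj h2) ?_
  intro a ha
  rw [endArcs_eq, List.mem_map] at ha
  obtain ⟨x, hx, rfl⟩ := ha
  exact arcOf_free hS h1 h2 hx

theorem end_LF' (hS : Col n p1 p2 S) (h1 : p1 ~ List.range n) (h2 : p2 ~ List.range (n + n))
    (hLF : LF (cls S t)) : LF (cls S t ++ endArcs n w p1 p2 S t) :=
  LF.perm List.perm_append_comm (end_LF hS h1 h2 hLF)

/-- the nodes of `endArcs` are nodes of pairs -/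
theorem endArcs_pair (h1 : p1 ~ List.range n) : ∀ e ∈ endArcs n w p1 p2 S t,
    (e.1 < n ∧ isPair p1 e.1 = true) ∧ (e.2 < n ∧ isPair p1 e.2 = true) := by
  intro e he
  rw [endArcs_eq, List.mem_map] at he
  obtain ⟨x, hx, rfl⟩ := he
  obtain ⟨hxn, ha, _⟩ := mem_acts hx
  have h3 := M.Round.nx_lt h1 hxn
  have h4 := pair_partner ha.1
  rcases arcOf_cases n w p1 p2 S t x with h | h
  · rw [h]; exact ⟨⟨hxn, ha.1⟩, h3, h4⟩
  · rw [h]; exact ⟨⟨h3, h4⟩, hxn, ha.1⟩

/-! ### Weights -/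

theorem sum_flat (l : List ℕ) (g : ℕ → List (ℕ × ℕ)) (f : ℕ × ℕ → ℕ) :
    (((l.map g).flatten).map f).sum = (l.map (fun x => ((g x).map f).sum)).sum := by
  induction l with
  | nil => rfl
  | cons a l ih =>
    rw [List.map_cons, List.flatten_cons, List.map_append, List.sum_append, ih, List.map_cons,
      List.sum_cons]

theorem sum_three (l : List ℕ) (f g h k : ℕ → ℕ) (H : ∀ x ∈ l, f x + g x + h x = k x) :
    (l.map f).sum + (l.map g).sum + (l.map h).sum = (l.map k).sum := by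
  induction l with
  | nil => rfl
  | cons a l ih =>
    have h1 := ih (fun x hx => H x (List.mem_cons_of_mem _ hx))
    have h2 := H a List.mem_cons_self
    rw [List.map_cons, List.map_cons, List.map_cons, List.map_cons, List.sum_cons, List.sum_cons,
      List.sum_cons, List.sum_cons]
    omega

theorem endE_sum (w : ℕ → ℕ → ℕ) (S : List ((ℕ × ℕ) × ℕ)) (x y : ℕ) :
    ((endE S 0 x y).map (fun e => w e.1 e.2)).sum + ((endE S 1 x y).map (fun e => w e.1 e.2)).sum +
      ((endE S 2 x y).map (fun e => w e.1 e.2)).sum = 2 * w x y + w y x := by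
  have h := pick_mem S x y
  unfold endE
  simp only [six, List.mem_cons, List.not_mem_nil, or_false] at h
  rcases h with h | h | h | h | h | h <;> rw [h] <;> simp <;> ring

theorem endU_sum (w : ℕ → ℕ → ℕ) (S : List ((ℕ × ℕ) × ℕ)) (x y : ℕ) :
    ((endU w S 0 x y).map (fun e => w e.1 e.2)).sum +
      ((endU w S 1 x y).map (fun e => w e.1 e.2)).sum +
      ((endU w S 2 x y).map (fun e => w e.1 e.2)).sum = w x y + w y x + max (w x y) (w y x) := by
  have h := pick_mem S y y
  unfold endU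
  simp only [six, List.mem_cons, List.not_mem_nil, or_false] at h
  by_cases h1 : w y x ≤ w x y
  · rw [if_pos h1, max_eq_left h1]
    rcases h with h | h | h | h | h | h <;> rw [h] <;> simp <;> ring
  · rw [if_neg h1, max_eq_right (not_le.1 h1).le]
    rcases h with h | h | h | h | h | h <;> rw [h] <;> simp <;> ring

/-- **The weights of the arcs inside the pairs.** -/
theorem end_sum (n : ℕ) (w : ℕ → ℕ → ℕ) (p1 p2 : List ℕ) (S : List ((ℕ × ℕ) × ℕ)) :
    ((endArcs n w p1 p2 S 0).map (fun e => w e.1 e.2)).sum +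
      ((endArcs n w p1 p2 S 1).map (fun e => w e.1 e.2)).sum +
      ((endArcs n w p1 p2 S 2).map (fun e => w e.1 e.2)).sum =
    ((List.range n).map (fun x =>
      if isE n p1 p2 x then 2 * w x (nx p1 x) + w (nx p1 x) x
      else if isU n p1 p2 x then w x (nx p1 x) + w (nx p1 x) x +
        max (w x (nx p1 x)) (w (nx p1 x) x)
      else 0)).sum := by
  unfold endArcs
  rw [sum_flat, sum_flat, sum_flat]
  apply sum_three
  intro x _
  by_cases hE : isE n p1 p2 x = true
  · simp only [if_pos hE]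
    exact endE_sum w S x (nx p1 x)
  · by_cases hU : isU n p1 p2 x = true
    · simp only [if_neg hE, if_pos hU]
      exact endU_sum w S x (nx p1 x)
    · simp only [if_neg hE, if_neg hU]
      simp

end Main2

end End

end Vale.Agent.P333.T
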