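import Vale.Agent.P333.M.AuctionL

/-! P333, box 2/3: every list of arcs with different tails and different heads weighs at most as
much as the optimal assignment. -/

namespace Vale.Agent.P333.T

open Vale.Agent.P333

/-- the head of the first arc with tail `x` -/
def fol : List (ℕ × ℕ) → ℕ → ℕ
  | [], x => x
  | e :: E, x => if e.1 = x then e.2 else fol E x

theorem fol_mem {E : List (ℕ × ℕ)} (h : (E.map Prod.fst).Nodup) {e : ℕ × ℕ} (he : e ∈ E) :
    fol E e.1 = e.2 := by
  induction E with
  | nil => simp at he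
  | cons a E ih =>
    rw [List.map_cons, List.nodup_cons] at h
    rw [fol]
    rcases List.mem_cons.mp he with rfl | he'
    · simp
    · have hne : a.1 ≠ e.1 := fun hc => h.1 (by rw [hc]; exact List.mem_map_of_mem he')
      rw [if_neg hne]
      exact ih h.2 he'

theorem partial_finset {N C : ℕ} {W : ℕ → ℕ → ℕ} (hW : ∀ i j, W i j ≤ C) (A : Finset ℕ)
    (f : ℕ → ℕ) (hA : ∀ x ∈ A, x < N) (hf : ∀ x ∈ A, f x < N)
    (hinj : ∀ x ∈ A, ∀ y ∈ A, f x = f y → x = y) :
    ∑ x ∈ A, W x (f x) ≤ ∑ i ∈ Finset.range N, W i ((Auction.assign N C W).getD i 0) := by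
  classical
  set s : Finset (Fin N) := Finset.univ.filter (fun x => (x : ℕ) ∈ A) with hs
  set F : Fin N → Fin N := fun x => if h : f x < N then ⟨f x, h⟩ else x with hF
  have hFs : ∀ x ∈ s, ((F x : Fin N) : ℕ) = f x := by
    intro x hx
    rw [hs, Finset.mem_filter] at hx
    simp only [hF]
    rw [dif_pos (hf _ hx.2)]
  obtain ⟨g, hg⟩ := Finset.exists_equiv_extend_of_card_eq (α := Fin N) (β := Fin N)
    (t := Finset.univ) (by simp) (s := s) (f := F) (by simp) (by
      intro x hx y hy hxy
      have hx' : (x : ℕ) ∈ A := by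
        have := Finset.mem_coe.mp hx
        rw [hs, Finset.mem_filter] at this
        exact this.2
      have hy' : (y : ℕ) ∈ A := by
        have := Finset.mem_coe.mp hy
        rw [hs, Finset.mem_filter] at this
        exact this.2
      apply Fin.ext
      apply hinj _ hx' _ hy'
      rw [← hFs x hx, ← hFs y hy, hxy])
  let τ : Equiv.Perm (Fin N) := g.trans (Equiv.subtypeUnivEquiv (fun x => Finset.mem_univ x))
  have hτ : ∀ x ∈ s, ((τ x : Fin N) : ℕ) = f x := by
    intro x hx
    rw [← hFs x hx, ← hg x hx]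
    rfl
  have h1 := Auction.assign_max hW τ
  rw [Finset.sum_range (fun i => W i ((Auction.assign N C W).getD i 0))]
  refine le_trans ?_ h1
  calc ∑ x ∈ A, W x (f x) = ∑ x ∈ s, W x (τ x) := by
        symm
        apply Finset.sum_bij (fun (x : Fin N) _ => (x : ℕ))
        · intro x hx
          rw [hs, Finset.mem_filter] at hx
          exact hx.2
        · intro x _ y _ h
          exact Fin.ext h
        · intro y hy
          refine ⟨⟨y, hA y hy⟩, ?_, rfl⟩
          rw [hs, Finset.mem_filter]
          exact ⟨Finset.mem_univ _, hy⟩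
        · intro x hx
          rw [hτ x hx]
    _ ≤ ∑ x : Fin N, W x (τ x) :=
        Finset.sum_le_univ_sum_of_nonneg (fun _ => Nat.zero_le _)

/-- A list of arcs with different tails and different heads weighs at most as much as the optimal
assignment. -/
theorem partial_le {N C : ℕ} {W : ℕ → ℕ → ℕ} (hW : ∀ i j, W i j ≤ C) (E : List (ℕ × ℕ))
    (h1 : (E.map Prod.fst).Nodup) (h2 : (E.map Prod.snd).Nodup)
    (hN : ∀ e ∈ E, e.1 < N ∧ e.2 < N) :
    (E.map (fun e => W e.1 e.2)).sum ≤
      ∑ i ∈ Finset.range N, W i ((Auction.assign N C W).getD i 0) := by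
  have hmem : ∀ x ∈ (E.map Prod.fst).toFinset, ∃ e ∈ E, e.1 = x := by
    intro x hx
    rw [List.mem_toFinset, List.mem_map] at hx
    exact hx
  have key := partial_finset hW (E.map Prod.fst).toFinset (fol E)
    (by
      intro x hx
      obtain ⟨e, he, rfl⟩ := hmem x hx
      exact (hN e he).1)
    (by
      intro x hx
      obtain ⟨e, he, rfl⟩ := hmem x hx
      rw [fol_mem h1 he]
      exact (hN e he).2)
    (by
      intro x hx y hy hxy
      obtain ⟨e, he, rfl⟩ := hmem x hx
      obtain ⟨e', he', rfl⟩ := hmem y hy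
      rw [fol_mem h1 he, fol_mem h1 he'] at hxy
      rw [List.inj_on_of_nodup_map h2 he he' hxy])
  rw [List.sum_toFinset _ h1, List.map_map] at key
  refine le_trans (le_of_eq ?_) key
  congr 1
  apply List.map_congr_left
  intro e he
  simp only [Function.comp]
  rw [fol_mem h1 he]

end Vale.Agent.P333.T
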