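import Vale.Agent.P333.T.Prog23
import Vale.Agent.P333.T.Partial

/-! P333, box 2/3: every order of the nodes gives an assignment for the hub weights. -/

namespace Vale.Agent.P333.T

open Vale.Agent.P333 Vale.Agent.P333.M

variable {n C : ℕ} {w : ℕ → ℕ → ℕ} {p1 : List ℕ}

theorem hw_le (hC : ∀ i j, w i j ≤ C) (B : ℕ) (p : List ℕ) (x y : ℕ) :
    hw n B w p x y ≤ 2 * B + 2 * C := by
  unfold hw
  have h1 := hC x y
  have h2 := hC x (nx p x)
  have h3 := hC (nx p y) y
  split_ifs <;> omega

/-- the index of the hub of the arc `e`: the smaller end -/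
def hx (e : ℕ × ℕ) : ℕ := min e.1 e.2

/-- the arc `e` joins the two nodes of a pair -/
def inP (p : List ℕ) (e : ℕ × ℕ) : Bool := isPair p e.1 && (e.2 == nx p e.1)

theorem isPair_iff {p : List ℕ} {x : ℕ} : isPair p x = true ↔ nx p x ≠ x ∧ nx p (nx p x) = x := by
  simp [isPair]

theorem inP_iff {p : List ℕ} {e : ℕ × ℕ} :
    inP p e = true ↔ nx p e.1 ≠ e.1 ∧ nx p (nx p e.1) = e.1 ∧ e.2 = nx p e.1 := by
  simp [inP, isPair, and_assoc]

/-- the replacement of an arc -/
def rep2 (n : ℕ) (p : List ℕ) (e : ℕ × ℕ) : List (ℕ × ℕ) :=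
  if inP p e then [(e.1, n + hx e), (n + hx e, e.2)] else [e]

theorem hw_in {B : ℕ} {e : ℕ × ℕ} (h : inP p1 e = true) (h1 : e.1 < n) (h2 : e.2 < n) :
    hw n B w p1 e.1 (n + hx e) = B + w e.1 e.2 ∧
      hw n B w p1 (n + hx e) e.2 = B + w e.1 e.2 := by
  rw [inP_iff] at h
  obtain ⟨a, b, c⟩ := h
  have hne : e.1 ≠ e.2 := by rw [c]; exact fun h => a h.symm
  have e1 : nx p1 e.2 = e.1 := by rw [c, b]
  have hub1 : hubOf p1 (hx e) e.1 = true ∧ hubOf p1 (hx e) e.2 = true := by
    unfold hubOf hx
    rcases Nat.lt_or_ge e.1 e.2 with hlt | hge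
    · rw [min_eq_left hlt.le]
      have hp : isPair p1 e.1 = true := isPair_iff.mpr ⟨a, b⟩
      simp [hp, ← c, hlt]
    · have hlt : e.2 < e.1 := lt_of_le_of_ne hge (Ne.symm hne)
      rw [min_eq_right hlt.le]
      have hp : isPair p1 e.2 = true := isPair_iff.mpr ⟨by rw [e1]; exact hne, by rw [e1, ← c]⟩
      simp [hp, e1, hlt]
  constructor
  · unfold hw
    rw [if_pos h1, if_neg (by omega), Nat.add_sub_cancel_left, if_pos hub1.1, ← c]
  · unfold hw
    rw [if_neg (by omega), if_pos h2, Nat.add_sub_cancel_left, if_pos hub1.2, e1]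

theorem hw_out {B : ℕ} {e : ℕ × ℕ} (h : inP p1 e = false) (h1 : e.1 < n) (h2 : e.2 < n)
    (hne : e.1 ≠ e.2) : hw n B w p1 e.1 e.2 = 2 * w e.1 e.2 := by
  unfold hw
  rw [if_pos h1, if_pos h2]
  have : near p1 e.1 e.2 = false := by
    unfold near
    unfold inP at h
    rw [h, Bool.or_false]
    simpa using Ne.symm hne
  rw [this]
  simp

theorem hw_rep2 {B : ℕ} {e : ℕ × ℕ} (h1 : e.1 < n) (h2 : e.2 < n) (hne : e.1 ≠ e.2) :
    ((rep2 n p1 e).map (fun f => hw n B w p1 f.1 f.2)).sum =
      2 * w e.1 e.2 + (if inP p1 e then 2 * B else 0) := by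
  unfold rep2
  by_cases h : inP p1 e = true
  · rw [if_pos h, if_pos h]
    obtain ⟨a, b⟩ := hw_in (w := w) (B := B) h h1 h2
    simp only [List.map_cons, List.map_nil, List.sum_cons, List.sum_nil]
    rw [a, b]
    omega
  · rw [if_neg h, if_neg h]
    have := hw_out (w := w) (B := B) (by simpa using h) h1 h2 hne
    simp only [List.map_cons, List.map_nil, List.sum_cons, List.sum_nil]
    rw [this]

/-- the used hubs -/
def used (p : List ℕ) (L : List (ℕ × ℕ)) : List ℕ := (L.filter (inP p)).map hx

theorem prs_idx {l : List ℕ} (hl : l.Nodup) {e : ℕ × ℕ} (he : e ∈ prs l) :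
    l.idxOf e.2 = l.idxOf e.1 + 1 := by
  unfold prs at he
  obtain ⟨i, hi, rfl⟩ := List.mem_iff_getElem.mp he
  rw [List.length_zip, List.length_tail] at hi
  have h1 : i < l.length := by omega
  have h2 : i + 1 < l.length := by omega
  have a1 : (l.zip l.tail)[i].1 = l[i] := by simp
  have a2 : (l.zip l.tail)[i].2 = l[i + 1] := by simp
  rw [a1, a2, List.Nodup.idxOf_getElem hl _ h1, List.Nodup.idxOf_getElem hl _ h2]

theorem prs_ne {l : List ℕ} (hl : l.Nodup) {e : ℕ × ℕ} (he : e ∈ prs l) : e.1 ≠ e.2 := by
  intro h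
  have := prs_idx hl he
  rw [h] at this
  omega

/-- two arcs of a path inside the same pair are equal -/
theorem prs_hx_inj {l : List ℕ} (hl : l.Nodup) {e f : ℕ × ℕ} (he : e ∈ prs l) (hf : f ∈ prs l)
    (h1 : inP p1 e = true) (h2 : inP p1 f = true) (h : hx e = hx f) : e = f := by
  rw [inP_iff] at h1 h2
  obtain ⟨a, b, c⟩ := h1
  obtain ⟨a', b', c'⟩ := h2
  have e1 : nx p1 e.2 = e.1 := by rw [c, b]
  have f1 : nx p1 f.2 = f.1 := by rw [c', b']
  have i1 := prs_idx hl he
  have i2 := prs_idx hl hf
  unfold hx at h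
  have key : (e.1 = f.1 ∧ e.2 = f.2) ∨ (e.1 = f.2 ∧ e.2 = f.1) := by
    rcases le_total e.1 e.2 with h3 | h3 <;> rcases le_total f.1 f.2 with h4 | h4
    · rw [min_eq_left h3, min_eq_left h4] at h
      exact Or.inl ⟨h, by rw [c, c', h]⟩
    · rw [min_eq_left h3, min_eq_right h4] at h
      exact Or.inr ⟨h, by rw [c, h, f1]⟩
    · rw [min_eq_right h3, min_eq_left h4] at h
      exact Or.inr ⟨by rw [← e1, h, ← c'], h⟩
    · rw [min_eq_right h3, min_eq_right h4] at h
      exact Or.inl ⟨by rw [← e1, h, f1], h⟩
  rcases key with ⟨k1, k2⟩ | ⟨k1, k2⟩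
  · exact Prod.ext k1 k2
  · exfalso
    rw [k1, k2] at i1
    omega

theorem prs_mem {l : List ℕ} {e : ℕ × ℕ} (he : e ∈ prs l) : e.1 ∈ l ∧ e.2 ∈ l := by
  unfold prs at he
  exact ⟨(List.of_mem_zip he).1, List.mem_of_mem_tail (List.of_mem_zip he).2⟩

theorem prs_fst_nodup : ∀ {l : List ℕ}, l.Nodup → ((prs l).map Prod.fst).Nodup
  | [], _ => by simp [prs]
  | [a], _ => by simp [prs]
  | a :: b :: l, h => by
    rw [prs_cons_cons, List.map_cons, List.nodup_cons]
    rw [List.nodup_cons] at h
    refine ⟨fun hm => ?_, prs_fst_nodup h.2⟩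
    obtain ⟨e, he, e1⟩ := List.mem_map.mp hm
    exact h.1 (by
      have := (prs_mem he).1
      rw [e1] at this
      exact this)

theorem prs_snd (l : List ℕ) : (prs l).map Prod.snd = l.tail := by
  unfold prs
  exact List.map_snd_zip (by simp)

theorem map_fst_rep2 (p : List ℕ) (L : List (ℕ × ℕ)) :
    ((L.flatMap (rep2 n p)).map Prod.fst).Perm
      (L.map Prod.fst ++ (used p L).map (fun m => n + m)) := by
  induction L with
  | nil => simp [used]
  | cons e L ih =>
    rw [List.flatMap_cons, List.map_append, List.map_cons]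
    unfold rep2 used
    by_cases h : inP p e = true
    · rw [if_pos h, List.filter_cons_of_pos h]
      simp only [List.map_cons, List.map_nil, List.cons_append, List.nil_append]
      refine List.Perm.cons _ ?_
      refine (List.Perm.cons _ ih).trans ?_
      exact (List.perm_middle).symm
    · rw [if_neg h, List.filter_cons_of_neg (by simpa using h)]
      simp only [List.map_cons, List.map_nil, List.cons_append, List.nil_append]
      exact List.Perm.cons _ ih

theorem map_snd_rep2 (p : List ℕ) (L : List (ℕ × ℕ)) :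
    ((L.flatMap (rep2 n p)).map Prod.snd).Perm
      (L.map Prod.snd ++ (used p L).map (fun m => n + m)) := by
  induction L with
  | nil => simp [used]
  | cons e L ih =>
    rw [List.flatMap_cons, List.map_append, List.map_cons]
    unfold rep2 used
    by_cases h : inP p e = true
    · rw [if_pos h, List.filter_cons_of_pos h]
      simp only [List.map_cons, List.map_nil, List.cons_append, List.nil_append]
      refine (List.Perm.swap _ _ _).trans (List.Perm.cons _ ?_)
      refine (List.Perm.cons _ ih).trans ?_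
      exact (List.perm_middle).symm
    · rw [if_neg h, List.filter_cons_of_neg (by simpa using h)]
      simp only [List.map_cons, List.map_nil, List.cons_append, List.nil_append]
      exact List.Perm.cons _ ih

theorem sum_rep2 {B : ℕ} (L : List (ℕ × ℕ)) (hL : ∀ e ∈ L, e.1 < n ∧ e.2 < n ∧ e.1 ≠ e.2) :
    ((L.flatMap (rep2 n p1)).map (fun f => hw n B w p1 f.1 f.2)).sum =
      2 * (L.map (fun e => w e.1 e.2)).sum + 2 * B * (used p1 L).length := by
  induction L with
  | nil => simp [used]
  | cons e L ih =>
    have h0 := hL e List.mem_cons_self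
    rw [List.flatMap_cons, List.map_append, List.sum_append,
      ih (fun e he => hL e (List.mem_cons_of_mem _ he)), hw_rep2 h0.1 h0.2.1 h0.2.2]
    unfold used
    by_cases h : inP p1 e = true
    · rw [if_pos h, List.filter_cons_of_pos h]
      simp only [List.map_cons, List.sum_cons, List.length_cons]
      ring
    · rw [if_neg h, List.filter_cons_of_neg (by simpa using h)]
      simp only [List.map_cons, List.sum_cons]
      ring

theorem hw_loop (B : ℕ) (m : ℕ) : hw n B w p1 (n + m) (n + m) = 2 * B := by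
  unfold hw
  rw [if_neg (by omega), if_neg (by omega), if_pos rfl]

/-- **Row G1.** Every order of (some of the) nodes is below the optimal second assignment. -/
theorem g1 (hC : ∀ i j, w i j ≤ C) (p1 : List ℕ) (l : List ℕ) (hl : l.Nodup)
    (hln : ∀ x ∈ l, x < n) :
    2 * pw w l + 2 * bonus n C * n ≤
      ∑ i ∈ Finset.range (n + n), hw n (bonus n C) w p1 i (nx (asg2 n C w p1) i) := by
  set B := bonus n C with hB
  set U : List ℕ := used p1 (prs l) with hU
  set E2 : List ℕ := (List.range n).filter (fun m => !(U.contains m)) with hE2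
  set E : List (ℕ × ℕ) := (prs l).flatMap (rep2 n p1) ++ E2.map (fun m => (n + m, n + m)) with hE
  have hUnd : U.Nodup := by
    rw [hU]
    unfold used
    apply List.Nodup.map_on
    · intro e he f hf h
      rw [List.mem_filter] at he hf
      exact prs_hx_inj hl he.1 hf.1 he.2 hf.2 h
    · exact (List.Nodup.of_map _ (prs_fst_nodup hl)).filter _
  have hUlt : ∀ m ∈ U, m < n := by
    intro m hm
    rw [hU] at hm
    unfold used at hm
    obtain ⟨e, he, rfl⟩ := List.mem_map.mp hm
    rw [List.mem_filter] at he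
    exact lt_of_le_of_lt (min_le_left _ _) (hln _ (prs_mem he.1).1)
  have hE2nd : E2.Nodup := List.nodup_range.filter _
  have hE2mem : ∀ m, m ∈ E2 ↔ m < n ∧ m ∉ U := by
    intro m
    rw [hE2, List.mem_filter, List.mem_range]
    simp
  have hlen : U.length + E2.length = n := by
    have h1 : (U ++ E2).Perm (List.range n) := by
      rw [List.perm_ext_iff_of_nodup _ List.nodup_range]
      · intro m
        rw [List.mem_append, hE2mem, List.mem_range]
        constructor
        · rintro (h | h)
          · exact hUlt m h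
          · exact h.1
        · intro h
          by_cases hm : m ∈ U
          · exact Or.inl hm
          · exact Or.inr ⟨h, hm⟩
      · rw [List.nodup_append]
        refine ⟨hUnd, hE2nd, ?_⟩
        intro a ha b hb hab
        rw [hE2mem] at hb
        rw [hab] at ha
        exact hb.2 ha
    have := h1.length_eq
    rw [List.length_append, List.length_range] at this
    exact this
  have hprs : ∀ e ∈ prs l, e.1 < n ∧ e.2 < n ∧ e.1 ≠ e.2 := fun e he =>
    ⟨hln _ (prs_mem he).1, hln _ (prs_mem he).2, prs_ne hl he⟩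
  have hsum : (E.map (fun f => hw n B w p1 f.1 f.2)).sum = 2 * pw w l + 2 * B * n := by
    rw [hE, List.map_append, List.sum_append, sum_rep2 _ hprs, List.map_map]
    have : (E2.map ((fun f : ℕ × ℕ => hw n B w p1 f.1 f.2) ∘ fun m => (n + m, n + m))).sum =
        2 * B * E2.length := by
      have h1 : ∀ m ∈ E2, ((fun f : ℕ × ℕ => hw n B w p1 f.1 f.2) ∘ fun m => (n + m, n + m)) m
          = 2 * B := fun m _ => hw_loop B m
      rw [List.map_congr_left h1, List.map_const', List.sum_replicate, smul_eq_mul]
      ring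
    rw [this, ← hU]
    unfold pw
    rw [← hlen]
    ring
  have hnod : ∀ X : List ℕ, X.Nodup → (∀ x ∈ X, x < n) →
      (X ++ U.map (fun m => n + m) ++ E2.map (fun m => n + m)).Nodup := by
    intro X hX hXn
    rw [List.append_assoc, List.nodup_append]
    refine ⟨hX, ?_, ?_⟩
    · rw [← List.map_append]
      apply List.Nodup.map (fun a b h => by simpa using h)
      rw [List.nodup_append]
      refine ⟨hUnd, hE2nd, ?_⟩
      intro a ha b hb hab
      rw [hE2mem] at hb
      rw [hab] at ha
      exact hb.2 ha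
    · intro a ha b hb hab
      rw [← List.map_append, List.mem_map] at hb
      obtain ⟨m, -, rfl⟩ := hb
      have := hXn a ha
      omega
  have hfst : (E.map Prod.fst).Nodup := by
    rw [hE, List.map_append, List.map_map]
    have hp : ((((prs l).flatMap (rep2 n p1)).map Prod.fst) ++
        E2.map (Prod.fst ∘ fun m => (n + m, n + m))).Perm
        ((prs l).map Prod.fst ++ U.map (fun m => n + m) ++ E2.map (fun m => n + m)) := by
      refine List.Perm.append (map_fst_rep2 p1 (prs l)) ?_
      exact List.Perm.refl _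
    rw [hp.nodup_iff]
    refine hnod _ (prs_fst_nodup hl) ?_
    intro x hx
    obtain ⟨e, he, rfl⟩ := List.mem_map.mp hx
    exact (hprs e he).1
  have hsnd : (E.map Prod.snd).Nodup := by
    rw [hE, List.map_append, List.map_map]
    have hp : ((((prs l).flatMap (rep2 n p1)).map Prod.snd) ++
        E2.map (Prod.snd ∘ fun m => (n + m, n + m))).Perm
        ((prs l).map Prod.snd ++ U.map (fun m => n + m) ++ E2.map (fun m => n + m)) := by
      refine List.Perm.append (map_snd_rep2 p1 (prs l)) ?_
      exact List.Perm.refl _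
    rw [hp.nodup_iff]
    refine hnod _ ?_ ?_
    · rw [prs_snd]
      exact hl.tail
    · intro x hx
      obtain ⟨e, he, rfl⟩ := List.mem_map.mp hx
      exact (hprs e he).2.1
  have hEN : ∀ e ∈ E, e.1 < n + n ∧ e.2 < n + n := by
    intro e he
    rw [hE, List.mem_append] at he
    rcases he with he | he
    · obtain ⟨f, hf, hef⟩ := List.mem_flatMap.mp he
      have h3 := hprs f hf
      have h4 : hx f < n := lt_of_le_of_lt (min_le_left _ _) h3.1
      unfold rep2 at hef
      split_ifs at hef
      · simp only [List.mem_cons, List.not_mem_nil, or_false] at hef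
        rcases hef with rfl | rfl
        · exact ⟨by simp only; omega, by simp only; omega⟩
        · exact ⟨by simp only; omega, by simp only; omega⟩
      · simp only [List.mem_cons, List.not_mem_nil, or_false] at hef
        rw [hef]
        exact ⟨by omega, by omega⟩
    · obtain ⟨m, hm, rfl⟩ := List.mem_map.mp he
      rw [hE2mem] at hm
      exact ⟨by simp only; omega, by simp only; omega⟩
  rw [← hsum]
  have := partial_le (N := n + n) (C := 2 * bonus n C + 2 * C) (W := hw n (bonus n C) w p1)
    (fun i j => hw_le hC _ _ _ _) E hfst hsnd hEN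
  exact this

end Vale.Agent.P333.T
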