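import Vale.Agent.P333.T.HubOf
import Vale.Agent.P333.T.V2

/-! P333, box 2/3: the value of the second assignment. -/

namespace Vale.Agent.P333.T

open Vale.Agent.P333 Vale.Agent.P333.M

variable {n C : ℕ} {w : ℕ → ℕ → ℕ} {p1 p2 : List ℕ}

theorem hubOf_iff {p : List ℕ} {h x : ℕ} : hubOf p h x = true ↔
    nx p h ≠ h ∧ nx p (nx p h) = h ∧ h < nx p h ∧ (x = h ∨ x = nx p h) := by
  unfold hubOf isPair
  simp only [Bool.and_eq_true, Bool.or_eq_true, Bool.not_eq_true', beq_iff_eq, beq_eq_false_iff_ne,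
    Nat.blt_eq, and_assoc]

/-- facts about a node of the pair with smaller node `h` -/
theorem hubOf_facts {p : List ℕ} {h x : ℕ} (hh : hubOf p h x = true) :
    isPair p x = true ∧ min x (nx p x) = h ∧ (nx p x = h ∨ nx p x = nx p h) := by
  rw [hubOf_iff] at hh
  obtain ⟨a, b, c, d⟩ := hh
  rcases d with rfl | rfl
  · exact ⟨isPair_iff.mpr ⟨a, b⟩, min_eq_left c.le, Or.inr rfl⟩
  · refine ⟨isPair_iff.mpr ⟨by rw [b]; exact a.symm, by rw [b]⟩, ?_, Or.inl b⟩
    rw [b]
    exact min_eq_right c.le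

/-- two nodes of the same pair -/
theorem hubOf_two {p : List ℕ} {h x y : ℕ} (hx : hubOf p h x = true) (hy : hubOf p h y = true) :
    y = x ∨ y = nx p x := by
  rw [hubOf_iff] at hx hy
  obtain ⟨a, b, c, d⟩ := hx
  obtain ⟨-, -, -, d'⟩ := hy
  rcases d with rfl | rfl <;> rcases d' with rfl | rfl
  · exact Or.inl rfl
  · exact Or.inr rfl
  · exact Or.inr b.symm
  · exact Or.inl rfl

theorem Hub.at_hub (H : Hub n p1 p2) {x : ℕ} (hx : x < n) (hn : n ≤ nx p2 x) :
    nx p2 x = hub n p1 x ∧ isPair p1 x = true ∧ nx p2 (nx p2 x) < n ∧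
      hubOf p1 (nx p2 x - n) (nx p2 (nx p2 x)) = true ∧
      (nx p2 (nx p2 x) = x ∨ nx p2 (nx p2 x) = nx p1 x) := by
  have h1 := H.inn x hx hn
  have hlt := nx_lt H.h2 (x := x) (by omega)
  obtain ⟨f1, f2, -⟩ := hubOf_facts h1
  have e : n + (nx p2 x - n) = nx p2 x := by omega
  have h2 := H.out (nx p2 x - n) (by omega)
  rw [e] at h2
  rcases h2 with h2 | h2
  · exfalso
    have := nx_inj H.h2 (x := nx p2 x) (y := x) (by omega) (by omega) h2
    omega
  · refine ⟨?_, f1, h2.1, h2.2, hubOf_two h1 h2.2⟩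
    unfold hub
    rw [f2]
    exact e.symm

theorem Hub.v2_hub (H : Hub n p1 p2) {x : ℕ} (hx : x < n) (hn : n ≤ nx p2 x) (B : ℕ) :
    hw n B w p1 x (nx p2 x) + hw n B w p1 (nx p2 x) (nx p2 (nx p2 x)) =
      2 * B + v2 n w p1 p2 x := by
  obtain ⟨a1, a2, a3, a4, a5⟩ := H.at_hub hx hn
  have h1 := H.inn x hx hn
  have v1 : hw n B w p1 x (nx p2 x) = B + w x (nx p1 x) := by
    unfold hw
    rw [if_pos hx, if_neg (by omega), if_pos h1]
  have v3 : hw n B w p1 (nx p2 x) (nx p2 (nx p2 x)) =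
      B + w (nx p1 (nx p2 (nx p2 x))) (nx p2 (nx p2 x)) := by
    unfold hw
    rw [if_neg (by omega), if_pos a3, if_pos a4]
  have hp := isPair_iff.mp a2
  rw [v1, v3]
  rcases a5 with a5 | a5
  · have hE : isE n p1 p2 x = false := by
      unfold isE
      rw [← a1, a5]
      have : (x == nx p1 x) = false := by
        simpa using fun h => hp.1 h.symm
      rw [this, Bool.and_false]
    have hU : isU n p1 p2 x = true := by
      unfold isU
      rw [← a1, a5, a2]
      simp
    unfold v2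
    rw [if_neg (by rw [hE]; simp), if_pos hU, a5]
    omega
  · have hE : isE n p1 p2 x = true := by
      unfold isE
      rw [← a1, a5, a2]
      simp
    unfold v2
    rw [if_pos hE, a5, hp.2]
    omega

theorem v2_ord {x : ℕ} (hx : x < n) (hn : nx p2 x < n) (B : ℕ) :
    hw n B w p1 x (nx p2 x) = v2 n w p1 p2 x := by
  have hne : nx p2 x ≠ hub n p1 x := by
    unfold hub
    omega
  have hE : isE n p1 p2 x = false := by
    unfold isE
    have : (nx p2 x == hub n p1 x) = false := by simpa using hne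
    rw [this, Bool.and_false, Bool.false_and]
  have hU : isU n p1 p2 x = false := by
    unfold isU
    have : (nx p2 x == hub n p1 x) = false := by simpa using hne
    rw [this, Bool.and_false, Bool.false_and]
  unfold v2 hw
  rw [if_pos hx, if_pos hn, hE, hU]
  cases hnear : near p1 x (nx p2 x)
  · simp [hn]
  · simp

/-- The value of the second assignment is the bonus plus the sum of the `v2`. -/
theorem Hub.value (H : Hub n p1 p2) (w : ℕ → ℕ → ℕ) (B : ℕ) :
    ∑ i ∈ Finset.range (n + n), hw n B w p1 i (nx p2 i) =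
      2 * B * n + ∑ x ∈ Finset.range n, v2 n w p1 p2 x := by
  set F : ℕ → ℕ := fun i => hw n B w p1 i (nx p2 i) with hF
  have hsplit : ∑ i ∈ Finset.range (n + n), F i =
      ∑ x ∈ Finset.range n, F x + ∑ i ∈ Finset.Ico n (n + n), F i := by
    rw [Finset.sum_range_add_sum_Ico _ (by omega)]
  set X := (Finset.range n).filter (fun x => n ≤ nx p2 x) with hX
  set Y := (Finset.Ico n (n + n)).filter (fun i => ¬ nx p2 i = i) with hY
  have hXsum : ∑ x ∈ Finset.range n, F x = ∑ x ∈ X, F x +
      ∑ x ∈ (Finset.range n).filter (fun x => ¬ n ≤ nx p2 x), v2 n w p1 p2 x := by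
    rw [← Finset.sum_filter_add_sum_filter_not (Finset.range n) (fun x => n ≤ nx p2 x)]
    congr 1
    apply Finset.sum_congr rfl
    intro x hx
    rw [Finset.mem_filter, Finset.mem_range] at hx
    exact v2_ord hx.1 (by omega) B
  have hYsum : ∑ i ∈ Finset.Ico n (n + n), F i =
      ∑ i ∈ (Finset.Ico n (n + n)).filter (fun i => nx p2 i = i), 2 * B + ∑ i ∈ Y, F i := by
    rw [← Finset.sum_filter_add_sum_filter_not (Finset.Ico n (n + n)) (fun i => nx p2 i = i)]
    congr 1
    apply Finset.sum_congr rfl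
    intro i hi
    rw [Finset.mem_filter, Finset.mem_Ico] at hi
    simp only [hF]
    rw [hi.2]
    unfold hw
    rw [if_neg (by omega), if_neg (by omega), if_pos rfl]
  have hmaps : ∀ x ∈ X, nx p2 x ∈ Y := by
    intro x hx
    rw [hX, Finset.mem_filter, Finset.mem_range] at hx
    rw [hY, Finset.mem_filter, Finset.mem_Ico]
    refine ⟨⟨hx.2, nx_lt H.h2 (by omega)⟩, fun h => ?_⟩
    have := (H.at_hub hx.1 hx.2).2.2.1
    rw [h] at this
    omega
  have hinj : ∀ x ∈ X, ∀ y ∈ X, nx p2 x = nx p2 y → x = y := by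
    intro x hx y hy h
    rw [hX, Finset.mem_filter, Finset.mem_range] at hx hy
    exact nx_inj H.h2 (by omega) (by omega) h
  have hsurj : ∀ i ∈ Y, ∃ x ∈ X, nx p2 x = i := by
    intro i hi
    rw [hY, Finset.mem_filter, Finset.mem_Ico] at hi
    have hmem : i ∈ p2 := H.h2.symm.subset (List.mem_range.mpr hi.1.2)
    obtain ⟨j, hj, hji⟩ := List.mem_iff_getElem.mp hmem
    have hlen : p2.length = n + n := by simpa using H.h2.length_eq
    have hnx : nx p2 j = i := by
      unfold nx
      rw [List.getD_eq_getElem _ _ hj, hji]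
    rcases Nat.lt_or_ge j n with h | h
    · refine ⟨j, ?_, hnx⟩
      rw [hX, Finset.mem_filter, Finset.mem_range]
      exact ⟨h, by rw [hnx]; exact hi.1.1⟩
    · exfalso
      have h3 := H.out (j - n) (by omega)
      have e : n + (j - n) = j := by omega
      rw [e, hnx] at h3
      rcases h3 with h3 | h3
      · exact hi.2 (by rw [h3, hnx, h3])
      · omega
  have hre : ∑ i ∈ Y, F i = ∑ x ∈ X, F (nx p2 x) := by
    symm
    apply Finset.sum_bij (fun x _ => nx p2 x) hmaps (fun x hx y hy h => hinj x hx y hy h)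
    · intro i hi
      obtain ⟨x, hx, h⟩ := hsurj i hi
      exact ⟨x, hx, h⟩
    · intro x _
      rfl
  have hcard : X.card = Y.card := by
    apply Finset.card_bij (fun x _ => nx p2 x) hmaps (fun x hx y hy h => hinj x hx y hy h)
    intro i hi
    obtain ⟨x, hx, h⟩ := hsurj i hi
    exact ⟨x, hx, h⟩
  have hn : ((Finset.Ico n (n + n)).filter (fun i => nx p2 i = i)).card + Y.card = n := by
    rw [hY, Finset.card_filter_add_card_filter_not]
    simp
  have hpair : ∑ x ∈ X, F x + ∑ x ∈ X, F (nx p2 x) = 2 * B * X.card + ∑ x ∈ X, v2 n w p1 p2 x := by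
    rw [← Finset.sum_add_distrib]
    have : ∀ x ∈ X, F x + F (nx p2 x) = 2 * B + v2 n w p1 p2 x := by
      intro x hx
      rw [hX, Finset.mem_filter, Finset.mem_range] at hx
      exact H.v2_hub hx.1 hx.2 B
    rw [Finset.sum_congr rfl this, Finset.sum_add_distrib, Finset.sum_const, smul_eq_mul]
    ring
  have hv : ∑ x ∈ Finset.range n, v2 n w p1 p2 x = ∑ x ∈ X, v2 n w p1 p2 x +
      ∑ x ∈ (Finset.range n).filter (fun x => ¬ n ≤ nx p2 x), v2 n w p1 p2 x :=
    (Finset.sum_filter_add_sum_filter_not (Finset.range n) (fun x => n ≤ nx p2 x) _).symm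
  rw [hsplit, hXsum, hYsum, hre, hv, Finset.sum_const, smul_eq_mul]
  set c := ((Finset.Ico n (n + n)).filter (fun i => nx p2 i = i)).card with hc
  set R := ∑ x ∈ (Finset.range n).filter (fun x => ¬ n ≤ nx p2 x), v2 n w p1 p2 x with hR
  have e2 : 2 * B * n = c * (2 * B) + 2 * B * X.card := by
    rw [hcard, ← hn]
    ring
  rw [e2]
  omega

/-- **Row G1, final form**: every order is below half of the sum of the `v2`. -/
theorem g1_v2 (hC : ∀ i j, w i j ≤ C) (h1 : p1.Perm (List.range n)) (l : List ℕ) (hl : l.Nodup)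
    (hln : ∀ x ∈ l, x < n) :
    2 * pw w l ≤ ∑ x ∈ Finset.range n, v2 n w p1 (asg2 n C w p1) x := by
  have h := g1 hC p1 l hl hln
  rw [(hub_of hC h1).value] at h
  omega

end Vale.Agent.P333.T
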