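import Vale.Agent.P333.T.G1
import Vale.Agent.P333.T.FinOpt

/-! P333, box 2/3: the first assignment, and the structure of the second one at the hubs. -/

namespace Vale.Agent.P333.T

open Vale.Agent.P333 Vale.Agent.P333.M

variable {n C : ℕ} {w : ℕ → ℕ → ℕ} {p1 : List ℕ}

/-- Every order of (some of the) nodes is below the optimal first assignment. -/
theorem o1 (hC : ∀ i j, w i j ≤ C) (l : List ℕ) (hl : l.Nodup) (hln : ∀ x ∈ l, x < n) :
    pw w l ≤ ∑ i ∈ Finset.range n, wt1 w i (nx (Auction.assign n C (wt1 w)) i) := by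
  have hW : ∀ i j, wt1 w i j ≤ C := by
    intro i j
    unfold wt1
    split_ifs
    · exact Nat.zero_le _
    · exact hC i j
  have h := partial_le (N := n) hW (prs l) (prs_fst_nodup hl) (by rw [prs_snd]; exact hl.tail)
    (fun e he => ⟨hln _ (prs_mem he).1, hln _ (prs_mem he).2⟩)
  refine le_trans (le_of_eq ?_) h
  unfold pw
  congr 1
  apply List.map_congr_left
  intro e he
  unfold wt1
  rw [if_neg (prs_ne hl he)]

/-- The second assignment at the hubs: every hub is matched with itself or, on both sides, with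
nodes of its pair. -/
structure Hub (n : ℕ) (p1 p2 : List ℕ) : Prop where
  h1 : p1.Perm (List.range n)
  h2 : p2.Perm (List.range (n + n))
  out : ∀ h < n, nx p2 (n + h) = n + h ∨
    (nx p2 (n + h) < n ∧ hubOf p1 h (nx p2 (n + h)) = true)
  inn : ∀ x < n, n ≤ nx p2 x → hubOf p1 (nx p2 x - n) x = true

/-- bonus of the row end -/
def rB (n : ℕ) (p : List ℕ) (x y : ℕ) : ℕ :=
  if x < n then 0 else if y < n then (if hubOf p (x - n) y then 1 else 0)
    else if x = y then 1 else 0

/-- bonus of the column end -/
def cB (n : ℕ) (p : List ℕ) (x y : ℕ) : ℕ :=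
  if y < n then 0 else if x < n then (if hubOf p (y - n) x then 1 else 0)
    else if x = y then 1 else 0

theorem hw_le_bonus (hC : ∀ i j, w i j ≤ C) (B : ℕ) (p : List ℕ) (x y : ℕ) :
    hw n B w p x y ≤ B * (rB n p x y + cB n p x y) + 2 * C := by
  unfold hw rB cB
  have h1 := hC x y
  have h2 := hC x (nx p x)
  have h3 := hC (nx p y) y
  split_ifs <;> (try simp only [Nat.mul_zero, Nat.mul_one, Nat.zero_add, Nat.add_zero]) <;>
    omega

/-- The number of rows whose entry lies in a hub column is at most `n`. -/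
theorem card_hub_cols {p : List ℕ} (hp : p.Perm (List.range (n + n))) :
    ((Finset.range (n + n)).filter (fun i => n ≤ nx p i)).card ≤ n := by
  have h := Finset.card_le_card_of_injOn (s := (Finset.range (n + n)).filter (fun i => n ≤ nx p i))
    (t := Finset.Ico n (n + n)) (fun i => nx p i)
    (by
      intro i hi
      have hi' := Finset.mem_filter.mp (Finset.mem_coe.mp hi)
      rw [Finset.mem_range] at hi'
      simp only [Finset.coe_Ico, Set.mem_Ico]
      exact ⟨hi'.2, nx_lt hp hi'.1⟩)
    (by
      intro i hi j hj h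
      have hi' := Finset.mem_filter.mp (Finset.mem_coe.mp hi)
      have hj' := Finset.mem_filter.mp (Finset.mem_coe.mp hj)
      rw [Finset.mem_range] at hi' hj'
      exact nx_inj hp hi'.1 hj'.1 h)
  simpa using h

theorem hub_of (hC : ∀ i j, w i j ≤ C) (h1 : p1.Perm (List.range n)) :
    Hub n p1 (asg2 n C w p1) := by
  set p2 := asg2 n C w p1 with hp2
  have hperm : p2.Perm (List.range (n + n)) :=
    Auction.assign_perm (fun i j => hw_le hC _ _ _ _)
  have hval := g1 (n := n) hC p1 ([] : List ℕ) List.nodup_nil (by simp)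
  rw [← hp2] at hval
  set B := bonus n C with hB
  have hpw : pw w ([] : List ℕ) = 0 := rfl
  rw [hpw, Nat.mul_zero, Nat.zero_add] at hval
  have hR : ∀ i ∈ Finset.range (n + n), rB n p1 i (nx p2 i) ≤ if n ≤ i then 1 else 0 := by
    intro i _
    unfold rB
    split_ifs <;> omega
  have hS : ∀ i ∈ Finset.range (n + n), cB n p1 i (nx p2 i) ≤ if n ≤ nx p2 i then 1 else 0 := by
    intro i _
    unfold cB
    split_ifs <;> omega
  have cR : ∑ i ∈ Finset.range (n + n), (if n ≤ i then 1 else 0) = n := by
    rw [Finset.sum_ite, Finset.sum_const_zero, Finset.sum_const, smul_eq_mul, mul_one, add_zero]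
    have : (Finset.range (n + n)).filter (fun i => n ≤ i) = Finset.Ico n (n + n) := by
      ext i
      simp only [Finset.mem_filter, Finset.mem_range, Finset.mem_Ico]
      omega
    rw [this]
    simp
  have cS : ∑ i ∈ Finset.range (n + n), (if n ≤ nx p2 i then 1 else 0) ≤ n := by
    rw [Finset.sum_ite, Finset.sum_const_zero, Finset.sum_const, smul_eq_mul, mul_one, add_zero]
    exact card_hub_cols hperm
  have hup : ∑ i ∈ Finset.range (n + n), hw n B w p1 i (nx p2 i) ≤
      B * (∑ i ∈ Finset.range (n + n), rB n p1 i (nx p2 i) +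
        ∑ i ∈ Finset.range (n + n), cB n p1 i (nx p2 i)) + (n + n) * (2 * C) := by
    rw [← Finset.sum_add_distrib, Finset.mul_sum]
    calc _ ≤ ∑ i ∈ Finset.range (n + n), (B * (rB n p1 i (nx p2 i) + cB n p1 i (nx p2 i)) +
          2 * C) := Finset.sum_le_sum (fun i _ => hw_le_bonus hC B p1 i (nx p2 i))
      _ = _ := by
          rw [Finset.sum_add_distrib, Finset.sum_const, Finset.card_range, smul_eq_mul]
  have sR := Finset.sum_le_sum hR
  have sS := Finset.sum_le_sum hS
  rw [cR] at sR
  set SR := ∑ i ∈ Finset.range (n + n), rB n p1 i (nx p2 i) with hSR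
  set SC := ∑ i ∈ Finset.range (n + n), cB n p1 i (nx p2 i) with hSC
  have htot : 2 * n ≤ SR + SC := by
    by_contra hcon
    have h3 : B * (SR + SC) ≤ B * (2 * n - 1) := Nat.mul_le_mul_left _ (by omega)
    have h4 : 1 ≤ 2 * n := by omega
    have h5 : B * (2 * n - 1) + B = 2 * B * n := by
      rw [Nat.mul_sub, Nat.mul_one]
      have : B ≤ B * (2 * n) := Nat.le_mul_of_pos_right _ h4
      rw [Nat.sub_add_cancel this]
      ring
    have h6 : (n + n) * (2 * C) < B := by
      rw [hB]
      unfold bonus
      have : (n + n) * (2 * C) = 4 * C * n := by ring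
      omega
    omega
  have hSn : SC ≤ n := sS.trans cS
  have eR : SR = n := by omega
  have eC : SC = n := by omega
  have eqR : ∀ i ∈ Finset.range (n + n), rB n p1 i (nx p2 i) = if n ≤ i then 1 else 0 :=
    (Finset.sum_eq_sum_iff_of_le hR).mp (by rw [cR, ← hSR, eR])
  have eqS : ∀ i ∈ Finset.range (n + n), cB n p1 i (nx p2 i) = if n ≤ nx p2 i then 1 else 0 :=
    (Finset.sum_eq_sum_iff_of_le hS).mp (by omega)
  refine ⟨h1, hperm, ?_, ?_⟩
  · intro h hh
    have := eqR (n + h) (Finset.mem_range.mpr (by omega))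
    rw [if_pos (by omega)] at this
    unfold rB at this
    rw [if_neg (by omega), Nat.add_sub_cancel_left] at this
    split_ifs at this with a b c
    · exact Or.inr ⟨a, b⟩
    · exact Or.inl c.symm
  · intro x hx hnx
    have := eqS x (Finset.mem_range.mpr (by omega))
    rw [if_pos hnx] at this
    unfold cB at this
    rw [if_neg (by omega), if_pos hx] at this
    split_ifs at this with a
    exact a

end Vale.Agent.P333.T
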