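import Mathlib

/-! A breadth first order list: the roots, then the vertices that have a neighbour in the list. -/

namespace Vale.Agent.P333.T.Lv

/-- One round: add all vertices below `n` that have a neighbour in `l`. -/
def grow (n : Nat) (adj : Nat → Nat → Bool) (l : List Nat) : List Nat :=
  l ++ (List.range n).filter (fun x => !(l.contains x) && l.any (fun y => adj x y))

/-- The order list: `n` rounds, starting with the roots. -/
def reach (n : Nat) (adj : Nat → Nat → Bool) (R : List Nat) : List Nat :=
  (List.range n).foldl (fun l _ => grow n adj l) R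

namespace Lev

variable {n : Nat} {adj : Nat → Nat → Bool}

theorem mem_new {l : List Nat} {x : Nat} :
    x ∈ (List.range n).filter (fun x => !(l.contains x) && l.any (fun y => adj x y)) ↔
      x < n ∧ x ∉ l ∧ ∃ y ∈ l, adj x y = true := by
  simp only [List.mem_filter, List.mem_range, Bool.and_eq_true, Bool.not_eq_true',
    List.contains_eq_mem, decide_eq_false_iff_not, List.any_eq_true]

theorem mem_grow {l : List Nat} {x : Nat} :
    x ∈ grow n adj l ↔ x ∈ l ∨ (x < n ∧ x ∉ l ∧ ∃ y ∈ l, adj x y = true) := by
  unfold grow
  rw [List.mem_append, mem_new]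

theorem grow_nodup {l : List Nat} (h : l.Nodup) : (grow n adj l).Nodup := by
  unfold grow
  rw [List.nodup_append]
  refine ⟨h, (List.nodup_range).filter _, ?_⟩
  intro a ha b hb hab
  subst hab
  exact (mem_new.1 hb).2.1 ha

theorem prefix_grow (l : List Nat) : l <+: grow n adj l := List.prefix_append _ _

/-- The iterated list. -/
def it (n : Nat) (adj : Nat → Nat → Bool) (R : List Nat) (k : Nat) : List Nat :=
  (List.range k).foldl (fun l _ => grow n adj l) R

theorem it_zero (R : List Nat) : it n adj R 0 = R := by simp [it]

theorem it_succ (R : List Nat) (k : Nat) : it n adj R (k + 1) = grow n adj (it n adj R k) := by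
  simp [it, List.range_succ, List.foldl_append]

theorem reach_eq (R : List Nat) : reach n adj R = it n adj R n := rfl

theorem it_nodup {R : List Nat} (h : R.Nodup) (k : Nat) : (it n adj R k).Nodup := by
  induction k with
  | zero => rw [it_zero]; exact h
  | succ k ih => rw [it_succ]; exact grow_nodup ih

theorem it_lt {R : List Nat} (h : ∀ x ∈ R, x < n) (k : Nat) : ∀ x ∈ it n adj R k, x < n := by
  induction k with
  | zero => rw [it_zero]; exact h
  | succ k ih =>
    rw [it_succ]
    intro x hx
    rcases mem_grow.1 hx with h1 | h1
    · exact ih x h1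
    · exact h1.1

theorem it_prefix {R : List Nat} (k : Nat) : R <+: it n adj R k := by
  induction k with
  | zero => rw [it_zero]
  | succ k ih => rw [it_succ]; exact ih.trans (prefix_grow _)

/-- Every vertex of the list that is not a root has a neighbour before it. -/
def Ear (adj : Nat → Nat → Bool) (R l : List Nat) : Prop :=
  ∀ A x B, l = A ++ x :: B → x ∉ R → ∃ y ∈ A, adj x y = true

theorem ear_append {R l m : List Nat} (h : Ear adj R l)
    (hm : ∀ x ∈ m, ∃ y ∈ l, adj x y = true) : Ear adj R (l ++ m) := by
  intro A x B hAB hx
  rcases List.append_eq_append_iff.1 hAB with ⟨C, hC1, hC2⟩ | ⟨C, hC1, hC2⟩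
  · -- A = l ++ C, m = C ++ x :: B
    have hxm : x ∈ m := by rw [hC2]; simp
    obtain ⟨y, hy, hxy⟩ := hm x hxm
    exact ⟨y, by rw [hC1]; exact List.mem_append_left _ hy, hxy⟩
  · -- l = A ++ C, x :: B = C ++ m
    cases C with
    | nil =>
      simp only [List.nil_append] at hC2
      have hxm : x ∈ m := by rw [← hC2]; simp
      obtain ⟨y, hy, hxy⟩ := hm x hxm
      refine ⟨y, ?_, hxy⟩
      rw [hC1] at hy
      simpa using hy
    | cons c C =>
      simp only [List.cons_append, List.cons.injEq] at hC2
      obtain ⟨h1, h2⟩ := hC2
      subst h1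
      exact h A x C hC1 hx

theorem it_ear {R : List Nat} (k : Nat) : Ear adj R (it n adj R k) := by
  induction k with
  | zero =>
    rw [it_zero]
    intro A x B hAB hx
    exact absurd (by rw [hAB]; simp) hx
  | succ k ih =>
    rw [it_succ]
    exact ear_append ih fun x hx => (mem_new.1 hx).2.2

/-- Nothing left to add. -/
def Closed (n : Nat) (adj : Nat → Nat → Bool) (l : List Nat) : Prop :=
  ∀ x, x < n → x ∉ l → ∀ y ∈ l, adj x y = false

theorem closed_iff {l : List Nat} : Closed n adj l ↔ grow n adj l = l := by
  constructor
  · intro h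
    unfold grow
    have h0 : (List.range n).filter
        (fun x => !(l.contains x) && l.any (fun y => adj x y)) = [] := by
      rw [List.eq_nil_iff_forall_not_mem]
      intro x hx
      obtain ⟨h1, h2, y, hy, hxy⟩ := mem_new.1 hx
      rw [h x h1 h2 y hy] at hxy
      exact absurd hxy (by simp)
    rw [h0, List.append_nil]
  · intro h x hx hxl y hy
    by_contra hne
    have h1 : adj x y = true := by simpa using hne
    exact hxl (by rw [← h]; exact mem_grow.2 (Or.inr ⟨hx, hxl, y, hy, h1⟩))

theorem it_length {R : List Nat} (k : Nat) :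
    grow n adj (it n adj R k) = it n adj R k ∨ k < (it n adj R (k + 1)).length := by
  induction k with
  | zero =>
    by_cases h : grow n adj (it n adj R 0) = it n adj R 0
    · exact Or.inl h
    · right
      rw [it_succ]
      rcases Nat.eq_zero_or_pos (grow n adj (it n adj R 0)).length with h0 | h0
      · exfalso
        apply h
        have h1 := List.eq_nil_of_length_eq_zero h0
        have h2 : it n adj R 0 = [] := by
          have := prefix_grow (n := n) (adj := adj) (it n adj R 0)
          rw [h1] at this
          exact List.prefix_nil.1 this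
        rw [h1, h2]
      · exact h0
  | succ k ih =>
    by_cases h : grow n adj (it n adj R (k + 1)) = it n adj R (k + 1)
    · exact Or.inl h
    · right
      have h3 : ¬ grow n adj (it n adj R k) = it n adj R k := by
        intro h4
        apply h
        rw [it_succ, h4, h4]
      have h5 := ih.resolve_left h3
      have h6 : (it n adj R (k + 1)).length < (it n adj R (k + 1 + 1)).length := by
        rw [it_succ R (k + 1)]
        have h7 := prefix_grow (n := n) (adj := adj) (it n adj R (k + 1))
        rcases Nat.lt_or_ge (it n adj R (k + 1)).length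
          (grow n adj (it n adj R (k + 1))).length with h8 | h8
        · exact h8
        · exact absurd (h7.eq_of_length_le h8).symm h
      omega

theorem length_le {l : List Nat} (h1 : l.Nodup) (h2 : ∀ x ∈ l, x < n) : l.length ≤ n := by
  have h3 : l ⊆ List.range n := fun x hx => List.mem_range.2 (h2 x hx)
  have h4 := (List.subperm_of_subset h1 h3).length_le
  simpa using h4

theorem it_closed {R : List Nat} (hR : R.Nodup) (hlt : ∀ x ∈ R, x < n) :
    Closed n adj (it n adj R n) := by
  rw [closed_iff]
  rcases it_length (n := n) (adj := adj) (R := R) n with h | h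
  · exact h
  · have h1 := length_le (n := n) (it_nodup (n := n) (adj := adj) hR (n + 1))
      (it_lt (adj := adj) hlt (n + 1))
    omega

end Lev

theorem reach_nodup {n : Nat} {adj : Nat → Nat → Bool} {R : List Nat} (hR : R.Nodup) :
    (reach n adj R).Nodup := Lev.it_nodup hR n

theorem reach_lt {n : Nat} {adj : Nat → Nat → Bool} {R : List Nat} (hR : ∀ x ∈ R, x < n) :
    ∀ x ∈ reach n adj R, x < n := Lev.it_lt hR n

theorem reach_prefix {n : Nat} {adj : Nat → Nat → Bool} {R : List Nat} :
    R <+: reach n adj R := Lev.it_prefix n

theorem reach_roots {n : Nat} {adj : Nat → Nat → Bool} {R : List Nat} :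
    ∀ x ∈ R, x ∈ reach n adj R := fun _ hx => (Lev.it_prefix n).subset hx

theorem reach_earlier {n : Nat} {adj : Nat → Nat → Bool} {R A B : List Nat} {x : Nat}
    (h : reach n adj R = A ++ x :: B) (hx : x ∉ R) : ∃ y ∈ A, adj x y = true :=
  Lev.it_ear n A x B h hx

theorem reach_reverse_later {n : Nat} {adj : Nat → Nat → Bool} {R A B : List Nat} {x : Nat}
    (h : (reach n adj R).reverse = A ++ x :: B) (hx : x ∉ R) : ∃ y ∈ B, adj x y = true := by
  have h1 : reach n adj R = B.reverse ++ x :: A.reverse := by
    rw [← List.reverse_reverse (reach n adj R), h]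
    simp
  obtain ⟨y, hy, hxy⟩ := reach_earlier h1 hx
  exact ⟨y, List.mem_reverse.1 hy, hxy⟩

theorem reach_closed {n : Nat} {adj : Nat → Nat → Bool} {R : List Nat} (hR : R.Nodup)
    (hlt : ∀ x ∈ R, x < n) {x y : Nat} (hx : x < n) (hxr : x ∉ reach n adj R)
    (hy : y ∈ reach n adj R) : adj x y = false :=
  Lev.it_closed hR hlt x hx hxr y hy

/-- In the processing order `(reach n adj R).reverse` the vertices that are not roots come first. -/
theorem reach_split {n : Nat} {adj : Nat → Nat → Bool} {R : List Nat} :
    ∃ M, reach n adj R = R ++ M ∧ (reach n adj R).reverse = M.reverse ++ R.reverse := by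
  obtain ⟨M, hM⟩ := reach_prefix (n := n) (adj := adj) (R := R)
  exact ⟨M, hM.symm, by rw [← hM, List.reverse_append]⟩

end Vale.Agent.P333.T.Lv
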