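import Vale.Agent.P333.T.Prog23
import Vale.Agent.P333.T.FinOpt

/-! The levels of the program: `level` is the distance to the roots. -/

namespace Vale.Agent.P333.T.Lp

open Vale.Agent.P333.M (nx)

variable {n : ℕ} {p1 p2 : List ℕ}

/-- `y` is one of the four neighbours of `x` -/
def Nb (p1 p2 : List ℕ) (x y : ℕ) : Prop :=
  nx p1 x = y ∨ p1.idxOf x = y ∨ nx p2 x = y ∨ p2.idxOf x = y

theorem mem_growP {R : List ℕ} {x : ℕ} :
    x ∈ grow n p1 p2 R ↔ x < n ∧ (x ∈ R ∨ ∃ y ∈ R, Nb p1 p2 x y) := by
  unfold grow Nb
  rw [List.mem_filter, List.mem_range]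
  simp only [Bool.or_eq_true, List.contains_iff_mem]
  constructor
  · rintro ⟨h, h1⟩
    refine ⟨h, ?_⟩
    rcases h1 with (((h1 | h1) | h1) | h1) | h1
    · exact Or.inl h1
    · exact Or.inr ⟨_, h1, Or.inl rfl⟩
    · exact Or.inr ⟨_, h1, Or.inr (Or.inl rfl)⟩
    · exact Or.inr ⟨_, h1, Or.inr (Or.inr (Or.inl rfl))⟩
    · exact Or.inr ⟨_, h1, Or.inr (Or.inr (Or.inr rfl))⟩
  · rintro ⟨h, h1⟩
    refine ⟨h, ?_⟩
    rcases h1 with h1 | ⟨y, hy, h1⟩
    · exact Or.inl (Or.inl (Or.inl (Or.inl h1)))
    · rcases h1 with rfl | rfl | rfl | rfl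
      · exact Or.inl (Or.inl (Or.inl (Or.inr hy)))
      · exact Or.inl (Or.inl (Or.inr hy))
      · exact Or.inl (Or.inr hy)
      · exact Or.inr hy

theorem reachP_zero : reach n p1 p2 0 = (List.range n).filter (fun x => root p1 p2 x) := by
  simp [reach]

theorem reachP_succ (k : ℕ) : reach n p1 p2 (k + 1) = grow n p1 p2 (reach n p1 p2 k) := by
  simp [reach, List.range_succ, List.foldl_append]

theorem reachP_lt {k x : ℕ} (h : x ∈ reach n p1 p2 k) : x < n := by
  cases k with
  | zero =>
    rw [reachP_zero, List.mem_filter, List.mem_range] at h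
    exact h.1
  | succ k =>
    rw [reachP_succ] at h
    exact (mem_growP.1 h).1

theorem reachP_nodup (k : ℕ) : (reach n p1 p2 k).Nodup := by
  cases k with
  | zero =>
    rw [reachP_zero]
    exact (List.nodup_range).filter _
  | succ k =>
    rw [reachP_succ]
    exact (List.nodup_range).filter _

theorem reachP_mono_succ {k x : ℕ} (h : x ∈ reach n p1 p2 k) : x ∈ reach n p1 p2 (k + 1) := by
  rw [reachP_succ]
  exact mem_growP.2 ⟨reachP_lt h, Or.inl h⟩

theorem reachP_mono {j k x : ℕ} (hjk : j ≤ k) (h : x ∈ reach n p1 p2 j) :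
    x ∈ reach n p1 p2 k := by
  induction k, hjk using Nat.le_induction with
  | base => exact h
  | succ k _ ih => exact reachP_mono_succ ih

/-- `level x ≤ k` if and only if `x` is reached in `k` rounds -/
theorem level_le_iff {k x : ℕ} (hk : k ≤ n) :
    level n p1 p2 x ≤ k ↔ x ∈ reach n p1 p2 k := by
  constructor
  · intro h
    by_contra hx
    have h1 : (List.range (k + 1)).length ≤
        ((List.range (n + 1)).filter
          (fun k => !((reach n p1 p2 k).contains x))).length := by
      apply (List.subperm_of_subset List.nodup_range ?_).length_le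
      intro j hj
      rw [List.mem_range] at hj
      rw [List.mem_filter, List.mem_range]
      refine ⟨by omega, ?_⟩
      have h2 : x ∉ reach n p1 p2 j := fun h3 => hx (reachP_mono (by omega) h3)
      simpa using h2
    rw [List.length_range] at h1
    unfold level at h
    omega
  · intro h
    have h1 : ((List.range (n + 1)).filter
          (fun k => !((reach n p1 p2 k).contains x))).length ≤ (List.range k).length := by
      apply (List.subperm_of_subset ((List.nodup_range).filter _) ?_).length_le
      intro j hj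
      rw [List.mem_filter] at hj
      rw [List.mem_range]
      by_contra hjk
      have h2 : x ∈ reach n p1 p2 j := reachP_mono (by omega) h
      have h3 : x ∉ reach n p1 p2 j := by simpa using hj.2
      exact h3 h2
    rw [List.length_range] at h1
    exact h1

theorem level_le (x : ℕ) : level n p1 p2 x ≤ n + 1 := by
  unfold level
  refine (List.length_filter_le _ _).trans ?_
  rw [List.length_range]

theorem reachP_length (k : ℕ) : (reach n p1 p2 k).length ≤ n := by
  have h3 : reach n p1 p2 k ⊆ List.range n := fun x hx => List.mem_range.2 (reachP_lt hx)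
  have h4 := (List.subperm_of_subset (reachP_nodup k) h3).length_le
  simpa using h4

theorem reachP_stable (k : ℕ) :
    (∀ x, x ∈ reach n p1 p2 (k + 1) → x ∈ reach n p1 p2 k) ∨
      k + 2 ≤ (reach n p1 p2 (k + 1)).length := by
  have hgrow : ∀ k, (∀ x, x ∈ reach n p1 p2 (k + 1) → x ∈ reach n p1 p2 k) ∨
      (reach n p1 p2 k).length < (reach n p1 p2 (k + 1)).length := by
    intro k
    by_cases h : ∀ x, x ∈ reach n p1 p2 (k + 1) → x ∈ reach n p1 p2 k
    · exact Or.inl h
    · right
      push Not at h
      obtain ⟨x, hx, hxk⟩ := h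
      have h1 : (x :: reach n p1 p2 k).Nodup := List.nodup_cons.2 ⟨hxk, reachP_nodup k⟩
      have h2 : (x :: reach n p1 p2 k) ⊆ reach n p1 p2 (k + 1) := by
        intro y hy
        rcases List.mem_cons.1 hy with rfl | hy
        · exact hx
        · exact reachP_mono_succ hy
      have h3 := (List.subperm_of_subset h1 h2).length_le
      simpa using h3
  induction k with
  | zero =>
    rcases hgrow 0 with h | h
    · exact Or.inl h
    · rcases Nat.eq_zero_or_pos (reach n p1 p2 0).length with h0 | h0
      · left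
        intro x hx
        have h1 := List.eq_nil_of_length_eq_zero h0
        rw [reachP_succ, h1, mem_growP] at hx
        rcases hx.2 with h2 | ⟨y, hy, _⟩
        · rw [h1]; exact h2
        · exact absurd hy (by simp)
      · right
        omega
  | succ k ih =>
    rcases ih with h | h
    · left
      intro x hx
      rw [reachP_succ, mem_growP] at hx
      obtain ⟨hxn, hx⟩ := hx
      rw [reachP_succ k, mem_growP]
      refine ⟨hxn, ?_⟩
      rcases hx with hx | ⟨y, hy, hxy⟩
      · exact Or.inl (h x hx)
      · exact Or.inr ⟨y, h y hy, hxy⟩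
    · rcases hgrow (k + 1) with h1 | h1
      · exact Or.inl h1
      · right
        omega

/-- no node has level `n` -/
theorem level_ne {x : ℕ} (hx : x < n) : level n p1 p2 x < n ∨ level n p1 p2 x = n + 1 := by
  rcases Nat.lt_or_ge n (level n p1 p2 x) with h | h
  · right
    have := level_le (n := n) (p1 := p1) (p2 := p2) x
    omega
  · left
    have h1 : x ∈ reach n p1 p2 n := (level_le_iff (le_refl n)).1 h
    obtain ⟨m, rfl⟩ : ∃ m, n = m + 1 := ⟨n - 1, by omega⟩
    rcases reachP_stable (n := m + 1) (p1 := p1) (p2 := p2) m with h2 | h2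
    · have h3 := (level_le_iff (n := m + 1) (by omega)).2 (h2 x h1)
      omega
    · have h3 := reachP_length (n := m + 1) (p1 := p1) (p2 := p2) (m + 1)
      omega

theorem level_root {x : ℕ} (hx : x < n) (hr : root p1 p2 x = true) : level n p1 p2 x = 0 := by
  have h : level n p1 p2 x ≤ 0 := by
    rw [level_le_iff (Nat.zero_le n), reachP_zero, List.mem_filter, List.mem_range]
    exact ⟨hx, hr⟩
  omega

theorem level_eq_zero {x : ℕ} (h : level n p1 p2 x = 0) (_ : x < n) : root p1 p2 x = true := by
  have h1 : x ∈ reach n p1 p2 0 := (level_le_iff (Nat.zero_le n)).1 (by omega)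
  rw [reachP_zero, List.mem_filter] at h1
  exact h1.2

theorem level_lt_n {x : ℕ} (h : level n p1 p2 x ≤ n) : x < n :=
  reachP_lt ((level_le_iff (le_refl n)).1 h)

/-- every node of positive finite level has a neighbour of smaller level -/
theorem level_pred {x : ℕ} (_ : x < n) (h0 : level n p1 p2 x ≠ 0)
    (h1 : level n p1 p2 x ≠ n + 1) :
    ∃ y < n, level n p1 p2 y < level n p1 p2 x ∧
      (nx p1 x = y ∨ p1.idxOf x = y ∨ nx p2 x = y ∨ p2.idxOf x = y) := by
  have h2 := level_le (n := n) (p1 := p1) (p2 := p2) x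
  obtain ⟨k, hk⟩ : ∃ k, level n p1 p2 x = k + 1 := ⟨level n p1 p2 x - 1, by omega⟩
  have h3 : x ∈ reach n p1 p2 (k + 1) := (level_le_iff (by omega)).1 (by omega)
  have h4 : x ∉ reach n p1 p2 k := by
    intro h5
    have := (level_le_iff (n := n) (by omega)).2 h5
    omega
  rw [reachP_succ, mem_growP] at h3
  rcases h3.2 with h5 | ⟨y, hy, hxy⟩
  · exact absurd h5 h4
  · refine ⟨y, reachP_lt hy, ?_, hxy⟩
    have := (level_le_iff (n := n) (by omega)).2 hy
    omega

/-- the nodes of infinite level are closed under taking neighbours -/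
theorem level_closed {x y : ℕ} (hx : x < n) (hy : y < n)
    (hxy : nx p1 x = y ∨ p1.idxOf x = y ∨ nx p2 x = y ∨ p2.idxOf x = y)
    (h : level n p1 p2 x = n + 1) : level n p1 p2 y = n + 1 := by
  rcases level_ne (p1 := p1) (p2 := p2) hy with h1 | h1
  · exfalso
    obtain ⟨m, rfl⟩ : ∃ m, n = m + 1 := ⟨n - 1, by omega⟩
    have h2 : y ∈ reach (m + 1) p1 p2 m := (level_le_iff (by omega)).1 (by omega)
    have h3 : x ∈ reach (m + 1) p1 p2 (m + 1) := by
      rw [reachP_succ]
      exact mem_growP.2 ⟨hx, Or.inr ⟨y, h2, hxy⟩⟩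
    have h4 := (level_le_iff (n := m + 1) (le_refl _)).2 h3
    omega
  · exact h1

theorem level_top {x : ℕ} (hx : x < n) (h : level n p1 p2 x = n + 1) :
    isLong p1 x = true ∧ nx p2 x ≠ x := by
  have h1 : ¬ root p1 p2 x = true := by
    intro h2
    have := level_root hx h2
    omega
  unfold root at h1
  cases h2 : isLong p1 x <;> simp_all

theorem nx_lt_of_perm {p : List ℕ} {m x : ℕ} (hp : p.Perm (List.range m)) (hx : x < m) :
    nx p x < m := by
  have hl : p.length = m := by simpa using hp.length_eq
  have h1 : x < p.length := by omega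
  have h2 : nx p x ∈ p := by
    unfold nx
    rw [List.getD_eq_getElem _ _ h1]
    exact List.getElem_mem h1
  simpa using (hp.mem_iff.1 h2)

theorem idxOf_nx {p : List ℕ} {m x : ℕ} (hp : p.Perm (List.range m)) (hx : x < m) :
    p.idxOf (nx p x) = x := by
  have hl : p.length = m := by simpa using hp.length_eq
  have hn : p.Nodup := hp.nodup_iff.2 List.nodup_range
  have h1 : x < p.length := by omega
  unfold nx
  rw [List.getD_eq_getElem _ _ h1]
  exact hn.idxOf_getElem x h1

theorem level_nx1 (hp1 : p1.Perm (List.range n)) {x : ℕ} (hx : x < n) :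
    level n p1 p2 x = n + 1 ↔ level n p1 p2 (nx p1 x) = n + 1 := by
  constructor
  · exact level_closed hx (nx_lt_of_perm hp1 hx) (Or.inl rfl)
  · exact level_closed (nx_lt_of_perm hp1 hx) hx (Or.inr (Or.inl (idxOf_nx hp1 hx)))

theorem level_nx2 (hp2 : p2.Perm (List.range (n + n))) {x : ℕ} (hx : x < n)
    (hy : nx p2 x < n) :
    level n p1 p2 x = n + 1 ↔ level n p1 p2 (nx p2 x) = n + 1 := by
  constructor
  · exact level_closed hx hy (Or.inr (Or.inr (Or.inl rfl)))
  · exact level_closed hy hx (Or.inr (Or.inr (Or.inr (idxOf_nx hp2 (by omega)))))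

end Vale.Agent.P333.T.Lp
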