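import Vale.Agent.P333.T.Fold
import Vale.Agent.P333.M.Round

/-!
P333, box T: levels and units of the program.
-/

namespace Vale.Agent.P333.T

open Vale.Agent.P333.M (nx)
open Vale.Agent.P333.M.Round (nx_lt nx_inj idx_lt nx_idx)

theorem idx_nx {n : ℕ} {p : List ℕ} (hp : p.Perm (List.range n)) {x : ℕ} (hx : x < n) :
    p.idxOf (nx p x) = x :=
  nx_inj hp (idx_lt hp (nx_lt hp hx)) hx (nx_idx hp (nx_lt hp hx))

/-! ### reach -/

theorem reach_zero (n : ℕ) (p1 p2 : List ℕ) :
    reach n p1 p2 0 = (List.range n).filter (fun x => root p1 p2 x) := by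
  simp [reach]

theorem reach_succ (n : ℕ) (p1 p2 : List ℕ) (k : ℕ) :
    reach n p1 p2 (k + 1) = grow n p1 p2 (reach n p1 p2 k) := by
  simp [reach, List.range_succ, List.foldl_append]

theorem mem_grow' {n : ℕ} {p1 p2 R : List ℕ} {x : ℕ} : x ∈ grow n p1 p2 R ↔
    x < n ∧ (x ∈ R ∨ nx p1 x ∈ R ∨ p1.idxOf x ∈ R ∨ nx p2 x ∈ R ∨ p2.idxOf x ∈ R) := by
  simp only [grow, List.mem_filter, List.mem_range, Bool.or_eq_true, List.contains_iff_mem]
  tauto

theorem mem_reach_zero {n : ℕ} {p1 p2 : List ℕ} {x : ℕ} :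
    x ∈ reach n p1 p2 0 ↔ x < n ∧ root p1 p2 x = true := by
  rw [reach_zero, List.mem_filter, List.mem_range]

theorem mem_reach_succ {n : ℕ} {p1 p2 : List ℕ} {k x : ℕ} : x ∈ reach n p1 p2 (k + 1) ↔
    x < n ∧ (x ∈ reach n p1 p2 k ∨ nx p1 x ∈ reach n p1 p2 k ∨ p1.idxOf x ∈ reach n p1 p2 k ∨
      nx p2 x ∈ reach n p1 p2 k ∨ p2.idxOf x ∈ reach n p1 p2 k) := by
  rw [reach_succ, mem_grow']

theorem reach_lt' {n : ℕ} {p1 p2 : List ℕ} {k x : ℕ} (h : x ∈ reach n p1 p2 k) : x < n := by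
  cases k with
  | zero => exact (mem_reach_zero.1 h).1
  | succ k => exact (mem_reach_succ.1 h).1

theorem reach_mono_succ {n : ℕ} {p1 p2 : List ℕ} {k x : ℕ} (h : x ∈ reach n p1 p2 k) :
    x ∈ reach n p1 p2 (k + 1) :=
  mem_reach_succ.2 ⟨reach_lt' h, Or.inl h⟩

theorem reach_mono {n : ℕ} {p1 p2 : List ℕ} {j k x : ℕ} (hjk : j ≤ k)
    (h : x ∈ reach n p1 p2 j) : x ∈ reach n p1 p2 k := by
  induction hjk with
  | refl => exact h
  | step _ ih => exact reach_mono_succ ih

/-! ### levels -/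

/-- an initial segment of the numbers, counted -/
theorem count_initial (P : ℕ → Bool) (hP : ∀ k, P (k + 1) = true → P k = true) (N : ℕ) :
    ∀ k, k < N → (((List.range N).filter P).length ≤ k ↔ P k = false) := by
  have hP' : ∀ j k, j ≤ k → P k = true → P j = true := by
    intro j k hjk
    induction hjk with
    | refl => exact id
    | step _ ih => exact fun h => ih (hP _ h)
  induction N with
  | zero => intro k hk; omega
  | succ N ih =>
    intro k hk
    have hle : ((List.range N).filter P).length ≤ N := by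
      have := List.length_filter_le P (List.range N)
      simpa using this
    rw [List.range_succ, List.filter_append, List.length_append]
    by_cases hN : P N = true
    · have h1 : (List.filter P [N]).length = 1 := by simp [hN]
      have hfull : ((List.range N).filter P).length = N := by
        rw [List.filter_eq_self.2 (fun a ha => hP' a N (List.mem_range.1 ha).le hN)]
        simp
      rw [h1, hfull]
      constructor
      · intro h; omega
      · intro h
        have := hP' k N (by omega) hN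
        rw [this] at h
        exact absurd h (by simp)
    · rw [Bool.not_eq_true] at hN
      have h0 : (List.filter P [N]).length = 0 := by simp [hN]
      rw [h0, Nat.add_zero]
      by_cases hk' : k < N
      · exact ih k hk'
      · have : k = N := by omega
        subst this
        exact ⟨fun _ => hN, fun _ => hle⟩

theorem reach_iff_level {n : ℕ} {p1 p2 : List ℕ} {k x : ℕ} (hk : k ≤ n) :
    x ∈ reach n p1 p2 k ↔ level n p1 p2 x ≤ k := by
  have h := count_initial (fun k => !((reach n p1 p2 k).contains x)) (by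
    intro k h
    simp only [Bool.not_eq_true'] at h ⊢
    rw [Bool.eq_false_iff] at h ⊢
    intro hc
    apply h
    rw [List.contains_iff_mem] at hc ⊢
    exact reach_mono_succ hc) (n + 1) k (by omega)
  rw [level, h]
  simp

theorem level_le (n : ℕ) (p1 p2 : List ℕ) (x : ℕ) : level n p1 p2 x ≤ n + 1 := by
  unfold level
  have := List.length_filter_le (fun k => !((reach n p1 p2 k).contains x)) (List.range (n + 1))
  simpa using this

theorem level_root {n : ℕ} {p1 p2 : List ℕ} {x : ℕ} (hx : x < n) :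
    level n p1 p2 x = 0 ↔ root p1 p2 x = true := by
  rw [← Nat.le_zero, ← reach_iff_level (Nat.zero_le n), mem_reach_zero]
  exact ⟨fun h => h.2, fun h => ⟨hx, h⟩⟩

theorem lt_of_level {n : ℕ} {p1 p2 : List ℕ} {x : ℕ} (h : level n p1 p2 x ≤ n) : x < n :=
  reach_lt' ((reach_iff_level le_rfl).2 h)

/-- a node of positive finite level has a neighbour of smaller level -/
theorem later {n : ℕ} {p1 p2 : List ℕ} {x : ℕ} (h0 : 0 < level n p1 p2 x)
    (h1 : level n p1 p2 x ≤ n) : ∃ y < n, (y = nx p1 x ∨ y = p1.idxOf x ∨ y = nx p2 x ∨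
      y = p2.idxOf x) ∧ level n p1 p2 y < level n p1 p2 x := by
  obtain ⟨k, hk⟩ : ∃ k, level n p1 p2 x = k + 1 := ⟨level n p1 p2 x - 1, by omega⟩
  have hx : x ∈ reach n p1 p2 (k + 1) := by
    rw [reach_iff_level (by omega), hk]
  have hnx : x ∉ reach n p1 p2 k := by
    rw [reach_iff_level (by omega), hk]
    omega
  rw [mem_reach_succ] at hx
  have key : ∀ y, y ∈ reach n p1 p2 k → y < n ∧ level n p1 p2 y < level n p1 p2 x := by
    intro y hy
    refine ⟨reach_lt' hy, ?_⟩
    rw [reach_iff_level (by omega)] at hy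
    omega
  rcases hx.2 with h | h | h | h | h
  · exact absurd h hnx
  · exact ⟨_, (key _ h).1, Or.inl rfl, (key _ h).2⟩
  · exact ⟨_, (key _ h).1, Or.inr (Or.inl rfl), (key _ h).2⟩
  · exact ⟨_, (key _ h).1, Or.inr (Or.inr (Or.inl rfl)), (key _ h).2⟩
  · exact ⟨_, (key _ h).1, Or.inr (Or.inr (Or.inr rfl)), (key _ h).2⟩

/-! ### the set of nodes of finite level is closed -/

/-- the set of nodes at distance at most `k` -/
def rs (n : ℕ) (p1 p2 : List ℕ) (k : ℕ) : Finset ℕ := (reach n p1 p2 k).toFinset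

theorem rs_sub (n : ℕ) (p1 p2 : List ℕ) (k : ℕ) : rs n p1 p2 k ⊆ Finset.range n := by
  intro x hx
  exact Finset.mem_range.2 (reach_lt' (List.mem_toFinset.1 hx))

theorem rs_mono (n : ℕ) (p1 p2 : List ℕ) (k : ℕ) : rs n p1 p2 k ⊆ rs n p1 p2 (k + 1) := by
  intro x hx
  exact List.mem_toFinset.2 (reach_mono_succ (List.mem_toFinset.1 hx))

theorem rs_stable {n : ℕ} {p1 p2 : List ℕ} {k : ℕ} (h : rs n p1 p2 (k + 1) = rs n p1 p2 k) :
    rs n p1 p2 (k + 2) = rs n p1 p2 (k + 1) := by
  apply Finset.Subset.antisymm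
  · intro x hx
    have hm : ∀ y, y ∈ reach n p1 p2 (k + 1) ↔ y ∈ reach n p1 p2 k := by
      intro y
      have := Finset.ext_iff.1 h y
      simpa [rs] using this
    have hx' := List.mem_toFinset.1 hx
    apply List.mem_toFinset.2
    rw [mem_reach_succ] at hx' ⊢
    simp only [hm] at hx'
    exact hx'
  · exact rs_mono n p1 p2 (k + 1)

theorem rs_last (n : ℕ) (p1 p2 : List ℕ) : rs n p1 p2 (n + 1) = rs n p1 p2 n := by
  by_contra hne
  have hstrict : ∀ k ≤ n, rs n p1 p2 (k + 1) ≠ rs n p1 p2 k := by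
    intro k hk he
    apply hne
    have : ∀ j, k ≤ j → rs n p1 p2 (j + 1) = rs n p1 p2 j := by
      intro j hj
      induction hj with
      | refl => exact he
      | step _ ih => exact rs_stable ih
    exact this n hk
  have hcard : ∀ k ≤ n + 1, k ≤ (rs n p1 p2 k).card := by
    intro k
    induction k with
    | zero => intro _; exact Nat.zero_le _
    | succ k ih =>
      intro hk
      have h1 := ih (by omega)
      have h2 : (rs n p1 p2 k).card < (rs n p1 p2 (k + 1)).card := by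
        apply Finset.card_lt_card
        exact (Finset.ssubset_iff_subset_ne).2 ⟨rs_mono n p1 p2 k,
          fun h => hstrict k (by omega) h.symm⟩
      omega
  have h1 := hcard (n + 1) le_rfl
  have h2 := Finset.card_le_card (rs_sub n p1 p2 (n + 1))
  rw [Finset.card_range] at h2
  omega

theorem reach_closed' {n : ℕ} {p1 p2 : List ℕ} {x : ℕ} (hx : x < n)
    (h : nx p1 x ∈ reach n p1 p2 n ∨ p1.idxOf x ∈ reach n p1 p2 n ∨ nx p2 x ∈ reach n p1 p2 n ∨
      p2.idxOf x ∈ reach n p1 p2 n) : x ∈ reach n p1 p2 n := by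
  have h1 : x ∈ reach n p1 p2 (n + 1) := mem_reach_succ.2 ⟨hx, Or.inr h⟩
  have h2 : x ∈ rs n p1 p2 (n + 1) := List.mem_toFinset.2 h1
  rw [rs_last] at h2
  exact List.mem_toFinset.1 h2

theorem level_top_iff {n : ℕ} {p1 p2 : List ℕ} {x : ℕ} :
    level n p1 p2 x = n + 1 ↔ x ∉ reach n p1 p2 n := by
  rw [reach_iff_level le_rfl]
  have := level_le n p1 p2 x
  omega

theorem K1 {n : ℕ} {p1 p2 : List ℕ} (h1 : p1.Perm (List.range n)) {x : ℕ} (hx : x < n) :
    level n p1 p2 x = n + 1 ↔ level n p1 p2 (nx p1 x) = n + 1 := by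
  rw [level_top_iff, level_top_iff, not_iff_not]
  constructor
  · intro h
    refine reach_closed' (nx_lt h1 hx) (Or.inr (Or.inl ?_))
    rw [idx_nx h1 hx]
    exact h
  · intro h
    exact reach_closed' hx (Or.inl h)

theorem K2 {n N : ℕ} {p1 p2 : List ℕ} (h2 : p2.Perm (List.range N)) {x : ℕ} (hx : x < n)
    (hN : n ≤ N) (hy : nx p2 x < n) :
    level n p1 p2 x = n + 1 ↔ level n p1 p2 (nx p2 x) = n + 1 := by
  rw [level_top_iff, level_top_iff, not_iff_not]
  constructor
  · intro h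
    refine reach_closed' hy (Or.inr (Or.inr (Or.inr ?_)))
    rw [idx_nx h2 (lt_of_lt_of_le hx hN)]
    exact h
  · intro h
    exact reach_closed' hx (Or.inr (Or.inr (Or.inl h)))

theorem K3 {n : ℕ} {p1 p2 : List ℕ} {x : ℕ} (hx : x < n) (h : level n p1 p2 x = n + 1) :
    isLong p1 x = true ∧ nx p2 x ≠ x := by
  have hr : root p1 p2 x = false := by
    rw [Bool.eq_false_iff]
    intro hr
    have := (level_root hx).2 hr
    omega
  rw [root] at hr
  simp only [Bool.not_eq_false', Bool.and_eq_true, Bool.not_eq_true', beq_eq_false_iff_ne] at hr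
  exact hr

/-! ### pairs -/

theorem isPair_iff' {p : List ℕ} {x : ℕ} :
    isPair p x = true ↔ nx p x ≠ x ∧ nx p (nx p x) = x := by
  simp [isPair]

theorem isPair_nx' {p : List ℕ} {x : ℕ} (h : isPair p x = true) : isPair p (nx p x) = true := by
  rw [isPair_iff'] at h ⊢
  rw [h.2]
  exact ⟨h.1.symm, rfl⟩

theorem isPair_root {p1 p2 : List ℕ} {x : ℕ} (h : isPair p1 x = true) : root p1 p2 x = true := by
  rw [isPair_iff'] at h
  simp [root, isLong, h.2]

theorem isN_pair {n : ℕ} {p1 p2 : List ℕ} {x : ℕ} (h : isN n p1 p2 x = true) :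
    isPair p1 x = true := by
  rw [isN, Bool.and_eq_true] at h
  exact h.1

theorem isN_nx {n : ℕ} {p1 p2 : List ℕ} {x : ℕ} (h : isN n p1 p2 x = true) :
    isN n p1 p2 (nx p1 x) = true := by
  have hp := isPair_iff'.1 (isN_pair h)
  rw [isN, Bool.and_eq_true] at h ⊢
  refine ⟨isPair_nx' h.1, ?_⟩
  have : hub n p1 (nx p1 x) = hub n p1 x := by
    unfold hub
    rw [hp.2, min_comm]
  rw [this]
  exact h.2

theorem isN_root {n : ℕ} {p1 p2 : List ℕ} {x : ℕ} (h : isN n p1 p2 x = true) :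
    root p1 p2 x = true := isPair_root (isN_pair h)

/-! ### units -/

/-- the nodes of finite level, by decreasing level -/
def ord (n : ℕ) (p1 p2 : List ℕ) : List ℕ :=
  ((List.range (n + 1)).map (fun k => (List.range n).filter
    (fun x => level n p1 p2 x == n - k))).flatten

theorem units_eq (n : ℕ) (p1 p2 : List ℕ) :
    units n p1 p2 = (ord n p1 p2).map (fun x => unitOf n p1 p2 x) := by
  rw [units, ord, List.map_flatten, List.map_map]
  rfl

theorem mem_ord {n : ℕ} {p1 p2 : List ℕ} {x : ℕ} :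
    x ∈ ord n p1 p2 ↔ x < n ∧ level n p1 p2 x ≤ n := by
  simp only [ord, List.mem_flatten, List.mem_map, List.mem_range]
  constructor
  · rintro ⟨l, ⟨k, hk, rfl⟩, hx⟩
    simp only [List.mem_filter, List.mem_range, beq_iff_eq] at hx
    exact ⟨hx.1, by omega⟩
  · rintro ⟨h1, h2⟩
    refine ⟨_, ⟨n - level n p1 p2 x, by omega, rfl⟩, ?_⟩
    simp only [List.mem_filter, List.mem_range, beq_iff_eq]
    exact ⟨h1, by omega⟩

theorem ord_pairwise (n : ℕ) (p1 p2 : List ℕ) : (ord n p1 p2).Pairwise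
    (fun x y => x ≠ y ∧ level n p1 p2 y ≤ level n p1 p2 x) := by
  rw [ord, List.pairwise_flatten]
  constructor
  · intro l hl
    rw [List.mem_map] at hl
    obtain ⟨k, _, rfl⟩ := hl
    have h1 : ((List.range n).filter (fun x => level n p1 p2 x == n - k)).Pairwise (· ≠ ·) :=
      List.Pairwise.filter _ List.nodup_range
    refine List.Pairwise.imp_of_mem ?_ h1
    intro a b ha hb hab
    simp only [List.mem_filter, beq_iff_eq] at ha hb
    exact ⟨hab, by omega⟩
  · rw [List.pairwise_map]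
    have h1 : (List.range (n + 1)).Pairwise (· < ·) := List.pairwise_lt_range
    refine List.Pairwise.imp_of_mem ?_ h1
    intro j k hj hk hjk x hx y hy
    rw [List.mem_range] at hj hk
    simp only [List.mem_filter, List.mem_range, beq_iff_eq] at hx hy
    refine ⟨?_, by omega⟩
    intro he
    subst he
    omega

theorem mem_unitOf {n : ℕ} {p1 p2 : List ℕ} {x y : ℕ} : y ∈ unitOf n p1 p2 x ↔
    (isN n p1 p2 x = false ∧ y = x) ∨
    (isN n p1 p2 x = true ∧ x < nx p1 x ∧ (y = x ∨ y = nx p1 x)) := by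
  unfold unitOf
  by_cases h : isN n p1 p2 x = true
  · rw [if_pos h]
    by_cases h2 : x < nx p1 x
    · rw [if_pos h2]
      simp [h, h2]
    · rw [if_neg h2]
      simp [h, h2]
  · rw [if_neg h]
    rw [Bool.not_eq_true] at h
    simp [h]

/-- different nodes of the order have disjoint units -/
theorem unit_disjoint {n : ℕ} {p1 p2 : List ℕ} {a x y : ℕ} (hax : a ≠ x)
    (ha : y ∈ unitOf n p1 p2 a) (hx : y ∈ unitOf n p1 p2 x) : False := by
  rw [mem_unitOf] at ha hx
  have step : ∀ z, isN n p1 p2 z = true → isN n p1 p2 (nx p1 z) = true ∧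
      nx p1 (nx p1 z) = z := fun z hz => ⟨isN_nx hz, (isPair_iff'.1 (isN_pair hz)).2⟩
  rcases ha with ⟨ha1, rfl⟩ | ⟨ha1, ha2, rfl | rfl⟩
  · rcases hx with ⟨hx1, rfl⟩ | ⟨hx1, hx2, rfl | rfl⟩
    · exact hax rfl
    · exact hax rfl
    · rw [(step x hx1).1] at ha1
      exact absurd ha1 (by simp)
  · rcases hx with ⟨hx1, rfl⟩ | ⟨hx1, hx2, rfl | rfl⟩
    · exact hax rfl
    · exact hax rfl
    · rw [(step x hx1).2] at ha2
      omega
  · rcases hx with ⟨hx1, hx3⟩ | ⟨hx1, hx2, hx3 | hx3⟩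
    · rw [← hx3, (step a ha1).1] at hx1
      exact absurd hx1 (by simp)
    · rw [← hx3, (step a ha1).2] at hx2
      omega
    · have h1 := (step a ha1).2
      rw [hx3, (step x hx1).2] at h1
      exact hax h1.symm

theorem level_of_mem_unit {n : ℕ} {p1 p2 : List ℕ} (h1 : p1.Perm (List.range n)) {a y : ℕ}
    (ha : a < n) (hy : y ∈ unitOf n p1 p2 a) :
    y < n ∧ level n p1 p2 y = level n p1 p2 a := by
  rw [mem_unitOf] at hy
  rcases hy with ⟨_, rfl⟩ | ⟨ha1, _, rfl | rfl⟩
  · exact ⟨ha, rfl⟩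
  · exact ⟨ha, rfl⟩
  · have h2 := nx_lt h1 ha
    refine ⟨h2, ?_⟩
    rw [(level_root h2).2 (isN_root (isN_nx ha1)), (level_root ha).2 (isN_root ha1)]

/-- the structure of the list of units -/
theorem units_split {n : ℕ} {p1 p2 : List ℕ} (h1 : p1.Perm (List.range n))
    {A B : List (List ℕ)} {U : List ℕ} (h : units n p1 p2 = A ++ U :: B) :
    ∃ x < n, level n p1 p2 x ≤ n ∧ U = unitOf n p1 p2 x ∧ (∀ y ∈ U, y ∉ done A) ∧
      (∀ y ∈ done A, y < n ∧ level n p1 p2 y ≤ n ∧ level n p1 p2 x ≤ level n p1 p2 y) ∧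
      (root p1 p2 x = false → ∃ y < n, (y = nx p1 x ∨ y = p1.idxOf x ∨ y = nx p2 x ∨
        y = p2.idxOf x) ∧ level n p1 p2 y < level n p1 p2 x ∧ y ∉ done A) := by
  rw [units_eq] at h
  obtain ⟨A', C', hAC, rfl, hC⟩ := List.map_eq_append_iff.1 h
  obtain ⟨x, B', rfl, rfl, rfl⟩ := List.map_eq_cons_iff.1 hC
  have hx : x ∈ ord n p1 p2 := by rw [hAC]; simp
  have hxo := mem_ord.1 hx
  have hpw := ord_pairwise n p1 p2
  rw [hAC, List.pairwise_append] at hpw
  have hA : ∀ a ∈ A', a ≠ x ∧ level n p1 p2 x ≤ level n p1 p2 a := by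
    intro a ha
    exact hpw.2.2 a ha x (by simp)
  have hAn : ∀ a ∈ A', a < n ∧ level n p1 p2 a ≤ n := by
    intro a ha
    exact mem_ord.1 (by rw [hAC]; simp [ha])
  have hdone : ∀ y ∈ done (A'.map (fun x => unitOf n p1 p2 x)), ∃ a ∈ A',
      y ∈ unitOf n p1 p2 a := by
    intro y hy
    rw [mem_done] at hy
    obtain ⟨V, hV, hyV⟩ := hy
    obtain ⟨a, ha, rfl⟩ := List.mem_map.1 hV
    exact ⟨a, ha, hyV⟩
  have hlev : ∀ y ∈ done (A'.map (fun x => unitOf n p1 p2 x)),
      y < n ∧ level n p1 p2 y ≤ n ∧ level n p1 p2 x ≤ level n p1 p2 y := by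
    intro y hy
    obtain ⟨a, ha, hya⟩ := hdone y hy
    have h3 := level_of_mem_unit h1 (hAn a ha).1 hya
    rw [h3.2]
    exact ⟨h3.1, (hAn a ha).2, (hA a ha).2⟩
  refine ⟨x, hxo.1, hxo.2, rfl, ?_, hlev, ?_⟩
  · intro y hy hyd
    obtain ⟨a, ha, hya⟩ := hdone y hyd
    exact unit_disjoint (hA a ha).1 hya hy
  · intro hr
    have h0 : 0 < level n p1 p2 x := by
      rw [Nat.pos_iff_ne_zero]
      intro h0
      rw [level_root hxo.1, hr] at h0
      exact absurd h0 (by simp)
    obtain ⟨y, hy, hyn, hyl⟩ := later h0 hxo.2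
    refine ⟨y, hy, hyn, hyl, ?_⟩
    intro hyd
    have := (hlev y hyd).2.2
    omega

/-- all nodes of finite level are processed -/
theorem mem_done_units {n : ℕ} {p1 p2 : List ℕ} (h1 : p1.Perm (List.range n)) {y : ℕ} :
    y ∈ done (units n p1 p2) ↔ y < n ∧ level n p1 p2 y ≤ n := by
  rw [mem_done, units_eq]
  constructor
  · rintro ⟨V, hV, hy⟩
    obtain ⟨a, ha, rfl⟩ := List.mem_map.1 hV
    have ha' := mem_ord.1 ha
    have h3 := level_of_mem_unit h1 ha'.1 hy
    rw [h3.2]
    exact ⟨h3.1, ha'.2⟩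
  · rintro ⟨hy, hl⟩
    by_cases hN : isN n p1 p2 y = true
    · have hp := isPair_iff'.1 (isN_pair hN)
      by_cases hlt : y < nx p1 y
      · exact ⟨_, List.mem_map.2 ⟨y, mem_ord.2 ⟨hy, hl⟩, rfl⟩,
          mem_unitOf.2 (Or.inr ⟨hN, hlt, Or.inl rfl⟩)⟩
      · have hz : nx p1 y < n := nx_lt h1 hy
        refine ⟨_, List.mem_map.2 ⟨nx p1 y, mem_ord.2 ⟨hz, ?_⟩, rfl⟩,
          mem_unitOf.2 (Or.inr ⟨isN_nx hN, ?_, Or.inr hp.2.symm⟩)⟩
        · rw [(level_root hz).2 (isN_root (isN_nx hN))]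
          exact Nat.zero_le _
        · rw [hp.2]
          have := hp.1
          omega
    · rw [Bool.not_eq_true] at hN
      exact ⟨_, List.mem_map.2 ⟨y, mem_ord.2 ⟨hy, hl⟩, rfl⟩,
        mem_unitOf.2 (Or.inl ⟨hN, rfl⟩)⟩

end Vale.Agent.P333.T
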