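import Vale.Agent.P333.T.Prog23
import Vale.Agent.P333.T.LF
import Vale.Agent.P333.M.Charge

/-!
P333, box T: the Boolean checks of the program decide what they should: `nodupB` decides `Nodup`,
`acyc` decides that there is no cycle, `lfb` decides `LF`.
-/

namespace Vale.Agent.P333.T

open Vale.Agent.P333.M

theorem nodupB_iff (l : List ℕ) : nodupB l = true ↔ l.Nodup := by
  unfold nodupB
  rw [List.all_eq_true]
  constructor
  · intro h
    rw [List.nodup_iff_injective_get]
    intro i j hij
    have hi := h i.1 (List.mem_range.2 i.2)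
    have hj := h j.1 (List.mem_range.2 j.2)
    rw [beq_iff_eq, List.getD_eq_getElem _ _ i.2] at hi
    rw [beq_iff_eq, List.getD_eq_getElem _ _ j.2] at hj
    have : l[i.1] = l[j.1] := hij
    rw [this] at hi
    exact Fin.ext (hi.symm.trans hj)
  · intro h i hi
    rw [List.mem_range] at hi
    rw [beq_iff_eq, List.getD_eq_getElem _ _ hi]
    exact h.idxOf_getElem i hi

theorem foldl_iterate (f : ℕ → ℕ) (k x : ℕ) :
    (List.range k).foldl (fun y _ => f y) x = f^[k] x := by
  induction k with
  | zero => rfl
  | succ k ih => rw [List.range_succ, List.foldl_append, ih, Function.iterate_succ_apply']; rfl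

theorem walk_eq (F : List (ℕ × ℕ)) (x : ℕ) : walk F x = (nxt F)^[F.length] x :=
  foldl_iterate _ _ _

theorem nxt_of_mem {F : List (ℕ × ℕ)} (h1 : (F.map Prod.fst).Nodup) {x y : ℕ}
    (h : (x, y) ∈ F) : nxt F x = y := by
  unfold nxt
  cases hf : F.find? (fun e => e.1 == x) with
  | none =>
    have := List.find?_eq_none.1 hf (x, y) h
    simp at this
  | some e =>
    have he := List.mem_of_find?_eq_some hf
    have hx := List.find?_some hf
    rw [beq_iff_eq] at hx
    have : (x, e.2) ∈ F := by rw [← hx]; exact he
    exact tail_unique h1 this h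

theorem nxt_of_not {F : List (ℕ × ℕ)} {x : ℕ} (h : ∀ y, (x, y) ∉ F) : nxt F x = x := by
  unfold nxt
  have : F.find? (fun e => e.1 == x) = none := by
    rw [List.find?_eq_none]
    intro e he h1
    rw [beq_iff_eq] at h1
    exact h e.2 (by rw [← h1]; exact he)
  rw [this]; rfl

theorem mem_nxt {F : List (ℕ × ℕ)} (h1 : (F.map Prod.fst).Nodup) {x : ℕ}
    (h : ∃ y, (x, y) ∈ F) : (x, nxt F x) ∈ F := by
  obtain ⟨y, hy⟩ := h
  rw [nxt_of_mem h1 hy]; exact hy

theorem exists_of_mem_cyc {P : List ℕ} {a : ℕ × ℕ} (ha : a ∈ cyc P) :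
    ∃ (k : ℕ) (hk : k < P.length),
      a = (P[k], P[(k + 1) % P.length]'(Nat.mod_lt _ (by omega))) := by
  unfold cyc at ha
  obtain ⟨k, hk, rfl⟩ := List.mem_iff_getElem.1 ha
  have hk' : k < P.length := by
    rw [List.length_zip, List.length_rotate, min_self] at hk
    exact hk
  refine ⟨k, hk', ?_⟩
  rw [List.getElem_zip, List.getElem_rotate]

theorem acyc_iff {F : List (ℕ × ℕ)} (h1 : (F.map Prod.fst).Nodup) :
    acyc F = true ↔ ∀ P : List ℕ, P ≠ [] → P.Nodup → ¬ ∀ e ∈ cyc P, e ∈ F := by
  unfold acyc
  rw [List.all_eq_true]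
  constructor
  · intro h P hP _ hc
    have hnx : ∀ x ∈ P, (x, nxt F x) ∈ F ∧ nxt F x ∈ P := by
      intro x hx
      rw [← map_fst_cyc P] at hx
      obtain ⟨e, he, rfl⟩ := List.mem_map.1 hx
      have h2 : e.2 ∈ P := by
        have : e.2 ∈ (cyc P).map Prod.snd := List.mem_map_of_mem he
        rw [map_snd_cyc, List.mem_rotate] at this
        exact this
      have h3 : (e.1, e.2) ∈ F := hc e he
      rw [nxt_of_mem h1 h3]
      exact ⟨h3, h2⟩
    have hit : ∀ k, ∀ x ∈ P, (nxt F)^[k] x ∈ P := by
      intro k
      induction k with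
      | zero => intro x hx; exact hx
      | succ k ih => intro x hx; rw [Function.iterate_succ_apply]; exact ih _ (hnx x hx).2
    obtain ⟨x, l, rfl⟩ := List.exists_cons_of_ne_nil hP
    have hx : x ∈ x :: l := List.mem_cons_self
    have h4 := h _ (hnx x hx).1
    have h5 := hit F.length x hx
    rw [← walk_eq] at h5
    have h6 : (F.any fun f => f.1 == walk F x) = true := by
      rw [List.any_eq_true]
      exact ⟨_, (hnx _ h5).1, by simp⟩
    rw [h6] at h4
    simp at h4
  · intro h e he
    by_contra hcon
    have h2 : (F.any fun f => f.1 == walk F e.1) = true := by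
      cases hv : (F.any fun f => f.1 == walk F e.1) with
      | true => rfl
      | false => rw [hv] at hcon; simp at hcon
    rw [List.any_eq_true] at h2
    obtain ⟨g, hg, hge⟩ := h2
    rw [beq_iff_eq, walk_eq] at hge
    set f := nxt F with hf
    -- every iterate is a tail
    have htail : ∀ k ≤ F.length, ∃ y, (f^[k] e.1, y) ∈ F := by
      intro k hk
      by_contra hno
      push Not at hno
      have hfix : f (f^[k] e.1) = f^[k] e.1 := nxt_of_not hno
      have h3 : f^[F.length] e.1 = f^[k] e.1 := by
        obtain ⟨m, hm⟩ := Nat.exists_eq_add_of_le hk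
        rw [hm, Nat.add_comm, Function.iterate_add_apply]
        exact Function.iterate_fixed hfix m
      rw [h3] at hge
      exact hno g.2 (by rw [← hge]; exact hg)
    -- pigeonhole
    have hmaps : ∀ k ∈ Finset.range (F.length + 1), f^[k] e.1 ∈ (F.map Prod.fst).toFinset := by
      intro k hk
      obtain ⟨y, hy⟩ := htail k (Nat.lt_succ_iff.1 (Finset.mem_range.1 hk))
      rw [List.mem_toFinset]
      exact List.mem_map_of_mem (f := Prod.fst) hy
    have hcard : (F.map Prod.fst).toFinset.card < (Finset.range (F.length + 1)).card := by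
      rw [List.toFinset_card_of_nodup h1, List.length_map, Finset.card_range]
      exact Nat.lt_succ_self _
    obtain ⟨i, hi, j, hj, hij, heq⟩ := Finset.exists_ne_map_eq_of_card_lt_of_maps_to hcard hmaps
    wlog hlt : i < j generalizing i j
    · exact this j hj i hi hij.symm heq.symm (lt_of_le_of_ne (not_lt.1 hlt) hij.symm)
    have hi' := Nat.lt_succ_iff.1 (Finset.mem_range.1 hi)
    have hj' := Nat.lt_succ_iff.1 (Finset.mem_range.1 hj)
    set y := f^[i] e.1 with hy
    have hper : Function.IsPeriodicPt f (j - i) y := by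
      change f^[j - i] y = y
      rw [hy, ← Function.iterate_add_apply, Nat.sub_add_cancel hlt.le, ← heq]
    have hpos : 0 < Function.minimalPeriod f y := hper.minimalPeriod_pos (Nat.sub_pos_of_lt hlt)
    have hple : Function.minimalPeriod f y ≤ j - i := hper.minimalPeriod_le (Nat.sub_pos_of_lt hlt)
    set p := Function.minimalPeriod f y with hp
    refine h ((List.range p).map fun k => f^[k] y) ?_ ?_ ?_
    · intro h0
      have := congrArg List.length h0
      simp at this
      omega
    · refine List.Nodup.map_on ?_ List.nodup_range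
      intro a ha b hb hab
      exact Function.iterate_injOn_Iio_minimalPeriod (List.mem_range.1 ha) (List.mem_range.1 hb) hab
    · intro a ha
      obtain ⟨k, hk, rfl⟩ := exists_of_mem_cyc ha
      have hlen : k < p := by simpa using hk
      have h7 : ((((List.range p).map fun k => f^[k] y)[k],
          ((List.range p).map fun k => f^[k] y)[(k + 1) %
            ((List.range p).map fun k => f^[k] y).length]'(Nat.mod_lt _ (by omega))) : ℕ × ℕ) =
          (f^[k] y, f (f^[k] y)) := by
        simp only [List.getElem_map, List.getElem_range, List.length_map, List.length_range]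
        rw [Function.iterate_mod_minimalPeriod_eq, Function.iterate_succ_apply']
      rw [h7]
      refine mem_nxt h1 ?_
      rw [hy, ← Function.iterate_add_apply]
      exact htail _ (by omega)

theorem lfb_iff {F : List (ℕ × ℕ)} : lfb F = true ↔ LF F := by
  unfold lfb LF
  rw [Bool.and_eq_true, Bool.and_eq_true, nodupB_iff, nodupB_iff, and_assoc]
  constructor
  · rintro ⟨h1, h2, h3⟩
    exact ⟨h1, h2, (acyc_iff h1).1 h3⟩
  · rintro ⟨h1, h2, h3⟩
    exact ⟨h1, h2, (acyc_iff h1).2 h3⟩

end Vale.Agent.P333.T
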