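import Vale.Agent.P333.T.Level

/-!
P333, box T: the colouring of the program, from the extension at single nodes and at pairs.
-/

namespace Vale.Agent.P333.T

open Vale.Agent.P333.M (nx)

theorem newArcs_nil (E : List (ℕ × ℕ)) (D : List ℕ) : newArcs E D [] = [] := by
  rw [List.eq_nil_iff_forall_not_mem]
  intro e he
  rw [mem_newArcs] at he
  obtain ⟨_, h1, h2, h3⟩ := he
  simp only [List.not_mem_nil, false_or] at h1 h2
  exact h3 ⟨h1, h2⟩

theorem Ext.nil {E : List (ℕ × ℕ)} {m : ℕ → ℕ} {D : List ℕ} {S : List ((ℕ × ℕ) × ℕ)}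
    (h : good m S = true) : Ext E m D [] S := by
  refine ⟨by simp [newArcs_nil], [], by simp [newArcs_nil], by simp, ?_⟩
  simpa [newArcs_nil] using h

/-- if the colouring can always be extended, at single nodes and at pairs, then the colouring of
the program is admissible and colours all arcs between nodes of finite level -/
theorem colOf_wrap {n : ℕ} {p1 p2 : List ℕ} (h1 : p1.Perm (List.range n))
    (hnode : ∀ x < n, isN n p1 p2 x = false → ∀ (D : List ℕ) (S : List ((ℕ × ℕ) × ℕ)), x ∉ D →
      (∀ y ∈ D, y < n) →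
      (root p1 p2 x = false → ∃ y < n, (y = nx p1 x ∨ y = p1.idxOf x ∨ y = nx p2 x ∨
        y = p2.idxOf x) ∧ y ≠ x ∧ y ∉ D) →
      Inv (arcs n p1 p2) (mate n p1 p2) D S → Ext (arcs n p1 p2) (mate n p1 p2) D [x] S)
    (hpair : ∀ x < n, isN n p1 p2 x = true → ∀ (D : List ℕ) (S : List ((ℕ × ℕ) × ℕ)), x ∉ D →
      nx p1 x ∉ D → (∀ y ∈ D, y < n) → Inv (arcs n p1 p2) (mate n p1 p2) D S →
      Ext (arcs n p1 p2) (mate n p1 p2) D [x, nx p1 x] S) :
    Inv (arcs n p1 p2) (mate n p1 p2) (done (units n p1 p2)) (colOf n p1 p2) := by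
  refine colour_inv _ _ _ ?_
  intro A U B hU S hS
  obtain ⟨x, hx, hl, rfl, hnot, hdone, hlat⟩ := units_split h1 hU
  by_cases hN : isN n p1 p2 x = true
  · by_cases hlt : x < nx p1 x
    · have hu : unitOf n p1 p2 x = [x, nx p1 x] := by
        unfold unitOf
        rw [if_pos hN, if_pos hlt]
      rw [hu] at hnot ⊢
      exact hpair x hx hN _ S (hnot x (by simp)) (hnot _ (by simp))
        (fun y hy => (hdone y hy).1) hS
    · have hu : unitOf n p1 p2 x = [] := by
        unfold unitOf
        rw [if_pos hN, if_neg hlt]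
      rw [hu]
      exact Ext.nil hS.good
  · have hN' : isN n p1 p2 x = false := by
      rw [Bool.not_eq_true] at hN
      exact hN
    have hu : unitOf n p1 p2 x = [x] := by
      unfold unitOf
      rw [if_neg hN]
    rw [hu] at hnot ⊢
    refine hnode x hx hN' _ S (hnot x (by simp)) (fun y hy => (hdone y hy).1) ?_ hS
    intro hr
    obtain ⟨y, hy, hyn, hyl, hyd⟩ := hlat hr
    refine ⟨y, hy, hyn, ?_, hyd⟩
    intro he
    rw [he] at hyl
    omega

/-- the arcs coloured by the program -/
theorem colOf_perm {n : ℕ} {p1 p2 : List ℕ} (h1 : p1.Perm (List.range n))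
    (hlt : ∀ e ∈ arcs n p1 p2, e.1 < n ∧ e.2 < n)
    (h : Inv (arcs n p1 p2) (mate n p1 p2) (done (units n p1 p2)) (colOf n p1 p2)) :
    ((colOf n p1 p2).map Prod.fst).Perm ((arcs n p1 p2).filter
      (fun e => !(level n p1 p2 e.1 == n + 1) && !(level n p1 p2 e.2 == n + 1))) := by
  refine h.perm.trans ?_
  rw [inside]
  refine List.Perm.of_eq (List.filter_congr ?_)
  intro e he
  have key : ∀ y < n, (done (units n p1 p2)).contains y = !(level n p1 p2 y == n + 1) := by
    intro y hy
    have hm := mem_done_units (p2 := p2) h1 (y := y)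
    have hle := level_le n p1 p2 y
    rw [Bool.eq_iff_iff, List.contains_iff_mem, hm]
    simp only [Bool.not_eq_true', beq_eq_false_iff_ne]
    constructor
    · rintro ⟨_, h2⟩ h3
      omega
    · intro h3
      exact ⟨hy, by omega⟩
  rw [key _ (hlt e he).1, key _ (hlt e he).2]

end Vale.Agent.P333.T
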