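import Vale.Agent.P333.T.V
import Vale.Agent.P333.T.LfB
import Vale.Agent.P333.T.Fold

/-!
P333, box 2/3: the extension at a single node, in the form used by the fold.
-/

namespace Vale.Agent.P333.T

open List

variable {m : ℕ → ℕ} {S : List ((ℕ × ℕ) × ℕ)}

theorem good_iff_Good : good m S = true ↔ Good m S := by
  rw [good_iff, lfb_iff, lfb_iff, lfb_iff]
  constructor
  · rintro ⟨⟨h0, h1, h2⟩, h3⟩
    refine ⟨fun t ht => ?_, h3⟩
    interval_cases t
    · exact h0
    · exact h1
    · exact h2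
  · rintro ⟨h, h3⟩
    exact ⟨⟨h 0 (by omega), h 1 (by omega), h 2 (by omega)⟩, h3⟩

theorem filter_new_le {E : List (ℕ × ℕ)} {D : List ℕ} {x : ℕ} (h : Inv E m D S)
    (q : ℕ × ℕ → Bool) :
    ((newArcs E D [x] ++ S.map Prod.fst).filter q).length ≤ (E.filter q).length := by
  have h1 : (newArcs E D [x] ++ S.map Prod.fst).Perm (inside E ([x] ++ D)) :=
    (h.perm.append_left _).trans (inside_step E D [x])
  rw [(h1.filter q).length_eq]
  exact ((List.filter_sublist (l := E)).filter q).length_le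

/-- **The extension at a single node.** -/
theorem ext_node {E : List (ℕ × ℕ)} {D : List ℕ} {x : ℕ} (h : Inv E m D S) (hxD : x ∉ D)
    (hne : ∀ e ∈ E, e.1 ≠ e.2 ∧ e.1 ≠ m e.2)
    (hT : ∀ e ∈ E, (E.filter (fun f => decide (tailConf m e f))).length ≤ 2)
    (hH : ∀ e ∈ E, (E.filter (fun f => decide (headConf m e f))).length ≤ 2)
    (hlen : (newArcs E D [x]).length ≤ 3)
    (hm : 2 ≤ (newArcs E D [x]).length → ∀ e ∈ E, e.1 ∈ D → e.2 ∈ D → e.1 ≠ m x ∧ m e.2 ≠ x) :
    Ext E m D [x] S := by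
  have hsub : ∀ e ∈ newArcs E D [x], e ∈ E := fun e he => (mem_newArcs.1 he).1
  obtain ⟨cs, h1, h2, h3⟩ := extend_node (x := x) (good_iff_Good.1 h.good)
    (fun a ha => by
      have := h.of_mem ha
      exact ⟨fun h => hxD (h ▸ this.2.1), fun h => hxD (h ▸ this.2.2.1)⟩)
    (newArcs E D [x])
    (fun e he => by
      have h4 := mem_newArcs.1 he
      have h5 := (hne e h4.1).1
      simp only [List.mem_singleton] at h4
      rcases h4.2.1 with h6 | h6
      · exact Or.inl ⟨h6, fun h7 => h5 (h6.trans h7.symm)⟩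
      · rcases h4.2.2.1 with h7 | h7
        · exact Or.inr ⟨fun h8 => h5 (h8.trans h7.symm), h7⟩
        · exact absurd ⟨h6, h7⟩ h4.2.2.2)
    hlen (fun e he => (hne e (hsub e he)).2)
    (fun e he => (filter_new_le h _).trans (hT e (hsub e he)))
    (fun e he => (filter_new_le h _).trans (hH e (hsub e he)))
    (fun h2 a ha => by
      have := h.of_mem ha
      exact hm h2 a.1 this.1 this.2.1 this.2.2.1)
  exact ⟨by omega, cs, h1, h2, good_iff_Good.2 h3⟩

end Vale.Agent.P333.T
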