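import Vale.Agent.P333.T.Fin
import Vale.Agent.P333.T.FinEnd
import Vale.Agent.P333.T.G2
import Vale.Agent.P333.T.G2v
import Vale.Agent.P333.T.Deg
import Vale.Agent.P333.T.STwrap
import Vale.Agent.P333.T.StepN
import Vale.Agent.P333.T.StepX
import Vale.Agent.P333.T.VExt
import Vale.Agent.P333.M.LinksPw

/-!
P333, box 2/3: the order computed by the program has at least `2 / 3` of the maximum weight.
-/

namespace Vale.Agent.P333.T

open List Vale.Agent.P333 Vale.Agent.P333.M

variable {n C : ℕ} {w : ℕ → ℕ → ℕ}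

/-- a node that is not in a pair has an ordinary arc of the second assignment -/
theorem hub_long {p1 p2 : List ℕ} (H : Hub n p1 p2) (x : ℕ) (hx : x < n)
    (hp : isPair p1 x = false) : nx p2 x < n := by
  refine H.out_lt hx ?_ ?_
  · unfold isE
    simp [hp]
  · unfold isU
    simp [hp]

/-- the colouring of the program -/
theorem colOf_inv {p1 p2 : List ℕ} (H : Hub n p1 p2) :
    Inv (arcs n p1 p2) (mate n p1 p2) (done (units n p1 p2)) (colOf n p1 p2) :=
  colOf_wrap H.h1 (fun _ hx hN _ _ hxD _ hr hI => step_node H hx hN hI hxD hr) (Pr.hpair H)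

/-- both ends of an arc have finite level or both have not -/
theorem level_arcs {p1 p2 : List ℕ} (H : Hub n p1 p2) {e : ℕ × ℕ} (he : e ∈ arcs n p1 p2) :
    level n p1 p2 e.1 = n + 1 ↔ level n p1 p2 e.2 = n + 1 := by
  have hlt := arcs_lt H he
  rcases mem_arcs.1 he with ⟨h1, -, h2⟩ | ⟨h1, h2, -, h3⟩ | ⟨h1, -, h2⟩
  · rw [h2]
    exact K1 H.h1 h1
  · rw [h3]
    exact K2 H.h2 h1 (by omega) h2
  · rw [h2]
    exact K1 H.h1 h1

/-- the value of the order found for two assignments -/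
theorem best_spec {p1 p2 : List ℕ} (H : Hub n p1 p2)
    (hmax : ∀ l : List ℕ, l ~ List.range n →
      ∑ i ∈ Finset.range n, wt1 w i (l.getD i 0) ≤ ∑ i ∈ Finset.range n, wt1 w i (p1.getD i 0))
    {O : ℕ} (hO1 : O ≤ ∑ x ∈ Finset.range n, wt1 w x (nx p1 x))
    (hO2 : 2 * O ≤ ∑ x ∈ Finset.range n, v2 n w p1 p2 x) :
    bestOf n w p1 p2 (colOf n p1 p2) ~ List.range n ∧
      2 * O ≤ 3 * pw w (bestOf n w p1 p2 (colOf n p1 p2)) := by
  have hI := colOf_inv H
  have hG : Good (mate n p1 p2) (colOf n p1 p2) := good_iff_Good.1 hI.good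
  have hS := colOf_perm H.h1 (fun e he => ⟨(arcs_lt H he).1, (arcs_lt H he).2.1⟩) hI
  refine F3.fin H.h1 H.h2 hmax (fun x hx h => H.pair_cases hx h) (hub_long H)
    (fun x hx => K1 H.h1 hx) (fun x hx h => K2 H.h2 hx (by omega) h) (fun x hx h => K3 hx h)
    ?_ hS hI.lt (fun t ht => End.end_LF' ⟨hS.subperm.trans List.filter_sublist.subperm, hI.lt,
      hG.2⟩ H.h1 H.h2 (hG.1 t ht)) hO1 hO2
  intro e he
  have := level_arcs H he
  simp only [Bool.and_eq_true, Bool.not_eq_true', beq_eq_false_iff_ne, ne_eq]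
  tauto

theorem atsp_eq : T.atsp n C w = bestOf n w (Auction.assign n C (wt1 w))
      (asg2 n C w (Auction.assign n C (wt1 w)))
      (colOf n (Auction.assign n C (wt1 w)) (asg2 n C w (Auction.assign n C (wt1 w)))) := by
  unfold T.atsp T.atspOf1 T.atspOf
  rfl

theorem atsp_spec (hC : ∀ i j, w i j ≤ C) (l : List ℕ) (hl : l.Nodup) (hln : ∀ x ∈ l, x < n) :
    T.atsp n C w ~ List.range n ∧ 2 * pw w l ≤ 3 * pw w (T.atsp n C w) := by
  rw [atsp_eq]
  have hC1 : ∀ i j, wt1 w i j ≤ C := wt1_le hC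
  have h1 : Auction.assign n C (wt1 w) ~ List.range n := Auction.assign_perm hC1
  exact best_spec (hub_of hC h1) (fun q hq => Auction.assign_max_list hC1 q hq)
    (o1 hC l hl hln) (g1_v2 hC h1 l hl hln)

/-- the output is an order of all nodes -/
theorem atsp_perm (hC : ∀ i j, w i j ≤ C) : T.atsp n C w ~ List.range n :=
  (atsp_spec hC [] (by simp) (by simp)).1

/-- the output has at least `2 / 3` of the maximum weight -/
theorem atsp_links (hC : ∀ i j, w i j ≤ C) (l : List ℕ) (hl : l ~ List.range n) :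
    2 * Open.links w l ≤ 3 * Open.links w (T.atsp n C w) := by
  rw [links_eq_pw, links_eq_pw]
  exact (atsp_spec hC l (hl.nodup_iff.2 List.nodup_range)
    (fun x hx => List.mem_range.1 (hl.mem_iff.1 hx))).2

end Vale.Agent.P333.T
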