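import Vale.Agent.P333.T.Prog23
import Vale.Agent.P333.T.LF

/-!
P333, box 2/3: extension of a partial colouring at a pair whose hub is not used.
-/

namespace Vale.Agent.P333.T.Pr

open List Vale.Agent.P333.M

/-- admissible states -/
def GoodP (m : ℕ → ℕ) (S : List ((ℕ × ℕ) × ℕ)) : Prop :=
  (∀ t < 3, LF (cls S t)) ∧ ∀ a ∈ S, ∀ b ∈ S, ¬ (a.2 = b.2 ∧ b.1.1 = m a.1.2)

/-- the arcs `A` can be coloured -/
def Ext (m : ℕ → ℕ) (S : List ((ℕ × ℕ) × ℕ)) (A : List (ℕ × ℕ)) : Prop :=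
  ∃ N : List ((ℕ × ℕ) × ℕ), N.map Prod.fst = A ∧ (∀ a ∈ N, a.2 < 3) ∧ GoodP m (N ++ S)

theorem cls_append (S S' : List ((ℕ × ℕ) × ℕ)) (t : ℕ) : cls (S ++ S') t = cls S t ++ cls S' t := by
  simp [cls]

theorem mem_cls {S : List ((ℕ × ℕ) × ℕ)} {t : ℕ} {e : ℕ × ℕ} : e ∈ cls S t ↔ (e, t) ∈ S := by
  unfold cls
  rw [List.mem_map]
  constructor
  · rintro ⟨a, ha, rfl⟩
    rw [List.mem_filter] at ha
    have : a.2 = t := by simpa using ha.2
    rw [← this]
    exact ha.1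
  · intro h
    exact ⟨(e, t), List.mem_filter.2 ⟨h, by simp⟩, rfl⟩

theorem GoodP.perm {m : ℕ → ℕ} {S S' : List ((ℕ × ℕ) × ℕ)} (h : S ~ S') (hS : GoodP m S) :
    GoodP m S' := by
  refine ⟨fun t ht => (hS.1 t ht).perm ?_, fun a ha b hb => hS.2 a (h.mem_iff.2 ha) b (h.mem_iff.2 hb)⟩
  exact (h.filter _).map _

theorem exists_perm_map {α β : Type*} (f : α → β) {l : List α} {k : List β} (h : l.map f ~ k) :
    ∃ l' : List α, l' ~ l ∧ l'.map f = k := by
  generalize hk : l.map f = k0 at h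
  induction h generalizing l with
  | nil => exact ⟨l, List.Perm.refl _, hk⟩
  | cons x _ ih =>
    obtain ⟨a, l1, rfl, rfl, rfl⟩ := List.map_eq_cons_iff.1 hk
    obtain ⟨l', h1, h2⟩ := ih rfl
    exact ⟨a :: l', h1.cons a, by simp [h2]⟩
  | swap x y k =>
    obtain ⟨a, l1, rfl, rfl, h1⟩ := List.map_eq_cons_iff.1 hk
    obtain ⟨b, l2, rfl, rfl, rfl⟩ := List.map_eq_cons_iff.1 h1
    exact ⟨b :: a :: l2, List.Perm.swap a b l2, by simp⟩
  | trans _ _ ih1 ih2 =>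
    obtain ⟨l1, h1, h2⟩ := ih1 hk
    obtain ⟨l2, h3, h4⟩ := ih2 h2
    exact ⟨l2, h3.trans h1, h4⟩

theorem Ext.perm {m : ℕ → ℕ} {S : List ((ℕ × ℕ) × ℕ)} {A A' : List (ℕ × ℕ)} (h : A ~ A')
    (hE : Ext m S A) : Ext m S A' := by
  obtain ⟨N, h1, h2, h3⟩ := hE
  obtain ⟨N', h4, h5⟩ := exists_perm_map Prod.fst (by rw [h1]; exact h : N.map Prod.fst ~ A')
  exact ⟨N', h5, fun a ha => h2 a (h4.mem_iff.1 ha), h3.perm ((h4.symm).append_right S)⟩

/-- arcs that restrict the colours of arcs out of `a` -/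
def grpT (m : ℕ → ℕ) (T : List (ℕ × ℕ)) (a : ℕ) : List (ℕ × ℕ) :=
  T.filter (fun e => (e.1 == a) || (m e.2 == a))

/-- arcs that restrict the colours of arcs into `b` -/
def grpH (m : ℕ → ℕ) (T : List (ℕ × ℕ)) (b : ℕ) : List (ℕ × ℕ) :=
  T.filter (fun e => (e.2 == b) || (e.1 == m b))

section Patterns

variable {F : List (ℕ × ℕ)} {u v : ℕ}

/-- `a → u → v` -/
theorem pat1 (hF : LF F) (hu : Fresh F u) (hv : Fresh F v) (huv : u ≠ v) (o : Option ℕ)
    (ho : ∀ a ∈ o, a ≠ u ∧ a ≠ v ∧ ∀ b, (a, b) ∉ F) :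
    LF ((u, v) :: (o.toList.map (fun a => (a, u)) ++ F)) := by
  have h1 : LF ((u, v) :: F) := hF.add_in hu.1 hv huv
  rcases o with _ | a
  · simpa using h1
  · obtain ⟨ha1, ha2, ha3⟩ := ho a rfl
    have h2 : LF ((a, u) :: (u, v) :: F) := by
      refine h1.add ?_ ?_ ?_
      · intro b hb
        rcases List.mem_cons.1 hb with h | h
        · exact ha1 (congrArg Prod.fst h)
        · exact ha3 b h
      · intro b hb
        rcases List.mem_cons.1 hb with h | h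
        · exact huv (congrArg Prod.snd h)
        · exact hu.2 b h
      · intro h
        rcases reach_cons h with h | ⟨-, h⟩
        · exact not_reach_of_no_out hu.1 ha1 h
        · exact not_reach_of_no_out hv.1 ha2 h
    exact h2.perm (List.Perm.swap _ _ _)

/-- `u → v → d` -/
theorem pat2 (hF : LF F) (hu : Fresh F u) (hv : Fresh F v) (huv : u ≠ v) (o : Option ℕ)
    (ho : ∀ d ∈ o, d ≠ u ∧ d ≠ v ∧ ∀ a, (a, d) ∉ F) :
    LF ((u, v) :: (o.toList.map (fun d => (v, d)) ++ F)) := by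
  rcases o with _ | d
  · simpa using hF.add_in hu.1 hv huv
  · obtain ⟨hd1, hd2, hd3⟩ := ho d rfl
    have h1 : LF ((v, d) :: F) := hF.add_out hd3 hv hd2
    refine h1.add ?_ ?_ ?_
    · intro b hb
      rcases List.mem_cons.1 hb with h | h
      · exact huv (congrArg Prod.fst h)
      · exact hu.1 b h
    · intro a ha
      rcases List.mem_cons.1 ha with h | h
      · exact hd2 (congrArg Prod.snd h).symm
      · exact hv.2 a h
    · intro h
      rcases reach_cons h with h | ⟨-, h⟩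
      · exact not_reach_of_no_out hv.1 huv h
      · exact not_reach_of_no_in hu.2 hd1 h

/-- `u → b`, `v → d` -/
theorem pat3 (hF : LF F) (hu : Fresh F u) (hv : Fresh F v) (huv : u ≠ v) (o o' : Option ℕ)
    (ho : ∀ d ∈ o, d ≠ u ∧ d ≠ v ∧ ∀ a, (a, d) ∉ F)
    (ho' : ∀ d ∈ o', d ≠ u ∧ d ≠ v ∧ ∀ a, (a, d) ∉ F) (hne : ∀ b ∈ o, ∀ d ∈ o', b ≠ d) :
    LF (o.toList.map (fun b => (u, b)) ++ (o'.toList.map (fun d => (v, d)) ++ F)) := by
  have h1 : LF (o'.toList.map (fun d => (v, d)) ++ F) := by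
    rcases o' with _ | d
    · simpa using hF
    · obtain ⟨_, hd2, hd3⟩ := ho' d rfl
      exact hF.add_out hd3 hv hd2
  rcases o with _ | b
  · simpa using h1
  · obtain ⟨hb1, hb2, hb3⟩ := ho b rfl
    refine h1.add_out ?_ ⟨?_, ?_⟩ hb1
    · intro a ha
      rcases List.mem_append.1 ha with h | h
      · rcases o' with _ | d
        · simp at h
        · simp only [Option.toList_some, List.map_cons, List.map_nil, List.mem_singleton,
            Prod.mk.injEq] at h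
          exact hne b rfl d rfl h.2
      · exact hb3 a h
    · intro a ha
      rcases List.mem_append.1 ha with h | h
      · rcases o' with _ | d
        · simp at h
        · simp only [Option.toList_some, List.map_cons, List.map_nil, List.mem_singleton,
            Prod.mk.injEq] at h
          exact huv h.1
      · exact hu.1 a h
    · intro a ha
      rcases List.mem_append.1 ha with h | h
      · rcases o' with _ | d
        · simp at h
        · simp only [Option.toList_some, List.map_cons, List.map_nil, List.mem_singleton,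
            Prod.mk.injEq] at h
          exact (ho' d rfl).1 h.2.symm
      · exact hu.2 a h

/-- `a → u`, `c → v` -/
theorem pat4 (hF : LF F) (hu : Fresh F u) (hv : Fresh F v) (huv : u ≠ v) (o o' : Option ℕ)
    (ho : ∀ a ∈ o, a ≠ u ∧ a ≠ v ∧ ∀ b, (a, b) ∉ F)
    (ho' : ∀ a ∈ o', a ≠ u ∧ a ≠ v ∧ ∀ b, (a, b) ∉ F) (hne : ∀ b ∈ o, ∀ d ∈ o', b ≠ d) :
    LF (o.toList.map (fun a => (a, u)) ++ (o'.toList.map (fun c => (c, v)) ++ F)) := by
  have h1 : LF (o'.toList.map (fun c => (c, v)) ++ F) := by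
    rcases o' with _ | d
    · simpa using hF
    · obtain ⟨_, hd2, hd3⟩ := ho' d rfl
      exact hF.add_in hd3 hv hd2
  rcases o with _ | b
  · simpa using h1
  · obtain ⟨hb1, hb2, hb3⟩ := ho b rfl
    refine h1.add_in ?_ ⟨?_, ?_⟩ hb1
    · intro a ha
      rcases List.mem_append.1 ha with h | h
      · rcases o' with _ | d
        · simp at h
        · simp only [Option.toList_some, List.map_cons, List.map_nil, List.mem_singleton,
            Prod.mk.injEq] at h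
          exact hne b rfl d rfl h.1
      · exact hb3 a h
    · intro a ha
      rcases List.mem_append.1 ha with h | h
      · rcases o' with _ | d
        · simp at h
        · simp only [Option.toList_some, List.map_cons, List.map_nil, List.mem_singleton,
            Prod.mk.injEq] at h
          exact (ho' d rfl).1 h.1.symm
      · exact hu.1 a h
    · intro a ha
      rcases List.mem_append.1 ha with h | h
      · rcases o' with _ | d
        · simp at h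
        · simp only [Option.toList_some, List.map_cons, List.map_nil, List.mem_singleton,
            Prod.mk.injEq] at h
          exact huv h.2
      · exact hu.2 a h

/-- `a → u → b`, `c → v` -/
theorem pat5 (hF : LF F) (hu : Fresh F u) (hv : Fresh F v) (huv : u ≠ v) {a b c : ℕ}
    (ha : a ≠ u ∧ a ≠ v ∧ ∀ b, (a, b) ∉ F) (hb : b ≠ u ∧ b ≠ v ∧ ∀ a, (a, b) ∉ F)
    (hc : c ≠ u ∧ c ≠ v ∧ ∀ b, (c, b) ∉ F) (hac : a ≠ c) (hr : ¬ Reach F b a) :
    LF ((a, u) :: (u, b) :: (c, v) :: F) := by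
  have h1 : LF ((a, u) :: (u, b) :: F) := hF.add_both ha.2.2 hb.2.2 hu ha.1 hb.1 hr
  have h2 : LF ((c, v) :: (a, u) :: (u, b) :: F) := by
    refine h1.add_in ?_ ⟨?_, ?_⟩ hc.2.1
    · intro x hx
      rcases List.mem_cons.1 hx with h | hx
      · exact hac (congrArg Prod.fst h).symm
      rcases List.mem_cons.1 hx with h | hx
      · exact hc.1 (congrArg Prod.fst h)
      · exact hc.2.2 x hx
    · intro x hx
      rcases List.mem_cons.1 hx with h | hx
      · exact ha.2.1 (congrArg Prod.fst h).symm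
      rcases List.mem_cons.1 hx with h | hx
      · exact huv (congrArg Prod.fst h).symm
      · exact hv.1 x hx
    · intro x hx
      rcases List.mem_cons.1 hx with h | hx
      · exact huv (congrArg Prod.snd h).symm
      rcases List.mem_cons.1 hx with h | hx
      · exact hb.2.1 (congrArg Prod.snd h).symm
      · exact hv.2 x hx
  refine h2.perm ?_
  exact (List.Perm.swap _ _ _).trans ((List.Perm.swap _ _ _).cons _)

/-- `c → v → u → b` -/
theorem pat6 (hF : LF F) (hu : Fresh F u) (hv : Fresh F v) (huv : u ≠ v) {b c : ℕ}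
    (hb : b ≠ u ∧ b ≠ v ∧ ∀ a, (a, b) ∉ F)
    (hc : c ≠ u ∧ c ≠ v ∧ ∀ b, (c, b) ∉ F) (hr : ¬ Reach F b c) :
    LF ((v, u) :: (u, b) :: (c, v) :: F) := by
  have h1 : LF ((v, u) :: (u, b) :: F) := by
    have := pat2 hF hv hu huv.symm (some b) (fun d hd => by
      obtain rfl : b = d := by simpa using hd
      exact ⟨hb.2.1, hb.1, hb.2.2⟩)
    simpa using this
  have h2 : LF ((c, v) :: (v, u) :: (u, b) :: F) := by
    refine h1.add ?_ ?_ ?_
    · intro x hx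
      rcases List.mem_cons.1 hx with h | hx
      · exact hc.2.1 (congrArg Prod.fst h)
      rcases List.mem_cons.1 hx with h | hx
      · exact hc.1 (congrArg Prod.fst h)
      · exact hc.2.2 x hx
    · intro x hx
      rcases List.mem_cons.1 hx with h | hx
      · exact huv (congrArg Prod.snd h).symm
      rcases List.mem_cons.1 hx with h | hx
      · exact hb.2.1 (congrArg Prod.snd h).symm
      · exact hv.2 x hx
    · intro h
      have hvout : ¬ Reach ((u, b) :: F) v c := by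
        intro h
        rcases reach_cons h with h | ⟨h, -⟩
        · exact not_reach_of_no_out hv.1 hc.2.1 h
        · exact not_reach_of_no_out hv.1 huv h
      have huout : ¬ Reach ((u, b) :: F) u c := by
        intro h
        rcases reach_cons h with h | ⟨-, h⟩
        · exact not_reach_of_no_out hu.1 hc.1 h
        · exact hr h
      rcases reach_cons h with h | ⟨-, h⟩
      · exact hvout h
      · exact huout h
  refine h2.perm ?_
  exact (List.Perm.swap _ _ _).trans ((List.Perm.swap _ _ _).cons _)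

/-- `a → u`, `v → d` -/
theorem pat7 (hF : LF F) (hu : Fresh F u) (hv : Fresh F v) (huv : u ≠ v) {a d : ℕ}
    (ha : a ≠ u ∧ a ≠ v ∧ ∀ b, (a, b) ∉ F) (hd : d ≠ u ∧ d ≠ v ∧ ∀ a, (a, d) ∉ F) :
    LF ((a, u) :: (v, d) :: F) := by
  have h1 : LF ((v, d) :: F) := hF.add_out hd.2.2 hv hd.2.1
  refine h1.add_in ?_ ⟨?_, ?_⟩ ha.1
  · intro x hx
    rcases List.mem_cons.1 hx with h | hx
    · exact ha.2.1 (congrArg Prod.fst h)
    · exact ha.2.2 x hx
  · intro x hx
    rcases List.mem_cons.1 hx with h | hx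
    · exact huv (congrArg Prod.fst h)
    · exact hu.1 x hx
  · intro x hx
    rcases List.mem_cons.1 hx with h | hx
    · exact hd.1 (congrArg Prod.snd h).symm
    · exact hu.2 x hx

end Patterns

/-- the new arcs -/
def newA (u v : ℕ) (iU oU iV oV : Option ℕ) : List (ℕ × ℕ) :=
  (u, v) :: (v, u) :: (iU.toList.map (fun a => (a, u)) ++ (oU.toList.map (fun b => (u, b)) ++
    (iV.toList.map (fun c => (c, v)) ++ oV.toList.map (fun d => (v, d)))))

/-- the new arcs, coloured -/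
def newN (u v : ℕ) (iU oU iV oV : Option ℕ) (t1 t2 p q r s : ℕ) : List ((ℕ × ℕ) × ℕ) :=
  ((u, v), t1) :: ((v, u), t2) :: (iU.toList.map (fun a => ((a, u), p)) ++
    (oU.toList.map (fun b => ((u, b), q)) ++
    (iV.toList.map (fun c => ((c, v), r)) ++ oV.toList.map (fun d => ((v, d), s)))))

theorem newN_fst (u v : ℕ) (iU oU iV oV : Option ℕ) (t1 t2 p q r s : ℕ) :
    (newN u v iU oU iV oV t1 t2 p q r s).map Prod.fst = newA u v iU oU iV oV := by
  simp [newN, newA, List.map_append, List.map_map, Function.comp_def]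

theorem mem_newN {u v : ℕ} {iU oU iV oV : Option ℕ} {t1 t2 p q r s : ℕ} {x : (ℕ × ℕ) × ℕ} :
    x ∈ newN u v iU oU iV oV t1 t2 p q r s ↔ x = ((u, v), t1) ∨ x = ((v, u), t2) ∨
      (∃ a ∈ iU, x = ((a, u), p)) ∨ (∃ b ∈ oU, x = ((u, b), q)) ∨ (∃ c ∈ iV, x = ((c, v), r)) ∨
      ∃ d ∈ oV, x = ((v, d), s) := by
  unfold newN
  simp only [List.mem_cons, List.mem_append, List.mem_map, Option.mem_toList]
  constructor
  · rintro (h | h | ⟨a, h1, h2⟩ | ⟨a, h1, h2⟩ | ⟨a, h1, h2⟩ | ⟨a, h1, h2⟩)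
    · exact Or.inl h
    · exact Or.inr (Or.inl h)
    · exact Or.inr (Or.inr (Or.inl ⟨a, h1, h2.symm⟩))
    · exact Or.inr (Or.inr (Or.inr (Or.inl ⟨a, h1, h2.symm⟩)))
    · exact Or.inr (Or.inr (Or.inr (Or.inr (Or.inl ⟨a, h1, h2.symm⟩))))
    · exact Or.inr (Or.inr (Or.inr (Or.inr (Or.inr ⟨a, h1, h2.symm⟩))))
  · rintro (h | h | ⟨a, h1, h2⟩ | ⟨a, h1, h2⟩ | ⟨a, h1, h2⟩ | ⟨a, h1, h2⟩)
    · exact Or.inl h
    · exact Or.inr (Or.inl h)
    · exact Or.inr (Or.inr (Or.inl ⟨a, h1, h2.symm⟩))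
    · exact Or.inr (Or.inr (Or.inr (Or.inl ⟨a, h1, h2.symm⟩)))
    · exact Or.inr (Or.inr (Or.inr (Or.inr (Or.inl ⟨a, h1, h2.symm⟩))))
    · exact Or.inr (Or.inr (Or.inr (Or.inr (Or.inr ⟨a, h1, h2.symm⟩))))

section Thin

variable {m : ℕ → ℕ} {S : List ((ℕ × ℕ) × ℕ)} {u v : ℕ} {iU oU iV oV : Option ℕ}
  {t1 t2 p q r s : ℕ}

theorem thin_new (hS : ∀ a ∈ S, ∀ b ∈ S, ¬ (a.2 = b.2 ∧ b.1.1 = m a.1.2))
    (hmu : ∀ x, m x ≠ u ∧ m x ≠ v)
    (hma : ∀ a ∈ iU, a ≠ m u ∧ a ≠ m v) (hmc : ∀ c ∈ iV, c ≠ m u ∧ c ≠ m v)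
    (hmS : ∀ e ∈ S, e.1.1 ≠ m u ∧ e.1.1 ≠ m v)
    (hp : ∀ a ∈ iU, ∀ e ∈ S, (e.1.1 = a ∨ m e.1.2 = a) → e.2 ≠ p)
    (hr : ∀ c ∈ iV, ∀ e ∈ S, (e.1.1 = c ∨ m e.1.2 = c) → e.2 ≠ r)
    (hq : ∀ b ∈ oU, ∀ e ∈ S, (e.1.2 = b ∨ e.1.1 = m b) → e.2 ≠ q)
    (hs : ∀ d ∈ oV, ∀ e ∈ S, (e.1.2 = d ∨ e.1.1 = m d) → e.2 ≠ s)
    (hpq : ∀ a ∈ iU, ∀ b ∈ oU, a = m b → p ≠ q) (hps : ∀ a ∈ iU, ∀ b ∈ oV, a = m b → p ≠ s)
    (hrq : ∀ a ∈ iV, ∀ b ∈ oU, a = m b → r ≠ q) (hrs : ∀ a ∈ iV, ∀ b ∈ oV, a = m b → r ≠ s) :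
    ∀ x ∈ newN u v iU oU iV oV t1 t2 p q r s ++ S,
      ∀ y ∈ newN u v iU oU iV oV t1 t2 p q r s ++ S, ¬ (x.2 = y.2 ∧ y.1.1 = m x.1.2) := by
  rintro x hx y hy ⟨h1, h2⟩
  have hy' : (∃ a ∈ iU, y = ((a, u), p)) ∨ (∃ c ∈ iV, y = ((c, v), r)) ∨ y ∈ S := by
    rcases List.mem_append.1 hy with h | h
    · rcases mem_newN.1 h with rfl | rfl | ⟨a, ha, rfl⟩ | ⟨a, ha, rfl⟩ | ⟨a, ha, rfl⟩ | ⟨a, ha, rfl⟩
      · exact absurd h2.symm (hmu _).1
      · exact absurd h2.symm (hmu _).2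
      · exact Or.inl ⟨a, ha, rfl⟩
      · exact absurd h2.symm (hmu _).1
      · exact Or.inr (Or.inl ⟨a, ha, rfl⟩)
      · exact absurd h2.symm (hmu _).2
    · exact Or.inr (Or.inr h)
  have hyt : y.1.1 ≠ m u ∧ y.1.1 ≠ m v := by
    rcases hy' with ⟨a, ha, rfl⟩ | ⟨a, ha, rfl⟩ | h
    · exact hma a ha
    · exact hmc a ha
    · exact hmS y h
  rcases List.mem_append.1 hx with h | h
  · rcases mem_newN.1 h with rfl | rfl | ⟨a, ha, rfl⟩ | ⟨b, hb, rfl⟩ | ⟨a, ha, rfl⟩ | ⟨d, hd, rfl⟩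
    · exact hyt.2 h2
    · exact hyt.1 h2
    · exact hyt.1 h2
    · rcases hy' with ⟨a, ha, rfl⟩ | ⟨a, ha, rfl⟩ | h
      · exact hpq a ha b hb h2 h1.symm
      · exact hrq a ha b hb h2 h1.symm
      · exact hq b hb y h (Or.inr h2) h1.symm
    · exact hyt.2 h2
    · rcases hy' with ⟨a, ha, rfl⟩ | ⟨a, ha, rfl⟩ | h
      · exact hps a ha d hd h2 h1.symm
      · exact hrs a ha d hd h2 h1.symm
      · exact hs d hd y h (Or.inr h2) h1.symm
  · rcases hy' with ⟨a, ha, rfl⟩ | ⟨a, ha, rfl⟩ | h'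
    · exact hp a ha x h (Or.inr h2.symm) h1
    · exact hr a ha x h (Or.inr h2.symm) h1
    · exact hS x h y h' ⟨h1, h2⟩

end Thin

/-- the forbidden colour -/
theorem forb (p : ℕ × ℕ → Bool) (A : List (ℕ × ℕ)) (S : List ((ℕ × ℕ) × ℕ))
    (hS : ∀ e ∈ S, e.2 < 3) (h : ((A ++ S.map Prod.fst).filter p).length ≤ 2) {g : ℕ × ℕ}
    (hg : g ∈ A) (hpg : p g = true) :
    ∃ i : Fin 4, (∀ e ∈ S, p e.1 = true → e.2 = i.val) ∧
      (i ≠ 3 → ∀ g' ∈ A, p g' = true → g' = g) := by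
  by_cases hex : ∃ e ∈ S, p e.1 = true
  · obtain ⟨e, he, hpe⟩ := hex
    have h3 := hS e he
    refine ⟨⟨e.2, by omega⟩, ?_, ?_⟩
    · intro e' he' hpe'
      show e'.2 = e.2
      have hl : (S.filter (fun x => p x.1)).length ≤ 1 := by
        have h1 : ((S.map Prod.fst).filter p).length = (S.filter (fun x => p x.1)).length := by
          rw [List.filter_map, List.length_map]
          rfl
        have h2 : 0 < (A.filter p).length :=
          List.length_pos_of_mem (List.mem_filter.2 ⟨hg, hpg⟩)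
        rw [List.filter_append, List.length_append, h1] at h
        omega
      have m1 : e ∈ S.filter (fun x => p x.1) := List.mem_filter.2 ⟨he, hpe⟩
      have m2 : e' ∈ S.filter (fun x => p x.1) := List.mem_filter.2 ⟨he', hpe'⟩
      rcases hL : S.filter (fun x => p x.1) with _ | ⟨a, _ | ⟨b, l⟩⟩
      · rw [hL] at m1; simp at m1
      · rw [hL] at m1 m2
        simp only [List.mem_singleton] at m1 m2
        rw [m1, m2]
      · rw [hL] at hl
        simp at hl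
    · intro _ g' hg' hpg'
      by_contra hne
      have h1 : 0 < ((S.map Prod.fst).filter p).length :=
        List.length_pos_of_mem (List.mem_filter.2 ⟨List.mem_map_of_mem he, hpe⟩)
      have h2 : 2 ≤ (A.filter p).length := by
        have m1 : g ∈ A.filter p := List.mem_filter.2 ⟨hg, hpg⟩
        have m2 : g' ∈ A.filter p := List.mem_filter.2 ⟨hg', hpg'⟩
        rcases hL : A.filter p with _ | ⟨a, _ | ⟨b, l⟩⟩
        · rw [hL] at m1; simp at m1
        · rw [hL] at m1 m2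
          simp only [List.mem_singleton] at m1 m2
          exact absurd (m2.trans m1.symm) hne
        · simp
      rw [List.filter_append, List.length_append] at h
      omega
  · push Not at hex
    refine ⟨3, ?_, ?_⟩
    · intro e he hpe
      exact absurd hpe (hex e he)
    · intro h
      exact absurd rfl h

theorem choose_colours : ∀ iu iv ou ov : Fin 4,
    (iu = iv ∧ iv = ou ∧ ou = ov ∧ iu ≠ 3) ∨
      ∃ t0 t1 t2 : Fin 3, (t0 ≠ t1 ∧ t0 ≠ t2 ∧ t1 ≠ t2) ∧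
        ((t0.val ≠ ou.val ∧ t0.val ≠ ov.val ∧ t1.val ≠ iu.val ∧ t2.val ≠ iv.val) ∨
          (t0.val ≠ iu.val ∧ t0.val ≠ iv.val ∧ t2.val ≠ ou.val ∧ t1.val ≠ ov.val)) := by
  decide

theorem fin3_cases : ∀ t0 t1 t2 : Fin 3, (t0 ≠ t1 ∧ t0 ≠ t2 ∧ t1 ≠ t2) →
    ∀ t : Fin 3, t = t0 ∨ t = t1 ∨ t = t2 := by
  decide

theorem others : ∀ c : Fin 4, c ≠ 3 → ∃ c' a b : Fin 3, c'.val = c.val ∧ a ≠ b ∧ a ≠ c' ∧ b ≠ c' := by
  decide

theorem cls_const {α : Type*} (l : List α) (f : α → ℕ × ℕ) (p t : ℕ) :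
    cls (l.map (fun a => (f a, p))) t = if p = t then l.map f else [] := by
  unfold cls
  rw [List.filter_map]
  by_cases h : p = t
  · rw [if_pos h]
    have : l.filter ((fun a : (ℕ × ℕ) × ℕ => a.2 == t) ∘ fun a => (f a, p)) = l := by
      apply List.filter_eq_self.2
      intro a _
      simp [h]
    rw [this, List.map_map]
    rfl
  · rw [if_neg h]
    have : l.filter ((fun a : (ℕ × ℕ) × ℕ => a.2 == t) ∘ fun a => (f a, p)) = [] := by
      apply List.filter_eq_nil_iff.2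
      intro a _
      simp [h]
    rw [this]
    rfl

theorem cls_cons (x : (ℕ × ℕ) × ℕ) (S : List ((ℕ × ℕ) × ℕ)) (t : ℕ) :
    cls (x :: S) t = (if x.2 = t then [x.1] else []) ++ cls S t := by
  unfold cls
  by_cases h : x.2 = t
  · simp [h]
  · simp [h]

theorem cls_newN {u v : ℕ} {iU oU iV oV : Option ℕ} {t1 t2 p q r s t : ℕ} :
    cls (newN u v iU oU iV oV t1 t2 p q r s) t =
      (if t1 = t then [(u, v)] else []) ++ ((if t2 = t then [(v, u)] else []) ++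
        ((if p = t then iU.toList.map (fun a => (a, u)) else []) ++
        ((if q = t then oU.toList.map (fun b => (u, b)) else []) ++
        ((if r = t then iV.toList.map (fun c => (c, v)) else []) ++
        (if s = t then oV.toList.map (fun d => (v, d)) else []))))) := by
  unfold newN
  rw [cls_cons, cls_cons, cls_append, cls_append, cls_append, cls_const, cls_const, cls_const,
    cls_const]

section Main

variable {m : ℕ → ℕ} {S : List ((ℕ × ℕ) × ℕ)} {u v : ℕ} {iU oU iV oV : Option ℕ}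

/-- extension at a pair whose hub is not used -/
theorem pair_ext (hS : GoodP m S) (hc : ∀ e ∈ S, e.2 < 3) (huv : u ≠ v)
    (hfr : ∀ e ∈ S, e.1.1 ≠ u ∧ e.1.1 ≠ v ∧ e.1.2 ≠ u ∧ e.1.2 ≠ v)
    (hmu : ∀ x, m x ≠ u ∧ m x ≠ v)
    (hma : ∀ a ∈ iU, a ≠ m u ∧ a ≠ m v) (hmc : ∀ c ∈ iV, c ≠ m u ∧ c ≠ m v)
    (hmS : ∀ e ∈ S, e.1.1 ≠ m u ∧ e.1.1 ≠ m v)
    (hiU : ∀ a ∈ iU, a ≠ u ∧ a ≠ v) (hoU : ∀ a ∈ oU, a ≠ u ∧ a ≠ v)
    (hiV : ∀ a ∈ iV, a ≠ u ∧ a ≠ v) (hoV : ∀ a ∈ oV, a ≠ u ∧ a ≠ v)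
    (hne1 : ∀ a ∈ iU, ∀ c ∈ iV, a ≠ c) (hne2 : ∀ b ∈ oU, ∀ d ∈ oV, b ≠ d)
    (hT : ∀ a, (a ∈ iU ∨ a ∈ iV) →
      (grpT m (newA u v iU oU iV oV ++ S.map Prod.fst) a).length ≤ 2)
    (hH : ∀ b, (b ∈ oU ∨ b ∈ oV) →
      (grpH m (newA u v iU oU iV oV ++ S.map Prod.fst) b).length ≤ 2) :
    Ext m S (newA u v iU oU iV oV) := by
  -- forbidden colours
  have memA : ∀ {x : ℕ × ℕ}, x ∈ newA u v iU oU iV oV ↔ x = (u, v) ∨ x = (v, u) ∨
      (∃ a ∈ iU, x = (a, u)) ∨ (∃ b ∈ oU, x = (u, b)) ∨ (∃ c ∈ iV, x = (c, v)) ∨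
      ∃ d ∈ oV, x = (v, d) := by
    intro x
    rw [← newN_fst u v iU oU iV oV 0 0 0 0 0 0, List.mem_map]
    constructor
    · rintro ⟨y, hy, rfl⟩
      rcases mem_newN.1 hy with h | h | ⟨a, ha, h⟩ | ⟨a, ha, h⟩ | ⟨a, ha, h⟩ | ⟨a, ha, h⟩
      · rw [h]; exact Or.inl rfl
      · rw [h]; exact Or.inr (Or.inl rfl)
      · rw [h]; exact Or.inr (Or.inr (Or.inl ⟨a, ha, rfl⟩))
      · rw [h]; exact Or.inr (Or.inr (Or.inr (Or.inl ⟨a, ha, rfl⟩)))
      · rw [h]; exact Or.inr (Or.inr (Or.inr (Or.inr (Or.inl ⟨a, ha, rfl⟩))))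
      · rw [h]; exact Or.inr (Or.inr (Or.inr (Or.inr (Or.inr ⟨a, ha, rfl⟩))))
    · intro h
      refine ⟨(x, 0), mem_newN.2 ?_, rfl⟩
      rcases h with h | h | ⟨a, ha, h⟩ | ⟨a, ha, h⟩ | ⟨a, ha, h⟩ | ⟨a, ha, h⟩
      · rw [h]; exact Or.inl rfl
      · rw [h]; exact Or.inr (Or.inl rfl)
      · rw [h]; exact Or.inr (Or.inr (Or.inl ⟨a, ha, rfl⟩))
      · rw [h]; exact Or.inr (Or.inr (Or.inr (Or.inl ⟨a, ha, rfl⟩)))
      · rw [h]; exact Or.inr (Or.inr (Or.inr (Or.inr (Or.inl ⟨a, ha, rfl⟩))))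
      · rw [h]; exact Or.inr (Or.inr (Or.inr (Or.inr (Or.inr ⟨a, ha, rfl⟩))))
  -- in-arcs
  have hin : ∀ (o : Option ℕ) (x : ℕ), (∀ a ∈ o, (a ∈ iU ∨ a ∈ iV) ∧ a ≠ u ∧ a ≠ v ∧
      (a, x) ∈ newA u v iU oU iV oV) →
      ∃ i : Fin 4, (∀ a ∈ o, ∀ e ∈ S, (e.1.1 = a ∨ m e.1.2 = a) → e.2 = i.val) ∧
        (i ≠ 3 → ∃ a, o = some a ∧ (∀ b ∈ oU, a ≠ m b) ∧ ∀ d ∈ oV, a ≠ m d) := by
    intro o x ho
    rcases o with _ | a
    · exact ⟨3, fun a ha => by simp at ha, fun h => absurd rfl h⟩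
    · obtain ⟨h1, h2, h3, h4⟩ := ho a rfl
      obtain ⟨i, hi1, hi2⟩ := forb (fun e => (e.1 == a) || (m e.2 == a))
        (newA u v iU oU iV oV) S hc (hT a h1) h4 (by simp)
      refine ⟨i, ?_, ?_⟩
      · intro a' ha' e he hor
        obtain rfl : a = a' := by simpa using ha'
        refine hi1 e he ?_
        simpa using hor
      · intro hi
        refine ⟨a, rfl, ?_, ?_⟩
        · intro b hb hab
          have := hi2 hi (u, b) (memA.2 (Or.inr (Or.inr (Or.inr (Or.inl ⟨b, hb, rfl⟩)))))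
            (by simp [hab])
          exact h2 (congrArg Prod.fst this).symm
        · intro b hb hab
          have := hi2 hi (v, b) (memA.2 (Or.inr (Or.inr (Or.inr (Or.inr (Or.inr ⟨b, hb, rfl⟩))))))
            (by simp [hab])
          exact h3 (congrArg Prod.fst this).symm
  have hout : ∀ (o : Option ℕ) (x : ℕ), (∀ a ∈ o, (a ∈ oU ∨ a ∈ oV) ∧ a ≠ u ∧ a ≠ v ∧
      (x, a) ∈ newA u v iU oU iV oV) →
      ∃ i : Fin 4, (∀ a ∈ o, ∀ e ∈ S, (e.1.2 = a ∨ e.1.1 = m a) → e.2 = i.val) ∧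
        (i ≠ 3 → ∃ a, o = some a) := by
    intro o x ho
    rcases o with _ | a
    · exact ⟨3, fun a ha => by simp at ha, fun h => absurd rfl h⟩
    · obtain ⟨h1, h2, h3, h4⟩ := ho a rfl
      obtain ⟨i, hi1, -⟩ := forb (fun e => (e.2 == a) || (e.1 == m a))
        (newA u v iU oU iV oV) S hc (hH a h1) h4 (by simp)
      refine ⟨i, ?_, fun _ => ⟨a, rfl⟩⟩
      intro a' ha' e he hor
      obtain rfl : a = a' := by simpa using ha'
      refine hi1 e he ?_
      simpa using hor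
  obtain ⟨iu, hiu1, hiu2⟩ := hin iU u (fun a ha => ⟨Or.inl ha, (hiU a ha).1, (hiU a ha).2,
    memA.2 (Or.inr (Or.inr (Or.inl ⟨a, ha, rfl⟩)))⟩)
  obtain ⟨iv, hiv1, hiv2⟩ := hin iV v (fun a ha => ⟨Or.inr ha, (hiV a ha).1, (hiV a ha).2,
    memA.2 (Or.inr (Or.inr (Or.inr (Or.inr (Or.inl ⟨a, ha, rfl⟩)))))⟩)
  obtain ⟨ou, hou1, hou2⟩ := hout oU u (fun a ha => ⟨Or.inl ha, (hoU a ha).1, (hoU a ha).2,
    memA.2 (Or.inr (Or.inr (Or.inr (Or.inl ⟨a, ha, rfl⟩))))⟩)
  obtain ⟨ov, hov1, hov2⟩ := hout oV v (fun a ha => ⟨Or.inr ha, (hoV a ha).1, (hoV a ha).2,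
    memA.2 (Or.inr (Or.inr (Or.inr (Or.inr (Or.inr ⟨a, ha, rfl⟩)))))⟩)
  -- freshness
  have hfu : ∀ t, Fresh (cls S t) u := fun t =>
    ⟨fun b hb => (hfr _ (mem_cls.1 hb)).1 rfl, fun a ha => (hfr _ (mem_cls.1 ha)).2.2.1 rfl⟩
  have hfv : ∀ t, Fresh (cls S t) v := fun t =>
    ⟨fun b hb => (hfr _ (mem_cls.1 hb)).2.1 rfl, fun a ha => (hfr _ (mem_cls.1 ha)).2.2.2 rfl⟩
  -- far ends
  have fiU : ∀ t : ℕ, t ≠ iu.val → ∀ a ∈ iU, a ≠ u ∧ a ≠ v ∧ ∀ b, (a, b) ∉ cls S t :=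
    fun t ht a ha => ⟨(hiU a ha).1, (hiU a ha).2, fun b hb =>
      ht (hiu1 a ha _ (mem_cls.1 hb) (Or.inl rfl))⟩
  have fiV : ∀ t : ℕ, t ≠ iv.val → ∀ a ∈ iV, a ≠ u ∧ a ≠ v ∧ ∀ b, (a, b) ∉ cls S t :=
    fun t ht a ha => ⟨(hiV a ha).1, (hiV a ha).2, fun b hb =>
      ht (hiv1 a ha _ (mem_cls.1 hb) (Or.inl rfl))⟩
  have foU : ∀ t : ℕ, t ≠ ou.val → ∀ a ∈ oU, a ≠ u ∧ a ≠ v ∧ ∀ b, (b, a) ∉ cls S t :=
    fun t ht a ha => ⟨(hoU a ha).1, (hoU a ha).2, fun b hb =>
      ht (hou1 a ha _ (mem_cls.1 hb) (Or.inl rfl))⟩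
  have foV : ∀ t : ℕ, t ≠ ov.val → ∀ a ∈ oV, a ≠ u ∧ a ≠ v ∧ ∀ b, (b, a) ∉ cls S t :=
    fun t ht a ha => ⟨(hoV a ha).1, (hoV a ha).2, fun b hb =>
      ht (hov1 a ha _ (mem_cls.1 hb) (Or.inl rfl))⟩
  -- the thin condition for given colours
  have thin : ∀ t1 t2 p q r s : ℕ, p ≠ iu.val → r ≠ iv.val → q ≠ ou.val → s ≠ ov.val →
      ((iu ≠ 3 ∧ iv ≠ 3) ∨ (p ≠ q ∧ p ≠ s ∧ r ≠ q ∧ r ≠ s)) →
      ∀ x ∈ newN u v iU oU iV oV t1 t2 p q r s ++ S,
        ∀ y ∈ newN u v iU oU iV oV t1 t2 p q r s ++ S, ¬ (x.2 = y.2 ∧ y.1.1 = m x.1.2) := by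
    intro t1 t2 p q r s h1 h2 h3 h4 h5
    refine thin_new hS.2 hmu hma hmc hmS ?_ ?_ ?_ ?_ ?_ ?_ ?_ ?_
    · intro a ha e he hor heq
      exact h1 (heq.symm.trans (hiu1 a ha e he hor))
    · intro a ha e he hor heq
      exact h2 (heq.symm.trans (hiv1 a ha e he hor))
    · intro a ha e he hor heq
      exact h3 (heq.symm.trans (hou1 a ha e he hor))
    · intro a ha e he hor heq
      exact h4 (heq.symm.trans (hov1 a ha e he hor))
    · intro a ha b hb hab
      rcases h5 with h5 | h5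
      · obtain ⟨a', ha', hb1, -⟩ := hiu2 h5.1
        rw [ha'] at ha
        obtain rfl : a' = a := by simpa using ha
        exact absurd hab (hb1 b hb)
      · exact h5.1
    · intro a ha b hb hab
      rcases h5 with h5 | h5
      · obtain ⟨a', ha', -, hb1⟩ := hiu2 h5.1
        rw [ha'] at ha
        obtain rfl : a' = a := by simpa using ha
        exact absurd hab (hb1 b hb)
      · exact h5.2.1
    · intro a ha b hb hab
      rcases h5 with h5 | h5
      · obtain ⟨a', ha', hb1, -⟩ := hiv2 h5.2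
        rw [ha'] at ha
        obtain rfl : a' = a := by simpa using ha
        exact absurd hab (hb1 b hb)
      · exact h5.2.2.1
    · intro a ha b hb hab
      rcases h5 with h5 | h5
      · obtain ⟨a', ha', -, hb1⟩ := hiv2 h5.2
        rw [ha'] at ha
        obtain rfl : a' = a := by simpa using ha
        exact absurd hab (hb1 b hb)
      · exact h5.2.2.2
  -- assembly
  have key : ∀ (t0 t1 t2 : Fin 3) (p q r s : ℕ), (t0 ≠ t1 ∧ t0 ≠ t2 ∧ t1 ≠ t2) →
      (p < 3 ∧ q < 3 ∧ r < 3 ∧ s < 3) →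
      p ≠ iu.val → r ≠ iv.val → q ≠ ou.val → s ≠ ov.val →
      ((iu ≠ 3 ∧ iv ≠ 3) ∨ (p ≠ q ∧ p ≠ s ∧ r ≠ q ∧ r ≠ s)) →
      LF (cls (newN u v iU oU iV oV t1 t2 p q r s) t0 ++ cls S t0) →
      LF (cls (newN u v iU oU iV oV t1 t2 p q r s) t1 ++ cls S t1) →
      LF (cls (newN u v iU oU iV oV t1 t2 p q r s) t2 ++ cls S t2) →
      Ext m S (newA u v iU oU iV oV) := by
    intro t0 t1 t2 p q r s hd hlt h1 h2 h3 h4 h5 hL0 hL1 hL2
    refine ⟨newN u v iU oU iV oV t1 t2 p q r s, newN_fst _ _ _ _ _ _ _ _ _ _ _ _, ?_, ?_,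
      thin _ _ _ _ _ _ h1 h2 h3 h4 h5⟩
    · intro x hx
      rcases mem_newN.1 hx with rfl | rfl | ⟨a, ha, rfl⟩ | ⟨b, hb, rfl⟩ | ⟨a, ha, rfl⟩ | ⟨d, hd, rfl⟩
      · exact t1.2
      · exact t2.2
      · exact hlt.1
      · exact hlt.2.1
      · exact hlt.2.2.1
      · exact hlt.2.2.2
    · intro t ht
      rw [cls_append]
      rcases fin3_cases t0 t1 t2 hd ⟨t, ht⟩ with h | h | h
      · have : t = t0.val := congrArg Fin.val h
        rw [this]; exact hL0
      · have : t = t1.val := congrArg Fin.val h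
        rw [this]; exact hL1
      · have : t = t2.val := congrArg Fin.val h
        rw [this]; exact hL2
  rcases choose_colours iu iv ou ov with ⟨e1, e2, e3, hne3⟩ | ⟨t0, t1, t2, hd, hA | hB⟩
  · -- all four forbidden colours are equal
    obtain ⟨a, rfl, -, -⟩ := hiu2 hne3
    obtain ⟨c, rfl, -, -⟩ := hiv2 (e1 ▸ hne3)
    obtain ⟨b, rfl⟩ := hou2 (e2 ▸ e1 ▸ hne3)
    obtain ⟨d, rfl⟩ := hov2 (e3 ▸ e2 ▸ e1 ▸ hne3)
    obtain ⟨z, x, y, hz, hxy, hxz, hyz⟩ := others iu hne3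
    have hxu : x.val ≠ iu.val := fun h => hxz (Fin.ext (h.trans hz.symm))
    have hyu : y.val ≠ iu.val := fun h => hyz (Fin.ext (h.trans hz.symm))
    have hxv : x.val ≠ iv.val := e1 ▸ hxu
    have hyv : y.val ≠ iv.val := e1 ▸ hyu
    have hxo : x.val ≠ ou.val := e2 ▸ hxv
    have hyo : y.val ≠ ou.val := e2 ▸ hyv
    have hxw : x.val ≠ ov.val := e3 ▸ hxo
    have hyw : y.val ≠ ov.val := e3 ▸ hyo
    have nxy : x.val ≠ y.val := fun h => hxy (Fin.ext h)
    have nxz : x.val ≠ z.val := fun h => hxz (Fin.ext h)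
    have nyz : y.val ≠ z.val := fun h => hyz (Fin.ext h)
    have ha := fiU x.val hxu a rfl
    have hb := foU x.val hxo b rfl
    have hcc := fiV x.val hxv c rfl
    have hac : a ≠ c := hne1 a rfl c rfl
    by_cases hreach : Reach (cls S x.val) b a
    · -- Y: vu, in v, out u get x; in u, out v get y; uv gets z
      have hr' : ¬ Reach (cls S x.val) b c := fun h =>
        hac (ends_unique (hS.1 _ x.2).1 hreach h ha.2.2 hcc.2.2)
      refine key y z x y.val x.val x.val y.val ⟨hyz, hxy.symm, fun h => hxz h.symm⟩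
        ⟨y.2, x.2, x.2, y.2⟩ hyu hxv hxo hyw (Or.inl ⟨hne3, e1 ▸ hne3⟩) ?_ ?_ ?_
      · rw [cls_newN]
        simp only [if_neg nyz.symm, if_neg nxy, if_true, Option.toList_some, List.map_cons,
          List.map_nil, List.nil_append, List.append_nil, List.cons_append]
        exact pat7 (hS.1 _ y.2) (hfu _) (hfv _) huv (fiU y.val hyu a rfl) (foV y.val hyw d rfl)
      · rw [cls_newN]
        simp only [if_neg nyz, if_neg nxz, if_true,
          List.nil_append, List.append_nil, List.cons_append]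
        exact pat1 (hS.1 _ z.2) (hfu _) (hfv _) huv none (fun a ha => by simp at ha)
      · rw [cls_newN]
        simp only [if_neg nxz.symm, if_neg nxy.symm, if_true, Option.toList_some, List.map_cons,
          List.map_nil, List.nil_append, List.append_nil, List.cons_append]
        exact pat6 (hS.1 _ x.2) (hfu _) (hfv _) huv hb hcc hr'
    · -- X: in u, out u, in v get x; uv, out v get y; vu gets z
      refine key x y z x.val x.val x.val y.val ⟨hxy, hxz, hyz⟩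
        ⟨x.2, x.2, x.2, y.2⟩ hxu hxv hxo hyw (Or.inl ⟨hne3, e1 ▸ hne3⟩) ?_ ?_ ?_
      · rw [cls_newN]
        simp only [if_neg nxy.symm, if_neg nxz.symm, if_true, Option.toList_some, List.map_cons,
          List.map_nil, List.nil_append, List.append_nil, List.cons_append]
        exact pat5 (hS.1 _ x.2) (hfu _) (hfv _) huv ha hb hcc hac hreach
      · rw [cls_newN]
        simp only [if_neg nyz.symm, if_neg nxy, if_true, Option.toList_some, List.map_cons,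
          List.map_nil, List.nil_append, List.append_nil, List.cons_append]
        have := pat2 (hS.1 _ y.2) (hfu _) (hfv _) huv (some d) (foV y.val hyw)
        simpa using this
      · rw [cls_newN]
        simp only [if_neg nyz, if_neg nxz, if_true,
          List.nil_append, List.append_nil, List.cons_append]
        exact pat1 (hS.1 _ z.2) (hfv _) (hfu _) huv.symm none (fun a ha => by simp at ha)
  · -- outs t0, in u t1, in v t2
    obtain ⟨h1, h2, h3, h4⟩ := hA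
    have n01 : t0.val ≠ t1.val := fun h => hd.1 (Fin.ext h)
    have n02 : t0.val ≠ t2.val := fun h => hd.2.1 (Fin.ext h)
    have n12 : t1.val ≠ t2.val := fun h => hd.2.2 (Fin.ext h)
    refine key t0 t1 t2 t1.val t0.val t2.val t0.val hd ⟨t1.2, t0.2, t2.2, t0.2⟩ h3 h4 h1 h2
      (Or.inr ⟨n01.symm, n01.symm, n02.symm, n02.symm⟩) ?_ ?_ ?_
    · rw [cls_newN]
      simp only [if_neg n01.symm, if_neg n02.symm, if_true, List.nil_append, List.append_assoc]
      exact pat3 (hS.1 _ t0.2) (hfu _) (hfv _) huv oU oV (foU _ h1) (foV _ h2) hne2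
    · rw [cls_newN]
      simp only [if_neg n01, if_neg n12.symm, if_true, List.nil_append, List.append_nil,
        List.cons_append]
      exact pat1 (hS.1 _ t1.2) (hfu _) (hfv _) huv iU (fiU _ h3)
    · rw [cls_newN]
      simp only [if_neg n02, if_neg n12, if_true, List.nil_append, List.append_nil,
        List.cons_append]
      exact pat1 (hS.1 _ t2.2) (hfv _) (hfu _) huv.symm iV
        (fun a ha => ⟨(fiV _ h4 a ha).2.1, (fiV _ h4 a ha).1, (fiV _ h4 a ha).2.2⟩)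
  · -- ins t0, out u t2, out v t1
    obtain ⟨h1, h2, h3, h4⟩ := hB
    have n01 : t0.val ≠ t1.val := fun h => hd.1 (Fin.ext h)
    have n02 : t0.val ≠ t2.val := fun h => hd.2.1 (Fin.ext h)
    have n12 : t1.val ≠ t2.val := fun h => hd.2.2 (Fin.ext h)
    refine key t0 t1 t2 t0.val t2.val t0.val t1.val hd ⟨t0.2, t2.2, t0.2, t1.2⟩ h1 h2 h3 h4
      (Or.inr ⟨n02, n01, n02, n01⟩) ?_ ?_ ?_
    · rw [cls_newN]
      simp only [if_neg n01.symm, if_neg n02.symm, if_true, List.nil_append, List.append_nil,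
        List.append_assoc]
      exact pat4 (hS.1 _ t0.2) (hfu _) (hfv _) huv iU iV (fiU _ h1) (fiV _ h2) hne1
    · rw [cls_newN]
      simp only [if_neg n01, if_neg n12.symm, if_true, List.nil_append, List.append_nil,
        List.cons_append]
      exact pat2 (hS.1 _ t1.2) (hfu _) (hfv _) huv oV (foV _ h4)
    · rw [cls_newN]
      simp only [if_neg n02, if_neg n12, if_true, List.nil_append, List.append_nil,
        List.cons_append]
      exact pat2 (hS.1 _ t2.2) (hfv _) (hfu _) huv.symm oU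
        (fun a ha => ⟨(foU _ h3 a ha).2.1, (foU _ h3 a ha).1, (foU _ h3 a ha).2.2⟩)

end Main

end Vale.Agent.P333.T.Pr
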