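import Vale.Agent.P333.T.P
import Vale.Agent.P333.T.Fold
import Vale.Agent.P333.T.LfB
import Vale.Agent.P333.T.Chk

/-!
P333, box 2/3: from `Pr.pair_ext` to the step of the fold.
-/

namespace Vale.Agent.P333.T.Pr

open List Vale.Agent.P333.M

theorem goodP_iff {m : ℕ → ℕ} {S : List ((ℕ × ℕ) × ℕ)} : good m S = true ↔ GoodP m S := by
  rw [good_iff, lfb_iff, lfb_iff, lfb_iff]
  constructor
  · rintro ⟨⟨h0, h1, h2⟩, h3⟩
    refine ⟨?_, fun a ha b hb h => h3 a ha b hb h.1 h.2⟩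
    intro t ht
    interval_cases t
    · exact h0
    · exact h1
    · exact h2
  · rintro ⟨h, h3⟩
    exact ⟨⟨h 0 (by norm_num), h 1 (by norm_num), h 2 (by norm_num)⟩,
      fun a ha b hb h1 h2 => h3 a ha b hb ⟨h1, h2⟩⟩

theorem zip_of_map {N : List ((ℕ × ℕ) × ℕ)} {A : List (ℕ × ℕ)} (h : N.map Prod.fst = A) :
    A.zip (N.map Prod.snd) = N := by
  subst h
  induction N with
  | nil => rfl
  | cons a N ih => simp [ih]

/-- a colouring in the sense of `Pr.Ext` is a step of the fold -/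
theorem Ext.fold {E : List (ℕ × ℕ)} {m : ℕ → ℕ} {D U : List ℕ} {S : List ((ℕ × ℕ) × ℕ)}
    (hl : (newArcs E D U).length ≤ 6) (h : Ext m S (newArcs E D U)) :
    Vale.Agent.P333.T.Ext E m D U S := by
  obtain ⟨N, h1, h2, h3⟩ := h
  refine ⟨hl, N.map Prod.snd, ?_, ?_, ?_⟩
  · rw [← h1, List.length_map, List.length_map]
  · intro c hc
    obtain ⟨a, ha, rfl⟩ := List.mem_map.1 hc
    exact h2 a ha
  · rw [zip_of_map h1]
    exact goodP_iff.2 h3

theorem newA_length (u v : ℕ) (iU oU iV oV : Option ℕ) : (newA u v iU oU iV oV).length ≤ 6 := by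
  rcases iU with _ | a <;> rcases oU with _ | b <;> rcases iV with _ | c <;> rcases oV with _ | d <;>
    simp [newA]

/-- the same, from the list of the new arcs in another order -/
theorem Ext.fold' {E : List (ℕ × ℕ)} {m : ℕ → ℕ} {D U : List ℕ} {S : List ((ℕ × ℕ) × ℕ)}
    {u v : ℕ} {iU oU iV oV : Option ℕ} (hp : newArcs E D U ~ newA u v iU oU iV oV)
    (h : Ext m S (newA u v iU oU iV oV)) : Vale.Agent.P333.T.Ext E m D U S := by
  refine Ext.fold ?_ (h.perm hp.symm)
  rw [hp.length_eq]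
  exact newA_length _ _ _ _ _ _

end Vale.Agent.P333.T.Pr
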