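import Vale.Agent.P333.T.Prog23

/-!
P333, box T: every colouring of at most six arcs is `paint A c` for some `c < 729`.
-/

namespace Vale.Agent.P333.T

theorem paint_length (A : List (ℕ × ℕ)) (c : ℕ) : (paint A c).length = A.length := by
  simp [paint]

theorem paint_arcs (A : List (ℕ × ℕ)) (c : ℕ) : (paint A c).map (fun a => a.1) = A := by
  apply List.ext_getElem
  · simp [paint]
  · intro i h1 h2
    simp only [paint, List.map_map, List.getElem_map, List.getElem_range, Function.comp_apply]
    rw [List.getD_eq_getElem _ _ h2]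

theorem paint_lt (A : List (ℕ × ℕ)) (c : ℕ) : ∀ a ∈ paint A c, a.2 < 3 := by
  intro a ha
  simp only [paint, List.mem_map, List.mem_range] at ha
  obtain ⟨i, _, rfl⟩ := ha
  exact Nat.mod_lt _ (by norm_num)

theorem mem_paint (A : List (ℕ × ℕ)) (c : ℕ) : ∀ a ∈ paint A c, a.1 ∈ A := by
  intro a ha
  have h : a.1 ∈ (paint A c).map (fun a => a.1) := List.mem_map.2 ⟨a, ha, rfl⟩
  rwa [paint_arcs] at h

/-- every list of colours is reached -/
theorem paint_zip (A : List (ℕ × ℕ)) (hA : A.length ≤ 6) (cs : List ℕ)
    (hl : cs.length = A.length) (h3 : ∀ c ∈ cs, c < 3) : ∃ c < 729, paint A c = A.zip cs := by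
  have hg : ∀ i, cs.getD i 0 < 3 := by
    intro i
    by_cases hi : i < cs.length
    · rw [List.getD_eq_getElem _ _ hi]
      exact h3 _ (List.getElem_mem hi)
    · rw [List.getD_eq_default _ _ (by omega)]
      norm_num
  have g0 := hg 0
  have g1 := hg 1
  have g2 := hg 2
  have g3 := hg 3
  have g4 := hg 4
  have g5 := hg 5
  refine ⟨cs.getD 0 0 + 3 * cs.getD 1 0 + 9 * cs.getD 2 0 + 27 * cs.getD 3 0 +
    81 * cs.getD 4 0 + 243 * cs.getD 5 0, by omega, ?_⟩
  apply List.ext_getElem
  · simp [paint, hl]
  · intro i h1 h2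
    have hi : i < A.length := by simpa [paint] using h1
    have hi' : i < cs.length := by omega
    rw [List.getElem_zip]
    simp only [paint, List.getElem_map, List.getElem_range]
    rw [List.getD_eq_getElem _ _ hi, Prod.mk.injEq]
    refine ⟨rfl, ?_⟩
    rw [← List.getD_eq_getElem cs 0 hi']
    have hi6 : i < 6 := by omega
    interval_cases i
    · simp only [List.getD_cons_zero]; omega
    · simp only [List.getD_cons_succ, List.getD_cons_zero]; omega
    · simp only [List.getD_cons_succ, List.getD_cons_zero]; omega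
    · simp only [List.getD_cons_succ, List.getD_cons_zero]; omega
    · simp only [List.getD_cons_succ, List.getD_cons_zero]; omega
    · simp only [List.getD_cons_succ, List.getD_cons_zero]; omega

/-- every colouring by a function is reached -/
theorem paint_map (A : List (ℕ × ℕ)) (hA : A.length ≤ 6) (f : ℕ × ℕ → ℕ)
    (h3 : ∀ e ∈ A, f e < 3) : ∃ c < 729, paint A c = A.map (fun e => (e, f e)) := by
  obtain ⟨c, hc, h⟩ := paint_zip A hA (A.map f) (by simp) (by
    intro c hc
    obtain ⟨e, he, rfl⟩ := List.mem_map.1 hc
    exact h3 e he)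
  refine ⟨c, hc, ?_⟩
  rw [h, List.zip_map_right, List.zip_eq_zipWith, List.zipWith_self, List.map_map]
  rfl

/-- the search in `stepU` finds an admissible colouring if there is one -/
theorem find_good (A : List (ℕ × ℕ)) (m : ℕ → ℕ) (S : List ((ℕ × ℕ) × ℕ)) {c : ℕ} (hc : c < 729)
    (h : good m (paint A c ++ S) = true) :
    good m (paint A (((List.range 729).find? (fun c => good m (paint A c ++ S))).getD 0) ++ S)
      = true := by
  cases hf : (List.range 729).find? (fun c => good m (paint A c ++ S)) with
  | none =>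
    rw [List.find?_eq_none] at hf
    exact absurd h (hf c (List.mem_range.2 hc))
  | some d =>
    have := List.find?_some hf
    simpa using this

/-- the same for a colouring given by a function -/
theorem find_good_of_map (A : List (ℕ × ℕ)) (hA : A.length ≤ 6) (m : ℕ → ℕ)
    (S : List ((ℕ × ℕ) × ℕ)) (f : ℕ × ℕ → ℕ) (h3 : ∀ e ∈ A, f e < 3)
    (h : good m (A.map (fun e => (e, f e)) ++ S) = true) :
    good m (paint A (((List.range 729).find? (fun c => good m (paint A c ++ S))).getD 0) ++ S)
      = true := by
  obtain ⟨c, hc, he⟩ := paint_map A hA f h3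
  exact find_good A m S hc (by rw [he]; exact h)

/-- the same for a colouring given by a list of colours -/
theorem find_good_of_zip (A : List (ℕ × ℕ)) (hA : A.length ≤ 6) (m : ℕ → ℕ)
    (S : List ((ℕ × ℕ) × ℕ)) (cs : List ℕ) (hl : cs.length = A.length) (h3 : ∀ c ∈ cs, c < 3)
    (h : good m (A.zip cs ++ S) = true) :
    good m (paint A (((List.range 729).find? (fun c => good m (paint A c ++ S))).getD 0) ++ S)
      = true := by
  obtain ⟨c, hc, he⟩ := paint_zip A hA cs hl h3
  exact find_good A m S hc (by rw [he]; exact h)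

end Vale.Agent.P333.T
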