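import Vale.Agent.P333.T.Prog23

/-!
P333, box 2/3: the order in which the units are processed.
-/

namespace Vale.Agent.P333.T.Un

open Vale.Agent.P333.M (nx)

theorem isPair_spec {p : List ℕ} {x : ℕ} :
    isPair p x = true ↔ nx p x ≠ x ∧ nx p (nx p x) = x := by
  unfold isPair
  simp [Bool.and_eq_true]

theorem isPair_partner {p : List ℕ} {x : ℕ} (h : isPair p x = true) :
    isPair p (nx p x) = true := by
  rw [isPair_spec] at h ⊢
  rw [h.2]
  exact ⟨h.1.symm, rfl⟩

theorem isN_pair {n : ℕ} {p1 p2 : List ℕ} {x : ℕ} (h : isN n p1 p2 x = true) :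
    isPair p1 x = true := by
  unfold isN at h
  rw [Bool.and_eq_true] at h
  exact h.1

theorem isN_partner {n : ℕ} {p1 p2 : List ℕ} {x : ℕ} (h : isN n p1 p2 x = true) :
    isN n p1 p2 (nx p1 x) = true := by
  have hp := isN_pair h
  have hp' := isPair_spec.1 hp
  unfold isN at h ⊢
  rw [Bool.and_eq_true] at h ⊢
  refine ⟨isPair_partner hp, ?_⟩
  have : hub n p1 (nx p1 x) = hub n p1 x := by
    unfold hub
    rw [hp'.2, min_comm]
  rw [this]
  exact h.2

theorem root_of_pair {p1 p2 : List ℕ} {x : ℕ} (h : isPair p1 x = true) :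
    root p1 p2 x = true := by
  have h' := isPair_spec.1 h
  unfold root isLong
  simp [h'.2]

theorem pnx_lt {n : ℕ} {p : List ℕ} (h : p.Perm (List.range n)) {x : ℕ} (hx : x < n) :
    nx p x < n := by
  have hl : p.length = n := by rw [h.length_eq, List.length_range]
  have hx' : x < p.length := by omega
  have : nx p x ∈ p := by
    unfold M.nx
    rw [List.getD_eq_getElem _ _ hx']
    exact List.getElem_mem hx'
  exact List.mem_range.1 (h.mem_iff.1 this)

/-- the nodes by decreasing level -/
def nodesL (n : ℕ) (p1 p2 : List ℕ) : List ℕ :=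
  ((List.range (n + 1)).map (fun k =>
    (List.range n).filter (fun x => level n p1 p2 x == n - k))).flatten

theorem units_eq (n : ℕ) (p1 p2 : List ℕ) :
    units n p1 p2 = (nodesL n p1 p2).map (unitOf n p1 p2) := by
  unfold units nodesL
  rw [List.map_flatten, List.map_map]
  rfl

theorem mem_nodesL {n : ℕ} {p1 p2 : List ℕ} {x : ℕ} :
    x ∈ nodesL n p1 p2 ↔ x < n ∧ level n p1 p2 x ≤ n := by
  unfold nodesL
  rw [List.mem_flatten]
  constructor
  · rintro ⟨l, hl, hx⟩
    obtain ⟨k, hk, rfl⟩ := List.mem_map.1 hl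
    obtain ⟨h1, h2⟩ := List.mem_filter.1 hx
    have h3 : level n p1 p2 x = n - k := by simpa using h2
    exact ⟨List.mem_range.1 h1, by omega⟩
  · rintro ⟨h1, h2⟩
    refine ⟨_, List.mem_map.2 ⟨n - level n p1 p2 x, List.mem_range.2 (by omega), rfl⟩, ?_⟩
    refine List.mem_filter.2 ⟨List.mem_range.2 h1, ?_⟩
    have : n - (n - level n p1 p2 x) = level n p1 p2 x := by omega
    simp [this]

theorem nodesL_pairwise (n : ℕ) (p1 p2 : List ℕ) :
    (nodesL n p1 p2).Pairwise (fun x y => level n p1 p2 y ≤ level n p1 p2 x) := by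
  unfold nodesL
  rw [List.pairwise_flatten]
  constructor
  · intro l hl
    obtain ⟨k, hk, rfl⟩ := List.mem_map.1 hl
    rw [List.pairwise_iff_forall_sublist]
    intro a b hab
    have ha : a ∈ (List.range n).filter (fun x => level n p1 p2 x == n - k) :=
      hab.subset (by simp)
    have hb : b ∈ (List.range n).filter (fun x => level n p1 p2 x == n - k) :=
      hab.subset (by simp)
    have h1 : level n p1 p2 a = n - k := by simpa using (List.mem_filter.1 ha).2
    have h2 : level n p1 p2 b = n - k := by simpa using (List.mem_filter.1 hb).2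
    omega
  · rw [List.pairwise_map]
    refine List.Pairwise.imp ?_ (List.pairwise_lt_range (n := n + 1))
    intro k k' hkk x hx y hy
    have h1 : level n p1 p2 x = n - k := by simpa using (List.mem_filter.1 hx).2
    have h2 : level n p1 p2 y = n - k' := by simpa using (List.mem_filter.1 hy).2
    omega

theorem nodesL_nodup (n : ℕ) (p1 p2 : List ℕ) : (nodesL n p1 p2).Nodup := by
  unfold nodesL
  rw [List.nodup_flatten]
  constructor
  · intro l hl
    obtain ⟨k, hk, rfl⟩ := List.mem_map.1 hl
    exact List.nodup_range.filter _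
  · rw [List.pairwise_map]
    have : (List.range (n + 1)).Pairwise (fun a b => a < b ∧ a < n + 1 ∧ b < n + 1) := by
      rw [List.pairwise_iff_forall_sublist]
      intro a b hab
      have h1 := List.pairwise_iff_forall_sublist.1 (List.pairwise_lt_range (n := n + 1)) hab
      have ha : a ∈ List.range (n + 1) := hab.subset (by simp)
      have hb : b ∈ List.range (n + 1) := hab.subset (by simp)
      exact ⟨h1, List.mem_range.1 ha, List.mem_range.1 hb⟩
    refine this.imp ?_
    rintro k k' ⟨hkk, hk, hk'⟩ x hx hy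
    have h1 : level n p1 p2 x = n - k := by simpa using (List.mem_filter.1 hx).2
    have h2 : level n p1 p2 x = n - k' := by simpa using (List.mem_filter.1 hy).2
    omega

theorem mem_unitOf {n : ℕ} {p1 p2 : List ℕ} {x z : ℕ} :
    z ∈ unitOf n p1 p2 x ↔ (isN n p1 p2 x = false ∧ z = x) ∨
      (isN n p1 p2 x = true ∧ x < nx p1 x ∧ (z = x ∨ z = nx p1 x)) := by
  unfold unitOf
  by_cases h : isN n p1 p2 x = true
  · by_cases h2 : x < nx p1 x
    · simp [h, h2]
    · simp [h, h2]
  · have h' : isN n p1 p2 x = false := by simpa using h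
    simp [h']

theorem units_flatten_nodup (n : ℕ) (p1 p2 : List ℕ) : (units n p1 p2).flatten.Nodup := by
  rw [units_eq, List.nodup_flatten]
  constructor
  · intro l hl
    obtain ⟨x, hx, rfl⟩ := List.mem_map.1 hl
    unfold unitOf
    split_ifs with h1 h2
    · have := isPair_spec.1 (isN_pair h1)
      simp [this.1.symm]
    · simp
    · simp
  · rw [List.pairwise_map]
    refine (nodesL_nodup n p1 p2).imp ?_
    intro x y hxy z hz hz'
    rw [mem_unitOf] at hz hz'
    apply hxy
    rcases hz with ⟨h1, h2⟩ | ⟨h1, h2, h3⟩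
    · rcases hz' with ⟨h4, h5⟩ | ⟨h4, h5, h6⟩
      · rw [← h2, h5]
      · exfalso
        rcases h6 with h6 | h6
        · rw [← h2, h6, h4] at h1
          exact absurd h1 (by simp)
        · rw [← h2, h6, isN_partner h4] at h1
          exact absurd h1 (by simp)
    · have p3 := isPair_spec.1 (isN_pair h1)
      rcases hz' with ⟨h4, h5⟩ | ⟨h4, h5, h6⟩
      · exfalso
        rcases h3 with h3 | h3
        · rw [← h5, h3, h1] at h4
          exact absurd h4 (by simp)
        · rw [← h5, h3, isN_partner h1] at h4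
          exact absurd h4 (by simp)
      · have p4 := isPair_spec.1 (isN_pair h4)
        rcases h3 with h3 | h3
        · rcases h6 with h6 | h6
          · rw [← h3, h6]
          · exfalso
            have e1 : x = nx p1 y := by rw [← h3, h6]
            have e2 : nx p1 x = y := by rw [e1, p4.2]
            omega
        · rcases h6 with h6 | h6
          · exfalso
            have e1 : y = nx p1 x := by rw [← h6, h3]
            have e2 : nx p1 y = x := by rw [e1, p3.2]
            omega
          · have e1 : nx p1 x = nx p1 y := by rw [← h3, h6]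
            rw [← p3.2, e1, p4.2]

theorem mem_units_flatten {n : ℕ} {p1 p2 : List ℕ} (hp : p1.Perm (List.range n))
    (hr : ∀ x < n, root p1 p2 x = true → level n p1 p2 x = 0) {z : ℕ} :
    z ∈ (units n p1 p2).flatten ↔ z < n ∧ level n p1 p2 z ≤ n := by
  rw [units_eq, List.mem_flatten]
  constructor
  · rintro ⟨l, hl, hz⟩
    obtain ⟨x, hx, rfl⟩ := List.mem_map.1 hl
    obtain ⟨h1, h2⟩ := mem_nodesL.1 hx
    rcases mem_unitOf.1 hz with ⟨_, rfl⟩ | ⟨h3, _, rfl | rfl⟩
    · exact ⟨h1, h2⟩
    · exact ⟨h1, h2⟩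
    · have h4 := pnx_lt hp h1
      refine ⟨h4, ?_⟩
      rw [hr _ h4 (root_of_pair (isPair_partner (isN_pair h3)))]
      omega
  · rintro ⟨h1, h2⟩
    by_cases h : isN n p1 p2 z = true
    · have h3 := isPair_spec.1 (isN_pair h)
      rcases lt_or_gt_of_ne h3.1 with h4 | h4
      · refine ⟨_, List.mem_map.2 ⟨nx p1 z, mem_nodesL.2 ⟨pnx_lt hp h1, ?_⟩, rfl⟩, ?_⟩
        · rw [hr _ (pnx_lt hp h1) (root_of_pair (isPair_partner (isN_pair h)))]
          omega
        · rw [mem_unitOf, h3.2]
          exact Or.inr ⟨isN_partner h, h4, Or.inr rfl⟩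
      · exact ⟨_, List.mem_map.2 ⟨z, mem_nodesL.2 ⟨h1, h2⟩, rfl⟩,
          mem_unitOf.2 (Or.inr ⟨h, h4, Or.inl rfl⟩)⟩
    · have h' : isN n p1 p2 z = false := by simpa using h
      exact ⟨_, List.mem_map.2 ⟨z, mem_nodesL.2 ⟨h1, h2⟩, rfl⟩, mem_unitOf.2 (Or.inl ⟨h', rfl⟩)⟩

/-- the unit at a given place of the list, the nodes before it have at least its level -/
theorem units_split {n : ℕ} {p1 p2 : List ℕ}
    (hr : ∀ x < n, root p1 p2 x = true → level n p1 p2 x = 0)
    {A B : List (List ℕ)} {U : List ℕ} (h : units n p1 p2 = A ++ U :: B) :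
    ∃ x < n, level n p1 p2 x ≤ n ∧ U = unitOf n p1 p2 x ∧
      ∀ z ∈ A.flatten, level n p1 p2 z < level n p1 p2 x → False := by
  have h1 := units_eq n p1 p2
  rw [h] at h1
  obtain ⟨l1, l2, h2, h3, h4⟩ := List.map_eq_append_iff.1 h1.symm
  obtain ⟨x, l3, h5, h6, h7⟩ := List.map_eq_cons_iff.1 h4
  have hx : x ∈ nodesL n p1 p2 := by rw [h2, h5]; simp
  obtain ⟨h8, h9⟩ := mem_nodesL.1 hx
  refine ⟨x, h8, h9, h6.symm, ?_⟩
  intro z hz hlt
  rw [← h3] at hz
  obtain ⟨l, hl, hz⟩ := List.mem_flatten.1 hz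
  obtain ⟨y, hy, rfl⟩ := List.mem_map.1 hl
  have hyN : y ∈ nodesL n p1 p2 := by rw [h2]; exact List.mem_append_left _ hy
  have hyn := (mem_nodesL.1 hyN).1
  have hpw := nodesL_pairwise n p1 p2
  rw [h2, h5, List.pairwise_append] at hpw
  have hyx := hpw.2.2 y hy x (by simp)
  rcases mem_unitOf.1 hz with ⟨_, rfl⟩ | ⟨h10, _, rfl | rfl⟩
  · omega
  · omega
  · have e0 : level n p1 p2 y = 0 := hr _ hyn (root_of_pair (isN_pair h10))
    omega

end Vale.Agent.P333.T.Un
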